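import Vale.Agent.Lib.P232.Gap6

open MeasureTheory Set intervalIntegral Filter
open scoped Topology ENNReal

namespace Vale.Agent.Lib.P232

/-! ### The swap of the first two coordinates -/

/-- The swap of the first and second coordinates. -/
noncomputable def sw12L : R3 →L[ℝ] R3 :=
  ((ContinuousLinearMap.fst ℝ ℝ ℝ).comp (ContinuousLinearMap.snd ℝ ℝ (ℝ × ℝ))).prod
    ((ContinuousLinearMap.fst ℝ ℝ (ℝ × ℝ)).prod
      ((ContinuousLinearMap.snd ℝ ℝ ℝ).comp (ContinuousLinearMap.snd ℝ ℝ (ℝ × ℝ))))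

@[simp] lemma sw12L_apply (x y z : ℝ) : sw12L (x, y, z) = (y, x, z) := rfl

/-- The swap of the first and second coordinates, with its data. -/
noncomputable def τ12 : CoordSym where
  σ := sw12L
  invol := fun _ => rfl
  mp := mp_sw12
  cell := by
    rintro ⟨x, y, z⟩
    simp only [sw12L_apply, unitCell, mem_prod]
    tauto
  perSet := by
    intro E hE x y z
    refine ⟨?_, ?_, ?_⟩
    · exact (hE y x z).2.1
    · exact (hE y x z).1
    · exact (hE y x z).2.2
  pull := fun X =>
    { X₁ := fun p => X.X₂ (sw12L p)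
      X₂ := fun p => X.X₁ (sw12L p)
      X₃ := fun p => X.X₃ (sw12L p)
      smooth₁ := X.smooth₂.comp sw12L.contDiff
      smooth₂ := X.smooth₁.comp sw12L.contDiff
      smooth₃ := X.smooth₃.comp sw12L.contDiff
      periodic₁ := fun x y z => ⟨(X.periodic₂ y x z).2.1, (X.periodic₂ y x z).1, (X.periodic₂ y x z).2.2⟩
      periodic₂ := fun x y z => ⟨(X.periodic₁ y x z).2.1, (X.periodic₁ y x z).1, (X.periodic₁ y x z).2.2⟩
      periodic₃ := fun x y z => ⟨(X.periodic₃ y x z).2.1, (X.periodic₃ y x z).1, (X.periodic₃ y x z).2.2⟩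
      norm_le_one := fun p => by
        have := X.norm_le_one (sw12L p)
        linarith }
  pull_div := by
    intro X p
    unfold TestField.divergence
    simp only
    rw [fderiv_comp_clm (X.smooth₂.differentiable (by simp)),
      fderiv_comp_clm (X.smooth₁.differentiable (by simp)),
      fderiv_comp_clm (X.smooth₃.differentiable (by simp))]
    simp only [sw12L_apply]
    ring

lemma CoordSym.perimeter_pre (τ : CoordSym) (E : Set R3) : perimeter (τ.σ ⁻¹' E) = perimeter E := by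
  apply le_antisymm (τ.perimeter_pre_le E)
  have h := τ.perimeter_pre_le (τ.σ ⁻¹' E)
  have e : τ.σ ⁻¹' (τ.σ ⁻¹' E) = E := by
    ext p
    simp only [mem_preimage, τ.invol]
  rwa [e] at h

lemma chi_pre (τ : CoordSym) (E : Set R3) (p : R3) : chi (τ.σ ⁻¹' E) p = chi E (τ.σ p) := rfl

/-! ### Swapping interval integrals of bounded functions -/

lemma swap_bdd {f : ℝ → ℝ → ℝ} (hf : Measurable (Function.uncurry f)) (hb : ∀ a b, |f a b| ≤ 1) :
    ∫ y in (0:ℝ)..1, ∫ z in (0:ℝ)..1, f y z = ∫ z in (0:ℝ)..1, ∫ y in (0:ℝ)..1, f y z := by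
  apply intervalIntegral_intervalIntegral_swap
  refine Measure.integrableOn_of_bounded (M := 1) ?_ hf.aestronglyMeasurable ?_
  · rw [uIoc_of_le zero_le_one, Measure.volume_eq_prod, Measure.prod_prod]
    simp
  · exact Filter.Eventually.of_forall fun p => by
      rw [Real.norm_eq_abs]
      exact hb p.1 p.2

lemma swap_aux {X : Type*} [MeasurableSpace X] {ν : Measure X} [SFinite ν] {f : ℝ → X → ℝ} {ρ : X → ℝ}
    (hm : Measurable (Function.uncurry f)) (hρ : Integrable ρ ν) (hb : ∀ a t, |f a t| ≤ ρ t) :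
    ∫ a in (0:ℝ)..1, (∫ t, f a t ∂ν) = ∫ t, (∫ a in (0:ℝ)..1, f a t) ∂ν := by
  have : IsFiniteMeasure ((volume : Measure ℝ).restrict (Ioc (0:ℝ) 1)) := ⟨by simp⟩
  rw [intervalIntegral.integral_of_le zero_le_one]
  simp only [intervalIntegral.integral_of_le zero_le_one]
  apply integral_integral_swap
  have h1 : Integrable (fun p : ℝ × X => ρ p.2) (((volume : Measure ℝ).restrict (Ioc (0:ℝ) 1)).prod ν) :=
    hρ.comp_snd _
  refine h1.mono' hm.aestronglyMeasurable (Filter.Eventually.of_forall fun p => ?_)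
  exact hb p.1 p.2

/-! ### The marginals of a set -/

/-- The area of the section of `E` at first coordinate `x`: the first marginal. -/
noncomputable def mg1 (E : Set R3) (x : ℝ) : ℝ := ∫ y in (0:ℝ)..1, ∫ z in (0:ℝ)..1, chi E (x, y, z)

section Marginals

variable {E : Set R3}

lemma mg1_eq (x : ℝ) : mg1 E x = ∫ y in (0:ℝ)..1, lineLen E x y := rfl

lemma lineLen_ii (hE : MeasurableSet E) (x : ℝ) (a b : ℝ) :
    IntervalIntegrable (fun y => lineLen E x y) volume a b := by
  rw [intervalIntegrable_iff]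
  refine Measure.integrableOn_of_bounded (M := 1) (by simp) ?_ ?_
  · have : Measurable fun y : ℝ => lineLen E x y :=
      (measurable_lineLen hE).comp (measurable_const.prodMk measurable_id)
    exact this.aestronglyMeasurable
  · refine Filter.Eventually.of_forall fun y => ?_
    rw [Real.norm_eq_abs, abs_of_nonneg (lineLen_nonneg x y)]
    exact lineLen_le_one hE x y

lemma mg1_measurable (hE : MeasurableSet E) : Measurable (mg1 E) := by
  have hf : Measurable fun r : ℝ × ℝ => lineLen E r.1 r.2 := measurable_lineLen hE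
  have h := (hf.stronglyMeasurable).integral_prod_right' (ν := volume.restrict (Ioc (0:ℝ) 1))
  have e : mg1 E = fun x => ∫ y, lineLen E (x, y).1 (x, y).2 ∂(volume.restrict (Ioc (0:ℝ) 1)) := by
    funext x
    exact intervalIntegral.integral_of_le zero_le_one
  rw [e]
  exact h.measurable

lemma mg1_nonneg (x : ℝ) : 0 ≤ mg1 E x :=
  intervalIntegral.integral_nonneg zero_le_one fun _ _ => lineLen_nonneg _ _

lemma mg1_le_one (hE : MeasurableSet E) (x : ℝ) : mg1 E x ≤ 1 := by
  have := intervalIntegral.integral_mono_on (μ := volume) (a := (0:ℝ)) (b := 1) zero_le_one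
    (lineLen_ii hE x 0 1)
    ((continuous_const (y := (1:ℝ))).intervalIntegrable 0 1) (fun y _ => lineLen_le_one hE x y)
  simpa [mg1_eq] using this

lemma mg1_periodic (hper : PeriodicSet E) (x : ℝ) : mg1 E (x + 1) = mg1 E x := by
  unfold mg1
  simp only [(chi_periodic hper x _ _).1]

lemma mg1_integral (hE : MeasurableSet E) : ∫ x in (0:ℝ)..1, mg1 E x = torusVolume E :=
  (torusVolume_eq hE).symm

lemma mg1_ii (hE : MeasurableSet E) (a b : ℝ) : IntervalIntegrable (mg1 E) volume a b := by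
  rw [intervalIntegrable_iff]
  refine Measure.integrableOn_of_bounded (M := 1) (by simp) (mg1_measurable hE).aestronglyMeasurable ?_
  refine Filter.Eventually.of_forall fun y => ?_
  rw [Real.norm_eq_abs, abs_of_nonneg (mg1_nonneg y)]
  exact mg1_le_one hE y

/-- The first marginal does not see the swap of the other two coordinates. -/
lemma mg1_sw23 (hE : MeasurableSet E) (x : ℝ) : mg1 (sw23L ⁻¹' E) x = mg1 E x := by
  unfold mg1
  have hm : Measurable (Function.uncurry fun y z => chi E (x, y, z)) :=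
    (chi_measurable hE).comp (by fun_prop)
  have := swap_bdd (f := fun y z => chi E (x, y, z)) hm (fun a b => by
    rw [abs_of_nonneg (chi_nonneg _)]
    exact chi_le_one _)
  exact this.symm

lemma mg1_compl (hE : MeasurableSet E) (x : ℝ) : mg1 Eᶜ x = 1 - mg1 E x := by
  have e : ∀ p, chi Eᶜ p = 1 - chi E p := by
    intro p
    unfold chi
    by_cases h : p ∈ E
    · simp [h]
    · simp [h]
  unfold mg1
  simp only [e]
  have h1 : ∀ y, ∫ z in (0:ℝ)..1, (1 - chi E (x, y, z)) = 1 - lineLen E x y := by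
    intro y
    rw [intervalIntegral.integral_sub intervalIntegrable_const (chi_line_ii hE x y 0 1)]
    simp [lineLen]
  simp only [h1]
  rw [intervalIntegral.integral_sub intervalIntegrable_const (lineLen_ii hE x 0 1)]
  simp only [intervalIntegral.integral_const, sub_zero, one_smul, lineLen]

end Marginals

/-! ### Essential ranges -/

/-- `m` and `a` are the essential infimum and the essential supremum of `f`. -/
structure IsRange (f : ℝ → ℝ) (m a : ℝ) : Prop where
  ae_low : ∀ᵐ x, m ≤ f x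
  ae_up : ∀ᵐ x, f x ≤ a
  near_low : ∀ η > 0, ∀ G : Set ℝ, (∀ᵐ x, x ∈ G) → ∃ x ∈ G, f x < m + η
  near_up : ∀ η > 0, ∀ G : Set ℝ, (∀ᵐ x, x ∈ G) → ∃ x ∈ G, a - η < f x

lemma exists_low {f : ℝ → ℝ} (h0 : ∀ x, 0 ≤ f x) (h1 : ∀ x, f x ≤ 1) :
    ∃ m, 0 ≤ m ∧ m ≤ 1 ∧ (∀ᵐ x, m ≤ f x) ∧ ∀ η > 0, ∀ G : Set ℝ, (∀ᵐ x, x ∈ G) → ∃ x ∈ G, f x < m + η := by
  set S := {c : ℝ | ∀ᵐ x, c ≤ f x} with hS
  have h0S : (0:ℝ) ∈ S := by
    show ∀ᵐ x, (0:ℝ) ≤ f x
    exact Filter.Eventually.of_forall h0
  have hbd : BddAbove S := by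
    refine ⟨1, fun c hc => ?_⟩
    have hc' : ∀ᵐ x, c ≤ f x := hc
    obtain ⟨x, hx⟩ := hc'.exists
    exact hx.trans (h1 x)
  set m := sSup S with hm
  have hm0 : 0 ≤ m := le_csSup hbd h0S
  have hm1 : m ≤ 1 := by
    apply csSup_le ⟨0, h0S⟩
    intro c hc
    have hc' : ∀ᵐ x, c ≤ f x := hc
    obtain ⟨x, hx⟩ := hc'.exists
    exact hx.trans (h1 x)
  refine ⟨m, hm0, hm1, ?_, ?_⟩
  · have hk : ∀ k : ℕ, ∀ᵐ x, m - 1 / ((k:ℝ) + 1) ≤ f x := by
      intro k
      have hpos : (0:ℝ) < 1 / ((k:ℝ) + 1) := by positivity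
      obtain ⟨c, hc, hlt⟩ := exists_lt_of_lt_csSup ⟨0, h0S⟩ (by linarith : m - 1 / ((k:ℝ) + 1) < sSup S)
      have hc' : ∀ᵐ x, c ≤ f x := hc
      filter_upwards [hc'] with x hx
      linarith
    have hall := ae_all_iff.2 hk
    filter_upwards [hall] with x hx
    apply le_of_forall_pos_le_add
    intro ε hε
    obtain ⟨k, hk'⟩ := exists_nat_one_div_lt hε
    have := hx k
    linarith
  · intro η hη G hG
    by_contra hcon
    push Not at hcon
    have h2 : (m + η) ∈ S := by
      show ∀ᵐ x, m + η ≤ f x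
      filter_upwards [hG] with x hx
      exact hcon x hx
    have := le_csSup hbd h2
    linarith

lemma exists_range {f : ℝ → ℝ} (h0 : ∀ x, 0 ≤ f x) (h1 : ∀ x, f x ≤ 1) :
    ∃ m a, 0 ≤ m ∧ a ≤ 1 ∧ IsRange f m a := by
  obtain ⟨m, hm0, _, h2, h3⟩ := exists_low h0 h1
  obtain ⟨b, hb0, hb1, h4, h5⟩ := exists_low (f := fun x => 1 - f x) (fun x => by linarith [h1 x])
    (fun x => by linarith [h0 x])
  refine ⟨m, 1 - b, hm0, by linarith, h2, ?_, h3, ?_⟩
  · filter_upwards [h4] with x hx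
    linarith
  · intro η hη G hG
    obtain ⟨x, hx, hlt⟩ := h5 η hη G hG
    exact ⟨x, hx, by linarith⟩

lemma IsRange.le {f : ℝ → ℝ} {m a : ℝ} (h : IsRange f m a) : m ≤ a := by
  obtain ⟨x, hx⟩ := (h.ae_low.and h.ae_up).exists
  exact hx.1.trans hx.2

end Vale.Agent.Lib.P232
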