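import Vale.Agent.Lib.P232.Cl9

open MeasureTheory Set intervalIntegral Filter
open scoped Topology ENNReal

namespace Vale.Agent.Lib.P232

/-- The cut-off function is Lipschitz. -/
lemma Xi_lip {κ : ℝ} (hκ : 0 < κ) (s t : ℝ) : Xi κ s ≤ Xi κ t + |s - t| / κ := by
  have hL : 0 ≤ |s - t| / κ := by positivity
  have h0 := Xi_nonneg κ t
  have hψ : min (s - κ) (1 - κ - s) / κ ≤ min (t - κ) (1 - κ - t) / κ + |s - t| / κ := by
    rw [← add_div]
    apply div_le_div_of_nonneg_right _ hκ.le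
    have h1 := le_abs_self (s - t)
    have h2 := neg_abs_le (s - t)
    rcases le_total (t - κ) (1 - κ - t) with h | h
    · rw [min_eq_left h]
      exact (min_le_left _ _).trans (by linarith)
    · rw [min_eq_right h]
      exact (min_le_right _ _).trans (by linarith)
  have h1 : min 1 (min (t - κ) (1 - κ - t) / κ) ≤ Xi κ t := le_max_right _ _
  have e : Xi κ s = max 0 (min 1 (min (s - κ) (1 - κ - s) / κ)) := rfl
  rw [e]
  apply max_le (add_nonneg h0 hL)
  by_cases hc : 1 ≤ min (t - κ) (1 - κ - t) / κ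
  · rw [min_eq_left hc] at h1
    exact (min_le_left _ _).trans (by linarith)
  · push Not at hc
    rw [min_eq_right hc.le] at h1
    exact (min_le_right _ _).trans (by linarith)

/-- The cut-off of a mean value. -/
lemma Xi_mean {f f' : ℝ → ℝ} (hf : ∀ x, HasDerivAt f (f' x) x) (hf' : Continuous f')
    (hper : ∀ x, f (x + 1) = f x) {κ : ℝ} (hκ : 0 < κ) :
    Xi κ (∫ x in (0:ℝ)..1, f x) ≤ (∫ x in (0:ℝ)..1, Xi κ (f x)) + (1 / κ) * ∫ x in (0:ℝ)..1, |f' x| := by
  have hfc : Continuous f := continuous_iff_continuousAt.2 fun x => (hf x).continuousAt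
  set L := ∫ x in (0:ℝ)..1, |f' x| with hL
  set m := ∫ x in (0:ℝ)..1, f x with hm
  have hL0 : 0 ≤ L := intervalIntegral.integral_nonneg zero_le_one fun _ _ => abs_nonneg _
  have hosc : ∀ a b, f b - f a ≤ L := fun a b => by
    have := osc_plain hf hf' hper a b
    linarith
  have hdist : ∀ x, |m - f x| ≤ L := by
    intro x
    rw [abs_le]
    constructor
    · have h1 := intervalIntegral.integral_mono_on (μ := volume) (a := (0:ℝ)) (b := 1) zero_le_one
        ((continuous_const (y := f x - L)).intervalIntegrable _ _) (hfc.intervalIntegrable _ _)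
        (fun t _ => by linarith [hosc t x])
      simp only [intervalIntegral.integral_const, sub_zero, one_smul] at h1
      rw [← hm] at h1
      linarith
    · have h1 := intervalIntegral.integral_mono_on (μ := volume) (a := (0:ℝ)) (b := 1) zero_le_one
        (hfc.intervalIntegrable _ _) ((continuous_const (y := f x + L)).intervalIntegrable _ _)
        (fun t _ => by linarith [hosc x t])
      simp only [intervalIntegral.integral_const, sub_zero, one_smul] at h1
      rw [← hm] at h1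
      linarith
  have hXi : Continuous fun x => Xi κ (f x) := (Xi_continuous κ).comp hfc
  have hpt : ∀ x, Xi κ m ≤ Xi κ (f x) + (1 / κ) * L := by
    intro x
    have h1 := Xi_lip hκ m (f x)
    have h2 : |m - f x| / κ ≤ L / κ := div_le_div_of_nonneg_right (hdist x) hκ.le
    have h3 : (1 / κ) * L = L / κ := by ring
    linarith
  have c2 : Continuous fun x => Xi κ (f x) + (1 / κ) * L := hXi.add continuous_const
  have h2 := intervalIntegral.integral_mono_on (μ := volume) (a := (0:ℝ)) (b := 1) zero_le_one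
    ((continuous_const (y := Xi κ m)).intervalIntegrable _ _)
    (c2.intervalIntegrable _ _)
    (fun x _ => hpt x)
  rw [intervalIntegral.integral_add (hXi.intervalIntegrable _ _)
    ((continuous_const (y := (1 / κ) * L)).intervalIntegrable _ _)] at h2
  simpa using h2

namespace Cal

variable (D : Cal)

/-- The deficit of a calibration is nonnegative. -/
lemma deficit_nonneg {a : ℝ} {α β g e : ℝ → ℝ} (hα : Continuous α) (hβ : Continuous β)
    (hg : Continuous g) (he : Continuous e)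
    (hA : ∀ x, D.A x ∈ Icc 0 a) (hα0 : ∀ s ∈ Icc 0 a, 0 ≤ α s) (hβ0 : ∀ s, 0 ≤ β s)
    (hn : ∀ s ∈ Icc 0 a, α s ^ 2 + β s ^ 2 ≤ 1)
    (heper : ∀ x, e (x + 1) = e x)
    (hprof : ∀ x c, 0 ≤ c → c ≤ α (D.A x) → c * g (D.A x) - e x ≤ c * D.G x)
    (xm xa : ℝ) :
    0 ≤ (∫ x in (0:ℝ)..1, D.N x) - (∫ x in (0:ℝ)..1, α (D.A x) * g (D.A x))
        - 2 * (∫ s in D.A xm..D.A xa, β s) + ∫ x in (0:ℝ)..1, e x := by
  have h := D.arc_one (ε := 0) (C := 0) (ρ := fun _ => 0) hα hβ hg continuous_const he hA hα0 hβ0 hn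
    (fun _ => le_rfl) (fun _ => le_rfl) (fun s _ => by simp) le_rfl (fun s hs => by simpa using hα0 s hs)
    heper hprof xm xa 0 0 le_rfl (by norm_num)
  simpa using h

end Cal

namespace Per2

variable (W : Per2)

lemma per_wy (y z : ℝ) : W.wy (y + 1) z = W.wy y z :=
  deriv_periodic (f := fun t => W.w t z) (f' := fun t => W.wy t z) (fun t => W.hasY t z)
    (fun t => W.perY t z) y

lemma per_wz (y z : ℝ) : W.wz (y + 1) z = W.wz y z := by
  have h1 := W.hasZ (y + 1) z
  have h2 := W.hasZ y z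
  simp only [W.perY] at h1
  exact h1.unique h2

lemma per_f (κ y : ℝ) : W.f κ (y + 1) = W.f κ y := by
  simp only [f, W.perY]

/-- The slicing of a smooth function on the two-torus by the first coordinate. -/
noncomputable def cal : Cal where
  A := W.a
  A' := fun y => ∫ z in (0:ℝ)..1, W.wy y z
  N := fun y => ∫ z in (0:ℝ)..1, Real.sqrt (W.wy y z ^ 2 + W.wz y z ^ 2)
  G := fun y => ∫ z in (0:ℝ)..1, |W.wz y z|
  P := fun y => ∫ z in (0:ℝ)..1, |W.wy y z|
  hasD := fun y => hasDerivAt_param W.cont W.contY W.hasY 0 1 y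
  contD := cont_param W.contY 0 1
  per := W.per_a
  contN := cont_param W.cont_grad 0 1
  perN := by
    intro y
    simp only [per_wy, per_wz]
  h1 := by
    intro y α γ hα hγ h
    have c1 := W.cont_gradAbsZ.comp (Continuous.prodMk_right y)
    have c2 := W.cont_gradAbsY.comp (Continuous.prodMk_right y)
    have c3 := W.cont_grad.comp (Continuous.prodMk_right y)
    simp only [Function.comp_def, Function.uncurry] at c1 c2 c3
    rw [← intervalIntegral.integral_const_mul, ← intervalIntegral.integral_const_mul,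
      ← intervalIntegral.integral_add ((c1.const_mul α).intervalIntegrable _ _)
        ((c2.const_mul γ).intervalIntegrable _ _)]
    apply intervalIntegral.integral_mono_on zero_le_one
      (((c1.const_mul α).add (c2.const_mul γ)).intervalIntegrable _ _)
      (c3.intervalIntegrable _ _)
    intro z _
    have := cs_point (p := W.wz y z) (q := W.wy y z) h
    rwa [add_comm (W.wz y z ^ 2)] at this
  h2 := fun y => intervalIntegral.abs_integral_le_integral_abs zero_le_one

lemma cal_A : W.cal.A = W.a := rfl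
lemma cal_G (y : ℝ) : W.cal.G y = ∫ z in (0:ℝ)..1, |W.wz y z| := rfl
lemma cal_integral_N : ∫ y in (0:ℝ)..1, W.cal.N y = W.D := rfl

/-- The error of the calibration by disks. -/
noncomputable def eDisk (M κ z₀ y : ℝ) : ℝ := (2 / M) * (W.f κ y + 2 * κ) + 4 * κ + 2 * W.w y z₀

lemma eDisk_cont (M κ z₀ : ℝ) : Continuous (W.eDisk M κ z₀) := by
  have h1 := W.cont_f κ
  have h2 := W.cont_col z₀
  unfold eDisk
  fun_prop

lemma eDisk_per (M κ z₀ y : ℝ) : W.eDisk M κ z₀ (y + 1) = W.eDisk M κ z₀ y := by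
  simp only [eDisk, per_f, W.perY]

lemma eDisk_integral (M κ z₀ : ℝ) :
    ∫ y in (0:ℝ)..1, W.eDisk M κ z₀ y = (2 / M) * (W.F κ + 2 * κ) + 4 * κ + 2 * W.b z₀ := by
  have hc1 := W.cont_col z₀
  have hc2 := W.cont_f κ
  unfold eDisk
  have i4 : Continuous fun y => W.f κ y + 2 * κ := hc2.add continuous_const
  have i2 : Continuous fun y => (2 / M) * (W.f κ y + 2 * κ) := continuous_const.mul i4
  have i3 : Continuous fun y => 2 * W.w y z₀ := continuous_const.mul hc1
  have i1 : Continuous fun y => (2 / M) * (W.f κ y + 2 * κ) + 4 * κ := i2.add continuous_const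
  rw [intervalIntegral.integral_add (i1.intervalIntegrable _ _) (i3.intervalIntegrable _ _),
    intervalIntegral.integral_add (i2.intervalIntegrable _ _) (continuous_const.intervalIntegrable _ _),
    intervalIntegral.integral_const_mul, intervalIntegral.integral_const_mul,
    intervalIntegral.integral_add (hc2.intervalIntegrable _ _) (continuous_const.intervalIntegrable _ _)]
  simp [F, b]

lemma eDisk_prof {M κ : ℝ} (hM : 0 < M) (hκ : 0 < κ) (z₀ y c : ℝ) (haM : W.a y ≤ M) (hc0 : 0 ≤ c)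
    (hc : c ≤ W.a y / M) : c * 2 - W.eDisk M κ z₀ y ≤ c * W.cal.G y := by
  have hfy := W.f_nonneg κ y
  have hw := W.nn y z₀
  have hMi : 0 < 2 / M := by positivity
  have hc1 : c ≤ 1 := hc.trans ((div_le_one hM).2 haM)
  have hG0 : 0 ≤ W.cal.G y := intervalIntegral.integral_nonneg zero_le_one fun z _ => abs_nonneg _
  have hq : 0 ≤ (2 / M) * (W.f κ y + 2 * κ) := by positivity
  have hcG : 0 ≤ c * W.cal.G y := mul_nonneg hc0 hG0
  unfold eDisk
  rcases section_cut (W.hasZ y) (W.cont_rowZ y) (W.perZ y) hκ z₀ with h | h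
  · have h' : W.a y ≤ W.f κ y + 2 * κ := h
    have h2 : c * 2 ≤ (2 / M) * (W.f κ y + 2 * κ) := by
      have h3 : c ≤ (W.f κ y + 2 * κ) / M := hc.trans (div_le_div_of_nonneg_right h' hM.le)
      have h4 : (2 / M) * (W.f κ y + 2 * κ) = 2 * ((W.f κ y + 2 * κ) / M) := by ring
      rw [h4]
      linarith
    linarith
  · have h' : 2 * (1 - 2 * κ) ≤ W.cal.G y + 2 * W.w y z₀ := h
    have h3 : c * (2 * (1 - 2 * κ)) ≤ c * (W.cal.G y + 2 * W.w y z₀) :=
      mul_le_mul_of_nonneg_left h' hc0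
    have h4 : c * (2 * W.w y z₀) ≤ 1 * (2 * W.w y z₀) :=
      mul_le_mul_of_nonneg_right hc1 (by linarith)
    have h5 : c * (4 * κ) ≤ 1 * (4 * κ) := mul_le_mul_of_nonneg_right hc1 (by linarith)
    nlinarith

end Per2

/-! ### The level functions of the disk -/

/-- The tangential weight of the disk calibration. -/
noncomputable def αD (M s : ℝ) : ℝ := s / M
/-- The variation weight of the disk calibration. -/
noncomputable def βD (M s : ℝ) : ℝ := Real.sqrt (1 - (s / M) ^ 2)
/-- The primitive of the ratio of the weights of the disk calibration. -/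
noncomputable def TD (M s : ℝ) : ℝ := - Real.sqrt (M ^ 2 - s ^ 2) / 2

lemma levDisk {M : ℝ} (hM : 0 < M) : Lev M (αD M) (βD M) (fun _ => 2) (TD M) := by
  refine ⟨by unfold αD; fun_prop, by unfold βD; fun_prop, continuous_const, ?_, ?_, ?_, ?_, ?_, ?_⟩
  · intro s hs
    exact div_nonneg hs.1 hM.le
  · intro s hs
    exact div_pos hs.1 hM
  · intro s
    exact Real.sqrt_nonneg _
  · intro s hs
    unfold αD βD
    have h1 : s / M ≤ 1 := (div_le_one hM).2 hs.2
    have h0 : 0 ≤ s / M := div_nonneg hs.1 hM.le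
    rw [Real.sq_sqrt (by nlinarith)]
    linarith
  · intro s hs
    unfold βD
    have h1 : s / M < 1 := (div_lt_one hM).2 hs.2
    have h0 : 0 < s / M := div_pos hs.1 hM
    have : 0 < Real.sqrt (1 - (s / M) ^ 2) := Real.sqrt_pos.2 (by nlinarith)
    linarith
  · intro s hs
    have h0 : 0 < M ^ 2 - s ^ 2 := by
      have h1 := hs.1
      have h2 := hs.2
      nlinarith
    have hd : HasDerivAt (fun s => Real.sqrt (M ^ 2 - s ^ 2)) ((-(2 * s)) / (2 * Real.sqrt (M ^ 2 - s ^ 2))) s := by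
      have h1 : HasDerivAt (fun s : ℝ => M ^ 2 - s ^ 2) (-(2 * s)) s := by
        have := ((hasDerivAt_id s).pow 2).const_sub (M ^ 2)
        simpa using this
      exact h1.sqrt h0.ne'
    have hd2 : HasDerivAt (TD M) (-((-(2 * s)) / (2 * Real.sqrt (M ^ 2 - s ^ 2))) / 2) s :=
      hd.neg.div_const 2
    refine hd2.congr_deriv ?_
    unfold αD βD
    have hsq : Real.sqrt (1 - (s / M) ^ 2) = Real.sqrt (M ^ 2 - s ^ 2) / M := by
      have : 1 - (s / M) ^ 2 = (M ^ 2 - s ^ 2) / M ^ 2 := by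
        field_simp
      rw [this, Real.sqrt_div h0.le, Real.sqrt_sq hM.le]
    rw [hsq]
    have h1 := Real.sqrt_pos.2 h0
    field_simp

lemma βD_integral {M : ℝ} (hM : 0 < M) : ∫ s in (0:ℝ)..M, βD M s = Real.pi * M / 4 :=
  integral_semicircle hM

/-! ### Approximations on the two-torus -/

/-- A sequence of smooth functions on the two-torus approximating a set of given mass with given
variation, with the rows and columns converging. -/
structure Approx2 (W : ℕ → Per2) (a b : ℝ → ℝ) (V Q : ℝ) : Prop where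
  mass : ∀ n, (W n).A = V
  D_le : ∀ n, (W n).D ≤ Q
  F : ∀ κ > 0, Tendsto (fun n => (W n).F κ) atTop (𝓝 0)
  lim_a : ∀ᵐ y, Tendsto (fun n => (W n).a y) atTop (𝓝 (a y))
  lim_b : ∀ᵐ z, Tendsto (fun n => (W n).b z) atTop (𝓝 (b z))
  low_a : ∀ m, (∀ᵐ y, m ≤ a y) → ∀ n y, m ≤ (W n).a y
  up_a : ∀ M, (∀ᵐ y, a y ≤ M) → ∀ n y, (W n).a y ≤ M
  low_b : ∀ m, (∀ᵐ z, m ≤ b z) → ∀ n z, m ≤ (W n).b z
  up_b : ∀ M, (∀ᵐ z, b z ≤ M) → ∀ n z, (W n).b z ≤ M

namespace Approx2

variable {W : ℕ → Per2} {a b : ℝ → ℝ} {V Q : ℝ}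

lemma swap (hA : Approx2 W a b V Q) : Approx2 (fun n => (W n).swap) b a V Q where
  mass := fun n => by rw [Per2.swap_A]; exact hA.mass n
  D_le := fun n => by rw [Per2.swap_D]; exact hA.D_le n
  F := fun κ hκ => by
    simp only [Per2.swap_F]
    exact hA.F κ hκ
  lim_a := hA.lim_b
  lim_b := hA.lim_a
  low_a := hA.low_b
  up_a := hA.up_b
  low_b := hA.low_a
  up_b := hA.up_a

/-- The extreme points of the rows. -/
lemma extremes (hA : Approx2 W a b V Q) {m M : ℝ} (hR : IsRange a m M) :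
    ∃ xm xa : ℕ → ℝ, Tendsto (fun n => (W n).a (xm n)) atTop (𝓝 m) ∧
      Tendsto (fun n => (W n).a (xa n)) atTop (𝓝 M) := by
  choose xm hxm using fun n => exists_min_periodic (W n).cont_a (W n).per_a
  choose xa hxa using fun n => exists_max_periodic (W n).cont_a (W n).per_a
  have hl := hA.low_a m hR.ae_low
  have hu := hA.up_a M hR.ae_up
  exact ⟨xm, xa, min_tendsto hA.lim_a hR.near_low hl hxm, max_tendsto hA.lim_a hR.near_up hu hxa⟩

/-- The limit of the calibration deficit by disks. -/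
lemma disk_limit (hA : Approx2 W a b V Q) {M : ℝ} (hM : 0 < M) (hR : IsRange a 0 M) :
    ∃ xm xa : ℕ → ℝ, ∀ κ > 0, ∀ z₀, Tendsto (fun n => (W n).b z₀) atTop (𝓝 (b z₀)) →
      (∀ᶠ n in atTop, 0 ≤ Q - (2 / M) * V - 2 * (∫ s in (W n).a (xm n)..(W n).a (xa n), βD M s)
        + ((2 / M) * ((W n).F κ + 2 * κ) + 4 * κ + 2 * (W n).b z₀)) ∧
      Tendsto (fun n => Q - (2 / M) * V - 2 * (∫ s in (W n).a (xm n)..(W n).a (xa n), βD M s)
        + ((2 / M) * ((W n).F κ + 2 * κ) + 4 * κ + 2 * (W n).b z₀)) atTop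
        (𝓝 (Q - (2 / M) * V - Real.pi * M / 2 + (2 / M) * (2 * κ) + 4 * κ + 2 * b z₀)) := by
  obtain ⟨xm, xa, hxm, hxa⟩ := hA.extremes hR
  have hL := levDisk hM
  refine ⟨xm, xa, fun κ hκ z₀ hz₀ => ⟨?_, ?_⟩⟩
  · refine Filter.Eventually.of_forall fun n => ?_
    have hrange : ∀ y, (W n).cal.A y ∈ Icc 0 M := fun y =>
      ⟨(W n).a_nonneg y, hA.up_a M hR.ae_up n y⟩
    have h := (W n).cal.deficit_nonneg (a := M) (α := αD M) (β := βD M) (g := fun _ => 2)
      (e := (W n).eDisk M κ z₀) hL.contα hL.contβ hL.contg ((W n).eDisk_cont _ _ _) hrange hL.α0 hL.β0 hL.norm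
      ((W n).eDisk_per _ _ _)
      (fun y c hc0 hc => (W n).eDisk_prof hM hκ z₀ y c (hrange y).2 hc0 hc) (xm n) (xa n)
    rw [(W n).eDisk_integral, (W n).cal_integral_N] at h
    have e2 : ∫ y in (0:ℝ)..1, αD M ((W n).cal.A y) * 2 = (2 / M) * V := by
      have : ∀ y, αD M ((W n).cal.A y) * 2 = (2 / M) * (W n).a y := by
        intro y
        show (W n).a y / M * 2 = _
        ring
      simp only [this]
      rw [intervalIntegral.integral_const_mul]
      rw [← hA.mass n]
      rfl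
    rw [e2] at h
    have h3 := hA.D_le n
    have e3 : (W n).cal.A = (W n).a := rfl
    rw [e3] at h
    linarith
  · have lim1 := integral_endpoints_tendsto hL.contβ hxm hxa
    rw [βD_integral hM] at lim1
    have hF := hA.F κ hκ
    have h := ((tendsto_const_nhds (x := Q - (2 / M) * V)).sub ((tendsto_const_nhds (x := (2:ℝ))).mul lim1)).add
      (((tendsto_const_nhds (x := 2 / M)).mul (hF.add (tendsto_const_nhds (x := 2 * κ)))).add
        (tendsto_const_nhds (x := 4 * κ)) |>.add ((tendsto_const_nhds (x := (2:ℝ))).mul hz₀))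
    convert h using 2
    ring

/-- The tight case of the calibration by disks: the rows dominate the chords of a disk. -/
theorem tight_disk (hA : Approx2 W a b V Q) {r Mb M : ℝ} (hr : 0 < r) (hV : V = Real.pi * r ^ 2)
    (hQ : Q ≤ 2 * Real.pi * r) (haper : ∀ y, a (y + 1) = a y) (ha0 : ∀ y, 0 ≤ a y)
    (hR : IsRange a 0 M) (hb : IsRange b 0 Mb) :
    ∃ c, ∀ᵐ y, 2 * Real.sqrt (r ^ 2 - cdist y c ^ 2) ≤ a y := by
  have hπ := Real.pi_pos
  have hVpos : 0 < V := by rw [hV]; positivity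
  -- the maximal row is positive
  have hM : 0 < M := by
    have h1 : (W 0).A ≤ M := by
      have := intervalIntegral.integral_mono_on (μ := volume) zero_le_one
        ((W 0).cont_a.intervalIntegrable 0 1)
        ((continuous_const (y := M)).intervalIntegrable 0 1) (fun y _ => hA.up_a M hR.ae_up 0 y)
      simpa [Per2.A] using this
    rw [hA.mass 0] at h1
    linarith
  obtain ⟨xm, xa, hlim⟩ := hA.disk_limit hM hR
  have hzgood := fun (τ : ℝ) (hτ : 0 < τ) => hb.near_low τ hτ
    {z | Tendsto (fun n => (W n).b z) atTop (𝓝 (b z))} hA.lim_b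
  -- the value
  have hval : (2 / M) * V + Real.pi * M / 2 ≤ Q := by
    have key : ∀ τ : ℝ, 0 < τ → 0 ≤ Q - (2 / M) * V - Real.pi * M / 2 + (2 / M) * (2 * τ) + 4 * τ + 2 * τ := by
      intro τ hτ
      obtain ⟨z₀, hz₀, hz₀m⟩ := hzgood τ hτ
      obtain ⟨h1, h2⟩ := hlim τ hτ z₀ hz₀
      have h3 := ge_of_tendsto h2 h1
      have h4 : b z₀ < τ := by linarith
      linarith
    by_contra hcon
    push Not at hcon
    set δ := (2 / M) * V + Real.pi * M / 2 - Q with hδ
    have hδ0 : 0 < δ := by linarith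
    set K := (2 / M) * 2 + 4 + 2 with hK
    have hK0 : 0 < K := by positivity
    have := key (δ / (2 * K)) (by positivity)
    have e : (2 / M) * (2 * (δ / (2 * K))) + 4 * (δ / (2 * K)) + 2 * (δ / (2 * K)) = δ / 2 := by
      have : (2 / M) * (2 * (δ / (2 * K))) + 4 * (δ / (2 * K)) + 2 * (δ / (2 * K)) = K * (δ / (2 * K)) := by
        rw [hK]
        ring
      rw [this]
      field_simp
    have h5 : Q - (2 / M) * V - Real.pi * M / 2 = - δ := by
      rw [hδ]
      ring
    linarith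
  -- the arithmetic
  have hMr : M = 2 * r := by
    have e1 : (2 / M) * V * (Real.pi * M / 2) = Real.pi ^ 2 * r ^ 2 := by
      rw [hV]
      field_simp
    have hX0 : 0 < (2 / M) * V := by positivity
    have hY0 : 0 < Real.pi * M / 2 := by positivity
    have h1 : (2 / M) * V + Real.pi * M / 2 ≤ 2 * Real.pi * r := hval.trans hQ
    have h2 : ((2 / M) * V + Real.pi * M / 2) ^ 2 ≤ (2 * Real.pi * r) ^ 2 :=
      pow_le_pow_left₀ (by positivity) h1 2
    have h3 : ((2 / M) * V - Real.pi * M / 2) ^ 2 ≤ 0 := by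
      have : ((2 / M) * V - Real.pi * M / 2) ^ 2 = ((2 / M) * V + Real.pi * M / 2) ^ 2
          - 4 * ((2 / M) * V * (Real.pi * M / 2)) := by ring
      rw [this, e1]
      nlinarith
    have h4 : (2 / M) * V = Real.pi * M / 2 := by
      have := le_antisymm h3 (sq_nonneg _)
      have h5 : (2 / M) * V - Real.pi * M / 2 = 0 := by simpa using this
      linarith
    rw [hV] at h4
    have h6 : (2 * r) ^ 2 = M ^ 2 := by
      field_simp at h4
      have : Real.pi * (4 * r ^ 2) = Real.pi * M ^ 2 := by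
        nlinarith
      have := mul_left_cancel₀ hπ.ne' this
      nlinarith
    have := (pow_left_inj₀ (by positivity) hM.le (by norm_num)).1 h6
    linarith
  have htight : Q - (2 / M) * V - Real.pi * M / 2 ≤ 0 := by
    have e : (2 / M) * V + Real.pi * M / 2 = 2 * Real.pi * r := by
      rw [hMr, hV]
      field_simp
      ring
    linarith
  -- the rigidity
  have hL := levDisk hM
  have hrange : ∀ n y, (W n).cal.A y ∈ Icc 0 M := fun n y =>
    ⟨(W n).a_nonneg y, hA.up_a M hR.ae_up n y⟩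
  have hN : ∀ n, (∫ y in (0:ℝ)..1, (W n).cal.N y) ≤ Q := fun n => hA.D_le n
  have hdef : ∀ η > 0, ∃ e : ℕ → ℝ → ℝ, (∀ n, Continuous (e n)) ∧ (∀ n x, e n (x + 1) = e n x) ∧
      (∀ n x c, 0 ≤ c → c ≤ αD M ((W n).cal.A x) → c * 2 - e n x ≤ c * (W n).cal.G x) ∧
      ∀ᶠ n in atTop, ∃ xm xa, (∫ x in (0:ℝ)..1, (W n).cal.N x)
        - (∫ x in (0:ℝ)..1, αD M ((W n).cal.A x) * 2)
        - 2 * (∫ s in (W n).cal.A xm..(W n).cal.A xa, βD M s) + (∫ x in (0:ℝ)..1, e n x) ≤ η := by
    intro η hη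
    set K := (2 / M) * 2 + 4 + 2 with hK
    have hK0 : 0 < K := by positivity
    set τ := η / (2 * K) with hτdef
    have hτ : 0 < τ := by positivity
    obtain ⟨z₀, hz₀, hz₀m⟩ := hzgood τ hτ
    obtain ⟨h1, h2⟩ := hlim τ hτ z₀ hz₀
    refine ⟨fun n => (W n).eDisk M τ z₀, fun n => (W n).eDisk_cont _ _ _, fun n x => (W n).eDisk_per _ _ _ x,
      fun n y c hc0 hc => (W n).eDisk_prof hM hτ z₀ y c (hrange n y).2 hc0 hc, ?_⟩
    have hlt : Q - (2 / M) * V - Real.pi * M / 2 + (2 / M) * (2 * τ) + 4 * τ + 2 * b z₀ < η := by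
      have h4 : b z₀ < τ := by linarith
      have e : (2 / M) * (2 * τ) + 4 * τ + 2 * τ = η / 2 := by
        have : (2 / M) * (2 * τ) + 4 * τ + 2 * τ = K * τ := by
          rw [hK]
          ring
        rw [this, hτdef]
        field_simp
      linarith
    filter_upwards [h2.eventually (gt_mem_nhds hlt)] with n hn
    refine ⟨xm n, xa n, ?_⟩
    rw [(W n).eDisk_integral, (W n).cal_integral_N]
    have e2 : ∫ y in (0:ℝ)..1, αD M ((W n).cal.A y) * 2 = (2 / M) * V := by
      have : ∀ y, αD M ((W n).cal.A y) * 2 = (2 / M) * (W n).a y := by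
        intro y
        show (W n).a y / M * 2 = _
        ring
      simp only [this]
      rw [intervalIntegral.integral_const_mul]
      rw [← hA.mass n]
      rfl
    rw [e2]
    have h3 := hA.D_le n
    show (W n).D - (2 / M) * V - 2 * (∫ s in (W n).a (xm n)..(W n).a (xa n), βD M s) + _ ≤ η
    linarith
  set G : Set ℝ := {y | Tendsto (fun n => (W n).a y) atTop (𝓝 (a y)) ∧ a y ≤ M} with hG
  have hGae : ∀ᵐ y, y ∈ G := by
    filter_upwards [hA.lim_a, hR.ae_up] with y h1 h2
    exact ⟨h1, h2⟩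
  have hnear : ∀ η > 0, ∃ c ∈ G, M - η < a c := fun η hη => hR.near_up η hη G hGae
  have hTc : ContinuousOn (TD M) (Icc 0 M) := by
    apply Continuous.continuousOn
    unfold TD
    fun_prop
  obtain ⟨c₀, hc₀⟩ := exists_center (T := TD M) hnear hTc hM (by
    intro x hx c hc s₁ s₂ h0 h12 h2a hxs hcs
    exact hL.rigid (D := fun n => (W n).cal) (A := a) hrange hN hdef haper
      (ha0 x) hc.2 hx.1 hc.1 h0 h12 h2a hxs hcs)
  refine ⟨c₀, ?_⟩
  filter_upwards [hGae] with y hy
  set d := cdist y c₀ with hd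
  have hd0 : 0 ≤ d := cdist_nonneg y c₀
  have ha0y := ha0 y
  have hsq : M ^ 2 - 4 * d ^ 2 ≤ a y ^ 2 := by
    by_contra hlt
    push Not at hlt
    set S := Real.sqrt (M ^ 2 - 4 * d ^ 2) with hS
    have hS2 : S ^ 2 = M ^ 2 - 4 * d ^ 2 := Real.sq_sqrt (by nlinarith [sq_nonneg (a y)])
    have hS0 : 0 ≤ S := Real.sqrt_nonneg _
    have hyS : a y < S := by
      by_contra hc
      push Not at hc
      nlinarith
    have hSM : S ≤ M := by
      have : S ^ 2 ≤ M ^ 2 := by rw [hS2]; nlinarith [sq_nonneg d]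
      exact le_of_sq_le_sq this hM.le |>.trans le_rfl
    set s₁ := (a y + S) / 2 with hs₁
    have h1 : a y < s₁ := by rw [hs₁]; linarith
    have h2 : s₁ < S := by rw [hs₁]; linarith
    have h3 : 0 < s₁ := by linarith
    have hmain := hc₀ y hy s₁ h3 (by linarith) h1.le
    unfold TD at hmain
    have e1 : Real.sqrt (M ^ 2 - M ^ 2) = 0 := by simp
    rw [e1] at hmain
    have h4 : s₁ ^ 2 < S ^ 2 := pow_lt_pow_left₀ h2 h3.le (by norm_num)
    have h5 : 0 < M ^ 2 - s₁ ^ 2 := by nlinarith [sq_nonneg d]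
    have h6 : Real.sqrt (M ^ 2 - s₁ ^ 2) ≤ 2 * d := by
      have : -0 / 2 - -Real.sqrt (M ^ 2 - s₁ ^ 2) / 2 = Real.sqrt (M ^ 2 - s₁ ^ 2) / 2 := by ring
      rw [this] at hmain
      linarith
    have h7 : Real.sqrt (M ^ 2 - s₁ ^ 2) ^ 2 ≤ (2 * d) ^ 2 :=
      pow_le_pow_left₀ (Real.sqrt_nonneg _) h6 2
    rw [Real.sq_sqrt h5.le] at h7
    nlinarith
  have e3 : 2 * Real.sqrt (r ^ 2 - d ^ 2) = Real.sqrt (M ^ 2 - 4 * d ^ 2) := by
    have : M ^ 2 - 4 * d ^ 2 = 2 ^ 2 * (r ^ 2 - d ^ 2) := by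
      rw [hMr]
      ring
    rw [this, Real.sqrt_mul (by norm_num), Real.sqrt_sq (by norm_num)]
  rw [e3]
  exact Real.sqrt_le_iff.2 ⟨ha0y, hsq⟩

end Approx2

end Vale.Agent.Lib.P232
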