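import Vale.Agent.Lib.P232.Cl10

open MeasureTheory Set intervalIntegral Filter
open scoped Topology ENNReal

namespace Vale.Agent.Lib.P232

namespace Per2

variable (W : Per2)

/-- The variation in the second direction. -/
noncomputable def Zv : ℝ := ∫ y in (0:ℝ)..1, ∫ z in (0:ℝ)..1, |W.wz y z|
/-- The variation in the first direction. -/
noncomputable def Yv : ℝ := ∫ y in (0:ℝ)..1, ∫ z in (0:ℝ)..1, |W.wy y z|

lemma Yv_nonneg : 0 ≤ W.Yv :=
  intervalIntegral.integral_nonneg zero_le_one fun _ _ =>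
    intervalIntegral.integral_nonneg zero_le_one fun _ _ => abs_nonneg _

lemma Zv_nonneg : 0 ≤ W.Zv :=
  intervalIntegral.integral_nonneg zero_le_one fun _ _ =>
    intervalIntegral.integral_nonneg zero_le_one fun _ _ => abs_nonneg _

lemma swap_Yv : W.swap.Yv = W.Zv :=
  (swap_integral (F := fun y z => |W.wz y z|) W.cont_gradAbsZ 0 1 0 1).symm

lemma swap_Zv : W.swap.Zv = W.Yv :=
  (swap_integral (F := fun y z => |W.wy y z|) W.cont_gradAbsY 0 1 0 1).symm

/-- The total variation dominates the two partial variations. -/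
lemma D_ge_combo {α γ : ℝ} (hα : 0 ≤ α) (hγ : 0 ≤ γ) (h : α ^ 2 + γ ^ 2 ≤ 1) :
    α * W.Zv + γ * W.Yv ≤ W.D := by
  have c1 : Continuous fun y => ∫ z in (0:ℝ)..1, |W.wz y z| := cont_param W.cont_gradAbsZ 0 1
  have c2 : Continuous fun y => ∫ z in (0:ℝ)..1, |W.wy y z| := cont_param W.cont_gradAbsY 0 1
  have c1' : Continuous fun y => α * ∫ z in (0:ℝ)..1, |W.wz y z| := continuous_const.mul c1
  have c2' : Continuous fun y => γ * ∫ z in (0:ℝ)..1, |W.wy y z| := continuous_const.mul c2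
  unfold Zv Yv
  rw [← intervalIntegral.integral_const_mul, ← intervalIntegral.integral_const_mul,
    ← intervalIntegral.integral_add (c1'.intervalIntegrable _ _) (c2'.intervalIntegrable _ _)]
  exact intervalIntegral.integral_mono_on zero_le_one ((c1'.add c2').intervalIntegrable _ _)
    (W.cal.contN.intervalIntegrable _ _) fun y _ => W.cal.h1 y α γ hα hγ h

/-- All rows are thick, with a cut in the other direction. -/
lemma thick_cut_Z {κ τ : ℝ} (hκ : 0 < κ) (hτ : 0 < τ) (hκτ : 4 * κ ≤ τ) (z₀ : ℝ)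
    (hthick : ∀ y, τ ≤ W.a y) :
    2 * (1 - 2 * κ) ≤ W.Zv + 2 * W.b z₀ + (4 / τ) * W.F κ := by
  have hpt : ∀ y, 2 * (1 - 2 * κ) ≤ (∫ z in (0:ℝ)..1, |W.wz y z|) + 2 * W.w y z₀ + (4 / τ) * W.f κ y := by
    intro y
    have hG : 0 ≤ ∫ z in (0:ℝ)..1, |W.wz y z| :=
      intervalIntegral.integral_nonneg zero_le_one fun z _ => abs_nonneg _
    have hw := W.nn y z₀
    have hfy := W.f_nonneg κ y
    have hq : 0 ≤ (4 / τ) * W.f κ y := by positivity
    rcases section_cut (W.hasZ y) (W.cont_rowZ y) (W.perZ y) hκ z₀ with h | h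
    · have h1 : τ / 2 ≤ W.f κ y := by
        have := hthick y
        have h2 : W.a y ≤ W.f κ y + 2 * κ := h
        linarith
      have h2 : 2 ≤ (4 / τ) * W.f κ y := by
        have : (4 / τ) * (τ / 2) ≤ (4 / τ) * W.f κ y :=
          mul_le_mul_of_nonneg_left h1 (by positivity)
        have h3 : (4 / τ) * (τ / 2) = 2 := by field_simp; norm_num
        linarith
      linarith
    · linarith
  have c1 : Continuous fun y => ∫ z in (0:ℝ)..1, |W.wz y z| := cont_param W.cont_gradAbsZ 0 1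
  have c2 := W.cont_col z₀
  have c3 := W.cont_f κ
  have i1 : Continuous fun y => (∫ z in (0:ℝ)..1, |W.wz y z|) + 2 * W.w y z₀ := c1.add (continuous_const.mul c2)
  have i2 : Continuous fun y => (4 / τ) * W.f κ y := continuous_const.mul c3
  have i3 : Continuous fun y => ((∫ z in (0:ℝ)..1, |W.wz y z|) + 2 * W.w y z₀) + (4 / τ) * W.f κ y :=
    i1.add i2
  have hint : ∫ _ in (0:ℝ)..1, (2 * (1 - 2 * κ)) ≤
      ∫ y in (0:ℝ)..1, (((∫ z in (0:ℝ)..1, |W.wz y z|) + 2 * W.w y z₀) + (4 / τ) * W.f κ y) :=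
    intervalIntegral.integral_mono_on zero_le_one
      (continuous_const.intervalIntegrable 0 1)
      (i3.intervalIntegrable 0 1) (fun y _ => hpt y)
  have i4 : Continuous fun y => 2 * W.w y z₀ := continuous_const.mul c2
  have e1 : ∫ y in (0:ℝ)..1, 2 * W.w y z₀ = 2 * W.b z₀ := intervalIntegral.integral_const_mul _ _
  have e2 : ∫ y in (0:ℝ)..1, (4 / τ) * W.f κ y = (4 / τ) * W.F κ :=
    intervalIntegral.integral_const_mul _ _
  rw [intervalIntegral.integral_add (i1.intervalIntegrable _ _) (i2.intervalIntegrable _ _),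
    intervalIntegral.integral_add (c1.intervalIntegrable _ _) (i4.intervalIntegrable _ _),
    e1, e2] at hint
  simp only [intervalIntegral.integral_const, sub_zero, one_smul] at hint
  exact hint

/-- All rows are thick on both sides. -/
lemma thick_dich_Z {κ τ : ℝ} (hκ : 0 < κ) (hτ : 0 < τ) (hκτ : 4 * κ ≤ τ)
    (hthick : ∀ y, τ ≤ W.a y) (hthick' : ∀ y, W.a y ≤ 1 - τ) :
    2 * (1 - 4 * κ) ≤ W.Zv + (4 / τ) * W.F κ := by
  have hpt : ∀ y, 2 * (1 - 4 * κ) ≤ (∫ z in (0:ℝ)..1, |W.wz y z|) + (4 / τ) * W.f κ y := by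
    intro y
    have hG : 0 ≤ ∫ z in (0:ℝ)..1, |W.wz y z| :=
      intervalIntegral.integral_nonneg zero_le_one fun z _ => abs_nonneg _
    have hfy := W.f_nonneg κ y
    have hq : 0 ≤ (4 / τ) * W.f κ y := by positivity
    have h2of : τ / 2 ≤ W.f κ y → 2 ≤ (4 / τ) * W.f κ y := by
      intro h1
      have : (4 / τ) * (τ / 2) ≤ (4 / τ) * W.f κ y :=
        mul_le_mul_of_nonneg_left h1 (by positivity)
      have h3 : (4 / τ) * (τ / 2) = 2 := by field_simp; norm_num
      linarith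
    rcases section_dich (W.hasZ y) (W.cont_rowZ y) (W.perZ y) hκ with h | h | h
    · have h1 : τ / 2 ≤ W.f κ y := by
        have := hthick y
        have h2 : W.a y ≤ W.f κ y + 2 * κ := h
        linarith
      have := h2of h1
      linarith
    · have h1 : τ / 2 ≤ W.f κ y := by
        have := hthick' y
        have h2 : 1 - W.a y ≤ W.f κ y + 2 * κ := h
        linarith
      have := h2of h1
      linarith
    · linarith
  have c1 : Continuous fun y => ∫ z in (0:ℝ)..1, |W.wz y z| := cont_param W.cont_gradAbsZ 0 1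
  have c3 := W.cont_f κ
  have i2 : Continuous fun y => (4 / τ) * W.f κ y := continuous_const.mul c3
  have i3 : Continuous fun y => (∫ z in (0:ℝ)..1, |W.wz y z|) + (4 / τ) * W.f κ y := c1.add i2
  have hint : ∫ _ in (0:ℝ)..1, (2 * (1 - 4 * κ)) ≤
      ∫ y in (0:ℝ)..1, ((∫ z in (0:ℝ)..1, |W.wz y z|) + (4 / τ) * W.f κ y) :=
    intervalIntegral.integral_mono_on zero_le_one
      (continuous_const.intervalIntegrable 0 1)
      (i3.intervalIntegrable 0 1) (fun y _ => hpt y)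
  have e2 : ∫ y in (0:ℝ)..1, (4 / τ) * W.f κ y = (4 / τ) * W.F κ :=
    intervalIntegral.integral_const_mul _ _
  rw [intervalIntegral.integral_add (c1.intervalIntegrable _ _) (i2.intervalIntegrable _ _),
    e2] at hint
  simp only [intervalIntegral.integral_const, sub_zero, one_smul] at hint
  exact hint

/-- The cut-off of a column is controlled by the variation in the first direction. -/
lemma Xi_b_le {κ : ℝ} (hκ : 0 < κ) :
    (∫ z in (0:ℝ)..1, Xi κ (W.b z)) ≤ W.F κ + (1 / κ) * W.Yv := by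
  have hcol : ∀ z, Xi κ (W.b z) ≤ (∫ y in (0:ℝ)..1, Xi κ (W.w y z))
      + (1 / κ) * ∫ y in (0:ℝ)..1, |W.wy y z| := fun z =>
    Xi_mean (f := fun y => W.w y z) (f' := fun y => W.wy y z) (fun y => W.hasY y z)
      (W.contY.comp (Continuous.prodMk_left z)) (fun y => W.perY y z) hκ
  have hXib : Continuous fun z => Xi κ (W.b z) := (Xi_continuous κ).comp W.cont_b
  have cXi : Continuous (Function.uncurry fun y z => Xi κ (W.w y z)) := (Xi_continuous κ).comp W.cont
  have c1 : Continuous fun z => ∫ y in (0:ℝ)..1, Xi κ (W.w y z) := cont_param (F := fun z y => Xi κ (W.w y z)) (cXi.comp continuous_swap) 0 1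
  have c2 : Continuous fun z => ∫ y in (0:ℝ)..1, |W.wy y z| := cont_param (F := fun z y => |W.wy y z|) (W.cont_gradAbsY.comp continuous_swap) 0 1
  have c3 : Continuous fun z => (1 / κ) * ∫ y in (0:ℝ)..1, |W.wy y z| := continuous_const.mul c2
  have h := intervalIntegral.integral_mono_on (μ := volume) (a := (0:ℝ)) (b := 1) zero_le_one
    (hXib.intervalIntegrable _ _) ((c1.add c3).intervalIntegrable _ _) fun z _ => hcol z
  refine h.trans (le_of_eq ?_)
  have e1 : ∫ z in (0:ℝ)..1, ∫ y in (0:ℝ)..1, Xi κ (W.w y z) = W.F κ :=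
    (swap_integral (F := fun y z => Xi κ (W.w y z)) cXi 0 1 0 1).symm
  have e2 : ∫ z in (0:ℝ)..1, ∫ y in (0:ℝ)..1, |W.wy y z| = W.Yv :=
    (swap_integral (F := fun y z => |W.wy y z|) W.cont_gradAbsY 0 1 0 1).symm
  show ∫ z in (0:ℝ)..1, ((∫ y in (0:ℝ)..1, Xi κ (W.w y z)) + (1 / κ) * ∫ y in (0:ℝ)..1, |W.wy y z|) = _
  rw [intervalIntegral.integral_add (c1.intervalIntegrable _ _) (c3.intervalIntegrable _ _),
    intervalIntegral.integral_const_mul, e1, e2]

end Per2

/-- A periodic function with vanishing cut-off integrals takes the values `0` and `1`. -/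
lemma ae_zero_one_of_Xi {b : ℝ → ℝ} (hm : Measurable b) (h0 : ∀ z, 0 ≤ b z) (h1 : ∀ z, b z ≤ 1)
    (hper : ∀ z, b (z + 1) = b z) (hXi : ∀ κ > 0, ∫ z in (0:ℝ)..1, Xi κ (b z) ≤ 0) :
    ∀ᵐ z, b z = 0 ∨ b z = 1 := by
  have hk : ∀ k : ℕ, ∀ᵐ z ∂(volume.restrict (Ioc (0:ℝ) 1)), Xi (1 / ((k:ℝ) + 1)) (b z) = 0 := by
    intro k
    set κ := 1 / ((k:ℝ) + 1) with hκ
    have hκ0 : 0 < κ := by positivity
    have hnn : 0 ≤ᵐ[volume.restrict (Ioc (0:ℝ) 1)] fun z => Xi κ (b z) :=
      Filter.Eventually.of_forall fun z => Xi_nonneg _ _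
    have hmeas : Measurable fun z => Xi κ (b z) := (Xi_continuous κ).measurable.comp hm
    have hint : IntegrableOn (fun z => Xi κ (b z)) (Ioc (0:ℝ) 1) :=
      Measure.integrableOn_of_bounded (M := 1) (by simp) hmeas.aestronglyMeasurable
        (Filter.Eventually.of_forall fun z => by
          rw [Real.norm_eq_abs, abs_of_nonneg (Xi_nonneg _ _)]
          exact Xi_le_one _ _)
    have hI : ∫ z in Ioc (0:ℝ) 1, Xi κ (b z) = 0 := by
      rw [← intervalIntegral.integral_of_le zero_le_one]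
      apply le_antisymm (hXi κ hκ0)
      exact intervalIntegral.integral_nonneg zero_le_one fun z _ => Xi_nonneg _ _
    exact (setIntegral_eq_zero_iff_of_nonneg_ae hnn hint).1 hI
  have hall := ae_all_iff.2 hk
  refine ae_of_Ioc (fun z => by rw [hper]) ?_
  filter_upwards [hall] with z hz
  by_contra hcon
  push Not at hcon
  have hz0 : 0 < b z := lt_of_le_of_ne (h0 z) (Ne.symm hcon.1)
  have hz1 : b z < 1 := lt_of_le_of_ne (h1 z) hcon.2
  set δ := min (b z) (1 - b z) with hδ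
  have hδ0 : 0 < δ := lt_min hz0 (by linarith)
  obtain ⟨k, hk'⟩ := exists_nat_one_div_lt (by positivity : 0 < δ / 2)
  set κ := 1 / ((k:ℝ) + 1) with hκ
  have hκ0 : 0 < κ := by positivity
  have h2 := hz k
  have h3 : δ ≤ b z := min_le_left _ _
  have h4 : δ ≤ 1 - b z := min_le_right _ _
  have h5 := le_Xi_add hκ0 (t := b z) (by linarith)
  rw [h2] at h5
  linarith

namespace Approx2

variable {W : ℕ → Per2} {a b : ℝ → ℝ} {V Q : ℝ}

/-- When the variation in the second direction saturates the value `2`, the variation in the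
first direction vanishes in the limit and the columns take the values `0` and `1`. -/
theorem columns_of_Z (hA : Approx2 W a b V Q) (hQ : Q ≤ 2)
    (hZ : ∀ δ > 0, ∀ᶠ n in atTop, 2 - δ ≤ (W n).Zv)
    (hm : Measurable b) (h0 : ∀ z, 0 ≤ b z) (h1 : ∀ z, b z ≤ 1) (hper : ∀ z, b (z + 1) = b z) :
    ∀ᵐ z, b z = 0 ∨ b z = 1 := by
  have hY : ∀ ε > 0, ∀ᶠ n in atTop, (W n).Yv ≤ ε := by
    intro ε hε
    set γ := min 1 (ε / 3) with hγdef
    have hγ0 : 0 < γ := lt_min one_pos (by positivity)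
    have hγ1 : γ ≤ 1 := min_le_left _ _
    have hγε : γ ≤ ε / 3 := min_le_right _ _
    filter_upwards [hZ (γ ^ 2) (by positivity)] with n hn
    have hs : 0 ≤ 1 - γ ^ 2 := by nlinarith
    have hαs : Real.sqrt (1 - γ ^ 2) ^ 2 = 1 - γ ^ 2 := Real.sq_sqrt hs
    set α := Real.sqrt (1 - γ ^ 2) with hα
    have hα0 : 0 ≤ α := Real.sqrt_nonneg _
    have hα1 : α ≤ 1 := Real.sqrt_le_one.2 (by nlinarith [sq_nonneg γ])
    have hαγ : 1 - γ ^ 2 ≤ α := by
      have : α ^ 2 ≤ α := by nlinarith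
      linarith
    have h2 := (W n).D_ge_combo hα0 hγ0.le (by rw [hαs]; linarith)
    have h3 := hA.D_le n
    have hZn : 0 ≤ (W n).Zv := (W n).Zv_nonneg
    have h4 : (1 - γ ^ 2) * (2 - γ ^ 2) ≤ α * (W n).Zv := by
      apply mul_le_mul hαγ hn _ hα0
      nlinarith
    have h5 : γ * (W n).Yv ≤ γ * (3 * γ) := by
      nlinarith [pow_pos hγ0 2, pow_pos hγ0 4]
    have h6 := le_of_mul_le_mul_left h5 hγ0
    linarith
  have hκ : ∀ κ > 0, ∫ z in (0:ℝ)..1, Xi κ (b z) ≤ 0 := by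
    intro κ hκ
    have hXb : ∀ n, Measurable fun z => Xi κ ((W n).b z) := fun n =>
      ((Xi_continuous κ).comp (W n).cont_b).measurable
    have hlim := integral_tendsto_bdd (f := fun n z => Xi κ ((W n).b z)) (g := fun z => Xi κ (b z)) (C := 1)
      hXb (fun n z => by
        rw [abs_of_nonneg (Xi_nonneg _ _)]
        exact Xi_le_one _ _)
      (by
        filter_upwards [hA.lim_b] with z hz
        exact ((Xi_continuous κ).tendsto _).comp hz)
    refine le_of_forall_pos_le_add fun η hη => ?_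
    have hF := hA.F κ hκ
    have hev1 : ∀ᶠ n in atTop, (W n).F κ < η / 2 := hF.eventually (gt_mem_nhds (by positivity))
    have hev2 := hY (κ * (η / 2)) (by positivity)
    refine le_of_tendsto hlim ?_
    filter_upwards [hev1, hev2] with n h1n h2n
    have h3 := (W n).Xi_b_le hκ
    have h4 : (1 / κ) * (W n).Yv ≤ (1 / κ) * (κ * (η / 2)) :=
      mul_le_mul_of_nonneg_left h2n (by positivity)
    have h5 : (1 / κ) * (κ * (η / 2)) = η / 2 := by
      field_simp
    linarith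
  exact ae_zero_one_of_Xi hm h0 h1 hper hκ

/-- The limit of the thick estimates. -/
lemma thick_limit (hA : Approx2 W a b V Q) {τ Mb : ℝ} (hτ : 0 < τ) (hthick : ∀ᵐ y, τ ≤ a y)
    (hb : IsRange b 0 Mb) : ∀ δ > 0, ∀ᶠ n in atTop, 2 - δ ≤ (W n).Zv := by
  intro δ hδ
  set κ := min (τ / 4) (δ / 16) with hκdef
  have hκ : 0 < κ := lt_min (by positivity) (by positivity)
  have hκ1 : κ ≤ τ / 4 := min_le_left _ _
  have hκ2 : κ ≤ δ / 16 := min_le_right _ _
  obtain ⟨z₀, hz₀, hz₀m⟩ := hb.near_low (δ / 16) (by positivity)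
    {z | Tendsto (fun n => (W n).b z) atTop (𝓝 (b z))} hA.lim_b
  have hz₀' : Tendsto (fun n => (W n).b z₀) atTop (𝓝 (b z₀)) := hz₀
  have hev1 : ∀ᶠ n in atTop, (W n).b z₀ < δ / 8 := hz₀'.eventually (gt_mem_nhds (by linarith))
  have hev2 : ∀ᶠ n in atTop, (W n).F κ < τ / 4 * (δ / 8) :=
    (hA.F κ hκ).eventually (gt_mem_nhds (by positivity))
  filter_upwards [hev1, hev2] with n h1 h2
  have h3 := (W n).thick_cut_Z hκ hτ (by linarith) z₀ (hA.low_a τ hthick n)
  have h4 : (4 / τ) * (W n).F κ ≤ (4 / τ) * (τ / 4 * (δ / 8)) :=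
    mul_le_mul_of_nonneg_left h2.le (by positivity)
  have h5 : (4 / τ) * (τ / 4 * (δ / 8)) = δ / 8 := by
    field_simp
  linarith

/-- The limit of the two-sided thick estimates. -/
lemma thick_limit' (hA : Approx2 W a b V Q) {τ : ℝ} (hτ : 0 < τ) (hthick : ∀ᵐ y, τ ≤ a y)
    (hthick' : ∀ᵐ y, a y ≤ 1 - τ) : ∀ δ > 0, ∀ᶠ n in atTop, 2 - δ ≤ (W n).Zv := by
  intro δ hδ
  set κ := min (τ / 4) (δ / 32) with hκdef
  have hκ : 0 < κ := lt_min (by positivity) (by positivity)
  have hκ1 : κ ≤ τ / 4 := min_le_left _ _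
  have hκ2 : κ ≤ δ / 32 := min_le_right _ _
  have hev2 : ∀ᶠ n in atTop, (W n).F κ < τ / 4 * (δ / 8) :=
    (hA.F κ hκ).eventually (gt_mem_nhds (by positivity))
  filter_upwards [hev2] with n h2
  have h3 := (W n).thick_dich_Z hκ hτ (by linarith) (hA.low_a τ hthick n) (hA.up_a _ hthick' n)
  have h4 : (4 / τ) * (W n).F κ ≤ (4 / τ) * (τ / 4 * (δ / 8)) :=
    mul_le_mul_of_nonneg_left h2.le (by positivity)
  have h5 : (4 / τ) * (τ / 4 * (δ / 8)) = δ / 8 := by
    field_simp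
  linarith

/-- Both the rows and the columns reach the value one: the complement has too small a perimeter. -/
lemma full_rows_columns (hA : Approx2 W a b V Q) (hV : V ≤ 1 / 2) (hQ : Q ≤ 2) {ma mb : ℝ}
    (ha : IsRange a ma 1) (hb : IsRange b mb 1) : False := by
  have key : ∀ τ : ℝ, 0 < τ → τ ≤ 1 → 2 * Real.sqrt (Real.pi * (1 - V)) ≤ Q + 12 * τ := by
    intro τ hτ hτ1
    have hκ : 0 < τ ^ 3 / 4 := by positivity
    obtain ⟨y₀, hy₀, hy₀m⟩ := ha.near_up τ hτ {y | Tendsto (fun n => (W n).a y) atTop (𝓝 (a y))} hA.lim_a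
    obtain ⟨z₀, hz₀, hz₀m⟩ := hb.near_up τ hτ {z | Tendsto (fun n => (W n).b z) atTop (𝓝 (b z))} hA.lim_b
    have hy' : Tendsto (fun n => (W n).a y₀) atTop (𝓝 (a y₀)) := hy₀
    have hz' : Tendsto (fun n => (W n).b z₀) atTop (𝓝 (b z₀)) := hz₀
    have hF := hA.F (τ ^ 3 / 4) hκ
    have hlim : Tendsto (fun n => Q + 2 * (1 - (W n).a y₀) + 2 * (1 - (W n).b z₀) + 4 * (τ ^ 3 / 4) + 4 * τ
        + (2 / τ ^ 2) * ((W n).F (τ ^ 3 / 4) + 2 * (τ ^ 3 / 4))) atTop
        (𝓝 (Q + 2 * (1 - a y₀) + 2 * (1 - b z₀) + 4 * (τ ^ 3 / 4) + 4 * τ + (2 / τ ^ 2) * (0 + 2 * (τ ^ 3 / 4)))) :=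
      ((((tendsto_const_nhds.add (tendsto_const_nhds.mul (tendsto_const_nhds.sub hy'))).add
        (tendsto_const_nhds.mul (tendsto_const_nhds.sub hz'))).add tendsto_const_nhds).add tendsto_const_nhds).add
        (tendsto_const_nhds.mul (hF.add tendsto_const_nhds))
    have hle : 2 * Real.sqrt (Real.pi * (1 - V)) ≤
        Q + 2 * (1 - a y₀) + 2 * (1 - b z₀) + 4 * (τ ^ 3 / 4) + 4 * τ + (2 / τ ^ 2) * (0 + 2 * (τ ^ 3 / 4)) := by
      refine ge_of_tendsto' hlim fun n => ?_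
      have h := (W n).compl.cut_estimate' hκ hτ y₀ z₀
      rw [Per2.compl_A, Per2.compl_D, Per2.compl_F, Per2.compl_a, Per2.compl_b, hA.mass n] at h
      have h2 := hA.D_le n
      linarith
    have e1 : (2 / τ ^ 2) * (0 + 2 * (τ ^ 3 / 4)) = τ := by
      field_simp
      ring
    have h3 : τ ^ 3 ≤ τ := by nlinarith [pow_pos hτ 2, sq_nonneg τ, mul_pos hτ hτ]
    rw [e1] at hle
    linarith
  have hQ2 : 2 * Real.sqrt (Real.pi * (1 - V)) ≤ Q := le_of_small key
  have h1 : (1:ℝ) < Real.sqrt (Real.pi * (1 - V)) := by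
    apply Real.lt_sqrt_of_sq_lt
    have := Real.pi_gt_three
    nlinarith
  linarith

end Approx2

end Vale.Agent.Lib.P232
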