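import Vale.Agent.Lib.P232.Cl10b

open MeasureTheory Set intervalIntegral Filter
open scoped Topology ENNReal

namespace Vale.Agent.Lib.P232

lemma Cont3.cycle {F : ℝ → ℝ → ℝ → ℝ} (hF : Cont3 F) : Cont3 fun y z x => F x y z := by
  have : (fun p : ℝ × ℝ × ℝ => F p.2.2 p.1 p.2.1)
      = (fun p : ℝ × ℝ × ℝ => F p.1 p.2.1 p.2.2) ∘ fun r : ℝ × ℝ × ℝ => (r.2.2, r.1, r.2.1) := by
    funext r; rfl
  show Continuous (fun p : ℝ × ℝ × ℝ => F p.2.2 p.1 p.2.1)
  rw [this]
  exact hF.comp (by fun_prop)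

lemma iter3_cycle {F : ℝ → ℝ → ℝ → ℝ} (hF : Cont3 F) : iter3 (fun y z x => F x y z) = iter3 F := by
  have h1 := iter3_swap23 (F := fun y x z => F x y z) hF.swap12
  rw [← iter3_swap12 hF]
  exact h1

/-- The integral of a vector has at most the integral of the norm as its norm. -/
lemma sqrt_integral_le {f g : ℝ → ℝ} (hf : Continuous f) (hg : Continuous g) :
    Real.sqrt ((∫ x in (0:ℝ)..1, f x) ^ 2 + (∫ x in (0:ℝ)..1, g x) ^ 2)
      ≤ ∫ x in (0:ℝ)..1, Real.sqrt (f x ^ 2 + g x ^ 2) := by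
  set p := ∫ x in (0:ℝ)..1, f x with hp
  set q := ∫ x in (0:ℝ)..1, g x with hq
  set r := Real.sqrt (p ^ 2 + q ^ 2) with hr
  have hR : Continuous fun x => Real.sqrt (f x ^ 2 + g x ^ 2) := by fun_prop
  have hR0 : 0 ≤ ∫ x in (0:ℝ)..1, Real.sqrt (f x ^ 2 + g x ^ 2) :=
    intervalIntegral.integral_nonneg zero_le_one fun _ _ => Real.sqrt_nonneg _
  by_cases h0 : r = 0
  · rw [h0]
    exact hR0
  have hr0 : 0 < r := lt_of_le_of_ne (Real.sqrt_nonneg _) (Ne.symm h0)
  have hr2 : r ^ 2 = p ^ 2 + q ^ 2 := Real.sq_sqrt (by positivity)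
  have hpt : ∀ x, (p / r) * f x + (q / r) * g x ≤ Real.sqrt (f x ^ 2 + g x ^ 2) := by
    intro x
    apply Real.le_sqrt_of_sq_le
    have h1 : ((p / r) * f x + (q / r) * g x) ^ 2 ≤ ((p / r) ^ 2 + (q / r) ^ 2) * (f x ^ 2 + g x ^ 2) := by
      nlinarith [sq_nonneg ((p / r) * g x - (q / r) * f x)]
    have h2 : (p / r) ^ 2 + (q / r) ^ 2 = 1 := by
      field_simp
      linarith
    rw [h2, one_mul] at h1
    exact h1
  have c1 : Continuous fun x => (p / r) * f x := continuous_const.mul hf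
  have c2 : Continuous fun x => (q / r) * g x := continuous_const.mul hg
  have h := intervalIntegral.integral_mono_on (μ := volume) (a := (0:ℝ)) (b := 1) zero_le_one
    ((c1.add c2).intervalIntegrable _ _) (hR.intervalIntegrable _ _) fun x _ => hpt x
  refine le_trans (le_of_eq ?_) h
  show r = ∫ x in (0:ℝ)..1, ((p / r) * f x + (q / r) * g x)
  rw [intervalIntegral.integral_add (c1.intervalIntegrable _ _) (c2.intervalIntegrable _ _),
    intervalIntegral.integral_const_mul, intervalIntegral.integral_const_mul, ← hp, ← hq]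
  field_simp
  linarith

lemma dbl_mono {A B : ℝ → ℝ → ℝ} (hA : Continuous (Function.uncurry A))
    (hB : Continuous (Function.uncurry B)) (h : ∀ y z, A y z ≤ B y z) :
    ∫ y in (0:ℝ)..1, ∫ z in (0:ℝ)..1, A y z ≤ ∫ y in (0:ℝ)..1, ∫ z in (0:ℝ)..1, B y z := by
  apply intervalIntegral.integral_mono_on zero_le_one ((cont_param hA 0 1).intervalIntegrable _ _)
    ((cont_param hB 0 1).intervalIntegrable _ _)
  intro y _
  apply intervalIntegral.integral_mono_on zero_le_one
    ((hA.comp (Continuous.prodMk_right y)).intervalIntegrable _ _)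
    ((hB.comp (Continuous.prodMk_right y)).intervalIntegrable _ _)
  intro z _
  exact h y z

lemma tendsto_zero_of_le {X : ℕ → ℝ} (h0 : ∀ n, 0 ≤ X n) (h : ∀ ε > 0, ∀ᶠ n in atTop, X n ≤ ε) :
    Tendsto X atTop (𝓝 0) :=
  tendsto_order.2 ⟨fun a ha => Filter.Eventually.of_forall fun n => lt_of_lt_of_le ha (h0 n),
    fun a ha => (h (a / 2) (half_pos ha)).mono fun n hn => by linarith⟩

namespace Cal

variable (D : Cal)

/-- The perimeter splits between the sections and the full variation in the first direction. -/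
lemma split_P (hPc : Continuous D.P) {α γ : ℝ} (hα : 0 ≤ α) (hγ : 0 ≤ γ) (hn : α ^ 2 + γ ^ 2 ≤ 1)
    {g e : ℝ → ℝ} (hg : Continuous g) (he : Continuous e) (hprof : ∀ x, g (D.A x) - e x ≤ D.G x) :
    α * ((∫ x in (0:ℝ)..1, g (D.A x)) - ∫ x in (0:ℝ)..1, e x) + γ * ∫ x in (0:ℝ)..1, D.P x
      ≤ ∫ x in (0:ℝ)..1, D.N x := by
  have c1 : Continuous fun x => g (D.A x) := hg.comp D.contA
  have c3 : Continuous fun x => α * (g (D.A x) - e x) + γ * D.P x :=
    (continuous_const.mul (c1.sub he)).add (continuous_const.mul hPc)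
  have h := intervalIntegral.integral_mono_on (μ := volume) zero_le_one (c3.intervalIntegrable 0 1)
    (D.contN.intervalIntegrable 0 1) (fun x _ => by
      have h1 := D.h1 x α γ hα hγ hn
      have h2 := mul_le_mul_of_nonneg_left (hprof x) hα
      linarith)
  have c4 : Continuous fun x => g (D.A x) - e x := c1.sub he
  have c5 : Continuous fun x => α * (g (D.A x) - e x) := continuous_const.mul c4
  have c6 : Continuous fun x => γ * D.P x := continuous_const.mul hPc
  rw [intervalIntegral.integral_add (c5.intervalIntegrable _ _) (c6.intervalIntegrable _ _),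
    intervalIntegral.integral_const_mul, intervalIntegral.integral_const_mul,
    intervalIntegral.integral_sub (c1.intervalIntegrable _ _) (he.intervalIntegrable _ _)] at h
  exact h

end Cal

namespace Per3

variable (U : Per3)

/-- The mean of a function along the first direction. -/
noncomputable def proj : Per2 where
  w := fun y z => ∫ x in (0:ℝ)..1, U.u x y z
  wy := fun y z => ∫ x in (0:ℝ)..1, U.uy x y z
  wz := fun y z => ∫ x in (0:ℝ)..1, U.uz x y z
  cont := U.cont.cycle.inner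
  contY := U.contY.cycle.inner
  contZ := U.contZ.cycle.inner
  hasY := fun y z => hasDerivAt_param (F := fun t x => U.u x t z) (F' := fun t x => U.uy x t z)
    ((U.cont.slice12 z).comp continuous_swap) ((U.contY.slice12 z).comp continuous_swap)
    (fun t x => U.hasY x t z) 0 1 y
  hasZ := fun y z => hasDerivAt_param (F := fun t x => U.u x y t) (F' := fun t x => U.uz x y t)
    ((U.cont.slice13 y).comp continuous_swap) ((U.contZ.slice13 y).comp continuous_swap)
    (fun t x => U.hasZ x y t) 0 1 z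
  perY := fun y z => by simp only [U.perY]
  perZ := fun y z => by simp only [U.perZ]
  nn := fun y z => intervalIntegral.integral_nonneg zero_le_one fun x _ => U.nn x y z
  le1 := fun y z => by
    have hc : Continuous fun x => U.u x y z :=
      U.cont.comp (by fun_prop : Continuous fun x : ℝ => ((x, y, z) : ℝ × ℝ × ℝ))
    have := intervalIntegral.integral_mono_on (μ := volume) (a := (0:ℝ)) (b := 1) zero_le_one
      (hc.intervalIntegrable _ _) ((continuous_const (y := (1:ℝ))).intervalIntegrable 0 1)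
      (fun x _ => U.le1 x y z)
    simpa using this

lemma proj_a (y : ℝ) : U.proj.a y = U.A₂ y :=
  (swap_integral (F := fun x z => U.u x y z) (U.cont.slice13 y) 0 1 0 1).symm

lemma proj_b (z : ℝ) : U.proj.b z = U.A₃ z :=
  (swap_integral (F := fun x y => U.u x y z) (U.cont.slice12 z) 0 1 0 1).symm

lemma proj_A : U.proj.A = U.V := by
  have h : U.proj.A = ∫ y in (0:ℝ)..1, U.A₂ y := by
    unfold Per2.A
    simp only [proj_a]
  rw [h]
  exact U.swap12_V

lemma proj_D_le : U.proj.D ≤ U.P := by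
  have hP : U.P = iter3 (fun y z x => Real.sqrt (U.ux x y z ^ 2 + U.uy x y z ^ 2 + U.uz x y z ^ 2)) :=
    (iter3_cycle U.cont_gradFull).symm
  rw [hP]
  refine dbl_mono (A := fun y z => Real.sqrt ((∫ x in (0:ℝ)..1, U.uy x y z) ^ 2 + (∫ x in (0:ℝ)..1, U.uz x y z) ^ 2))
    (B := fun y z => ∫ x in (0:ℝ)..1, Real.sqrt (U.ux x y z ^ 2 + U.uy x y z ^ 2 + U.uz x y z ^ 2))
    U.proj.cont_grad U.cont_gradFull.cycle.inner ?_
  intro y z
  have cy : Continuous fun x => U.uy x y z :=
    U.contY.comp (by fun_prop : Continuous fun x : ℝ => ((x, y, z) : ℝ × ℝ × ℝ))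
  have cz : Continuous fun x => U.uz x y z :=
    U.contZ.comp (by fun_prop : Continuous fun x : ℝ => ((x, y, z) : ℝ × ℝ × ℝ))
  have cx : Continuous fun x => U.ux x y z :=
    U.contX.comp (by fun_prop : Continuous fun x : ℝ => ((x, y, z) : ℝ × ℝ × ℝ))
  refine (sqrt_integral_le cy cz).trans ?_
  apply intervalIntegral.integral_mono_on zero_le_one
    ((by fun_prop : Continuous fun x => Real.sqrt (U.uy x y z ^ 2 + U.uz x y z ^ 2)).intervalIntegrable _ _)
    ((by fun_prop : Continuous fun x => Real.sqrt (U.ux x y z ^ 2 + U.uy x y z ^ 2 + U.uz x y z ^ 2)).intervalIntegrable _ _)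
  intro x _
  apply Real.sqrt_le_sqrt
  nlinarith [sq_nonneg (U.ux x y z)]

/-- The variation in the first direction. -/
noncomputable def Xv : ℝ := iter3 fun x y z => |U.ux x y z|

lemma Xv_nonneg : 0 ≤ U.Xv :=
  intervalIntegral.integral_nonneg zero_le_one fun _ _ =>
    intervalIntegral.integral_nonneg zero_le_one fun _ _ =>
      intervalIntegral.integral_nonneg zero_le_one fun _ _ => abs_nonneg _

lemma proj_F_le {κ : ℝ} (hκ : 0 < κ) : U.proj.F κ ≤ U.Ff κ + (1 / κ) * U.Xv := by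
  have c1 := (U.cont_Xi κ).cycle.inner
  have c2 := U.cont_absX.cycle.inner
  have hpt : ∀ y z, Xi κ (U.proj.w y z) ≤ (∫ x in (0:ℝ)..1, Xi κ (U.u x y z))
      + (1 / κ) * ∫ x in (0:ℝ)..1, |U.ux x y z| := fun y z =>
    Xi_mean (f := fun x => U.u x y z) (f' := fun x => U.ux x y z) (fun x => U.hasX x y z)
      (U.contX.comp (by fun_prop : Continuous fun x : ℝ => ((x, y, z) : ℝ × ℝ × ℝ)))
      (fun x => U.perX x y z) hκ
  have hc : Continuous (Function.uncurry fun y z => Xi κ (U.proj.w y z)) :=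
    (Xi_continuous κ).comp U.proj.cont
  have hc2 : Continuous (Function.uncurry fun y z => (∫ x in (0:ℝ)..1, Xi κ (U.u x y z))
      + (1 / κ) * ∫ x in (0:ℝ)..1, |U.ux x y z|) := c1.add (continuous_const.mul c2)
  refine (dbl_mono hc hc2 hpt).trans (le_of_eq ?_)
  have e1 : ∀ y, ∫ z in (0:ℝ)..1, ((∫ x in (0:ℝ)..1, Xi κ (U.u x y z))
      + (1 / κ) * ∫ x in (0:ℝ)..1, |U.ux x y z|) = (∫ z in (0:ℝ)..1, ∫ x in (0:ℝ)..1, Xi κ (U.u x y z))
        + (1 / κ) * ∫ z in (0:ℝ)..1, ∫ x in (0:ℝ)..1, |U.ux x y z| := by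
    intro y
    have d1 : Continuous fun z => ∫ x in (0:ℝ)..1, Xi κ (U.u x y z) := c1.comp (Continuous.prodMk_right y)
    have d2 : Continuous fun z => ∫ x in (0:ℝ)..1, |U.ux x y z| := c2.comp (Continuous.prodMk_right y)
    have d3 : Continuous fun z => (1 / κ) * ∫ x in (0:ℝ)..1, |U.ux x y z| := continuous_const.mul d2
    rw [intervalIntegral.integral_add (d1.intervalIntegrable _ _) (d3.intervalIntegrable _ _),
      intervalIntegral.integral_const_mul]
  simp only [e1]
  have d1 : Continuous fun y => ∫ z in (0:ℝ)..1, ∫ x in (0:ℝ)..1, Xi κ (U.u x y z) := cont_param c1 0 1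
  have d2 : Continuous fun y => ∫ z in (0:ℝ)..1, ∫ x in (0:ℝ)..1, |U.ux x y z| := cont_param c2 0 1
  have d3 : Continuous fun y => (1 / κ) * ∫ z in (0:ℝ)..1, ∫ x in (0:ℝ)..1, |U.ux x y z| := continuous_const.mul d2
  rw [intervalIntegral.integral_add (d1.intervalIntegrable _ _) (d3.intervalIntegrable _ _),
    intervalIntegral.integral_const_mul]
  have e2 : iter3 (fun y z x => Xi κ (U.u x y z)) = U.Ff κ := iter3_cycle (U.cont_Xi κ)
  have e3 : iter3 (fun y z x => |U.ux x y z|) = U.Xv := iter3_cycle U.cont_absX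
  rw [← e2, ← e3]
  rfl

/-- The splitting of the perimeter for a smooth function, with the variation in the first
direction. -/
theorem splitX {α γ κ τ : ℝ} (hα : 0 ≤ α) (hγ : 0 ≤ γ) (hn : α ^ 2 + γ ^ 2 ≤ 1)
    (hκ : 0 < κ) (hτ : 0 < τ) (hτ1 : τ ≤ 1) (hκτ : 4 * κ ≤ τ) :
    α * ((∫ x in (0:ℝ)..1, Real.sqrt (ell (U.A₁ x))) - err τ κ (U.Ff κ)) + γ * U.Xv ≤ U.P := by
  have h := U.cal.split_P U.cont_absX.inner2 (g := fun s => Real.sqrt (ell s)) (e := U.eProf κ τ) hα hγ hn
    ell_continuous.sqrt (U.eProf_cont κ τ) (U.eProf_prof hκ hτ hτ1 hκτ)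
  rw [U.eProf_integral] at h
  exact h

end Per3

section

variable {E : Set R3} {U : ℕ → Per3}

/-- The variation in the first direction vanishes in the limit when the sections have constant
area and the perimeter is at most that of the section profile. -/
theorem Approx.Xv_small (hA : Approx E U) {V : ℝ} (hconst : ∀ᵐ x, mg1 E x = V)
    (hS : (perimeter E).toReal ≤ Real.sqrt (ell V)) : Tendsto (fun n => (U n).Xv) atTop (𝓝 0) := by
  have hconst' : ∀ n x, (U n).A₁ x = V := fun n x =>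
    le_antisymm (hA.up₁ V (hconst.mono fun x hx => hx.le) n x) (hA.low₁ V (hconst.mono fun x hx => hx.ge) n x)
  have hS2 := sqrt_ell_le_strip V
  apply tendsto_zero_of_le (fun n => (U n).Xv_nonneg)
  intro ε hε
  set γ := min 1 (ε / 15) with hγdef
  have hγ0 : 0 < γ := lt_min one_pos (by positivity)
  have hγ1 : γ ≤ 1 := min_le_left _ _
  have hγε : γ ≤ ε / 15 := min_le_right _ _
  set τ := γ ^ 2 with hτdef
  have hτ0 : 0 < τ := by positivity
  have hτ1 : τ ≤ 1 := by rw [hτdef]; nlinarith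
  have hκ : 0 < τ ^ 3 / 4 := by positivity
  have hκτ := kappa_ok hτ0 hτ1
  have hF := hA.Ff (τ ^ 3 / 4) hκ
  have herr : Tendsto (fun n => Per3.err τ (τ ^ 3 / 4) ((U n).Ff (τ ^ 3 / 4))) atTop (𝓝 (Per3.err τ (τ ^ 3 / 4) 0)) := by
    unfold Per3.err
    exact tendsto_const_nhds.add (tendsto_const_nhds.mul (hF.add tendsto_const_nhds))
  have hsm := err_small hτ0 hτ1
  have hev := herr.eventually (gt_mem_nhds (show Per3.err τ (τ ^ 3 / 4) 0 < 13 * τ by linarith))
  filter_upwards [hev] with n hn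
  have hs : 0 ≤ 1 - γ ^ 2 := by nlinarith
  have hαs : Real.sqrt (1 - γ ^ 2) ^ 2 = 1 - γ ^ 2 := Real.sq_sqrt hs
  set α := Real.sqrt (1 - γ ^ 2) with hα
  have hα0 : 0 ≤ α := Real.sqrt_nonneg _
  have hα1 : α ≤ 1 := Real.sqrt_le_one.2 (by nlinarith [sq_nonneg γ])
  have hαγ : 1 - γ ^ 2 ≤ α := by
    have : α ^ 2 ≤ α := by nlinarith
    linarith
  have h1 := (U n).splitX hα0 hγ0.le (by rw [hαs]; linarith) hκ hτ0 hτ1 hκτ
  have h2 := hA.per n
  have e1 : ∫ x in (0:ℝ)..1, Real.sqrt (ell ((U n).A₁ x)) = Real.sqrt (ell V) := by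
    simp only [hconst' n]
    simp
  rw [e1] at h1
  have herr0 : 0 ≤ Per3.err τ (τ ^ 3 / 4) ((U n).Ff (τ ^ 3 / 4)) := by
    have := (U n).integral_secF_nonneg (τ ^ 3 / 4)
    unfold Per3.err
    positivity
  set S := Real.sqrt (ell V) with hSdef
  have hS0 : 0 ≤ S := Real.sqrt_nonneg _
  set R := Per3.err τ (τ ^ 3 / 4) ((U n).Ff (τ ^ 3 / 4)) with hR
  have h3 : α * S ≥ (1 - γ ^ 2) * S := mul_le_mul_of_nonneg_right hαγ hS0
  have h4 : α * R ≤ 1 * R := mul_le_mul_of_nonneg_right hα1 herr0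
  have h5 : γ * (U n).Xv ≤ γ * (15 * γ) := by
    have h6 : γ ^ 2 * S ≤ γ ^ 2 * 2 := mul_le_mul_of_nonneg_left hS2 (by positivity)
    have e2 : α * (S - R) = α * S - α * R := by ring
    rw [e2] at h1
    have hτe : 13 * τ = 13 * γ ^ 2 := by rw [hτdef]
    nlinarith
  have h6 := le_of_mul_le_mul_left h5 hγ0
  linarith

/-- The means along the first direction approximate a planar set. -/
theorem Approx.toApprox2 (hA : Approx E U) (hX : Tendsto (fun n => (U n).Xv) atTop (𝓝 0)) :
    Approx2 (fun n => (U n).proj) (mg1 (sw12L ⁻¹' E)) (mg1 (sw13L ⁻¹' E)) (torusVolume E)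
      (perimeter E).toReal where
  mass := fun n => by rw [Per3.proj_A, hA.vol n]
  D_le := fun n => (U n).proj_D_le.trans (hA.per n)
  F := by
    intro κ hκ
    apply tendsto_zero_of_le (fun n => (U n).proj.F_nonneg κ)
    intro ε hε
    have h1 := hA.Ff κ hκ
    have hlim : Tendsto (fun n => (U n).Ff κ + (1 / κ) * (U n).Xv) atTop (𝓝 (0 + (1 / κ) * 0)) :=
      h1.add (tendsto_const_nhds.mul hX)
    have h2 : (0:ℝ) + (1 / κ) * 0 < ε := by simpa using hε
    filter_upwards [hlim.eventually (gt_mem_nhds h2)] with n hn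
    exact ((U n).proj_F_le hκ).trans hn.le
  lim_a := by
    filter_upwards [hA.lim₂] with y hy
    simpa only [Per3.proj_a] using hy
  lim_b := by
    filter_upwards [hA.lim₃] with z hz
    simpa only [Per3.proj_b] using hz
  low_a := fun m hm n y => by
    rw [Per3.proj_a]
    exact hA.low₂ m hm n y
  up_a := fun m hm n y => by
    rw [Per3.proj_a]
    exact hA.up₂ m hm n y
  low_b := fun m hm n y => by
    rw [Per3.proj_b]
    exact hA.low₃ m hm n y
  up_b := fun m hm n y => by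
    rw [Per3.proj_b]
    exact hA.up₃ m hm n y

end

/-! ### Transport of the models -/

lemma AeEqTorus.of_pre (τ : CoordSym) {F B : Set R3} (hF : MeasurableSet F) (hB : MeasurableSet B)
    (h : AeEqTorus (τ.σ ⁻¹' F) (τ.σ ⁻¹' B)) : AeEqTorus F B := by
  unfold AeEqTorus at *
  have e : symmDiff (τ.σ ⁻¹' F) (τ.σ ⁻¹' B) ∩ unitCell = τ.σ ⁻¹' (symmDiff F B ∩ unitCell) := by
    rw [← τ.pre_inter, preimage_symmDiff]
  rw [e, τ.mp.measure_preimage ((hF.symmDiff hB).inter unitCell_measurable).nullMeasurableSet] at h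
  exact h

lemma slabY_measurable (c w : ℝ) : MeasurableSet (slabY c w) :=
  τ12.measurable_pre (slabX_measurable c w)

lemma slabZ_measurable (c w : ℝ) : MeasurableSet (slabZ c w) :=
  τ13.measurable_pre (slabX_measurable c w)

/-- The second marginal takes the values `0` and `1`: a slab in the second direction. -/
lemma slabY_of_ae {E : Set R3} (hE : MeasurableSet E) (hper : PeriodicSet E) (hP : perimeter E ≠ ⊤)
    (hJ : (perimeter E).toReal ≤ 2) (h01 : ∀ᵐ x, mg1 (sw12L ⁻¹' E) x = 0 ∨ mg1 (sw12L ⁻¹' E) x = 1)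
    (hV : 0 < torusVolume E) (hV1 : torusVolume E < 1) :
    ∃ c, AeEqTorus E (slabY c (torusVolume E)) := by
  have hE₂ : MeasurableSet (sw12L ⁻¹' E) := τ12.measurable_pre hE
  have hp₂ : PeriodicSet (sw12L ⁻¹' E) := τ12.perSet hper
  have e1 : torusVolume (sw12L ⁻¹' E) = torusVolume E := τ12.volume_pre hE
  have e2 : perimeter (sw12L ⁻¹' E) = perimeter E := τ12.perimeter_pre E
  obtain ⟨c, hc⟩ := slab_finish hE₂ hp₂ (by rwa [e2]) (by rwa [e2]) h01 (by rwa [e1]) (by rwa [e1])
  rw [e1] at hc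
  exact ⟨c, AeEqTorus.of_pre τ12 hE (slabY_measurable _ _) hc⟩

/-- The third marginal takes the values `0` and `1`: a slab in the third direction. -/
lemma slabZ_of_ae {E : Set R3} (hE : MeasurableSet E) (hper : PeriodicSet E) (hP : perimeter E ≠ ⊤)
    (hJ : (perimeter E).toReal ≤ 2) (h01 : ∀ᵐ x, mg1 (sw13L ⁻¹' E) x = 0 ∨ mg1 (sw13L ⁻¹' E) x = 1)
    (hV : 0 < torusVolume E) (hV1 : torusVolume E < 1) :
    ∃ c, AeEqTorus E (slabZ c (torusVolume E)) := by
  have hE₂ : MeasurableSet (sw13L ⁻¹' E) := τ13.measurable_pre hE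
  have hp₂ : PeriodicSet (sw13L ⁻¹' E) := τ13.perSet hper
  have e1 : torusVolume (sw13L ⁻¹' E) = torusVolume E := τ13.volume_pre hE
  have e2 : perimeter (sw13L ⁻¹' E) = perimeter E := τ13.perimeter_pre E
  obtain ⟨c, hc⟩ := slab_finish hE₂ hp₂ (by rwa [e2]) (by rwa [e2]) h01 (by rwa [e1]) (by rwa [e1])
  rw [e1] at hc
  exact ⟨c, AeEqTorus.of_pre τ13 hE (slabZ_measurable _ _) hc⟩

/-! ### The sections of constant area -/

/-- A set of volume at most `1/2` with minimal perimeter whose first sections have constant area is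
a tube or a slab. -/
theorem diag_branch {E : Set R3} (hE : MeasurableSet E) (hper : PeriodicSet E) (hP : perimeter E ≠ ⊤)
    (hJ : (perimeter E).toReal ≤ profileJ (torusVolume E)) (hV0 : 0 < torusVolume E)
    (hV : torusVolume E ≤ 1 / 2) (hconst : ∀ᵐ x, mg1 E x = torusVolume E) :
    IsCanonical E (torusVolume E) := by
  set V := torusVolume E with hVdef
  set Q := (perimeter E).toReal with hQdef
  have hπ := Real.pi_pos
  have hπ3 := Real.pi_gt_three
  have hQ0 : 0 ≤ Q := ENNReal.toReal_nonneg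
  have hQ2 : Q ≤ 2 := hJ.trans (profileJ_le_two V)
  have hQT : Q ≤ 2 * Real.sqrt (Real.pi * V) := hJ.trans (profileJ_le_tube V)
  have hS : Q ≤ Real.sqrt (ell V) := by
    apply Real.le_sqrt_of_sq_le
    have h1 : Q ^ 2 ≤ (2 * Real.sqrt (Real.pi * V)) ^ 2 := pow_le_pow_left₀ hQ0 hQT 2
    rw [mul_pow, Real.sq_sqrt (by positivity)] at h1
    unfold ell
    refine le_min (le_min (by linarith) (by nlinarith)) ?_
    have : 4 * Real.pi * V ≤ 4 * Real.pi * (1 - V) := mul_le_mul_of_nonneg_left (by linarith) (by positivity)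
    linarith
  have hApp : Approx E (smoothSeq hE hper) := approx_smoothSeq hE hper hP
  have hA2 := hApp.toApprox2 (hApp.Xv_small hconst hS)
  have hE₂ : MeasurableSet (sw12L ⁻¹' E) := τ12.measurable_pre hE
  have hE₃ : MeasurableSet (sw13L ⁻¹' E) := τ13.measurable_pre hE
  have hp₂ : PeriodicSet (sw12L ⁻¹' E) := τ12.perSet hper
  have hp₃ : PeriodicSet (sw13L ⁻¹' E) := τ13.perSet hper
  have hV1 : V < 1 := by linarith
  have hslabY : (∀ᵐ x, mg1 (sw12L ⁻¹' E) x = 0 ∨ mg1 (sw12L ⁻¹' E) x = 1) → IsCanonical E V := by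
    intro h
    obtain ⟨c, hc⟩ := slabY_of_ae hE hper hP hQ2 h hV0 hV1
    exact Or.inr (Or.inr ⟨c, Or.inr (Or.inl hc)⟩)
  have hslabZ : (∀ᵐ x, mg1 (sw13L ⁻¹' E) x = 0 ∨ mg1 (sw13L ⁻¹' E) x = 1) → IsCanonical E V := by
    intro h
    obtain ⟨c, hc⟩ := slabZ_of_ae hE hper hP hQ2 h hV0 hV1
    exact Or.inr (Or.inr ⟨c, Or.inr (Or.inr hc)⟩)
  have hcolumns : (∀ δ > 0, ∀ᶠ n in atTop, 2 - δ ≤ ((smoothSeq hE hper n).proj).Zv) → IsCanonical E V := by
    intro h
    exact hslabZ (hA2.columns_of_Z hQ2 h (mg1_measurable hE₃) (fun z => mg1_nonneg z)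
      (fun z => mg1_le_one hE₃ z) (mg1_periodic hp₃))
  have hrows : (∀ δ > 0, ∀ᶠ n in atTop, 2 - δ ≤ ((smoothSeq hE hper n).proj.swap).Zv) → IsCanonical E V := by
    intro h
    exact hslabY (hA2.swap.columns_of_Z hQ2 h (mg1_measurable hE₂) (fun z => mg1_nonneg z)
      (fun z => mg1_le_one hE₂ z) (mg1_periodic hp₂))
  obtain ⟨ma, Ma, hma0, hMa1, hRa⟩ := exists_range (f := mg1 (sw12L ⁻¹' E)) (fun x => mg1_nonneg x) (mg1_le_one hE₂)
  obtain ⟨mb, Mb, hmb0, hMb1, hRb⟩ := exists_range (f := mg1 (sw13L ⁻¹' E)) (fun x => mg1_nonneg x) (mg1_le_one hE₃)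
  rcases hma0.eq_or_lt with hma | hma
  · rcases hmb0.eq_or_lt with hmb | hmb
    · -- both smallest rows vanish: a tube
      rw [← hma] at hRa
      rw [← hmb] at hRb
      set r := Real.sqrt (V / Real.pi) with hr
      have hr0 : 0 < r := Real.sqrt_pos.2 (by positivity)
      have hr2 : r ^ 2 = V / Real.pi := Real.sq_sqrt (by positivity)
      have hVr : V = Real.pi * r ^ 2 := by
        rw [hr2]
        field_simp
      have hQr : Q ≤ 2 * Real.pi * r := by
        have e : Real.sqrt (Real.pi * V) = Real.pi * r := by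
          rw [hVr, show Real.pi * (Real.pi * r ^ 2) = (Real.pi * r) ^ 2 by ring]
          exact Real.sqrt_sq (by positivity)
        rw [e] at hQT
        linarith
      have hr1 : r ≤ 1 / 2 := by
        have h1 : r ^ 2 ≤ (1 / 2) ^ 2 := by
          rw [hr2, div_le_iff₀ hπ]
          nlinarith
        exact le_of_sq_le_sq h1 (by norm_num) |>.trans le_rfl
      obtain ⟨c₂, hc₂⟩ := hA2.tight_disk hr0 hVr hQr (mg1_periodic hp₂) (fun y => mg1_nonneg y) hRa hRb
      obtain ⟨c₃, hc₃⟩ := hA2.swap.tight_disk hr0 hVr hQr (mg1_periodic hp₃) (fun y => mg1_nonneg y) hRb hRa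
      exact Or.inr (Or.inl ⟨c₂, c₃, r, hr0, hr1, hVr.symm, Or.inl (tube_of_mg hE hr0.le hr1 hc₂ hc₃ hVr)⟩)
    · -- the columns are thick and the rows are not
      rw [← hma] at hRa
      exact hrows (hA2.swap.thick_limit hmb hRb.ae_low hRa)
  · rcases hmb0.eq_or_lt with hmb | hmb
    · rw [← hmb] at hRb
      exact hcolumns (hA2.thick_limit hma hRa.ae_low hRb)
    · by_cases hMa : Ma < 1
      · set τ := min ma (1 - Ma) with hτ
        have hτ0 : 0 < τ := lt_min hma (by linarith)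
        exact hcolumns (hA2.thick_limit' hτ0 (hRa.ae_low.mono fun y hy => (min_le_left _ _).trans hy)
          (hRa.ae_up.mono fun y hy => by
            have : τ ≤ 1 - Ma := min_le_right _ _
            linarith))
      · by_cases hMb : Mb < 1
        · set τ := min mb (1 - Mb) with hτ
          have hτ0 : 0 < τ := lt_min hmb (by linarith)
          exact hrows (hA2.swap.thick_limit' hτ0 (hRb.ae_low.mono fun y hy => (min_le_left _ _).trans hy)
            (hRb.ae_up.mono fun y hy => by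
              have : τ ≤ 1 - Mb := min_le_right _ _
              linarith))
        · have e1 : Ma = 1 := le_antisymm hMa1 (not_lt.1 hMa)
          have e2 : Mb = 1 := le_antisymm hMb1 (not_lt.1 hMb)
          rw [e1] at hRa
          rw [e2] at hRb
          exact (hA2.full_rows_columns hV hQ2 hRa hRb).elim

end Vale.Agent.Lib.P232
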