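import Vale.Agent.Lib.P232.Cl10c

open MeasureTheory Set intervalIntegral Filter
open scoped Topology ENNReal

namespace Vale.Agent.Lib.P232

/-! ### Vanishing of the integrals of nonnegative functions -/

lemma ae_zero_of_integral {g : ℝ → ℝ} {C : ℝ} (hm : Measurable g) (h0 : ∀ x, 0 ≤ g x) (hb : ∀ x, g x ≤ C)
    (hI : ∫ x in (0:ℝ)..1, g x = 0) : ∀ᵐ x ∂(volume.restrict (Ioc (0:ℝ) 1)), g x = 0 := by
  have hnn : 0 ≤ᵐ[volume.restrict (Ioc (0:ℝ) 1)] g := Filter.Eventually.of_forall h0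
  have hint : IntegrableOn g (Ioc (0:ℝ) 1) :=
    Measure.integrableOn_of_bounded (M := C) (by simp) hm.aestronglyMeasurable
      (Filter.Eventually.of_forall fun x => by
        rw [Real.norm_eq_abs, abs_of_nonneg (h0 x)]
        exact hb x)
  have hI' : ∫ x in Ioc (0:ℝ) 1, g x = 0 := by
    rw [← intervalIntegral.integral_of_le zero_le_one]
    exact hI
  exact (setIntegral_eq_zero_iff_of_nonneg_ae hnn hint).1 hI'

lemma inner_measurable {f : ℝ → ℝ → ℝ} (hf : Measurable (Function.uncurry f)) :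
    Measurable fun x => ∫ y in (0:ℝ)..1, f x y := by
  have h := (hf.stronglyMeasurable).integral_prod_right' (ν := volume.restrict (Ioc (0:ℝ) 1))
  have e : (fun x => ∫ y in (0:ℝ)..1, f x y)
      = fun x => ∫ y, Function.uncurry f (x, y) ∂(volume.restrict (Ioc (0:ℝ) 1)) := by
    funext x
    exact intervalIntegral.integral_of_le zero_le_one
  rw [e]
  exact h.measurable

lemma sec_measurable {f : ℝ → ℝ → ℝ} (hf : Measurable (Function.uncurry f)) (x : ℝ) : Measurable (f x) :=
  hf.comp (measurable_const.prodMk measurable_id)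

lemma sec_ii {f : ℝ → ℝ → ℝ} {C : ℝ} (hf : Measurable (Function.uncurry f)) (hb : ∀ x y, |f x y| ≤ C) (x a b : ℝ) :
    IntervalIntegrable (f x) volume a b := by
  rw [intervalIntegrable_iff]
  refine Measure.integrableOn_of_bounded (M := C) (by simp) (sec_measurable hf x).aestronglyMeasurable ?_
  exact Filter.Eventually.of_forall fun y => by simpa using hb x y

lemma inner_abs_le {f : ℝ → ℝ → ℝ} {C : ℝ} (hb : ∀ x y, |f x y| ≤ C) (x : ℝ) :
    |∫ y in (0:ℝ)..1, f x y| ≤ C := by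
  have h2 := intervalIntegral.norm_integral_le_of_norm_le_const (a := (0:ℝ)) (b := 1) (f := f x)
    (C := C) (fun y _ => by simpa using hb x y)
  simpa using h2

lemma outer_ii {f : ℝ → ℝ → ℝ} {C : ℝ} (hf : Measurable (Function.uncurry f)) (hb : ∀ x y, |f x y| ≤ C) (a b : ℝ) :
    IntervalIntegrable (fun x => ∫ y in (0:ℝ)..1, f x y) volume a b := by
  rw [intervalIntegrable_iff]
  refine Measure.integrableOn_of_bounded (M := C) (by simp) (inner_measurable hf).aestronglyMeasurable ?_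
  exact Filter.Eventually.of_forall fun x => by simpa using inner_abs_le hb x

lemma dbl_ae_zero {f : ℝ → ℝ → ℝ} {C : ℝ} (hm : Measurable (Function.uncurry f)) (h0 : ∀ x y, 0 ≤ f x y)
    (hb : ∀ x y, f x y ≤ C) (hI : ∫ x in (0:ℝ)..1, ∫ y in (0:ℝ)..1, f x y = 0) :
    ∀ᵐ x ∂(volume.restrict (Ioc (0:ℝ) 1)), ∀ᵐ y ∂(volume.restrict (Ioc (0:ℝ) 1)), f x y = 0 := by
  have hb' : ∀ x y, |f x y| ≤ C := fun x y => by
    rw [abs_of_nonneg (h0 x y)]
    exact hb x y
  have h1 := ae_zero_of_integral (g := fun x => ∫ y in (0:ℝ)..1, f x y) (C := C) (inner_measurable hm)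
    (fun x => intervalIntegral.integral_nonneg zero_le_one fun y _ => h0 x y)
    (fun x => (le_abs_self _).trans (inner_abs_le hb' x)) hI
  filter_upwards [h1] with x hx
  exact ae_zero_of_integral (sec_measurable hm x) (h0 x) (hb x) hx

/-! ### The lines of a symmetral -/

section Lines

variable {G : Set R3}

/-- A weighted integral along a line of a symmetral. -/
lemma line_symZ_weight (hG : MeasurableSet G) (φ : ℝ → ℝ) (x y : ℝ) :
    ∫ z in (0:ℝ)..1, chi (symZ G) (x, y, z) * φ z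
      = ∫ z in (1 / 2 - lineLen G x y / 2)..(1 / 2 + lineLen G x y / 2), φ z := by
  have hL0 := lineLen_nonneg (E := G) x y
  have hL1 := lineLen_le_one hG x y
  have h2 : ∫ z in (0:ℝ)..1, chi (symZ G) (x, y, z) * φ z
      = ∫ z in (0:ℝ)..1, (Ioo (1 / 2 - lineLen G x y / 2) (1 / 2 + lineLen G x y / 2)).indicator φ z := by
    apply intervalIntegral.integral_congr
    intro z hz
    rw [uIcc_of_le zero_le_one] at hz
    have h3 := cd_lt_iff hz hL1
    by_cases h4 : cd z < lineLen G x y / 2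
    · have h5 : ((x, y, z) : R3) ∈ symZ G := h4
      have h6 := h3.1 h4
      simp only [chi, indicator_of_mem h5, indicator_of_mem h6, one_mul]
    · have h5 : ((x, y, z) : R3) ∉ symZ G := h4
      have h6 : z ∉ Ioo (1 / 2 - lineLen G x y / 2) (1 / 2 + lineLen G x y / 2) := fun h => h4 (h3.2 h)
      simp only [chi, indicator_of_notMem h5, indicator_of_notMem h6, zero_mul]
  rw [h2, integral_indicator_Ioo (by linarith) (by linarith),
    intervalIntegral.integral_of_le (by linarith), integral_Ioc_eq_integral_Ioo]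

lemma lineLen_symZ (hG : MeasurableSet G) (x y : ℝ) : lineLen (symZ G) x y = lineLen G x y := by
  have h := line_symZ_weight hG (fun _ => 1) x y
  simp only [mul_one, intervalIntegral.integral_const, smul_eq_mul] at h
  show ∫ z in (0:ℝ)..1, chi (symZ G) (x, y, z) = _
  rw [h]
  ring

lemma mg1_symZ (hG : MeasurableSet G) (x : ℝ) : mg1 (symZ G) x = mg1 G x := by
  simp only [mg1_eq, lineLen_symZ hG]

lemma mg2_symZ (hG : MeasurableSet G) (x : ℝ) : mg1 (sw12L ⁻¹' symZ G) x = mg1 (sw12L ⁻¹' G) x := by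
  show (∫ y in (0:ℝ)..1, lineLen (symZ G) y x) = ∫ y in (0:ℝ)..1, lineLen G y x
  simp only [lineLen_symZ hG]

/-- The quadratic moment used for the lines. -/
noncomputable def hQuad (z : ℝ) : ℝ := min 1 ((z - 1 / 2) ^ 2)

lemma hQuad_meas : Measurable hQuad := by
  unfold hQuad
  fun_prop

lemma hQuad_abs (z : ℝ) : |hQuad z| ≤ 1 := by
  unfold hQuad
  rw [abs_of_nonneg (le_min zero_le_one (sq_nonneg _))]
  exact min_le_left _ _

lemma hQuad_eq {z : ℝ} (h0 : 0 ≤ z) (h1 : z ≤ 1) : hQuad z = (z - 1 / 2) ^ 2 := by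
  unfold hQuad
  apply min_eq_right
  nlinarith

lemma quad_integral {l : ℝ} (h0 : 0 ≤ l) (h1 : l ≤ 1) :
    ∫ z in (1 / 2 - l / 2)..(1 / 2 + l / 2), hQuad z = l ^ 3 / 12 := by
  have h2 : ∫ z in (1 / 2 - l / 2)..(1 / 2 + l / 2), hQuad z
      = ∫ z in (1 / 2 - l / 2)..(1 / 2 + l / 2), (z - 1 / 2) ^ 2 := by
    apply intervalIntegral.integral_congr
    intro z hz
    rw [uIcc_of_le (by linarith)] at hz
    exact hQuad_eq (by linarith [hz.1]) (by linarith [hz.2])
  rw [h2, intervalIntegral.integral_comp_sub_right (fun t => t ^ 2), integral_pow]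
  norm_num
  ring

lemma line_moment (hG : MeasurableSet G) (x y : ℝ) :
    ∫ z in (0:ℝ)..1, chi (symZ G) (x, y, z) * hQuad z = lineLen G x y ^ 3 / 12 := by
  rw [line_symZ_weight hG, quad_integral (lineLen_nonneg x y) (lineLen_le_one hG x y)]

/-- When the third marginal of the symmetral is constant, the lines have length `0` or `1`. -/
theorem lines_of_D3 (hG : MeasurableSet G) (hV : ∀ᵐ z, mg1 (sw13L ⁻¹' symZ G) z = torusVolume G) :
    ∀ᵐ x ∂(volume.restrict (Ioc (0:ℝ) 1)), ∀ᵐ y ∂(volume.restrict (Ioc (0:ℝ) 1)),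
      lineLen G x y = 0 ∨ lineLen G x y = 1 := by
  set V := torusVolume G with hVdef
  have hS := symZ_measurable hG
  have e1 := cell_mg3 hS hQuad_meas hQuad_abs
  have e2 : ∫ z in (0:ℝ)..1, mg1 (sw13L ⁻¹' symZ G) z * hQuad z = V * (1 / 12) := by
    have h1 : ∫ z in (0:ℝ)..1, mg1 (sw13L ⁻¹' symZ G) z * hQuad z = ∫ z in (0:ℝ)..1, V * hQuad z := by
      apply intervalIntegral.integral_congr_ae
      filter_upwards [hV] with z hz _
      rw [hz]
    have h2 : ∫ z in (0:ℝ)..1, hQuad z = 1 / 12 := by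
      have := quad_integral (l := 1) zero_le_one le_rfl
      norm_num at this
      exact this
    rw [h1, intervalIntegral.integral_const_mul, h2]
  have e3 : ∫ p in unitCell, chi (symZ G) p * hQuad p.2.2
      = ∫ x in (0:ℝ)..1, ∫ y in (0:ℝ)..1, lineLen G x y ^ 3 / 12 := by
    rw [cell_eq_iter (chi_mul_integrable hS (h := fun p => hQuad p.2.2)
      (hQuad_meas.comp (measurable_snd.comp measurable_snd)) fun p => hQuad_abs _)]
    simp only [line_moment hG]
  have hLm : Measurable (Function.uncurry (lineLen G)) := measurable_lineLen hG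
  have hL3 : Measurable (Function.uncurry fun x y => lineLen G x y ^ 3) := hLm.pow_const 3
  have hf : Measurable (Function.uncurry fun x y => lineLen G x y - lineLen G x y ^ 3) := hLm.sub hL3
  have h1L : ∀ x y, |lineLen G x y| ≤ 1 := fun x y => by
    rw [abs_of_nonneg (lineLen_nonneg x y)]
    exact lineLen_le_one hG x y
  have h1L3 : ∀ x y, |lineLen G x y ^ 3| ≤ 1 := fun x y => by
    rw [abs_pow]
    exact pow_le_one₀ (abs_nonneg _) (h1L x y)
  have hnn : ∀ x y, 0 ≤ lineLen G x y - lineLen G x y ^ 3 := by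
    intro x y
    have h0 := lineLen_nonneg (E := G) x y
    have h1 := lineLen_le_one hG x y
    nlinarith [mul_nonneg h0 (sub_nonneg.2 h1), mul_nonneg (mul_nonneg h0 (sub_nonneg.2 h1)) (add_nonneg h0 zero_le_one)]
  have hb : ∀ x y, lineLen G x y - lineLen G x y ^ 3 ≤ 1 := by
    intro x y
    have h0 := lineLen_nonneg (E := G) x y
    have h1 := lineLen_le_one hG x y
    have : 0 ≤ lineLen G x y ^ 3 := by positivity
    linarith
  have e4 : ∫ x in (0:ℝ)..1, ∫ y in (0:ℝ)..1, lineLen G x y ^ 3 = V := by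
    have h3 : ∫ x in (0:ℝ)..1, ∫ y in (0:ℝ)..1, lineLen G x y ^ 3 / 12
        = (∫ x in (0:ℝ)..1, ∫ y in (0:ℝ)..1, lineLen G x y ^ 3) / 12 := by
      rw [← intervalIntegral.integral_div]
      simp only [intervalIntegral.integral_div]
    have h4 : (∫ x in (0:ℝ)..1, ∫ y in (0:ℝ)..1, lineLen G x y ^ 3) / 12 = V * (1 / 12) := by
      rw [← h3, ← e3, e1, e2]
    linarith
  have hI : ∫ x in (0:ℝ)..1, ∫ y in (0:ℝ)..1, (lineLen G x y - lineLen G x y ^ 3) = 0 := by
    have h5 : ∀ x, ∫ y in (0:ℝ)..1, (lineLen G x y - lineLen G x y ^ 3)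
        = (∫ y in (0:ℝ)..1, lineLen G x y) - ∫ y in (0:ℝ)..1, lineLen G x y ^ 3 := fun x =>
      intervalIntegral.integral_sub (sec_ii hLm h1L x 0 1) (sec_ii hL3 h1L3 x 0 1)
    simp only [h5]
    rw [intervalIntegral.integral_sub (outer_ii hLm h1L 0 1) (outer_ii hL3 h1L3 0 1), e4, ← torusVolume_eq hG]
    ring
  have hz := dbl_ae_zero hf hnn hb hI
  filter_upwards [hz] with x hx
  filter_upwards [hx] with y hy
  have h0 := lineLen_nonneg (E := G) x y
  have h1 := lineLen_le_one hG x y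
  have h2 : lineLen G x y * (1 - lineLen G x y) * (1 + lineLen G x y) = 0 := by
    have : lineLen G x y * (1 - lineLen G x y) * (1 + lineLen G x y) = lineLen G x y - lineLen G x y ^ 3 := by ring
    rw [this]
    exact hy
  have h3 : 1 + lineLen G x y ≠ 0 := by positivity
  rcases mul_eq_zero.1 h2 with h4 | h4
  · rcases mul_eq_zero.1 h4 with h5 | h5
    · exact Or.inl h5
    · exact Or.inr (by linarith)
  · exact absurd h4 h3

/-- On a line of length `0` or `1`, the function is almost everywhere constant. -/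
lemma chi_line_of_L (hG : MeasurableSet G) {x y : ℝ} (h : lineLen G x y = 0 ∨ lineLen G x y = 1) :
    ∀ᵐ z ∂(volume.restrict (Ioc (0:ℝ) 1)), chi G (x, y, z) = lineLen G x y := by
  have hm := chi_line_measurable hG x y
  rcases h with h | h
  · have := ae_zero_of_integral (g := fun z => chi G (x, y, z)) (C := 1) hm (fun z => chi_nonneg _)
      (fun z => chi_le_one _) h
    filter_upwards [this] with z hz
    rw [hz, h]
  · have h2 : ∫ z in (0:ℝ)..1, (1 - chi G (x, y, z)) = 0 := by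
      rw [intervalIntegral.integral_sub intervalIntegrable_const (chi_line_ii hG x y 0 1)]
      have : ∫ z in (0:ℝ)..1, chi G (x, y, z) = 1 := h
      rw [this]
      simp
    have := ae_zero_of_integral (g := fun z => 1 - chi G (x, y, z)) (C := 1) (measurable_const.sub hm)
      (fun z => sub_nonneg.2 (chi_le_one _)) (fun z => by linarith [chi_nonneg (E := G) (x, y, z)]) h2
    filter_upwards [this] with z hz
    rw [h]
    linarith

/-- When the lines have length `0` or `1`, the third marginal is constant. -/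
theorem D3_of_lines (hG : MeasurableSet G) (hper : PeriodicSet G)
    (h01 : ∀ᵐ x ∂(volume.restrict (Ioc (0:ℝ) 1)), ∀ᵐ y ∂(volume.restrict (Ioc (0:ℝ) 1)),
      lineLen G x y = 0 ∨ lineLen G x y = 1) :
    ∀ᵐ z, mg1 (sw13L ⁻¹' G) z = torusVolume G := by
  set μ : Measure ℝ := volume.restrict (Ioc (0:ℝ) 1) with hμ
  have hLm : Measurable fun q : ℝ × ℝ => lineLen G q.1 q.2 := measurable_lineLen hG
  have hS : MeasurableSet {q : ℝ × ℝ | lineLen G q.1 q.2 = 0 ∨ lineLen G q.1 q.2 = 1} :=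
    (measurableSet_eq_fun hLm measurable_const).union (measurableSet_eq_fun hLm measurable_const)
  have h1 : ∀ᵐ q ∂(μ.prod μ), lineLen G q.1 q.2 = 0 ∨ lineLen G q.1 q.2 = 1 :=
    (Measure.ae_prod_iff_ae_ae hS).2 h01
  have h2 : ∀ᵐ q ∂(μ.prod μ), ∀ᵐ z ∂μ, chi G (q.1, q.2, z) = lineLen G q.1 q.2 :=
    h1.mono fun q hq => chi_line_of_L hG hq
  have hP : MeasurableSet {r : (ℝ × ℝ) × ℝ | chi G (r.1.1, r.1.2, r.2) = lineLen G r.1.1 r.1.2} := by
    apply measurableSet_eq_fun
    · exact (chi_measurable hG).comp (by fun_prop)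
    · exact hLm.comp (by fun_prop)
  have h3 := (Measure.ae_ae_comm (p := fun (q : ℝ × ℝ) z => chi G (q.1, q.2, z) = lineLen G q.1 q.2) hP).1 h2
  have hp₃ : PeriodicSet (sw13L ⁻¹' G) := τ13.perSet hper
  refine ae_of_Ioc (fun z => by rw [mg1_periodic hp₃]) ?_
  filter_upwards [h3] with z hz
  have h4 : ∀ᵐ x ∂μ, ∀ᵐ y ∂μ, chi G (x, y, z) = lineLen G x y :=
    Measure.ae_ae_of_ae_prod hz
  have hm : Measurable (Function.uncurry fun a b => chi G (b, a, z)) :=
    (chi_measurable hG).comp (by fun_prop)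
  have e1 : mg1 (sw13L ⁻¹' G) z = ∫ x in (0:ℝ)..1, ∫ y in (0:ℝ)..1, chi G (x, y, z) := by
    have := swap_bdd (f := fun a b => chi G (b, a, z)) hm (fun a b => by
      rw [abs_of_nonneg (chi_nonneg _)]
      exact chi_le_one _)
    exact this
  rw [e1, torusVolume_eq hG]
  simp only [intervalIntegral.integral_of_le zero_le_one]
  apply MeasureTheory.integral_congr_ae
  filter_upwards [h4] with x hx
  apply MeasureTheory.integral_congr_ae
  exact hx

/-- When the first marginal takes the values `0` and `1`, the lines have length `0` or `1`. -/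
lemma lines_of_mg1 (hG : MeasurableSet G) (h : ∀ᵐ x, mg1 G x = 0 ∨ mg1 G x = 1) :
    ∀ᵐ x ∂(volume.restrict (Ioc (0:ℝ) 1)), ∀ᵐ y ∂(volume.restrict (Ioc (0:ℝ) 1)),
      lineLen G x y = 0 ∨ lineLen G x y = 1 := by
  have hLm : Measurable (Function.uncurry (lineLen G)) := measurable_lineLen hG
  filter_upwards [ae_restrict_of_ae h] with x hx
  rcases hx with hx | hx
  · have := ae_zero_of_integral (g := lineLen G x) (C := 1) (sec_measurable hLm x)
      (fun y => lineLen_nonneg _ _) (fun y => lineLen_le_one hG _ _) hx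
    filter_upwards [this] with y hy
    exact Or.inl hy
  · have h2 : ∫ y in (0:ℝ)..1, (1 - lineLen G x y) = 0 := by
      rw [intervalIntegral.integral_sub intervalIntegrable_const (lineLen_ii hG x 0 1)]
      have : ∫ y in (0:ℝ)..1, lineLen G x y = 1 := hx
      rw [this]
      simp
    have := ae_zero_of_integral (g := fun y => 1 - lineLen G x y) (C := 1)
      (measurable_const.sub (sec_measurable hLm x))
      (fun y => sub_nonneg.2 (lineLen_le_one hG _ _)) (fun y => by linarith [lineLen_nonneg (E := G) x y]) h2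
    filter_upwards [this] with y hy
    exact Or.inr (by linarith)

end Lines

/-! ### The chain of symmetrisations -/

/-- Constancy of each of the marginals of `X` implies the same for `Y`. -/
def AllD (X Y : Set R3) (V : ℝ) : Prop :=
  ((∀ᵐ x, mg1 X x = V) → ∀ᵐ x, mg1 Y x = V) ∧
  ((∀ᵐ x, mg1 (sw12L ⁻¹' X) x = V) → ∀ᵐ x, mg1 (sw12L ⁻¹' Y) x = V) ∧
  ((∀ᵐ x, mg1 (sw13L ⁻¹' X) x = V) → ∀ᵐ x, mg1 (sw13L ⁻¹' Y) x = V)

lemma AllD.trans {X Y Z : Set R3} {V : ℝ} (h1 : AllD X Y V) (h2 : AllD Y Z V) : AllD X Z V :=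
  ⟨fun h => h2.1 (h1.1 h), fun h => h2.2.1 (h1.2.1 h), fun h => h2.2.2 (h1.2.2 h)⟩

lemma allD_symZ {G : Set R3} (hG : MeasurableSet G) (hper : PeriodicSet G) :
    AllD (symZ G) G (torusVolume G) := by
  refine ⟨fun h => ?_, fun h => ?_, fun h => ?_⟩
  · simpa only [mg1_symZ hG] using h
  · simpa only [mg2_symZ hG] using h
  · exact D3_of_lines hG hper (lines_of_D3 hG h)

lemma allD_τ13 {X : Set R3} (hX : MeasurableSet X) (hper : PeriodicSet X) :
    AllD (τ13.symm X) X (torusVolume X) := by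
  set H := sw13L ⁻¹' X with hH
  have hHm : MeasurableSet H := τ13.measurable_pre hX
  have hHp : PeriodicSet H := τ13.perSet hper
  have hS : MeasurableSet (symZ H) := symZ_measurable hHm
  have eV : torusVolume H = torusVolume X := τ13.volume_pre hX
  have eS : τ13.symm X = sw13L ⁻¹' symZ H := rfl
  rw [eS]
  refine ⟨fun h => ?_, fun h => ?_, fun h => ?_⟩
  · -- the first direction
    have h1 := (allD_symZ hHm hHp).2.2 (by rw [eV]; exact h)
    rw [eV, hH, sw13_sw13] at h1
    exact h1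
  · have e : ∀ x, mg1 (sw12L ⁻¹' (sw13L ⁻¹' symZ H)) x = mg1 (sw12L ⁻¹' X) x := by
      intro x
      rw [mg1_13_12 hS, mg2_symZ hHm, hH, mg1_13_12 hX]
    simpa only [e] using h
  · have e : ∀ x, mg1 (sw13L ⁻¹' (sw13L ⁻¹' symZ H)) x = mg1 (sw13L ⁻¹' X) x := by
      intro x
      rw [sw13_sw13, mg1_symZ hHm]
    simpa only [e] using h

lemma sw12_sw23 (X : Set R3) : sw12L ⁻¹' (sw23L ⁻¹' X) = sw23L ⁻¹' (sw13L ⁻¹' X) := by
  ext p
  rfl

lemma sw13_sw23 (X : Set R3) : sw13L ⁻¹' (sw23L ⁻¹' X) = sw23L ⁻¹' (sw12L ⁻¹' X) := by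
  ext p
  rfl

lemma mg2_sw23 {X : Set R3} (hX : MeasurableSet X) (x : ℝ) :
    mg1 (sw12L ⁻¹' (sw23L ⁻¹' X)) x = mg1 (sw13L ⁻¹' X) x := by
  rw [sw12_sw23]
  exact mg1_sw23 (τ13.measurable_pre hX) x

lemma mg3_sw23 {X : Set R3} (hX : MeasurableSet X) (x : ℝ) :
    mg1 (sw13L ⁻¹' (sw23L ⁻¹' X)) x = mg1 (sw12L ⁻¹' X) x := by
  rw [sw13_sw23]
  exact mg1_sw23 (τ12.measurable_pre hX) x

lemma allD_τ23 {X : Set R3} (hX : MeasurableSet X) (hper : PeriodicSet X) :
    AllD (τ23.symm X) X (torusVolume X) := by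
  set H := sw23L ⁻¹' X with hH
  have hHm : MeasurableSet H := τ23.measurable_pre hX
  have hHp : PeriodicSet H := τ23.perSet hper
  have hS : MeasurableSet (symZ H) := symZ_measurable hHm
  have eV : torusVolume H = torusVolume X := τ23.volume_pre hX
  have eS : τ23.symm X = sw23L ⁻¹' symZ H := rfl
  rw [eS]
  refine ⟨fun h => ?_, fun h => ?_, fun h => ?_⟩
  · have e : ∀ x, mg1 (sw23L ⁻¹' symZ H) x = mg1 X x := by
      intro x
      rw [mg1_sw23 hS, mg1_symZ hHm, hH, mg1_sw23 hX]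
    simpa only [e] using h
  · -- the second direction
    have h0 : ∀ᵐ x, mg1 (sw13L ⁻¹' symZ H) x = torusVolume H := by
      rw [eV]
      simpa only [mg2_sw23 hS] using h
    have h1 := (allD_symZ hHm hHp).2.2 h0
    rw [eV] at h1
    simpa only [hH, mg3_sw23 hX] using h1
  · have e : ∀ x, mg1 (sw13L ⁻¹' (sw23L ⁻¹' symZ H)) x = mg1 (sw13L ⁻¹' X) x := by
      intro x
      rw [mg3_sw23 hS, mg2_symZ hHm, hH, mg2_sw23 hX]
    simpa only [e] using h

/-- The properties of the full symmetrisation. -/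
theorem symAll_spec {E : Set R3} (hm : MeasurableSet E) (hp : PeriodicSet E) :
    MeasurableSet (symAll E) ∧ PeriodicSet (symAll E) ∧ torusVolume (symAll E) = torusVolume E ∧
      perimeter (symAll E) ≤ perimeter E ∧ SD (symAll E) ∧ AllD (symAll E) E (torusVolume E) := by
  have m1 : MeasurableSet (symZ E) := symZ_measurable hm
  have p1 : PeriodicSet (symZ E) := symZ_periodic hp
  have m2 : MeasurableSet (τ13.symm (symZ E)) := τ13.symm_measurable m1
  have p2 : PeriodicSet (τ13.symm (symZ E)) := τ13.symm_periodic p1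
  refine ⟨τ23.symm_measurable m2, τ23.symm_periodic p2, ?_, ?_, ?_, ?_⟩
  · unfold symAll
    rw [τ23.symm_volume m2, τ13.symm_volume m1, torusVolume_symZ hm]
  · exact (τ23.symm_perimeter_le m2 p2).trans ((τ13.symm_perimeter_le m1 p1).trans (perimeter_symZ_le hm hp))
  · -- monotonicity
    have hZ1 : MonoZ (symZ E) := symZ_monoZ E
    have m1' : MeasurableSet (sw13L ⁻¹' symZ E) := τ13.measurable_pre m1
    have hX2' : MonoX (symZ (sw13L ⁻¹' symZ E)) := symZ_monoX m1' (monoX_τ13 hZ1)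
    have hZ2' : MonoZ (symZ (sw13L ⁻¹' symZ E)) := symZ_monoZ _
    have hX2 : MonoX (τ13.symm (symZ E)) := monoX_τ13 hZ2'
    have hZ2 : MonoZ (τ13.symm (symZ E)) := monoZ_τ13 hX2'
    have m2' : MeasurableSet (sw23L ⁻¹' τ13.symm (symZ E)) := τ23.measurable_pre m2
    have hX3' : MonoX (symZ (sw23L ⁻¹' τ13.symm (symZ E))) := symZ_monoX m2' (monoX_τ23 hX2)
    have hY3' : MonoY (symZ (sw23L ⁻¹' τ13.symm (symZ E))) := symZ_monoY m2' (monoY_τ23 hZ2)
    have hZ3' : MonoZ (symZ (sw23L ⁻¹' τ13.symm (symZ E))) := symZ_monoZ _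
    have hX3 : MonoX (symAll E) := monoX_τ23 hX3'
    have hY3 : MonoY (symAll E) := monoY_τ23 hZ3'
    have hZ3 : MonoZ (symAll E) := monoZ_τ23 hY3'
    intro x y z x1 y1 z1 hx hy hz hmem
    exact hZ3 x1 y1 z z1 hz (hY3 x1 y y1 z hy (hX3 x x1 y z hx hmem))
  · have a1 := allD_symZ hm hp
    have a2 := allD_τ13 m1 p1
    have a3 := allD_τ23 m2 p2
    rw [τ13.symm_volume m1] at a3
    rw [torusVolume_symZ hm] at a2 a3
    exact (a3.trans a2).trans a1

/-- In the gap of volumes, one of the marginals is constant. -/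
theorem gap_branch {E : Set R3} (hE : MeasurableSet E) (hper : PeriodicSet E) (hP : perimeter E ≠ ⊤)
    (hJ : (perimeter E).toReal ≤ profileJ (torusVolume E))
    (h1 : 0.2675 ≤ torusVolume E) (h2 : torusVolume E ≤ 0.3592) :
    (∀ᵐ x, mg1 E x = torusVolume E) ∨ (∀ᵐ x, mg1 (sw12L ⁻¹' E) x = torusVolume E) ∨
      (∀ᵐ x, mg1 (sw13L ⁻¹' E) x = torusVolume E) := by
  obtain ⟨hFm, hFp, hFv, hFP, hFS, hAll⟩ := symAll_spec hE hper
  set F := symAll E with hF
  set V := torusVolume E with hV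
  have hPF : perimeter F ≠ ⊤ := ne_top_of_le_ne_top hP hFP
  have hQF : (perimeter F).toReal ≤ profileJ V := (ENNReal.toReal_mono hP hFP).trans hJ
  have hgen : ∀ G : Set R3, MeasurableSet G → PeriodicSet G → perimeter G = perimeter F → torusVolume G = V →
      (∀ m a : ℝ, 0 ≤ m → a ≤ 1 → IsRange (mg1 G) m a → m = a ∨ (m = 0 ∧ a = 1)) →
      (∀ᵐ x, mg1 G x = V) ∨ (∀ᵐ x, mg1 (sw13L ⁻¹' G) x = V) := by
    intro G hGm hGp hGP hGV hrig
    obtain ⟨m, a, hm0, ha1, hR⟩ := exists_range (f := mg1 G) (fun x => mg1_nonneg x) (mg1_le_one hGm)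
    obtain ⟨h3, h4⟩ := hR.volume_mem hGm
    rw [hGV] at h3 h4
    rcases hrig m a hm0 ha1 hR with e | ⟨e0, e1⟩
    · left
      have e1 : m = V := le_antisymm h3 (h4.trans e.ge)
      have e2 : a = V := le_antisymm (e.ge.trans h3) h4
      filter_upwards [hR.ae_low, hR.ae_up] with x h5 h6
      rw [e1] at h5
      rw [e2] at h6
      exact le_antisymm h6 h5
    · right
      rw [e0, e1] at hR
      have hle : (perimeter G).toReal ≤ 2 := by
        rw [hGP]
        exact hQF.trans (profileJ_le_two V)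
      have h01 := corner_ae hGm hGp (by rw [hGP]; exact hPF) hR hle
      have := D3_of_lines hGm hGp (lines_of_mg1 hGm h01)
      rwa [hGV] at this
  obtain ⟨G, hG, hrig⟩ := gap_SD_rigid hFm hFp hFS (by rw [hFv]; exact h1) (by rw [hFv]; exact h2) hPF
    (by rw [hFv]; exact hQF)
  have hD : (∀ᵐ x, mg1 F x = V) ∨ (∀ᵐ x, mg1 (sw12L ⁻¹' F) x = V) ∨ (∀ᵐ x, mg1 (sw13L ⁻¹' F) x = V) := by
    rcases hG with e | e | e
    · rw [e] at hrig
      rcases hgen F hFm hFp rfl hFv hrig with h | h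
      · exact Or.inl h
      · exact Or.inr (Or.inr h)
    · rw [e] at hrig
      rcases hgen (sw12L ⁻¹' F) (τ12.measurable_pre hFm) (τ12.perSet hFp) (τ12.perimeter_pre F)
        ((τ12.volume_pre hFm).trans hFv) hrig with h | h
      · exact Or.inr (Or.inl h)
      · right; right
        simpa only [mg1_12_13 hFm] using h
    · rw [e] at hrig
      rcases hgen (sw13L ⁻¹' F) (τ13.measurable_pre hFm) (τ13.perSet hFp) (τ13.perimeter_pre F)
        ((τ13.volume_pre hFm).trans hFv) hrig with h | h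
      · exact Or.inr (Or.inr h)
      · left
        rwa [sw13_sw13] at h
  rcases hD with h | h | h
  · exact Or.inl (hAll.1 h)
  · exact Or.inr (Or.inl (hAll.2.1 h))
  · exact Or.inr (Or.inr (hAll.2.2 h))

end Vale.Agent.Lib.P232
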