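import Vale.Agent.Lib.P232.Cl11

open MeasureTheory Set intervalIntegral Filter
open scoped Topology ENNReal

namespace Vale.Agent.Lib.P232

/-! ### Transport of the models under the swaps -/

lemma sw12_tubeX (c c' r : ℝ) : sw12L ⁻¹' tubeX c c' r = tubeY c c' r := rfl

lemma sw12_tubeY (c c' r : ℝ) : sw12L ⁻¹' tubeY c c' r = tubeX c c' r := rfl

lemma sw12_tubeZ (c c' r : ℝ) : sw12L ⁻¹' tubeZ c c' r = tubeZ c' c r := by
  ext ⟨x, y, z⟩
  show cdist y c ^ 2 + cdist x c' ^ 2 < r ^ 2 ↔ cdist x c' ^ 2 + cdist y c ^ 2 < r ^ 2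
  rw [add_comm]

lemma sw13_tubeX (c c' r : ℝ) : sw13L ⁻¹' tubeX c c' r = tubeZ c' c r := by
  ext ⟨x, y, z⟩
  show cdist y c ^ 2 + cdist x c' ^ 2 < r ^ 2 ↔ cdist x c' ^ 2 + cdist y c ^ 2 < r ^ 2
  rw [add_comm]

lemma sw13_tubeY (c c' r : ℝ) : sw13L ⁻¹' tubeY c c' r = tubeY c' c r := by
  ext ⟨x, y, z⟩
  show cdist z c ^ 2 + cdist x c' ^ 2 < r ^ 2 ↔ cdist x c' ^ 2 + cdist z c ^ 2 < r ^ 2
  rw [add_comm]

lemma sw13_tubeZ (c c' r : ℝ) : sw13L ⁻¹' tubeZ c c' r = tubeX c' c r := by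
  ext ⟨x, y, z⟩
  show cdist z c ^ 2 + cdist y c' ^ 2 < r ^ 2 ↔ cdist y c' ^ 2 + cdist z c ^ 2 < r ^ 2
  rw [add_comm]

lemma sw12_slabX (c w : ℝ) : sw12L ⁻¹' slabX c w = slabY c w := rfl
lemma sw12_slabY (c w : ℝ) : sw12L ⁻¹' slabY c w = slabX c w := rfl
lemma sw12_slabZ (c w : ℝ) : sw12L ⁻¹' slabZ c w = slabZ c w := rfl
lemma sw13_slabX (c w : ℝ) : sw13L ⁻¹' slabX c w = slabZ c w := rfl
lemma sw13_slabY (c w : ℝ) : sw13L ⁻¹' slabY c w = slabY c w := rfl
lemma sw13_slabZ (c w : ℝ) : sw13L ⁻¹' slabZ c w = slabX c w := rfl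

lemma tubeY_measurable (c c' r : ℝ) : MeasurableSet (tubeY c c' r) :=
  τ12.measurable_pre (tubeX_measurable c c' r)

lemma tubeZ_measurable (c c' r : ℝ) : MeasurableSet (tubeZ c c' r) := by
  rw [← sw13_tubeX]
  exact τ13.measurable_pre (tubeX_measurable c' c r)

/-- The class of canonical sets is invariant under the swap of the first two coordinates. -/
lemma canonical_of_sw12 {E : Set R3} {v : ℝ} (hE : MeasurableSet E) (h : IsCanonical (sw12L ⁻¹' E) v) :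
    IsCanonical E v := by
  rcases h with ⟨c₁, c₂, c₃, r, h0, h1, h2, h3⟩ | ⟨c, c', r, h0, h1, h2, h3 | h3 | h3⟩ | ⟨c, h3 | h3 | h3⟩
  · rw [← sw12_ballSet c₂ c₁ c₃ r] at h3
    exact Or.inl ⟨c₂, c₁, c₃, r, h0, h1, h2, AeEqTorus.of_pre τ12 hE (ballSet_measurable _ _ _ _) h3⟩
  · rw [← sw12_tubeY] at h3
    exact Or.inr (Or.inl ⟨c, c', r, h0, h1, h2, Or.inr (Or.inl (AeEqTorus.of_pre τ12 hE (tubeY_measurable _ _ _) h3))⟩)
  · rw [← sw12_tubeX] at h3
    exact Or.inr (Or.inl ⟨c, c', r, h0, h1, h2, Or.inl (AeEqTorus.of_pre τ12 hE (tubeX_measurable _ _ _) h3)⟩)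
  · rw [← sw12_tubeZ c' c r] at h3
    exact Or.inr (Or.inl ⟨c', c, r, h0, h1, h2, Or.inr (Or.inr (AeEqTorus.of_pre τ12 hE (tubeZ_measurable _ _ _) h3))⟩)
  · rw [← sw12_slabY] at h3
    exact Or.inr (Or.inr ⟨c, Or.inr (Or.inl (AeEqTorus.of_pre τ12 hE (slabY_measurable _ _) h3))⟩)
  · rw [← sw12_slabX] at h3
    exact Or.inr (Or.inr ⟨c, Or.inl (AeEqTorus.of_pre τ12 hE (slabX_measurable _ _) h3)⟩)
  · rw [← sw12_slabZ] at h3
    exact Or.inr (Or.inr ⟨c, Or.inr (Or.inr (AeEqTorus.of_pre τ12 hE (slabZ_measurable _ _) h3))⟩)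

/-- The class of canonical sets is invariant under the swap of the first and third coordinates. -/
lemma canonical_of_sw13 {E : Set R3} {v : ℝ} (hE : MeasurableSet E) (h : IsCanonical (sw13L ⁻¹' E) v) :
    IsCanonical E v := by
  rcases h with ⟨c₁, c₂, c₃, r, h0, h1, h2, h3⟩ | ⟨c, c', r, h0, h1, h2, h3 | h3 | h3⟩ | ⟨c, h3 | h3 | h3⟩
  · rw [← sw13_ballSet c₃ c₂ c₁ r] at h3
    exact Or.inl ⟨c₃, c₂, c₁, r, h0, h1, h2, AeEqTorus.of_pre τ13 hE (ballSet_measurable _ _ _ _) h3⟩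
  · rw [← sw13_tubeZ c' c r] at h3
    exact Or.inr (Or.inl ⟨c', c, r, h0, h1, h2, Or.inr (Or.inr (AeEqTorus.of_pre τ13 hE (tubeZ_measurable _ _ _) h3))⟩)
  · rw [← sw13_tubeY c' c r] at h3
    exact Or.inr (Or.inl ⟨c', c, r, h0, h1, h2, Or.inr (Or.inl (AeEqTorus.of_pre τ13 hE (tubeY_measurable _ _ _) h3))⟩)
  · rw [← sw13_tubeX c' c r] at h3
    exact Or.inr (Or.inl ⟨c', c, r, h0, h1, h2, Or.inl (AeEqTorus.of_pre τ13 hE (tubeX_measurable _ _ _) h3)⟩)
  · rw [← sw13_slabZ] at h3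
    exact Or.inr (Or.inr ⟨c, Or.inr (Or.inr (AeEqTorus.of_pre τ13 hE (slabZ_measurable _ _) h3))⟩)
  · rw [← sw13_slabY] at h3
    exact Or.inr (Or.inr ⟨c, Or.inr (Or.inl (AeEqTorus.of_pre τ13 hE (slabY_measurable _ _) h3))⟩)
  · rw [← sw13_slabX] at h3
    exact Or.inr (Or.inr ⟨c, Or.inl (AeEqTorus.of_pre τ13 hE (slabX_measurable _ _) h3)⟩)

/-- A constant marginal in some direction gives a tube or a slab. -/
theorem diag_any {E : Set R3} (hE : MeasurableSet E) (hper : PeriodicSet E) (hP : perimeter E ≠ ⊤)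
    (hJ : (perimeter E).toReal ≤ profileJ (torusVolume E)) (hV0 : 0 < torusVolume E)
    (hV : torusVolume E ≤ 1 / 2)
    (h : (∀ᵐ x, mg1 E x = torusVolume E) ∨ (∀ᵐ x, mg1 (sw12L ⁻¹' E) x = torusVolume E) ∨
      (∀ᵐ x, mg1 (sw13L ⁻¹' E) x = torusVolume E)) :
    IsCanonical E (torusVolume E) := by
  have hE₂ : MeasurableSet (sw12L ⁻¹' E) := τ12.measurable_pre hE
  have hE₃ : MeasurableSet (sw13L ⁻¹' E) := τ13.measurable_pre hE
  have hp₂ : PeriodicSet (sw12L ⁻¹' E) := τ12.perSet hper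
  have hp₃ : PeriodicSet (sw13L ⁻¹' E) := τ13.perSet hper
  have e₂ : perimeter (sw12L ⁻¹' E) = perimeter E := τ12.perimeter_pre E
  have e₃ : perimeter (sw13L ⁻¹' E) = perimeter E := τ13.perimeter_pre E
  have v₂ : torusVolume (sw12L ⁻¹' E) = torusVolume E := τ12.volume_pre hE
  have v₃ : torusVolume (sw13L ⁻¹' E) = torusVolume E := τ13.volume_pre hE
  rcases h with h | h | h
  · exact diag_branch hE hper hP hJ hV0 hV h
  · have := diag_branch hE₂ hp₂ (by rwa [e₂]) (by rwa [e₂, v₂]) (by rwa [v₂]) (by rwa [v₂]) (by rwa [v₂])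
    rw [v₂] at this
    exact canonical_of_sw12 hE this
  · have := diag_branch hE₃ hp₃ (by rwa [e₃]) (by rwa [e₃, v₃]) (by rwa [v₃]) (by rwa [v₃]) (by rwa [v₃])
    rw [v₃] at this
    exact canonical_of_sw13 hE this

/-- The analysis in the direction with the largest smallest section. -/
theorem main_dir {E : Set R3} (hE : MeasurableSet E) (hper : PeriodicSet E) (hP : perimeter E ≠ ⊤)
    (hJ : (perimeter E).toReal ≤ profileJ (torusVolume E)) (hV0 : 0 < torusVolume E)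
    (hV : torusVolume E ≤ 1 / 2) (hgap : torusVolume E ≤ 0.2675 ∨ 0.3592 ≤ torusVolume E)
    {m₁ a₁ m₂ a₂ m₃ a₃ : ℝ} (hm₁ : 0 ≤ m₁) (ha₁ : a₁ ≤ 1) (hm₂ : 0 ≤ m₂) (hm₃ : 0 ≤ m₃)
    (hR₁ : IsRange (mg1 E) m₁ a₁) (hR₂ : IsRange (mg1 (sw12L ⁻¹' E)) m₂ a₂)
    (hR₃ : IsRange (mg1 (sw13L ⁻¹' E)) m₃ a₃) (h12 : m₂ ≤ m₁) (h13 : m₃ ≤ m₁) :
    IsCanonical E (torusVolume E) := by
  set V := torusVolume E with hVdef
  have hE₂ : MeasurableSet (sw12L ⁻¹' E) := τ12.measurable_pre hE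
  have hE₃ : MeasurableSet (sw13L ⁻¹' E) := τ13.measurable_pre hE
  have v₂ : torusVolume (sw12L ⁻¹' E) = V := τ12.volume_pre hE
  have v₃ : torusVolume (sw13L ⁻¹' E) = V := τ13.volume_pre hE
  obtain ⟨h3, h4⟩ := hR₁.volume_mem hE
  obtain ⟨h5, h6⟩ := hR₂.volume_mem hE₂
  obtain ⟨h7, h8⟩ := hR₃.volume_mem hE₃
  rw [v₂] at h5 h6
  rw [v₃] at h7 h8
  have hS := SS_pos
  have eSS : toR SS = 1 := by
    unfold toR
    field_simp
  have e0 : toR 0 = 0 := by simp [toR]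
  have hS' : StrictGood m₁ a₁ V ∨ Ext m₁ a₁ V := by
    rcases hgap with h | h
    · have e1 : toR 267500000 = 0.2675 := by
        unfold toR SS
        norm_num
      refine checkS_sound certR1 0 267500000 0 SS 0 267500000 certR1_strict m₁ a₁ V ?_ ?_ ?_ ?_ ?_ ?_ hm₁ h3 h4 ha₁ hV0
      · rw [e0]; exact hm₁
      · rw [e1]; linarith
      · rw [e0]; linarith
      · rw [eSS]; exact ha₁
      · rw [e0]; exact hV0.le
      · rw [e1]; exact h
    · have e1 : toR 500000000 = 1 / 2 := by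
        unfold toR SS
        norm_num
      have e2 : toR 359200000 = 0.3592 := by
        unfold toR SS
        norm_num
      refine checkS_sound certR2 0 500000000 359200000 SS 359200000 500000000 certR2_strict m₁ a₁ V ?_ ?_ ?_ ?_ ?_ ?_ hm₁ h3 h4 ha₁ hV0
      · rw [e0]; exact hm₁
      · rw [e1]; linarith
      · rw [e2]; linarith
      · rw [eSS]; exact ha₁
      · rw [e2]; exact h
      · rw [e1]; exact hV
  have hApp : Approx E (smoothSeq hE hper) := approx_smoothSeq hE hper hP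
  rcases hS' with ⟨B, hB, hv | hv⟩ | hext
  · have := hApp.limit_value1 hR₁ hv
    exact absurd hB (not_lt.2 (this.trans hJ))
  · have := hApp.limit_value2 hR₁ hR₂ hR₃ hv
    exact absurd hB (not_lt.2 (by linarith))
  · rcases hext with ⟨e1, _⟩ | e1 | ⟨e1, e2⟩
    · -- the ball
      have e₂ : m₂ = 0 := le_antisymm (by linarith) hm₂
      have e₃ : m₃ = 0 := le_antisymm (by linarith) hm₃
      rw [e1] at hR₁
      rw [e₂] at hR₂
      rw [e₃] at hR₃
      exact ball_branch hE hper hP hJ hV0 (by linarith) (by linarith) (by linarith) hR₁ hR₂ hR₃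
    · -- the sections of constant area
      have e2 : m₁ = V := le_antisymm h3 (h4.trans e1.ge)
      have e3 : a₁ = V := le_antisymm (e1.ge.trans h3) h4
      refine diag_any hE hper hP hJ hV0 hV (Or.inl ?_)
      filter_upwards [hR₁.ae_low, hR₁.ae_up] with x h9 h10
      rw [e2] at h9
      rw [e3] at h10
      exact le_antisymm h10 h9
    · -- the sections of extreme area
      rw [e1, e2] at hR₁
      have hQ2 := hJ.trans (profileJ_le_two V)
      have h01 := corner_ae hE hper hP hR₁ hQ2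
      obtain ⟨c, hc⟩ := slab_finish hE hper hP hQ2 h01 hV0 (by linarith)
      exact Or.inr (Or.inr ⟨c, Or.inl hc⟩)

/-- The classification of the sets of minimal perimeter of volume at most `1/2`. -/
theorem classify_half {E : Set R3} (hE : MeasurableSet E) (hper : PeriodicSet E) (hP : perimeter E ≠ ⊤)
    (hJ : (perimeter E).toReal ≤ profileJ (torusVolume E)) (hV0 : 0 < torusVolume E)
    (hV : torusVolume E ≤ 1 / 2) : IsCanonical E (torusVolume E) := by
  by_cases hgap : 0.2675 ≤ torusVolume E ∧ torusVolume E ≤ 0.3592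
  · exact diag_any hE hper hP hJ hV0 hV (gap_branch hE hper hP hJ hgap.1 hgap.2)
  have hgap' : torusVolume E ≤ 0.2675 ∨ 0.3592 ≤ torusVolume E := by
    by_contra hcon
    push Not at hcon hgap
    exact absurd hcon.2.le (not_le.2 (hgap hcon.1.le))
  have hE₂ : MeasurableSet (sw12L ⁻¹' E) := τ12.measurable_pre hE
  have hE₃ : MeasurableSet (sw13L ⁻¹' E) := τ13.measurable_pre hE
  have hp₂ : PeriodicSet (sw12L ⁻¹' E) := τ12.perSet hper
  have hp₃ : PeriodicSet (sw13L ⁻¹' E) := τ13.perSet hper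
  have e₂ : perimeter (sw12L ⁻¹' E) = perimeter E := τ12.perimeter_pre E
  have e₃ : perimeter (sw13L ⁻¹' E) = perimeter E := τ13.perimeter_pre E
  have v₂ : torusVolume (sw12L ⁻¹' E) = torusVolume E := τ12.volume_pre hE
  have v₃ : torusVolume (sw13L ⁻¹' E) = torusVolume E := τ13.volume_pre hE
  obtain ⟨m₁, a₁, hm₁, ha₁, hR₁⟩ := exists_range (f := mg1 E) (fun x => mg1_nonneg x) (mg1_le_one hE)
  obtain ⟨m₂, a₂, hm₂, ha₂, hR₂⟩ := exists_range (f := mg1 (sw12L ⁻¹' E)) (fun x => mg1_nonneg x) (mg1_le_one hE₂)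
  obtain ⟨m₃, a₃, hm₃, ha₃, hR₃⟩ := exists_range (f := mg1 (sw13L ⁻¹' E)) (fun x => mg1_nonneg x) (mg1_le_one hE₃)
  have third : m₁ ≤ m₃ → m₂ ≤ m₃ → IsCanonical E (torusVolume E) := by
    intro h1 h2
    have hR₃₂ : IsRange (mg1 (sw12L ⁻¹' (sw13L ⁻¹' E))) m₂ a₂ := by
      have : mg1 (sw12L ⁻¹' (sw13L ⁻¹' E)) = mg1 (sw12L ⁻¹' E) := funext (mg1_13_12 hE)
      rwa [this]
    have hR₃₁ : IsRange (mg1 (sw13L ⁻¹' (sw13L ⁻¹' E))) m₁ a₁ := by rwa [sw13_sw13]
    have := main_dir hE₃ hp₃ (by rwa [e₃]) (by rwa [e₃, v₃]) (by rwa [v₃]) (by rwa [v₃]) (by rwa [v₃])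
      hm₃ ha₃ hm₂ hm₁ hR₃ hR₃₂ hR₃₁ h2 h1
    rw [v₃] at this
    exact canonical_of_sw13 hE this
  have second : m₁ ≤ m₂ → m₃ ≤ m₂ → IsCanonical E (torusVolume E) := by
    intro h1 h2
    have hR₂₁ : IsRange (mg1 (sw12L ⁻¹' (sw12L ⁻¹' E))) m₁ a₁ := by rwa [sw12_sw12]
    have hR₂₃ : IsRange (mg1 (sw13L ⁻¹' (sw12L ⁻¹' E))) m₃ a₃ := by
      have : mg1 (sw13L ⁻¹' (sw12L ⁻¹' E)) = mg1 (sw13L ⁻¹' E) := funext (mg1_12_13 hE)
      rwa [this]
    have := main_dir hE₂ hp₂ (by rwa [e₂]) (by rwa [e₂, v₂]) (by rwa [v₂]) (by rwa [v₂]) (by rwa [v₂])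
      hm₂ ha₂ hm₁ hm₃ hR₂ hR₂₁ hR₂₃ h1 h2
    rw [v₂] at this
    exact canonical_of_sw12 hE this
  rcases le_total m₂ m₁ with h12 | h12
  · rcases le_total m₃ m₁ with h13 | h13
    · exact main_dir hE hper hP hJ hV0 hV hgap' hm₁ ha₁ hm₂ hm₃ hR₁ hR₂ hR₃ h12 h13
    · exact third h13 (h12.trans h13)
  · rcases le_total m₃ m₂ with h23 | h23
    · exact second h12 h23
    · exact third (h12.trans h23) h23

/-- The complement has the same perimeter. -/
lemma perimeter_compl {E : Set R3} (hE : MeasurableSet E) : perimeter Eᶜ = perimeter E := by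
  apply le_antisymm (perimeter_compl_le hE)
  have := perimeter_compl_le hE.compl
  rwa [compl_compl] at this

lemma profileJ_nonneg' {v : ℝ} (hv : 0 ≤ v) : 0 ≤ profileJ v := by
  unfold profileJ
  refine le_min (le_min (by positivity) (by positivity)) (by norm_num)

/-- The classification of the sets of minimal perimeter of the cubic torus. -/
theorem classify {E : Set R3} (hE : MeasurableSet E) (hper : PeriodicSet E) (hV0 : 0 < torusVolume E)
    (hV1 : torusVolume E < 1)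
    (heq : perimeter E = ENNReal.ofReal (profileJ (min (torusVolume E) (1 - torusVolume E)))) :
    (torusVolume E ≤ 1 / 2 → IsCanonical E (torusVolume E)) ∧
      (1 / 2 ≤ torusVolume E → IsCanonical Eᶜ (1 - torusVolume E)) := by
  have hP : perimeter E ≠ ⊤ := by
    rw [heq]
    exact ENNReal.ofReal_ne_top
  constructor
  · intro hV
    rw [min_eq_left (by linarith)] at heq
    apply classify_half hE hper hP _ hV0 hV
    rw [heq, ENNReal.toReal_ofReal (profileJ_nonneg' hV0.le)]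
  · intro hV
    rw [min_eq_right (by linarith)] at heq
    have hvol := torusVolume_compl hE
    rw [← hvol]
    apply classify_half hE.compl (periodic_compl hper) (by rwa [perimeter_compl hE]) _ (by rw [hvol]; linarith)
      (by rw [hvol]; linarith)
    rw [perimeter_compl hE, heq, hvol, ENNReal.toReal_ofReal (profileJ_nonneg' (by linarith))]

end Vale.Agent.Lib.P232
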