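import Vale.Agent.Lib.P232.Cl1

open MeasureTheory Set intervalIntegral Filter
open scoped Topology ENNReal

namespace Vale.Agent.Lib.P232

/-! ### Approximation of a set by smooth functions -/

/-- The properties of the mollifications of `E` used in the analysis of minimizers. -/
structure Approx (E : Set R3) (U : ℕ → Per3) : Prop where
  vol : ∀ n, (U n).V = torusVolume E
  per : ∀ n, (U n).P ≤ (perimeter E).toReal
  Ff : ∀ κ > 0, Tendsto (fun n => (U n).Ff κ) atTop (𝓝 0)
  lim₁ : ∀ᵐ x, Tendsto (fun n => (U n).A₁ x) atTop (𝓝 (mg1 E x))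
  lim₂ : ∀ᵐ x, Tendsto (fun n => (U n).A₂ x) atTop (𝓝 (mg1 (sw12L ⁻¹' E) x))
  lim₃ : ∀ᵐ x, Tendsto (fun n => (U n).A₃ x) atTop (𝓝 (mg1 (sw13L ⁻¹' E) x))
  low₁ : ∀ m, (∀ᵐ x, m ≤ mg1 E x) → ∀ n x, m ≤ (U n).A₁ x
  up₁ : ∀ a, (∀ᵐ x, mg1 E x ≤ a) → ∀ n x, (U n).A₁ x ≤ a
  low₂ : ∀ m, (∀ᵐ x, m ≤ mg1 (sw12L ⁻¹' E) x) → ∀ n x, m ≤ (U n).A₂ x
  up₂ : ∀ a, (∀ᵐ x, mg1 (sw12L ⁻¹' E) x ≤ a) → ∀ n x, (U n).A₂ x ≤ a
  low₃ : ∀ m, (∀ᵐ x, m ≤ mg1 (sw13L ⁻¹' E) x) → ∀ n x, m ≤ (U n).A₃ x
  up₃ : ∀ a, (∀ᵐ x, mg1 (sw13L ⁻¹' E) x ≤ a) → ∀ n x, (U n).A₃ x ≤ a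

section Section

variable {E : Set R3}

lemma ae_iter {P : R3 → Prop} (h : ∀ᵐ p, P p) : ∀ᵐ x : ℝ, ∀ᵐ y : ℝ, ∀ᵐ z : ℝ, P (x, y, z) := by
  rw [Measure.volume_eq_prod] at h
  have h1 := Measure.ae_ae_of_ae_prod h
  filter_upwards [h1] with x hx
  rw [Measure.volume_eq_prod] at hx
  exact Measure.ae_ae_of_ae_prod hx

lemma section_limit {F : ℕ → ℝ → ℝ → ℝ} {f : ℝ → ℝ → ℝ} (hF : ∀ n, Measurable (Function.uncurry (F n)))
    (b : ∀ n y z, |F n y z| ≤ 1)
    (h : ∀ᵐ y : ℝ, ∀ᵐ z : ℝ, Tendsto (fun n => F n y z) atTop (𝓝 (f y z))) :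
    Tendsto (fun n => ∫ y in (0:ℝ)..1, ∫ z in (0:ℝ)..1, F n y z) atTop
      (𝓝 (∫ y in (0:ℝ)..1, ∫ z in (0:ℝ)..1, f y z)) := by
  have hin : ∀ n, Measurable fun y => ∫ z in (0:ℝ)..1, F n y z := by
    intro n
    have h1 := ((hF n).stronglyMeasurable).integral_prod_right' (ν := volume.restrict (Ioc (0:ℝ) 1))
    have e : (fun y => ∫ z in (0:ℝ)..1, F n y z)
        = fun y => ∫ z, Function.uncurry (F n) (y, z) ∂(volume.restrict (Ioc (0:ℝ) 1)) := by
      funext y
      exact intervalIntegral.integral_of_le zero_le_one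
    rw [e]
    exact h1.measurable
  have hF1 : ∀ n y, Measurable fun z => F n y z := fun n y =>
    (hF n).comp (measurable_const.prodMk measurable_id)
  have hb : ∀ n y, |∫ z in (0:ℝ)..1, F n y z| ≤ 1 := by
    intro n y
    have h2 := intervalIntegral.norm_integral_le_of_norm_le_const (a := (0:ℝ)) (b := 1) (f := fun z => F n y z)
      (C := 1) (fun z _ => by simpa using b n y z)
    simpa using h2
  apply intervalIntegral.tendsto_integral_filter_of_dominated_convergence (fun _ => (1:ℝ))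
  · exact Filter.Eventually.of_forall fun n => (hin n).aestronglyMeasurable
  · exact Filter.Eventually.of_forall fun n => Filter.Eventually.of_forall fun y _ => by
      simpa using hb n y
  · exact intervalIntegrable_const
  · filter_upwards [h] with y hy _
    apply intervalIntegral.tendsto_integral_filter_of_dominated_convergence (fun _ => (1:ℝ))
    · exact Filter.Eventually.of_forall fun n => (hF1 n y).aestronglyMeasurable
    · exact Filter.Eventually.of_forall fun n => Filter.Eventually.of_forall fun z _ => by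
        simpa using b n y z
    · exact intervalIntegrable_const
    · filter_upwards [hy] with z hz _
      exact hz

/-- The convergence of the mollifications almost everywhere. -/
lemma ae_moll (hE : MeasurableSet E) :
    ∀ᵐ p : R3, Tendsto (fun n => moll (bumpSeq n) E p) atTop (𝓝 (chi E p)) := by
  have hr : Tendsto (fun n => (bumpSeq n).rOut) atTop (𝓝 0) := by
    have h1 : Tendsto (fun n : ℕ => 2 * (1 / ((n : ℝ) + 1))) atTop (𝓝 (2 * 0)) :=
      tendsto_const_nhds.mul tendsto_one_div_add_atTop_nhds_zero_nat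
    rw [mul_zero] at h1
    refine h1.congr fun n => ?_
    show 2 * (1 / ((n : ℝ) + 1)) = 2 / ((n : ℝ) + 1)
    ring
  have hK : ∀ᶠ n in atTop, (bumpSeq n).rOut ≤ 2 * (bumpSeq n).rIn :=
    Eventually.of_forall fun n => by
      show 2 / ((n : ℝ) + 1) ≤ 2 * (1 / ((n : ℝ) + 1))
      apply le_of_eq
      ring
  exact ContDiffBump.ae_convolution_tendsto_right_of_locallyIntegrable (μ := volume) hr hK
    (chi_locInt hE)

/-- The section of a general mollification. -/
lemma section_moll (hE : MeasurableSet E) (hper : PeriodicSet E) {ρ : R3 → ℝ} (hρ : Integrable ρ)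
    (hm : Measurable ρ) (h0 : ∀ t, 0 ≤ ρ t) (x : ℝ) :
    ∫ y in (0:ℝ)..1, ∫ z in (0:ℝ)..1, ∫ t, ρ t * chi E ((x, y, z) - t)
      = ∫ t, ρ t * mg1 E (x - t.1) := by
  have hchi := chi_measurable hE
  have hb : ∀ p, |chi E p| ≤ 1 := fun p => by
    rw [abs_of_nonneg (chi_nonneg p)]
    exact chi_le_one p
  have e1 : ∀ y (t : R3), ∫ z in (0:ℝ)..1, ρ t * chi E ((x, y, z) - t)
      = ρ t * lineLen E (x - t.1) (y - t.2.1) := by
    intro y t
    rw [intervalIntegral.integral_const_mul]
    congr 1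
    have e0 : ∀ z : ℝ, ((x, y, z) : R3) - t = (x - t.1, y - t.2.1, z + - t.2.2) := by
      intro z
      ext <;> simp [sub_eq_add_neg]
    simp only [e0]
    exact periodic_shift (f := fun z => chi E (x - t.1, y - t.2.1, z))
      (fun z => (chi_periodic hper _ _ _).2.2) (- t.2.2)
  have hA : ∀ y, ∫ z in (0:ℝ)..1, ∫ t, ρ t * chi E ((x, y, z) - t)
      = ∫ t, ρ t * lineLen E (x - t.1) (y - t.2.1) := by
    intro y
    have hmm : Measurable (Function.uncurry fun (z : ℝ) (t : R3) => ρ t * chi E ((x, y, z) - t)) := by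
      have h1 : Measurable fun q : ℝ × R3 => ρ q.2 := hm.comp measurable_snd
      have h2 : Measurable fun q : ℝ × R3 => chi E ((x, y, q.1) - q.2) :=
        hchi.comp ((by fun_prop : Measurable fun q : ℝ × R3 => ((x, y, q.1) : R3)).sub measurable_snd)
      exact h1.mul h2
    rw [swap_aux hmm hρ (fun z t => by
      rw [abs_mul, abs_of_nonneg (h0 t)]
      have := hb ((x, y, z) - t)
      nlinarith [h0 t, abs_nonneg (chi E ((x, y, z) - t))])]
    simp only [e1]
  simp only [hA]
  have hmL : Measurable (Function.uncurry fun (y : ℝ) (t : R3) => ρ t * lineLen E (x - t.1) (y - t.2.1)) := by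
    have h1 : Measurable fun q : ℝ × R3 => ρ q.2 := hm.comp measurable_snd
    have h3 : Measurable fun q : ℝ × R3 => ((x - q.2.1, q.1 - q.2.2.1) : ℝ × ℝ) := by fun_prop
    have h2 : Measurable fun q : ℝ × R3 => lineLen E (x - q.2.1) (q.1 - q.2.2.1) :=
      (measurable_lineLen hE).comp h3
    exact h1.mul h2
  rw [swap_aux hmL hρ (fun y t => by
    rw [abs_mul, abs_of_nonneg (h0 t), abs_of_nonneg (lineLen_nonneg _ _)]
    have := lineLen_le_one hE (x - t.1) (y - t.2.1)
    nlinarith [h0 t])]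
  congr 1
  funext t
  rw [intervalIntegral.integral_const_mul]
  congr 1
  have := periodic_shift (f := fun y => lineLen E (x - t.1) y)
    (fun y => lineLen_perY hper _ _) (- t.2.1)
  simp only [sub_eq_add_neg]
  exact this

lemma moll_bound (hE : MeasurableSet E) {ρ : R3 → ℝ} (hρ : Integrable ρ) (h0 : ∀ t, 0 ≤ ρ t)
    (h1 : ∫ t, ρ t = 1) (x : ℝ) :
    (∀ m, (∀ᵐ s, m ≤ mg1 E s) → m ≤ ∫ t, ρ t * mg1 E (x - t.1)) ∧
    (∀ a, (∀ᵐ s, mg1 E s ≤ a) → ∫ t, ρ t * mg1 E (x - t.1) ≤ a) := by
  have hq : Measure.QuasiMeasurePreserving (fun t : R3 => x - t.1) volume volume := by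
    have h2 : Measure.QuasiMeasurePreserving (fun s : ℝ => x - s) volume volume :=
      (Measure.measurePreserving_sub_left volume x).quasiMeasurePreserving
    have h3 : Measure.QuasiMeasurePreserving (fun t : R3 => t.1) volume volume := by
      rw [Measure.volume_eq_prod]
      exact Measure.quasiMeasurePreserving_fst
    exact h2.comp h3
  have hmm : Measurable fun t : R3 => mg1 E (x - t.1) := (mg1_measurable hE).comp (by fun_prop)
  have hint : Integrable fun t => ρ t * mg1 E (x - t.1) := by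
    refine hρ.mono' (hρ.aestronglyMeasurable.mul hmm.aestronglyMeasurable) ?_
    refine Filter.Eventually.of_forall fun t => ?_
    rw [Real.norm_eq_abs, abs_mul, abs_of_nonneg (h0 t), abs_of_nonneg (mg1_nonneg _)]
    have := mg1_le_one hE (x - t.1)
    nlinarith [h0 t]
  constructor
  · intro m hm
    have hae := hq.ae hm
    have := integral_mono_ae (hρ.mul_const m) hint (by
      filter_upwards [hae] with t ht
      exact mul_le_mul_of_nonneg_left ht (h0 t))
    rwa [MeasureTheory.integral_mul_const, h1, one_mul] at this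
  · intro a ha
    have hae := hq.ae ha
    have := integral_mono_ae hint (hρ.mul_const a) (by
      filter_upwards [hae] with t ht
      exact mul_le_mul_of_nonneg_left ht (h0 t))
    rwa [MeasureTheory.integral_mul_const, h1, one_mul] at this

/-- A mollification written in the relabelled coordinates. -/
lemma moll_relabel (τ : CoordSym) (φ : ContDiffBump (0 : R3)) (E : Set R3) (p : R3) :
    moll φ E (τ.σ p) = ∫ t, φ.normed volume (τ.σ t) * chi (τ.σ ⁻¹' E) (p - t) := by
  rw [moll_apply]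
  have h := τ.mp.integral_comp τ.emb (fun t => φ.normed volume t * chi E (τ.σ p - t))
  rw [← h]
  congr 1
  funext t
  rw [chi_pre, map_sub]

lemma bound_relabel (τ : CoordSym) (hE : MeasurableSet E) (hper : PeriodicSet E)
    (φ : ContDiffBump (0 : R3)) (x : ℝ) :
    (∀ m, (∀ᵐ s, m ≤ mg1 (τ.σ ⁻¹' E) s) →
      m ≤ ∫ y in (0:ℝ)..1, ∫ z in (0:ℝ)..1, moll φ E (τ.σ (x, y, z))) ∧
    (∀ a, (∀ᵐ s, mg1 (τ.σ ⁻¹' E) s ≤ a) →
      ∫ y in (0:ℝ)..1, ∫ z in (0:ℝ)..1, moll φ E (τ.σ (x, y, z)) ≤ a) := by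
  have hm' := τ.measurable_pre hE
  have hp' := τ.perSet hper
  set ρ : R3 → ℝ := fun t => φ.normed volume (τ.σ t) with hρdef
  have hρm : Measurable ρ := (φ.continuous_normed.comp τ.σ.continuous).measurable
  have hρi : Integrable ρ := by
    have := (τ.mp.integrable_comp_emb τ.emb (g := φ.normed volume)).2 (φ.integrable_normed (μ := volume))
    exact this
  have hρ0 : ∀ t, 0 ≤ ρ t := fun t => φ.nonneg_normed _
  have hρ1 : ∫ t, ρ t = 1 := by
    have h := τ.mp.integral_comp τ.emb (φ.normed volume)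
    rw [φ.integral_normed (μ := volume)] at h
    exact h
  have e : ∫ y in (0:ℝ)..1, ∫ z in (0:ℝ)..1, moll φ E (τ.σ (x, y, z))
      = ∫ t, ρ t * mg1 (τ.σ ⁻¹' E) (x - t.1) := by
    rw [← section_moll hm' hp' hρi hρm hρ0 x]
    simp only [moll_relabel τ φ E]
    rfl
  rw [e]
  exact moll_bound hm' hρi hρ0 hρ1 x

/-- The identity as a coordinate symmetry would do, but the first marginal is treated directly. -/
lemma bound_direct (hE : MeasurableSet E) (hper : PeriodicSet E)
    (φ : ContDiffBump (0 : R3)) (x : ℝ) :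
    (∀ m, (∀ᵐ s, m ≤ mg1 E s) → m ≤ ∫ y in (0:ℝ)..1, ∫ z in (0:ℝ)..1, moll φ E (x, y, z)) ∧
    (∀ a, (∀ᵐ s, mg1 E s ≤ a) → ∫ y in (0:ℝ)..1, ∫ z in (0:ℝ)..1, moll φ E (x, y, z) ≤ a) := by
  have hρm : Measurable (φ.normed volume) := φ.continuous_normed.measurable
  have e : ∫ y in (0:ℝ)..1, ∫ z in (0:ℝ)..1, moll φ E (x, y, z)
      = ∫ t, φ.normed volume t * mg1 E (x - t.1) := by
    rw [← section_moll hE hper (φ.integrable_normed (μ := volume)) hρm (fun t => φ.nonneg_normed t) x]
    simp only [moll_apply]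
  rw [e]
  exact moll_bound hE (φ.integrable_normed (μ := volume)) (fun t => φ.nonneg_normed t)
    (φ.integral_normed (μ := volume)) x

lemma moll_abs_le (hE : MeasurableSet E) (φ : ContDiffBump (0 : R3)) (p : R3) : |moll φ E p| ≤ 1 := by
  rw [abs_of_nonneg (moll_nonneg p)]
  exact moll_le_one hE p

/-- The mollifications of a set of finite perimeter have all the properties. -/
theorem approx_smoothSeq (hE : MeasurableSet E) (hper : PeriodicSet E) (hP : perimeter E ≠ ⊤) :
    Approx E (smoothSeq hE hper) := by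
  have hM : ∀ n, Measurable (moll (bumpSeq n) E) := fun n => (moll_contDiff hE).continuous.measurable
  have hlim := fun (τ : CoordSym) => τ.mp.quasiMeasurePreserving.ae (ae_moll hE)
  refine ⟨smoothSeq_V hE hper, smoothSeq_P hE hper hP, fun κ hκ => smoothSeq_Ff hE hper hκ, ?_, ?_, ?_,
    ?_, ?_, ?_, ?_, ?_, ?_⟩
  · filter_upwards [ae_iter (ae_moll hE)] with x hx
    exact section_limit (F := fun n y z => moll (bumpSeq n) E (x, y, z)) (f := fun y z => chi E (x, y, z))
      (fun n => (hM n).comp (by fun_prop)) (fun n y z => moll_abs_le hE _ _) hx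
  · filter_upwards [ae_iter (hlim τ12)] with y hx
    exact section_limit (F := fun n x z => moll (bumpSeq n) E (sw12L (y, x, z)))
      (f := fun x z => chi (sw12L ⁻¹' E) (y, x, z))
      (fun n => (hM n).comp (sw12L.continuous.measurable.comp (by fun_prop)))
      (fun n y z => moll_abs_le hE _ _) hx
  · filter_upwards [ae_iter (hlim τ13)] with z hx
    have := section_limit (F := fun n y x => moll (bumpSeq n) E (sw13L (z, y, x)))
      (f := fun y x => chi (sw13L ⁻¹' E) (z, y, x))
      (fun n => (hM n).comp (sw13L.continuous.measurable.comp (by fun_prop)))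
      (fun n y z => moll_abs_le hE _ _) hx
    refine this.congr fun n => ?_
    exact (smoothSeq hE hper n).swap13_A₁ z
  · intro m hm n x
    exact (bound_direct hE hper (bumpSeq n) x).1 m hm
  · intro a ha n x
    exact (bound_direct hE hper (bumpSeq n) x).2 a ha
  · intro m hm n y
    exact (bound_relabel τ12 hE hper (bumpSeq n) y).1 m hm
  · intro a ha n y
    exact (bound_relabel τ12 hE hper (bumpSeq n) y).2 a ha
  · intro m hm n z
    rw [← (smoothSeq hE hper n).swap13_A₁ z]
    exact (bound_relabel τ13 hE hper (bumpSeq n) z).1 m hm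
  · intro a ha n z
    rw [← (smoothSeq hE hper n).swap13_A₁ z]
    exact (bound_relabel τ13 hE hper (bumpSeq n) z).2 a ha

end Section

end Vale.Agent.Lib.P232
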