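import Vale.Agent.Lib.P232.Cl2

open MeasureTheory Set intervalIntegral Filter
open scoped Topology ENNReal

namespace Vale.Agent.Lib.P232

/-! ### The limits of the extreme values of the sections -/

section Extremes

variable {E : Set R3} {U : ℕ → Per3}

/-- A sequence of functions squeezed between `m` and approaching `m` along the good points. -/
lemma min_tendsto {f : ℕ → ℝ → ℝ} {A : ℝ → ℝ} {m : ℝ} (hlim : ∀ᵐ x, Tendsto (fun n => f n x) atTop (𝓝 (A x)))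
    (hnear : ∀ η > 0, ∀ G : Set ℝ, (∀ᵐ x, x ∈ G) → ∃ x ∈ G, A x < m + η)
    (hlow : ∀ n x, m ≤ f n x) {xm : ℕ → ℝ} (hxm : ∀ n x, f n (xm n) ≤ f n x) :
    Tendsto (fun n => f n (xm n)) atTop (𝓝 m) := by
  rw [Metric.tendsto_atTop]
  intro η hη
  obtain ⟨x, hx, hlt⟩ := hnear (η / 2) (by positivity) {x | Tendsto (fun n => f n x) atTop (𝓝 (A x))} hlim
  have hev : ∀ᶠ n in atTop, f n x < m + η := by
    have hx' : Tendsto (fun n => f n x) atTop (𝓝 (A x)) := hx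
    exact hx'.eventually (gt_mem_nhds (by linarith))
  obtain ⟨N, hN⟩ := eventually_atTop.1 hev
  refine ⟨N, fun n hn => ?_⟩
  rw [Real.dist_eq, abs_lt]
  have h1 := hlow n (xm n)
  have h2 := hxm n x
  have h3 := hN n hn
  constructor <;> linarith

lemma max_tendsto {f : ℕ → ℝ → ℝ} {A : ℝ → ℝ} {a : ℝ} (hlim : ∀ᵐ x, Tendsto (fun n => f n x) atTop (𝓝 (A x)))
    (hnear : ∀ η > 0, ∀ G : Set ℝ, (∀ᵐ x, x ∈ G) → ∃ x ∈ G, a - η < A x)
    (hup : ∀ n x, f n x ≤ a) {xa : ℕ → ℝ} (hxa : ∀ n x, f n x ≤ f n (xa n)) :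
    Tendsto (fun n => f n (xa n)) atTop (𝓝 a) := by
  rw [Metric.tendsto_atTop]
  intro η hη
  obtain ⟨x, hx, hlt⟩ := hnear (η / 2) (by positivity) {x | Tendsto (fun n => f n x) atTop (𝓝 (A x))} hlim
  have hev : ∀ᶠ n in atTop, a - η < f n x := by
    have hx' : Tendsto (fun n => f n x) atTop (𝓝 (A x)) := hx
    exact hx'.eventually (lt_mem_nhds (by linarith))
  obtain ⟨N, hN⟩ := eventually_atTop.1 hev
  refine ⟨N, fun n hn => ?_⟩
  rw [Real.dist_eq, abs_lt]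
  have h1 := hup n (xa n)
  have h2 := hxa n x
  have h3 := hN n hn
  constructor <;> linarith

/-- The extreme points of the sections of the approximations. -/
lemma Approx.extremes (hA : Approx E U) {m a : ℝ} (hR : IsRange (mg1 E) m a) :
    ∃ xm xa : ℕ → ℝ, (∀ n x, (U n).A₁ (xm n) ≤ (U n).A₁ x) ∧ (∀ n x, (U n).A₁ x ≤ (U n).A₁ (xa n)) ∧
      (∀ n, m ≤ (U n).A₁ (xm n)) ∧ (∀ n, (U n).A₁ (xa n) ≤ a) ∧
      Tendsto (fun n => (U n).A₁ (xm n)) atTop (𝓝 m) ∧ Tendsto (fun n => (U n).A₁ (xa n)) atTop (𝓝 a) := by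
  choose xm hxm using fun n => exists_min_periodic (U n).cont_A₁ (U n).per_A₁
  choose xa hxa using fun n => exists_max_periodic (U n).cont_A₁ (U n).per_A₁
  have hl := hA.low₁ m hR.ae_low
  have hu := hA.up₁ a hR.ae_up
  exact ⟨xm, xa, hxm, hxa, fun n => hl n _, fun n => hu n _,
    min_tendsto hA.lim₁ hR.near_low hl hxm, max_tendsto hA.lim₁ hR.near_up hu hxa⟩

/-- Continuity of the integral in the endpoints. -/
lemma integral_endpoints_tendsto {β : ℝ → ℝ} (hβ : Continuous β) {s t : ℕ → ℝ} {s₀ t₀ : ℝ}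
    (hs : Tendsto s atTop (𝓝 s₀)) (ht : Tendsto t atTop (𝓝 t₀)) :
    Tendsto (fun n => ∫ x in s n..t n, β x) atTop (𝓝 (∫ x in s₀..t₀, β x)) := by
  have hp : Continuous fun t : ℝ => ∫ z in (0 : ℝ)..t, β z :=
    intervalIntegral.continuous_primitive (fun a b => hβ.intervalIntegrable a b) _
  have e : ∀ a b : ℝ, ∫ x in a..b, β x = (∫ z in (0:ℝ)..b, β z) - ∫ z in (0:ℝ)..a, β z := fun a b =>
    (intervalIntegral.integral_interval_sub_left (hβ.intervalIntegrable _ _)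
      (hβ.intervalIntegrable _ _)).symm
  have e2 : (fun n => ∫ x in s n..t n, β x)
      = fun n => (∫ z in (0:ℝ)..t n, β z) - ∫ z in (0:ℝ)..s n, β z := funext fun n => e _ _
  rw [e2, e s₀ t₀]
  exact (hp.tendsto t₀ |>.comp ht).sub (hp.tendsto s₀ |>.comp hs)

/-- From the inequalities at each index and small parameters to the limit. -/
lemma le_of_small {B Q : ℝ} (h : ∀ τ : ℝ, 0 < τ → τ ≤ 1 → B ≤ Q + 12 * τ) : B ≤ Q := by
  apply le_of_forall_pos_le_add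
  intro ε hε
  set τ := min 1 (ε / 12) with hτ
  have h0 : 0 < τ := lt_min one_pos (by positivity)
  have h1 : τ ≤ 1 := min_le_left _ _
  have h2 : τ ≤ ε / 12 := min_le_right _ _
  have := h τ h0 h1
  linarith

lemma err_small {τ : ℝ} (h0 : 0 < τ) (h1 : τ ≤ 1) : Per3.err τ (τ ^ 3 / 4) 0 ≤ 12 * τ := by
  unfold Per3.err
  have e1 : 4 / τ ^ 2 * (0 + 2 * (τ ^ 3 / 4)) = 2 * τ := by
    field_simp
    ring
  rw [e1]
  have h2 : τ ^ 3 ≤ τ := by nlinarith [pow_pos h0 2, sq_nonneg τ, mul_pos h0 h0]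
  linarith

lemma kappa_ok {τ : ℝ} (h0 : 0 < τ) (h1 : τ ≤ 1) : 4 * (τ ^ 3 / 4) ≤ τ := by
  have h2 : τ ^ 3 ≤ τ := by nlinarith [pow_pos h0 2, sq_nonneg τ, mul_pos h0 h0]
  linarith

/-- The calibrations under the profile of the two-torus pass to the limit. -/
theorem Approx.limit_value1 (hA : Approx E U) {m a B : ℝ} (hR : IsRange (mg1 E) m a)
    (hV : Value ell m a (torusVolume E) B) : B ≤ (perimeter E).toReal := by
  obtain ⟨k, H, β, hAdm, hB⟩ := hV
  obtain ⟨β', hc, h0, h1, heq⟩ := hAdm.extend hR.le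
  obtain ⟨xm, xa, hxm, hxa, hm, ha, ltm, lta⟩ := hA.extremes hR
  refine le_trans hB (le_of_small fun τ hτ0 hτ1 => ?_)
  have hκ : 0 < τ ^ 3 / 4 := by positivity
  have hκτ := kappa_ok hτ0 hτ1
  have hstep : ∀ n, k + H * torusVolume E + 2 * (∫ s in (U n).A₁ (xm n)..(U n).A₁ (xa n), β' s)
      ≤ (perimeter E).toReal + Per3.err τ (τ ^ 3 / 4) ((U n).Ff (τ ^ 3 / 4)) := by
    intro n
    have hAdm' : Adm ell ((U n).A₁ (xm n)) ((U n).A₁ (xa n)) k H β' := by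
      refine ⟨hc.continuousOn, fun s _ => h0 s, fun s _ => h1 s, fun s hs => ?_⟩
      have hmem : s ∈ Icc m a := ⟨(hm n).trans hs.1, hs.2.trans (ha n)⟩
      rw [heq s hmem]
      exact hAdm.con s hmem
    have := (U n).value1 hκ hτ0 hτ1 hκτ (xm n) (xa n) (hxm n) (hxa n) hAdm'
    rw [hA.vol n] at this
    have h2 := hA.per n
    linarith
  have lim1 := (integral_endpoints_tendsto hc ltm lta)
  have hlim : Tendsto (fun n => k + H * torusVolume E + 2 * (∫ s in (U n).A₁ (xm n)..(U n).A₁ (xa n), β' s))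
      atTop (𝓝 (k + H * torusVolume E + 2 * ∫ s in m..a, β' s)) :=
    tendsto_const_nhds.add (tendsto_const_nhds.mul lim1)
  have hF := hA.Ff (τ ^ 3 / 4) hκ
  have hlim2 : Tendsto (fun n => (perimeter E).toReal + Per3.err τ (τ ^ 3 / 4) ((U n).Ff (τ ^ 3 / 4)))
      atTop (𝓝 ((perimeter E).toReal + Per3.err τ (τ ^ 3 / 4) 0)) := by
    unfold Per3.err
    exact tendsto_const_nhds.add (tendsto_const_nhds.add
      (tendsto_const_nhds.mul (hF.add tendsto_const_nhds)))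
  have hle := le_of_tendsto_of_tendsto' hlim hlim2 hstep
  have hint : ∫ s in m..a, β' s = ∫ s in m..a, β s := by
    apply intervalIntegral.integral_congr
    intro s hs
    rw [uIcc_of_le hR.le] at hs
    exact heq s hs
  rw [hint] at hle
  have := err_small hτ0 hτ1
  linarith

/-- The calibrations under the disk profile pass to the limit, with the cost of the cuts. -/
theorem Approx.limit_value2 (hA : Approx E U) {m a m₂ a₂ m₃ a₃ B : ℝ} (hR : IsRange (mg1 E) m a)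
    (hR₂ : IsRange (mg1 (sw12L ⁻¹' E)) m₂ a₂) (hR₃ : IsRange (mg1 (sw13L ⁻¹' E)) m₃ a₃)
    (hV : Value ell0 m a (torusVolume E) B) : B ≤ (perimeter E).toReal + 2 * m₂ + 2 * m₃ := by
  obtain ⟨k, H, β, hAdm, hB⟩ := hV
  obtain ⟨β', hc, h0, h1, heq⟩ := hAdm.extend hR.le
  obtain ⟨xm, xa, hxm, hxa, hm, ha, ltm, lta⟩ := hA.extremes hR
  refine le_trans hB (le_of_small fun τ hτ0 hτ1 => ?_)
  have hκ : 0 < τ ^ 3 / 4 := by positivity
  obtain ⟨y₀, hy₀, hy₀m⟩ := hR₂.near_low τ hτ0 {x | Tendsto (fun n => (U n).A₂ x) atTop (𝓝 (mg1 (sw12L ⁻¹' E) x))} hA.lim₂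
  obtain ⟨z₀, hz₀, hz₀m⟩ := hR₃.near_low τ hτ0 {x | Tendsto (fun n => (U n).A₃ x) atTop (𝓝 (mg1 (sw13L ⁻¹' E) x))} hA.lim₃
  have hy' : Tendsto (fun n => (U n).A₂ y₀) atTop (𝓝 (mg1 (sw12L ⁻¹' E) y₀)) := hy₀
  have hz' : Tendsto (fun n => (U n).A₃ z₀) atTop (𝓝 (mg1 (sw13L ⁻¹' E) z₀)) := hz₀
  have hstep : ∀ n, k + H * torusVolume E + 2 * (∫ s in (U n).A₁ (xm n)..(U n).A₁ (xa n), β' s)
      ≤ (perimeter E).toReal + 2 * (U n).A₂ y₀ + 2 * (U n).A₃ z₀
        + (4 * (τ ^ 3 / 4) + 4 * τ + (2 / τ ^ 2) * ((U n).Ff (τ ^ 3 / 4) + 2 * (τ ^ 3 / 4))) := by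
    intro n
    have hAdm' : Adm ell0 ((U n).A₁ (xm n)) ((U n).A₁ (xa n)) k H β' := by
      refine ⟨hc.continuousOn, fun s _ => h0 s, fun s _ => h1 s, fun s hs => ?_⟩
      have hmem : s ∈ Icc m a := ⟨(hm n).trans hs.1, hs.2.trans (ha n)⟩
      rw [heq s hmem]
      exact hAdm.con s hmem
    have := (U n).value2 hκ hτ0 (xm n) (xa n) y₀ z₀ (hxm n) (hxa n) hAdm'
    rw [hA.vol n] at this
    have h2 := hA.per n
    linarith
  have lim1 := (integral_endpoints_tendsto hc ltm lta)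
  have hlim : Tendsto (fun n => k + H * torusVolume E + 2 * (∫ s in (U n).A₁ (xm n)..(U n).A₁ (xa n), β' s))
      atTop (𝓝 (k + H * torusVolume E + 2 * ∫ s in m..a, β' s)) :=
    tendsto_const_nhds.add (tendsto_const_nhds.mul lim1)
  have hF := hA.Ff (τ ^ 3 / 4) hκ
  have hlim2 : Tendsto (fun n => (perimeter E).toReal + 2 * (U n).A₂ y₀ + 2 * (U n).A₃ z₀
        + (4 * (τ ^ 3 / 4) + 4 * τ + (2 / τ ^ 2) * ((U n).Ff (τ ^ 3 / 4) + 2 * (τ ^ 3 / 4))))
      atTop (𝓝 ((perimeter E).toReal + 2 * mg1 (sw12L ⁻¹' E) y₀ + 2 * mg1 (sw13L ⁻¹' E) z₀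
        + (4 * (τ ^ 3 / 4) + 4 * τ + (2 / τ ^ 2) * (0 + 2 * (τ ^ 3 / 4))))) :=
    ((tendsto_const_nhds.add (tendsto_const_nhds.mul hy')).add (tendsto_const_nhds.mul hz')).add
      (tendsto_const_nhds.add (tendsto_const_nhds.mul (hF.add tendsto_const_nhds)))
  have hle := le_of_tendsto_of_tendsto' hlim hlim2 hstep
  have hint : ∫ s in m..a, β' s = ∫ s in m..a, β s := by
    apply intervalIntegral.integral_congr
    intro s hs
    rw [uIcc_of_le hR.le] at hs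
    exact heq s hs
  rw [hint] at hle
  have e1 : (2 / τ ^ 2) * (0 + 2 * (τ ^ 3 / 4)) = τ := by
    field_simp
    ring
  rw [e1] at hle
  have h2 : τ ^ 3 ≤ τ := by nlinarith [pow_pos hτ0 2, sq_nonneg τ, mul_pos hτ0 hτ0]
  linarith

end Extremes

/-! ### The limit of the phase calibrations -/

lemma CG.mono_se {T M₀ se se' k H δ s g : ℝ} (h : se ≤ se') (hC : CG T M₀ se k H δ s g) :
    CG T M₀ se' k H δ s g :=
  ⟨hC.1, hC.2.1, hC.2.2.1, fun hs => hC.2.2.2 (h.trans hs)⟩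

/-- The phase calibrations pass to the limit at the exact range of the sections. -/
theorem limit_valueG {F : Set R3} (hm : MeasurableSet F) (hp : PeriodicSet F) (hP : perimeter F ≠ ⊤)
    {c c₁ c₂ T M₀ m a B : ℝ}
    (hph : ∀ ε > 0, ∀ᶠ n in atTop, PhaseData (smoothSeq hm hp n) c c₁ c₂ T M₀ ε)
    (hc0 : 0 ≤ c) (hc1 : c < 1) (hcc : c ≤ c₁) (h12 : c₁ ≤ c₂)
    (hR : IsRange (mg1 F) m a) (hG : GoodG c T M₀ m a (torusVolume F) B) :
    B ≤ (perimeter F).toReal := by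
  set U := smoothSeq hm hp with hU
  have hA : Approx F U := approx_smoothSeq hm hp hP
  obtain ⟨k, H, δ, g, g', I, hδ0, hδ4, ⟨β, hc, _, _, hpt, hI⟩, hB⟩ := hG
  have hma := hR.le
  have hAdm : ∃ β' : ℝ → ℝ, Continuous β' ∧ (∀ s, 0 ≤ β' s) ∧ (∀ s, β' s ≤ 1) ∧
      ∀ s ∈ Icc m a, β' s = β s := by
    refine ⟨IccExtend hma ((Icc m a).domRestrict β), ?_, ?_, ?_, ?_⟩
    · exact (continuousOn_iff_continuous_domRestrict.1 hc).Icc_extend'
    · intro s
      exact (hpt _ (projIcc _ _ hma s).2).2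
    · intro s
      exact (hpt _ (projIcc _ _ hma s).2).1.2.1
    · intro s hs
      rw [IccExtend_of_mem _ _ hs]
      rfl
  obtain ⟨β', hc', h0, h1, heq⟩ := hAdm
  obtain ⟨xm, xa, hxm, hxa, hmm, haa, ltm, lta⟩ := hA.extremes hR
  have hint : ∫ s in m..a, β' s = ∫ s in m..a, β s := by
    apply intervalIntegral.integral_congr
    intro s hs
    rw [uIcc_of_le hma] at hs
    exact heq s hs
  -- the estimate at one index
  have hone : ∀ ε κ τ, 0 < ε → 0 < κ → 0 < τ → (0 < M₀ → τ ^ 2 ≤ Real.pi * M₀ ^ 2 / 4) → ∀ n,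
      PhaseData (U n) c c₁ c₂ T M₀ ε →
      k + H * torusVolume F + 2 * (∫ s in (U n).A₁ (xm n)..(U n).A₁ (xa n), β' s) + c * δ
        ≤ (perimeter F).toReal + (4 * κ + 4 * τ + (2 / τ ^ 2) * ((U n).Ff κ + 2 * κ)) + 32 * ε := by
    intro ε κ τ hε hκ hτ hτM n hD
    have hV : (U n).V = torusVolume F := hA.vol n
    have hPn := hA.per n
    have key := (U n).phase_calib hD hc1 hcc h12 hε hκ hτ hδ0 hδ4 hτM hc' h0 h1 (xm n) (xa n) (hxm n) (hxa n)
      (k := k) (H := H) (fun s hs => by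
        have hmem : s ∈ Icc m a := ⟨(hmm n).trans hs.1, hs.2.trans (haa n)⟩
        rw [heq s hmem, hV]
        refine CG.mono_se ?_ (hpt s hmem).1
        apply div_le_div_of_nonneg_right _ (by linarith)
        have := mul_le_mul_of_nonneg_left (haa n) hc0
        linarith)
    rw [hV] at key
    linarith
  have hlim : ∀ ε κ τ, 0 < ε → 0 < κ → 0 < τ → (0 < M₀ → τ ^ 2 ≤ Real.pi * M₀ ^ 2 / 4) →
      k + H * torusVolume F + 2 * (∫ s in m..a, β' s) + c * δ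
        ≤ (perimeter F).toReal + (4 * κ + 4 * τ + (2 / τ ^ 2) * (0 + 2 * κ)) + 32 * ε := by
    intro ε κ τ hε hκ hτ hτM
    have hF := hA.Ff κ hκ
    have ht : Tendsto (fun n => (perimeter F).toReal
        + (4 * κ + 4 * τ + (2 / τ ^ 2) * ((U n).Ff κ + 2 * κ)) + 32 * ε)
        atTop (𝓝 ((perimeter F).toReal + (4 * κ + 4 * τ + (2 / τ ^ 2) * (0 + 2 * κ)) + 32 * ε)) :=
      (tendsto_const_nhds.add (tendsto_const_nhds.add
        (tendsto_const_nhds.mul (hF.add tendsto_const_nhds)))).add tendsto_const_nhds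
    have lim1 := integral_endpoints_tendsto hc' ltm lta
    have ht0 : Tendsto (fun n => k + H * torusVolume F + 2 * (∫ s in (U n).A₁ (xm n)..(U n).A₁ (xa n), β' s) + c * δ)
        atTop (𝓝 (k + H * torusVolume F + 2 * (∫ s in m..a, β' s) + c * δ)) :=
      (tendsto_const_nhds.add (tendsto_const_nhds.mul lim1)).add tendsto_const_nhds
    refine le_of_tendsto_of_tendsto ht0 ht ?_
    filter_upwards [hph ε hε] with n hn
    exact hone ε κ τ hε hκ hτ hτM n hn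
  apply le_trans hB
  have hII : k + H * torusVolume F + 2 * I + c * δ ≤ k + H * torusVolume F + 2 * (∫ s in m..a, β' s) + c * δ := by
    rw [hint]
    linarith
  refine hII.trans ?_
  apply le_of_forall_pos_le_add
  intro η hη
  obtain ⟨τ₀, hτ₀, hτ₀M⟩ : ∃ τ₀ : ℝ, 0 < τ₀ ∧ (0 < M₀ → τ₀ ≤ M₀ / 2) := by
    by_cases hM : 0 < M₀
    · exact ⟨M₀ / 2, by positivity, fun _ => le_rfl⟩
    · exact ⟨1, one_pos, fun h => absurd h hM⟩
  set τ := min (min 1 (η / 16)) τ₀ with hτdef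
  have hτ0 : 0 < τ := lt_min (lt_min one_pos (by positivity)) hτ₀
  have hτ1 : τ ≤ 1 := (min_le_left _ _).trans (min_le_left _ _)
  have hτη : τ ≤ η / 16 := (min_le_left _ _).trans (min_le_right _ _)
  have hτM : 0 < M₀ → τ ^ 2 ≤ Real.pi * M₀ ^ 2 / 4 := by
    intro hM
    have h1 : τ ≤ M₀ / 2 := (min_le_right _ _).trans (hτ₀M hM)
    have h2 : τ ^ 2 ≤ (M₀ / 2) ^ 2 := pow_le_pow_left₀ hτ0.le h1 2
    have h3 := Real.pi_gt_three
    nlinarith [sq_nonneg M₀]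
  have h1 := hlim (η / 64) (τ ^ 3 / 4) τ (by positivity) (by positivity) hτ0 hτM
  have e1 : 2 / τ ^ 2 * (0 + 2 * (τ ^ 3 / 4)) = τ := by
    field_simp
    ring
  rw [e1] at h1
  have h2 : τ ^ 3 ≤ τ := by nlinarith [pow_pos hτ0 2, sq_nonneg τ, mul_pos hτ0 hτ0]
  nlinarith

end Vale.Agent.Lib.P232
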