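import Vale.Agent.Lib.P232.Cl3

open MeasureTheory Set intervalIntegral Filter
open scoped Topology ENNReal

namespace Vale.Agent.Lib.P232

/-! ### Strict versions of the real analysis -/

/-- A calibration at the range `[m, a]` certifying strictly more than the conjectural profile. -/
def StrictGood (m a V : ℝ) : Prop :=
  ∃ B, profileJ V < B ∧ (Value ell m a V B ∨ Value ell0 m a V (B + 4 * m))

/-- The exceptional ranges. -/
def Ext (m a V : ℝ) : Prop :=
  (m = 0 ∧ 4 / 3 * a + 2 * Real.sqrt Real.pi / Real.sqrt a * V ≤ profileJ V) ∨ m = a ∨ (m = 0 ∧ a = 1)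

lemma sqrt_pi_gt : (1.7724:ℝ) < Real.sqrt Real.pi := by
  apply Real.lt_sqrt_of_sq_lt
  have := Real.pi_gt_d6
  norm_num at this ⊢
  linarith

/-- The tube perimeter lies strictly below the lines with `π < c₀ c₁`. -/
lemma tube_lt_line {c₀ c₁ v : ℝ} (h0 : 0 ≤ c₀) (h1 : 0 ≤ c₁) (hc : Real.pi < c₀ * c₁) (hv : 0 < v) :
    2 * Real.sqrt (Real.pi * v) < c₀ + c₁ * v := by
  have h2 : 0 ≤ c₁ * v := mul_nonneg h1 hv.le
  have h3 : Real.sqrt (Real.pi * v) < (c₀ + c₁ * v) / 2 := by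
    apply (Real.sqrt_lt' _).2
    · have h4 : Real.pi * v < c₀ * c₁ * v := mul_lt_mul_of_pos_right hc hv
      nlinarith [sq_nonneg (c₀ - c₁ * v)]
    · have hc₀ : 0 < c₀ := by
        by_contra hn
        have : c₀ = 0 := le_antisymm (not_lt.1 hn) h0
        rw [this] at hc
        have := Real.pi_pos
        simp at hc
        linarith
      linarith
  linarith

/-- The ball perimeter lies strictly below the lines with `16 π / 3 < c₀ c₁²`. -/
lemma ball_lt_line {c₀ c₁ v : ℝ} (h0 : 0 ≤ c₀) (h1 : 0 ≤ c₁) (hc : 16 * Real.pi / 3 < c₀ * c₁ ^ 2)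
    (hv : 0 < v) : (36 * Real.pi) ^ (1 / 3 : ℝ) * v ^ (2 / 3 : ℝ) < c₀ + c₁ * v := by
  have hp := Real.pi_pos
  set X := (36 * Real.pi) ^ (1 / 3 : ℝ) * v ^ (2 / 3 : ℝ) with hX
  have hX0 : 0 ≤ X := by positivity
  have hX3 : X ^ 3 = 36 * Real.pi * v ^ 2 := by
    rw [hX, mul_pow]
    have e1 : ((36 * Real.pi) ^ (1 / 3 : ℝ)) ^ 3 = 36 * Real.pi := by
      rw [← Real.rpow_natCast, ← Real.rpow_mul (by positivity)]
      norm_num
    have e2 : (v ^ (2 / 3 : ℝ)) ^ 3 = v ^ 2 := by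
      rw [← Real.rpow_natCast, ← Real.rpow_mul hv.le]
      norm_num
    rw [e1, e2]
  set Y := c₀ + c₁ * v with hY
  have hY0 : 0 ≤ Y := by positivity
  have hcube : X ^ 3 < Y ^ 3 := by
    rw [hX3]
    have h2 : 0 ≤ c₁ * v := mul_nonneg h1 hv.le
    have h3 : 27 * c₀ * (c₁ * v) ^ 2 / 4 ≤ Y ^ 3 := by
      have : Y ^ 3 - 27 * c₀ * (c₁ * v) ^ 2 / 4 = (c₀ - c₁ * v / 2) ^ 2 * (c₀ + 4 * (c₁ * v)) := by
        rw [hY]; ring
      have h4 : 0 ≤ (c₀ - c₁ * v / 2) ^ 2 * (c₀ + 4 * (c₁ * v)) := by positivity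
      linarith
    have h5 : 16 * Real.pi / 3 * v ^ 2 < c₀ * c₁ ^ 2 * v ^ 2 :=
      mul_lt_mul_of_pos_right hc (by positivity)
    nlinarith
  exact lt_of_pow_lt_pow_left₀ 3 hY0 hcube

section A1

variable {a m p q : ℝ}

/-- The hypothesis of the thin-section estimate with the rational bound for `√π`. -/
lemma A1_hyp' {lam p₀ x₀ : ℝ} (hlam : 0 ≤ lam) (hx₀ : 0 ≤ x₀) (hm : 0 ≤ m) (hpa : p = Real.sqrt a)
    (hqm : q = Real.sqrt m) (hp : 0 < p) (hq : 0 < q) (hpp : p ≤ p₀) (hqx : q ≤ x₀ * p)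
    (hc : p₀ * (4 + 4 / 7 + 10 * x₀ + 4 / 3 * x₀ ^ 2 + 4 * lam * x₀ * (1 + x₀)) ≤ 2 * 1.7724) :
    4 * p ^ 2 * q + 6 * p * q ^ 2 + 4 / 3 * q ^ 3
      + 2 * q ^ 2 * p * Real.log (a / m) + 4 * lam * q ^ 2 * (p + q)
      ≤ 2 * 1.7724 * (p * q) := by
  have hp2 : p ^ 2 = a := by
    rw [hpa]
    apply Real.sq_sqrt
    by_contra hneg
    push Not at hneg
    rw [Real.sqrt_eq_zero_of_nonpos hneg.le] at hpa
    linarith
  have hq2 : q ^ 2 = m := by rw [hqm]; exact Real.sq_sqrt hm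
  have hlog := log_ratio_bound hp hq
  rw [hp2, hq2] at hlog
  have hpq : 0 < p * q := mul_pos hp hq
  have hx : q ≤ x₀ * p := hqx
  have hbound : 4 * p + 6 * q + 4 / 3 * (x₀ * q) + (2 * p / 7 + 2 * q) * 2 + 4 * lam * (x₀ * (p + q))
      ≤ p * (4 + 4 / 7 + 10 * x₀ + 4 / 3 * x₀ ^ 2 + 4 * lam * x₀ * (1 + x₀)) := by
    have h1 : q ≤ x₀ * p := hx
    have h2 : x₀ * q ≤ x₀ * (x₀ * p) := mul_le_mul_of_nonneg_left h1 hx₀
    have h3 : lam * (x₀ * (p + q)) ≤ lam * (x₀ * (p + x₀ * p)) := by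
      apply mul_le_mul_of_nonneg_left _ hlam
      apply mul_le_mul_of_nonneg_left _ hx₀
      linarith
    nlinarith
  have hb2 : p * (4 + 4 / 7 + 10 * x₀ + 4 / 3 * x₀ ^ 2 + 4 * lam * x₀ * (1 + x₀)) ≤ 2 * 1.7724 := by
    refine le_trans (mul_le_mul_of_nonneg_right hpp ?_) hc
    positivity
  have hfinal : 4 * p + 6 * q + 4 / 3 * (x₀ * q) + (2 * p / 7 + 2 * q) * 2 + 4 * lam * (x₀ * (p + q))
      ≤ 2 * 1.7724 := by linarith
  have hmul := mul_le_mul_of_nonneg_left hfinal hpq.le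
  have t1 : 4 / 3 * q ^ 3 ≤ p * q * (4 / 3 * (x₀ * q)) := by
    have : q * q ^ 2 ≤ (x₀ * p) * q ^ 2 := mul_le_mul_of_nonneg_right hx (by positivity)
    nlinarith
  have t2 : 2 * q ^ 2 * p * Real.log (a / m) ≤ p * q * ((2 * p / 7 + 2 * q) * 2) := by
    have : p * q * (2 * (q * Real.log (a / m))) ≤ p * q * (2 * (2 * p / 7 + 2 * q)) := by
      apply mul_le_mul_of_nonneg_left _ hpq.le
      linarith
    nlinarith
  have t3 : 4 * lam * q ^ 2 * (p + q) ≤ p * q * (4 * lam * (x₀ * (p + q))) := by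
    have h1 : q ^ 2 * (p + q) ≤ (x₀ * p) * q * (p + q) := by
      have : q * (q * (p + q)) ≤ (x₀ * p) * (q * (p + q)) :=
        mul_le_mul_of_nonneg_right hx (by positivity)
      nlinarith
    have h2 : 4 * lam * (q ^ 2 * (p + q)) ≤ 4 * lam * ((x₀ * p) * q * (p + q)) :=
      mul_le_mul_of_nonneg_left h1 (by positivity)
    nlinarith
  nlinarith

/-- The strict form of the thin-section estimate. -/
lemma A1_strict {lam V : ℝ} (hV : 0 ≤ V) (hm : 0 < m) (hma : m ≤ a) (hpa : p = Real.sqrt a)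
    (hqm : q = Real.sqrt m) (hp : 0 < p)
    (hineq : 4 * p ^ 2 * q + 6 * p * q ^ 2 + 4 / 3 * q ^ 3
      + 2 * q ^ 2 * p * Real.log (a / m) + 4 * lam * q ^ 2 * (p + q)
      ≤ 2 * 1.7724 * (p * q)) :
    profileJ V + lam * (4 * m) < ck p q + cH p q * V + 2 * ∫ s in m..a, beta1 p q a m s := by
  have hq : 0 < q := by
    rw [hqm]
    exact Real.sqrt_pos.2 hm
  have hr := sqrt_pi_gt
  set ζ := (Real.sqrt Real.pi - 1.7724) * p / (2 * q * (p + q)) with hζ
  have hζ0 : 0 < ζ := by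
    rw [hζ]
    apply div_pos (mul_pos (by linarith) hp)
    positivity
  have e : 4 * ζ * q ^ 2 * (p + q) = 2 * (Real.sqrt Real.pi - 1.7724) * (p * q) := by
    rw [hζ]
    field_simp
    ring
  have hy : 4 * p ^ 2 * q + 6 * p * q ^ 2 + 4 / 3 * q ^ 3
      + 2 * q ^ 2 * p * Real.log (a / m) + 4 * (lam + ζ) * q ^ 2 * (p + q)
      ≤ 2 * Real.sqrt Real.pi * (p * q) := by
    have : 4 * (lam + ζ) * q ^ 2 * (p + q) = 4 * lam * q ^ 2 * (p + q) + 4 * ζ * q ^ 2 * (p + q) := by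
      ring
    rw [this, e]
    nlinarith
  have h := (A1_value (lam := lam + ζ) hV hm.le hma hpa hqm hp hy).2
  have h2 : 0 < ζ * (4 * m) := by positivity
  nlinarith

/-- The value of the calibration at `m = 0`. -/
lemma zero_value {V : ℝ} (hV : 0 ≤ V) (ha : 0 < a) (hpa : p = Real.sqrt a) :
    4 / 3 * a + 2 * Real.sqrt Real.pi / Real.sqrt a * V
      ≤ ck p 0 + cH p 0 * V + 2 * ∫ s in (0:ℝ)..a, beta1 p 0 a 0 s := by
  have hp : 0 < p := by
    rw [hpa]
    exact Real.sqrt_pos.2 ha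
  have hI := beta1_integral (q := 0) (a := a) (m := 0) (p := p) le_rfl ha.le hpa (by simpa using hp)
  have hp2 : p ^ 2 = a := by
    rw [hpa]
    exact Real.sq_sqrt ha.le
  have hs : Real.sqrt (a - 0) = p := by
    rw [hpa, sub_zero]
  rw [hs] at hI
  simp only [zero_mul, sub_zero, add_zero] at hI
  have e1 : 2 / 3 * p ^ 3 / p = 2 / 3 * a := by
    rw [← hp2]
    field_simp
  rw [e1] at hI
  have e2 : ck p 0 = 0 := by
    unfold ck
    simp
  have e3 : cH p 0 = 2 * Real.sqrt Real.pi / Real.sqrt a := by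
    unfold cH
    rw [hpa, add_zero]
  rw [e2, e3]
  linarith

end A1

/-- The thin-section leaf for the first kind of calibration. -/
theorem thin1_strict {a m V p₀ x₀ : ℝ} (hV : 0 ≤ V) (hm : 0 ≤ m) (hma : m ≤ a) (ha0 : 0 < a)
    (ha : a ≤ 1 / Real.pi) (hp₀ : Real.sqrt a ≤ p₀) (hx₀ : 0 ≤ x₀) (hx : Real.sqrt m ≤ x₀ * Real.sqrt a)
    (hc : p₀ * (4 + 4 / 7 + 10 * x₀ + 4 / 3 * x₀ ^ 2) ≤ 2 * 1.7724) :
    StrictGood m a V ∨ Ext m a V := by
  have hp0 := Real.sqrt_pos.2 ha0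
  rcases hm.eq_or_lt with h0 | h0
  · subst h0
    have hy := A1_hyp (lam := 0) (a := a) (m := 0) le_rfl hx₀ le_rfl rfl rfl hp0 hp₀ hx (by simpa using hc)
    have h := A1_value (V := V) hV le_rfl hma rfl rfl hp0 hy
    by_cases hlt : profileJ V < ck (Real.sqrt a) (Real.sqrt 0) + cH (Real.sqrt a) (Real.sqrt 0) * V
        + 2 * ∫ s in (0:ℝ)..a, beta1 (Real.sqrt a) (Real.sqrt 0) a 0 s
    · exact Or.inl ⟨_, hlt, Or.inl ⟨_, _, _, h.1.to_ell ha, le_rfl⟩⟩
    · refine Or.inr (Or.inl ⟨rfl, ?_⟩)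
      have hz := zero_value (p := Real.sqrt a) hV ha0 rfl
      rw [Real.sqrt_zero] at hlt
      linarith
  · have hy := A1_hyp' (lam := 0) (a := a) (m := m) le_rfl hx₀ hm rfl rfl hp0 (Real.sqrt_pos.2 h0) hp₀ hx
      (by simpa using hc)
    have h := A1_strict (V := V) hV h0 hma rfl rfl hp0 hy
    have hadm := beta1_adm hm hma rfl rfl (by positivity : 0 < Real.sqrt a + Real.sqrt m)
    exact Or.inl ⟨_, by simpa using h, Or.inl ⟨_, _, _, hadm.to_ell ha, le_rfl⟩⟩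

/-- The thin-section leaf for the second kind of calibration. -/
theorem thin2_strict {a m V p₀ x₀ : ℝ} (hV : 0 ≤ V) (hm : 0 ≤ m) (hma : m ≤ a) (ha0 : 0 < a)
    (hp₀ : Real.sqrt a ≤ p₀) (hx₀ : 0 ≤ x₀) (hx : Real.sqrt m ≤ x₀ * Real.sqrt a)
    (hc : p₀ * (4 + 4 / 7 + 14 * x₀ + 16 / 3 * x₀ ^ 2) ≤ 2 * 1.7724) :
    StrictGood m a V ∨ Ext m a V := by
  have hp0 := Real.sqrt_pos.2 ha0
  rcases hm.eq_or_lt with h0 | h0
  · subst h0
    have hy := A1_hyp (lam := 1) (a := a) (m := 0) zero_le_one hx₀ le_rfl rfl rfl hp0 hp₀ hx (by nlinarith)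
    have h := A1_value (V := V) hV le_rfl hma rfl rfl hp0 hy
    by_cases hlt : profileJ V < ck (Real.sqrt a) (Real.sqrt 0) + cH (Real.sqrt a) (Real.sqrt 0) * V
        + 2 * ∫ s in (0:ℝ)..a, beta1 (Real.sqrt a) (Real.sqrt 0) a 0 s
    · refine Or.inl ⟨_, hlt, Or.inr ⟨_, _, _, h.1, ?_⟩⟩
      simp
    · refine Or.inr (Or.inl ⟨rfl, ?_⟩)
      have hz := zero_value (p := Real.sqrt a) hV ha0 rfl
      rw [Real.sqrt_zero] at hlt
      linarith
  · have hy := A1_hyp' (lam := 1) (a := a) (m := m) zero_le_one hx₀ hm rfl rfl hp0 (Real.sqrt_pos.2 h0) hp₀ hx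
      (by nlinarith)
    have h := A1_strict (V := V) hV h0 hma rfl rfl hp0 hy
    have hadm := beta1_adm hm hma rfl rfl (by positivity : 0 < Real.sqrt a + Real.sqrt m)
    refine Or.inl ⟨ck (Real.sqrt a) (Real.sqrt m) + cH (Real.sqrt a) (Real.sqrt m) * V
      + 2 * (∫ s in m..a, beta1 (Real.sqrt a) (Real.sqrt m) a m s) - 4 * m, by linarith, Or.inr ⟨_, _, _, hadm, ?_⟩⟩
    linarith

/-- The small-volume leaf. -/
theorem small_strict {a m V : ℝ} (hV : 0 < V) (hm : 0 ≤ m) (hma : m ≤ a) (ha0 : 0 < a)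
    (ha : a ≤ 0.1056) : StrictGood m a V ∨ Ext m a V := by
  set p := Real.sqrt a with hp
  set q := Real.sqrt m with hq
  have hp0 : 0 < p := Real.sqrt_pos.2 ha0
  have hq0 : 0 ≤ q := Real.sqrt_nonneg _
  have hpq : 0 < p + q := by linarith
  have hπ1 : a ≤ 1 / Real.pi := by
    have h1 : (0.1056:ℝ) ≤ 1 / Real.pi := by
      rw [le_div_iff₀ Real.pi_pos]
      have := Real.pi_lt_d6
      norm_num at this ⊢
      linarith
    linarith
  have hp1 : p ≤ 0.325 := by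
    rw [hp]
    apply Real.sqrt_le_iff.2
    constructor
    · norm_num
    · norm_num
      norm_num at ha
      linarith
  by_cases hx : q ≤ 1 / 4 * p
  · exact thin1_strict hV.le hm hma ha0 hπ1 hp1 (by norm_num) hx (by norm_num)
  · push Not at hx
    have hqp : q ≤ p := Real.sqrt_le_sqrt hma
    have hsqrtpi := sqrt_pi_gt
    have hq1 : 0 < q := by nlinarith
    have hpq1 : 0 < p * q := mul_pos hp0 hq1
    have hc : (p + q) ^ 3 < 3 * Real.sqrt Real.pi / 2 * (p * q) := by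
      set x := q / p with hxdef
      have hqx : q = x * p := by
        rw [hxdef]
        field_simp
      have hx1 : 1 / 4 ≤ x := by
        rw [hxdef, le_div_iff₀ hp0]
        linarith
      have hx2 : x ≤ 1 := by
        rw [hxdef, div_le_one hp0]
        exact hqp
      have hg : 0.325 * (1 + x) ^ 3 ≤ 2.6586 * x := by
        nlinarith [mul_nonneg (sub_nonneg.2 hx1) (sub_nonneg.2 hx2),
          mul_nonneg (mul_nonneg (sub_nonneg.2 hx1) (sub_nonneg.2 hx2)) (by linarith : (0:ℝ) ≤ x)]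
      have h1 : (p + q) ^ 3 = p ^ 2 * (p * (1 + x) ^ 3) := by
        rw [hqx]; ring
      have h2 : p * (1 + x) ^ 3 ≤ 0.325 * (1 + x) ^ 3 :=
        mul_le_mul_of_nonneg_right hp1 (by positivity)
      have h3 : p ^ 2 * (p * (1 + x) ^ 3) ≤ p ^ 2 * (2.6586 * x) :=
        mul_le_mul_of_nonneg_left (h2.trans hg) (by positivity)
      have h4 : 3 * Real.sqrt Real.pi / 2 * (p * q) = 3 * Real.sqrt Real.pi / 2 * x * p ^ 2 := by
        rw [hqx]; ring
      rw [h1, h4]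
      have hx0 : 0 < x := by linarith
      have h5 : p ^ 2 * (2.6586 * x) < p ^ 2 * (3 * Real.sqrt Real.pi / 2 * x) := by
        apply mul_lt_mul_of_pos_left _ (by positivity)
        apply mul_lt_mul_of_pos_right _ hx0
        linarith
      nlinarith
    have hJ := profileJ_le_ball V
    have hr : 0 < Real.sqrt Real.pi := Real.sqrt_pos.2 Real.pi_pos
    have hlt : profileJ V < ck p q + cH p q * V := by
      refine hJ.trans_lt (ball_lt_line (by unfold ck; positivity) (by unfold cH; positivity) ?_ hV)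
      unfold ck cH
      have hs := sqrt_pi_sq
      rw [div_pow, mul_pow, hs]
      have e : 2 * Real.sqrt Real.pi * (p * q) / (p + q) * (2 ^ 2 * Real.pi / (p + q) ^ 2)
          = 8 * Real.pi * (Real.sqrt Real.pi * (p * q)) / (p + q) ^ 3 := by
        field_simp
        ring
      rw [e, div_lt_div_iff₀ (by norm_num) (by positivity)]
      have hπ := Real.pi_pos
      have : 16 * Real.pi * (p + q) ^ 3 < 16 * Real.pi * (3 * Real.sqrt Real.pi / 2 * (p * q)) :=
        mul_lt_mul_of_pos_left hc (by positivity)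
      nlinarith
    refine Or.inl ⟨ck p q + cH p q * V, hlt, Or.inl ⟨_, _, _, (chord_adm hm hma rfl rfl hpq).to_ell hπ1, ?_⟩⟩
    simp
    exact le_rfl

/-- The value of the near-diagonal calibration exceeds the profile off the diagonal. -/
lemma diag_val_lt {a m V : ℝ} (hV : 0 < V) (hm : 0 ≤ m) (hlt : m < a)
    (hc : 2 * Real.sqrt a ≤ 1.7724 * (Real.sqrt a + Real.sqrt m) ^ 2) :
    profileJ V < ck (Real.sqrt a) (Real.sqrt m) + cH (Real.sqrt a) (Real.sqrt m) * V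
      + 2 * ∫ s in m..a, beta3 (Real.sqrt a) (Real.sqrt m) a m s := by
  have hma := hlt.le
  have ha0 : 0 < a := hm.trans_lt hlt
  set p := Real.sqrt a with hpa
  set q := Real.sqrt m with hqm
  have hp : 0 < p := Real.sqrt_pos.2 ha0
  have hq0 : 0 ≤ q := Real.sqrt_nonneg _
  have hpq : 0 < p + q := by linarith
  have hp2 : p ^ 2 = a := by rw [hpa]; exact Real.sq_sqrt (hm.trans hma)
  have hq2 : q ^ 2 = m := by rw [hqm]; exact Real.sq_sqrt hm
  have hne : q < p := Real.sqrt_lt_sqrt hm hlt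
  have hr : 0 < Real.sqrt Real.pi := Real.sqrt_pos.2 Real.pi_pos
  rw [beta3_integral hma]
  have hJ := profileJ_le_tube V
  have hπ := Real.pi_pos
  have hC0 : 0 ≤ ck p q + 2 * (1 / (p * (p + q)) * (Real.pi / 8 * (a - m) ^ 2)) := by
    unfold ck
    positivity
  have hline := tube_lt_line (c₀ := ck p q + 2 * (1 / (p * (p + q)) * (Real.pi / 8 * (a - m) ^ 2)))
    (c₁ := cH p q) (v := V) hC0 (by unfold cH; positivity) ?_ hV
  · linarith
  · rw [← hp2, ← hq2]
    unfold ck cH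
    set r := Real.sqrt Real.pi with hrr
    have hrs : r ^ 2 = Real.pi := sqrt_pi_sq
    rw [← hrs]
    have e : (2 * r * (p * q) / (p + q) + 2 * (1 / (p * (p + q)) * (r ^ 2 / 8 * (p ^ 2 - q ^ 2) ^ 2))) * (2 * r / (p + q)) - r ^ 2
        = r ^ 2 * (p - q) ^ 2 * ((p + q) ^ 2 * r - 2 * p) / (2 * p * (p + q) ^ 2) := by
      field_simp
      ring
    have h2 : 0 < r ^ 2 * (p - q) ^ 2 * ((p + q) ^ 2 * r - 2 * p) / (2 * p * (p + q) ^ 2) := by
      apply div_pos _ (by positivity)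
      apply mul_pos
      · have : 0 < p - q := by linarith
        positivity
      · have h3 := sqrt_pi_gt
        have h4 : 0 < (p + q) ^ 2 := by positivity
        have h5 : 1.7724 * (p + q) ^ 2 < r * (p + q) ^ 2 := mul_lt_mul_of_pos_right h3 h4
        nlinarith
    linarith

/-- The near-diagonal leaf. -/
theorem diag_strict {a m V : ℝ} (hV : 0 < V) (hm : 0 ≤ m) (hma : m ≤ a) (ha0 : 0 < a)
    (hc : 2 * Real.sqrt a ≤ 1.7724 * (Real.sqrt a + Real.sqrt m) ^ 2) :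
    m = a ∨ ∃ B, profileJ V < B ∧ Value ell0 m a V B := by
  rcases hma.eq_or_lt with h | hlt
  · exact Or.inl h
  right
  have hadm := beta3_adm hm hma rfl rfl (Real.sqrt_pos.2 ha0)
  exact ⟨_, diag_val_lt hV hm hlt hc, ⟨_, _, _, hadm, le_rfl⟩⟩

/-- The plateau leaf. -/
theorem plateau_strict {a m V : ℝ} (hm : 1 / Real.pi ≤ m) (ha : a ≤ 1 - 1 / Real.pi) (hma : m ≤ a) :
    m = a ∨ ∃ B, profileJ V < B ∧ Value ell m a V B := by
  rcases hma.eq_or_lt with h | hlt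
  · exact Or.inl h
  right
  have hπ := Real.pi_pos
  have hπ3 := Real.pi_gt_three
  have hpi_inv : 1 / Real.pi < 1 / 3 := one_div_lt_one_div_of_lt (by norm_num) hπ3
  set d := a - m with hd
  have hd0 : 0 < d := by rw [hd]; linarith
  have hd1 : d ≤ 1 := by
    have : 0 < 1 / Real.pi := by positivity
    rw [hd]
    linarith
  set η := d ^ 2 with hη
  have hη0 : 0 < η := by positivity
  have hη1 : η ≤ 1 := by
    rw [hη]
    nlinarith
  set b := Real.sqrt (η - η ^ 2 / 4) with hb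
  have hq : 0 ≤ η - η ^ 2 / 4 := by nlinarith
  have hb2 : b ^ 2 = η - η ^ 2 / 4 := Real.sq_sqrt hq
  have hb0 : 0 ≤ b := Real.sqrt_nonneg _
  have hb1 : b ≤ 1 := Real.sqrt_le_one.2 (by nlinarith)
  have hblow : 0.8 * d ≤ b := by
    apply Real.le_sqrt_of_sq_le
    rw [hη]
    nlinarith [mul_nonneg hd0.le hd0.le, pow_nonneg hd0.le 2, pow_nonneg hd0.le 3, pow_nonneg hd0.le 4]
  refine ⟨2 - η + 2 * (d * b), ?_, ⟨2 - η, 0, fun _ => b, ⟨continuousOn_const, fun _ _ => hb0,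
    fun _ _ => hb1, ?_⟩, ?_⟩⟩
  · have h1 := profileJ_le_two V
    have h2 : 0.8 * d * d ≤ d * b := by nlinarith
    rw [hη] at *
    nlinarith
  · intro s hs
    have h1 : 1 / Real.pi ≤ s := hm.trans hs.1
    have h2 : s ≤ 1 - 1 / Real.pi := hs.2.trans ha
    have h3 : 1 ≤ Real.pi * s := by
      rw [div_le_iff₀ hπ] at h1
      linarith
    have h4 : 1 ≤ Real.pi * (1 - s) := by
      have : 1 / Real.pi ≤ 1 - s := by linarith
      rw [div_le_iff₀ hπ] at this
      linarith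
    have h5 : (4:ℝ) ≤ ell s := by
      unfold ell
      refine le_min (le_min ?_ le_rfl) ?_ <;> nlinarith
    have h6 : 0 ≤ 1 - b ^ 2 := by nlinarith
    have h7 : (1 - b ^ 2) * 4 ≤ (1 - b ^ 2) * ell s := mul_le_mul_of_nonneg_left h5 h6
    rw [hb2] at h7 ⊢
    simp only [zero_mul, add_zero]
    nlinarith
  · simp only [zero_mul, add_zero, intervalIntegral.integral_const, smul_eq_mul]
    apply le_of_eq
    rw [hd]

/-- The arithmetic at the corner, with a strict inequality. -/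
lemma corner_arith_lt {u r L π' : ℝ} (hu0 : 0 < u) (hu3 : u ≤ 0.03) (hr : 1.7724 ≤ r)
    (hlogb : u * L ≤ 1 / 20 + 2 * u) (hπ : π' ≤ 4) :
    2 * (2 * u ^ 2 + u ^ 2 * (2 * (2 * L) + π')) < 0.35 * (2 * r * u) := by
  have e : 2 * (2 * u ^ 2 + u ^ 2 * (2 * (2 * L) + π')) = u * (4 * u + 8 * (u * L) + 2 * u * π') := by
    ring
  rw [e]
  have h1 : 2 * u * π' ≤ 2 * u * 4 := mul_le_mul_of_nonneg_left hπ (by positivity)
  have h2 : 4 * u + 8 * (u * L) + 2 * u * π' ≤ 1.24 := by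
    norm_num at hu3 ⊢
    linarith
  have h3 : u * (4 * u + 8 * (u * L) + 2 * u * π') ≤ u * 1.24 :=
    mul_le_mul_of_nonneg_left h2 hu0.le
  have h4 : 1.7724 * u ≤ r * u := mul_le_mul_of_nonneg_right hr hu0.le
  norm_num at h3 h4 ⊢
  linarith

/-- The corner leaf. -/
theorem corner_strict {a m V : ℝ} (hm0 : 0 ≤ m) (hm : m ≤ 0.0009) (ha : 1 - 0.0009 ≤ a) (ha1 : a ≤ 1)
    (hV : 0.351 ≤ V) (hV' : V ≤ 0.649) : (m = 0 ∧ a = 1) ∨ ∃ B, profileJ V < B ∧ Value ell m a V B := by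
  set ε := max m (1 - a) with hε
  have hε0 : 0 ≤ ε := hm0.trans (le_max_left _ _)
  have hεle : ε ≤ 0.0009 := by
    apply max_le hm
    linarith
  have hmε : m ≤ ε := le_max_left _ _
  have haε : 1 - ε ≤ a := by
    have : 1 - a ≤ ε := le_max_right _ _
    linarith
  rcases hε0.eq_or_lt with h0 | h0
  · left
    constructor
    · exact le_antisymm (by rw [← h0] at hmε; exact hmε) hm0
    · have : 1 - a ≤ ε := le_max_right _ _
      rw [← h0] at this
      linarith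
  right
  obtain ⟨k, H, hcon1, hcon2, hkV, hwV⟩ := corner_chord hm0 hm ha ha1 hV hV' hε
  have hadm : Adm ell m a k H (beta4 ε) :=
    ⟨(beta4_continuous hε0).continuousOn, fun s _ => beta4_nonneg ε s,
      fun s _ => beta4_le_one hε0 s,
      fun s hs => beta4_con hε0 (hcon1 s hs) (hcon2 s hs)⟩
  refine ⟨k + H * V + 2 * ∫ s in m..a, beta4 ε s, ?_, ⟨k, H, beta4 ε, hadm, le_rfl⟩⟩
  refine (profileJ_le_two V).trans_lt ?_
  have hI := beta4_integral (m := m) (a := a) h0 (by norm_num at hεle ⊢; linarith) hmε haε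
  set u := Real.sqrt ε with hu
  have hu0 : 0 < u := Real.sqrt_pos.2 h0
  have hu2 : u ^ 2 = ε := Real.sq_sqrt hε0
  have hu3 : u ≤ 0.03 := by
    rw [hu]
    apply Real.sqrt_le_iff.2
    constructor
    · norm_num
    · norm_num
      norm_num at hεle
      linarith
  have hlog : Real.log (1 / ε) = 2 * Real.log (1 / u) := by
    rw [← hu2, ← one_div_pow, Real.log_pow]
    norm_num
  have hfinal := corner_arith_lt hu0 hu3 sqrt_pi_gt.le (corner_log hu0) Real.pi_le_four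
  rw [hu2, ← hlog] at hfinal
  linarith

end Vale.Agent.Lib.P232
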