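import Vale.Agent.Lib.P232.Moll4
import Vale.Agent.Lib.P232.CertR1
import Vale.Agent.Lib.P232.CertR2

open MeasureTheory Set
open scoped ENNReal

namespace Vale.Agent.Lib.P232

lemma torusVolume_nonneg (E : Set R3) : 0 ≤ torusVolume E := ENNReal.toReal_nonneg

lemma torusVolume_le_one (E : Set R3) : torusVolume E ≤ 1 := by
  unfold torusVolume
  have h1 : volume (E ∩ unitCell) ≤ 1 := by
    rw [← unitCell_volume]
    exact measure_mono inter_subset_right
  have h2 : volume (E ∩ unitCell) ≠ ⊤ := ne_top_of_le_ne_top ENNReal.one_ne_top h1
  have := ENNReal.toReal_mono ENNReal.one_ne_top h1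
  simpa using this

lemma profileJ_zero : profileJ 0 = 0 := by
  unfold profileJ
  have h1 : (36 * Real.pi) ^ (1 / 3 : ℝ) * (0:ℝ) ^ (2 / 3 : ℝ) = 0 := by
    rw [Real.zero_rpow (by norm_num), mul_zero]
  rw [h1]
  simp

/-- The lower bound for the perimeter of subsets of the cubic torus, on the two ranges. -/
theorem main_lower (E : Set R3) (hE : MeasurableSet E) (hper : PeriodicSet E)
    (hrange : min (torusVolume E) (1 - torusVolume E) ≤ 0.2675 ∨
      0.3592 ≤ min (torusVolume E) (1 - torusVolume E)) :
    ENNReal.ofReal (profileJ (min (torusVolume E) (1 - torusVolume E))) ≤ perimeter E := by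
  set v := min (torusVolume E) (1 - torusVolume E) with hv
  have h0 := torusVolume_nonneg E
  have h1 := torusVolume_le_one E
  have hv0 : 0 ≤ v := le_min h0 (by linarith)
  have hv1 : v ≤ 1 / 2 := by
    rcases le_total (torusVolume E) (1 / 2) with h | h
    · exact (min_le_left _ _).trans h
    · exact (min_le_right _ _).trans (by linarith)
  rcases hv0.eq_or_lt with hz | hpos
  · rw [← hz, profileJ_zero]
    simp
  · apply perimeter_lower hE hper hv
    rcases hrange with hr | hr
    · refine RA_of_check certR1_ok (by simpa [toR] using hv0) ?_ hpos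
      have : toR 267500000 = 0.2675 := by
        unfold toR SS
        norm_num
      rw [this]
      exact hr
    · refine RA_of_check certR2_ok ?_ ?_ hpos
      · have : toR 359200000 = 0.3592 := by
          unfold toR SS
          norm_num
        rw [this]
        exact hr
      · have : toR 500000000 = 1 / 2 := by
          unfold toR SS
          norm_num
        rw [this]
        exact hv1

end Vale.Agent.Lib.P232
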