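import Vale.Agent.Lib.P232.Cl4
import Vale.Agent.Lib.P232.Main

open MeasureTheory Set intervalIntegral Filter
open scoped Topology ENNReal

namespace Vale.Agent.Lib.P232

/-- The arithmetic condition of the near-diagonal leaf, with the rational bound for `√π`. -/
lemma diag_const' {a m : ℝ} {aL mL pL qL : ℕ} (ha : toR aL ≤ a) (hm : toR mL ≤ m)
    (h1 : pL * pL ≤ aL * SS) (h2 : qL * qL ≤ mL * SS) (h3 : 10000 * SS ≤ 17724 * (pL + qL))
    (h4 : 2 * pL * SS * 10000 ≤ 17724 * ((pL + qL) * (pL + qL))) :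
    2 * Real.sqrt a ≤ 1.7724 * (Real.sqrt a + Real.sqrt m) ^ 2 := by
  have hS := SS_pos
  have h1' : (pL:ℝ) * pL ≤ aL * SS := by exact_mod_cast h1
  have h2' : (qL:ℝ) * qL ≤ mL * SS := by exact_mod_cast h2
  have h3' : (10000:ℝ) * SS ≤ 17724 * (pL + qL) := by exact_mod_cast h3
  have h4' : (2:ℝ) * pL * SS * 10000 ≤ 17724 * ((pL + qL) * (pL + qL)) := by exact_mod_cast h4
  set p := Real.sqrt a
  set q := Real.sqrt m
  have hp1 : toR pL ≤ p := by
    apply Real.le_sqrt_of_sq_le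
    refine le_trans ?_ ha
    unfold toR
    rw [div_pow, div_le_div_iff₀ (by positivity) hS]
    nlinarith
  have hq1 : toR qL ≤ q := by
    apply Real.le_sqrt_of_sq_le
    refine le_trans ?_ hm
    unfold toR
    rw [div_pow, div_le_div_iff₀ (by positivity) hS]
    nlinarith
  set x := toR pL
  set y := toR qL
  have hx0 : 0 ≤ x := toR_nonneg _
  have hy0 : 0 ≤ y := toR_nonneg _
  have hc1 : 1 ≤ 1.7724 * (x + y) := by
    have : (1:ℝ) = (10000 * SS) / (10000 * SS) := by field_simp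
    have e : 1.7724 * (x + y) = (17724 * ((pL:ℝ) + qL)) / (10000 * SS) := by
      simp only [x, y, toR]
      field_simp
      norm_num
      ring
    rw [e, le_div_iff₀ (by positivity)]
    linarith
  have hc2 : 2 * x ≤ 1.7724 * (x + y) ^ 2 := by
    have e1 : 2 * x = ((2:ℝ) * pL * SS * 10000) / (10000 * (SS:ℝ) ^ 2) := by
      simp only [x, toR]
      field_simp
    have e2 : 1.7724 * (x + y) ^ 2 = (17724 * (((pL:ℝ) + qL) * ((pL:ℝ) + qL))) / (10000 * (SS:ℝ) ^ 2) := by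
      simp only [x, y, toR]
      field_simp
      norm_num
      ring
    rw [e1, e2]
    exact div_le_div_of_nonneg_right h4' (by positivity)
  have hpq : x + y ≤ p + q := by linarith
  have hd : 0 ≤ p + q - (x + y) := by linarith
  have h5 : (x + y) ^ 2 + 2 * (x + y) * (p + q - (x + y)) ≤ (p + q) ^ 2 := by nlinarith
  have h6 : 2 * (p + q - (x + y)) ≤ 1.7724 * (2 * (x + y) * (p + q - (x + y))) := by
    nlinarith
  have h7 : 0 ≤ q - y := by linarith
  nlinarith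

/-- The checker of the certificate trees with a strict margin. -/
def checkS : Cert → ℕ → ℕ → ℕ → ℕ → ℕ → ℕ → Bool
  | .splitM c l r, mL, mU, aL, aU, vL, vU =>
    checkS l mL c aL aU vL vU && checkS r c mU aL aU vL vU
  | .splitA c l r, mL, mU, aL, aU, vL, vU =>
    checkS l mL mU aL c vL vU && checkS r mL mU c aU vL vU
  | .splitV c l r, mL, mU, aL, aU, vL, vU =>
    checkS l mL mU aL aU vL c && checkS r mL mU aL aU c vU
  | .empty, mL, _, _, aU, vL, vU =>
    Nat.blt aU mL || Nat.blt vU mL || Nat.blt aU vL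
  | .small, _, _, _, aU, _, _ => Nat.ble (10000 * aU) (1056 * SS)
  | .thin1 p₀ x₀, _, mU, aL, aU, _, _ =>
    Nat.ble (aU * 3141593) (SS * 1000000) && Nat.ble (aU * SS) (p₀ * p₀) &&
      Nat.ble (mU * (SS * SS)) (x₀ * x₀ * aL) &&
      Nat.ble (p₀ * (96 * (SS * SS) + 210 * x₀ * SS + 28 * (x₀ * x₀)) * 10000)
        (744408 * (SS * SS * SS))
  | .thin2 p₀ x₀, _, mU, aL, aU, _, _ =>
    Nat.ble (aU * SS) (p₀ * p₀) && Nat.ble (mU * (SS * SS)) (x₀ * x₀ * aL) &&
      Nat.ble (p₀ * (96 * (SS * SS) + 294 * x₀ * SS + 112 * (x₀ * x₀)) * 10000)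
        (744408 * (SS * SS * SS))
  | .diag pL qL, mL, _, aL, aU, _, _ =>
    Nat.ble (aU * 3141593) (SS * 1000000) && Nat.ble (pL * pL) (aL * SS) &&
      Nat.ble (qL * qL) (mL * SS) && Nat.ble (10000 * SS) (17724 * (pL + qL)) &&
      Nat.ble (2 * pL * SS * 10000) (17724 * ((pL + qL) * (pL + qL)))
  | .plateau, mL, _, _, aU, _, _ =>
    Nat.ble (1000000 * SS) (mL * 3141592) && Nat.ble aU SS &&
      Nat.ble (1000000 * SS) ((SS - aU) * 3141592)
  | .corner, _, mU, aL, aU, vL, vU =>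
    Nat.ble mU 900000 && Nat.ble (SS - 900000) aL && Nat.ble aU SS &&
      Nat.ble 351000000 vL && Nat.ble vU 649000000
  | .cell1 k Hp Hn g₀ l ts, mL, mU, aL, aU, vL, vU =>
    Nat.blt mL mU && Nat.blt aL aU && node1 k Hp Hn mL 0 && node1 k Hp Hn aU 0 &&
      chainOK (node1 k Hp Hn) mU g₀ l && Nat.beq (chainEnd mU l) aL &&
      targets (k * SS + chainI mU g₀ l) 1 Hp Hn (nmax vL mL) (nmin vU aU) ts
  | .cell2 k Hp Hn g₀ l ts, mL, mU, aL, aU, vL, vU =>
    Nat.blt mL mU && Nat.blt aL aU && node2 k Hp Hn mL 0 && node2 k Hp Hn aU 0 &&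
      chainOK (node2 k Hp Hn) mU g₀ l && Nat.beq (chainEnd mU l) aL &&
      targets (k * SS + chainI mU g₀ l) (4 * mU * SS + 1) Hp Hn (nmax vL mL) (nmin vU aU) ts

lemma strict_margin : (0:ℝ) < 1 / (SS:ℝ) ^ 2 := by
  have hS := SS_pos
  positivity

theorem checkS_sound : ∀ (c : Cert) (mL mU aL aU vL vU : ℕ), checkS c mL mU aL aU vL vU = true →
    ∀ m a V : ℝ, toR mL ≤ m → m ≤ toR mU → toR aL ≤ a → a ≤ toR aU → toR vL ≤ V → V ≤ toR vU →
      0 ≤ m → m ≤ V → V ≤ a → a ≤ 1 → 0 < V → StrictGood m a V ∨ Ext m a V := by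
  intro c
  induction c with
  | splitM c l r ihl ihr =>
    intro mL mU aL aU vL vU h m a V h1 h2 h3 h4 h5 h6 h7 h8 h9 h10 h11
    simp only [checkS, Bool.and_eq_true] at h
    by_cases hc : m ≤ toR c
    · exact ihl _ _ _ _ _ _ h.1 m a V h1 hc h3 h4 h5 h6 h7 h8 h9 h10 h11
    · exact ihr _ _ _ _ _ _ h.2 m a V (le_of_not_ge hc) h2 h3 h4 h5 h6 h7 h8 h9 h10 h11
  | splitA c l r ihl ihr =>
    intro mL mU aL aU vL vU h m a V h1 h2 h3 h4 h5 h6 h7 h8 h9 h10 h11
    simp only [checkS, Bool.and_eq_true] at h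
    by_cases hc : a ≤ toR c
    · exact ihl _ _ _ _ _ _ h.1 m a V h1 h2 h3 hc h5 h6 h7 h8 h9 h10 h11
    · exact ihr _ _ _ _ _ _ h.2 m a V h1 h2 (le_of_not_ge hc) h4 h5 h6 h7 h8 h9 h10 h11
  | splitV c l r ihl ihr =>
    intro mL mU aL aU vL vU h m a V h1 h2 h3 h4 h5 h6 h7 h8 h9 h10 h11
    simp only [checkS, Bool.and_eq_true] at h
    by_cases hc : V ≤ toR c
    · exact ihl _ _ _ _ _ _ h.1 m a V h1 h2 h3 h4 h5 hc h7 h8 h9 h10 h11
    · exact ihr _ _ _ _ _ _ h.2 m a V h1 h2 h3 h4 (le_of_not_ge hc) h6 h7 h8 h9 h10 h11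
  | empty =>
    intro mL mU aL aU vL vU h m a V h1 h2 h3 h4 h5 h6 h7 h8 h9 h10 h11
    simp only [checkS, Bool.or_eq_true] at h
    exfalso
    rcases h with (h | h) | h
    · have := toR_lt (Nat.le_of_ble_eq_true h)
      linarith
    · have := toR_lt (Nat.le_of_ble_eq_true h)
      linarith
    · have := toR_lt (Nat.le_of_ble_eq_true h)
      linarith
  | small =>
    intro mL mU aL aU vL vU h m a V h1 h2 h3 h4 h5 h6 h7 h8 h9 h10 h11
    simp only [checkS] at h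
    have hn : 10000 * aU ≤ 1056 * SS := Nat.le_of_ble_eq_true h
    have hn' : (10000:ℝ) * aU ≤ 1056 * SS := by exact_mod_cast hn
    have hS := SS_pos
    have ha : a ≤ 0.1056 := by
      refine h4.trans ?_
      unfold toR
      rw [div_le_iff₀ hS]
      norm_num
      linarith
    exact small_strict h11 h7 (h8.trans h9) (h11.trans_le h9) ha
  | thin1 p₀ x₀ =>
    intro mL mU aL aU vL vU h m a V h1 h2 h3 h4 h5 h6 h7 h8 h9 h10 h11
    simp only [checkS, Bool.and_eq_true] at h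
    obtain ⟨⟨⟨c1, c2⟩, c3⟩, c4⟩ := h
    exact thin1_strict h11.le h7 (h8.trans h9) (h11.trans_le h9)
      (h4.trans (one_div_pi_ge (Nat.le_of_ble_eq_true c1)))
      (sqrt_le_of_toR h4 (Nat.le_of_ble_eq_true c2)) (toR_nonneg _)
      (sqrt_thin h2 h3 (Nat.le_of_ble_eq_true c3))
      (thin1_const (Nat.le_of_ble_eq_true c4))
  | thin2 p₀ x₀ =>
    intro mL mU aL aU vL vU h m a V h1 h2 h3 h4 h5 h6 h7 h8 h9 h10 h11
    simp only [checkS, Bool.and_eq_true] at h
    obtain ⟨⟨c2, c3⟩, c4⟩ := h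
    exact thin2_strict h11.le h7 (h8.trans h9) (h11.trans_le h9)
      (sqrt_le_of_toR h4 (Nat.le_of_ble_eq_true c2)) (toR_nonneg _)
      (sqrt_thin h2 h3 (Nat.le_of_ble_eq_true c3))
      (thin2_const (Nat.le_of_ble_eq_true c4))
  | diag pL qL =>
    intro mL mU aL aU vL vU h m a V h1 h2 h3 h4 h5 h6 h7 h8 h9 h10 h11
    simp only [checkS, Bool.and_eq_true] at h
    obtain ⟨⟨⟨⟨c1, c2⟩, c3⟩, c4⟩, c5⟩ := h
    have hc := diag_const' h3 h1 (Nat.le_of_ble_eq_true c2) (Nat.le_of_ble_eq_true c3)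
        (Nat.le_of_ble_eq_true c4) (Nat.le_of_ble_eq_true c5)
    have hπ := h4.trans (one_div_pi_ge (Nat.le_of_ble_eq_true c1))
    rcases diag_strict h11 h7 (h8.trans h9) (h11.trans_le h9) hc with e | ⟨B, hB, k, H, β, hadm, hv⟩
    · exact Or.inr (Or.inr (Or.inl e))
    · exact Or.inl ⟨B, hB, Or.inl ⟨k, H, β, hadm.to_ell hπ, hv⟩⟩
  | plateau =>
    intro mL mU aL aU vL vU h m a V h1 h2 h3 h4 h5 h6 h7 h8 h9 h10 h11
    simp only [checkS, Bool.and_eq_true] at h
    obtain ⟨⟨c1, c2⟩, c3⟩ := h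
    have c1' : 1000000 * SS ≤ mL * 3141592 := Nat.le_of_ble_eq_true c1
    have c2' : aU ≤ SS := Nat.le_of_ble_eq_true c2
    have c3' : 1000000 * SS ≤ (SS - aU) * 3141592 := Nat.le_of_ble_eq_true c3
    have hS := SS_pos
    have hπ := Real.pi_pos
    have hπ' := Real.pi_gt_d6
    have key : ∀ n : ℕ, 1000000 * SS ≤ n * 3141592 → 1 / Real.pi ≤ toR n := by
      intro n hn
      have hn' : (1000000:ℝ) * SS ≤ n * 3141592 := by exact_mod_cast hn
      unfold toR
      rw [div_le_div_iff₀ hπ hS]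
      have h0 : (0:ℝ) ≤ n := Nat.cast_nonneg _
      nlinarith
    have hk := key _ c3'
    rw [toR_sub c2'] at hk
    rcases plateau_strict (V := V) (le_trans (key _ c1') h1) (by linarith) (h8.trans h9) with e | ⟨B, hB, hv⟩
    · exact Or.inr (Or.inr (Or.inl e))
    · exact Or.inl ⟨B, hB, Or.inl hv⟩
  | corner =>
    intro mL mU aL aU vL vU h m a V h1 h2 h3 h4 h5 h6 h7 h8 h9 h10 h11
    simp only [checkS, Bool.and_eq_true] at h
    obtain ⟨⟨⟨⟨c1, c2⟩, c3⟩, c4⟩, c5⟩ := h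
    have hS := SS_pos
    have c1' : toR mU ≤ toR 900000 := toR_mono (Nat.le_of_ble_eq_true c1)
    have c2' : toR (SS - 900000) ≤ toR aL := toR_mono (Nat.le_of_ble_eq_true c2)
    have c4' : toR 351000000 ≤ toR vL := toR_mono (Nat.le_of_ble_eq_true c4)
    have c5' : toR vU ≤ toR 649000000 := toR_mono (Nat.le_of_ble_eq_true c5)
    have e1 : toR 900000 = 0.0009 := by
      unfold toR SS; norm_num
    have e2 : toR (SS - 900000) = 1 - 0.0009 := by
      unfold toR SS; norm_num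
    have e3 : toR 351000000 = 0.351 := by
      unfold toR SS; norm_num
    have e4 : toR 649000000 = 0.649 := by
      unfold toR SS; norm_num
    rw [e1] at c1'
    rw [e2] at c2'
    rw [e3] at c4'
    rw [e4] at c5'
    rcases corner_strict h7 (h2.trans c1') (c2'.trans h3) h10 (c4'.trans h5) (h6.trans c5') with e | ⟨B, hB, hv⟩
    · exact Or.inr (Or.inr (Or.inr e))
    · exact Or.inl ⟨B, hB, Or.inl hv⟩
  | cell1 k Hp Hn g₀ l ts =>
    intro mL mU aL aU vL vU h m a V h1 h2 h3 h4 h5 h6 h7 h8 h9 h10 h11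
    simp only [checkS, Bool.and_eq_true] at h
    obtain ⟨⟨⟨⟨⟨⟨c1, c2⟩, c3⟩, c4⟩, c5⟩, c6⟩, c7⟩ := h
    have hn : ∀ s g, node1 k Hp Hn s g = true → Nd1 (toR k) (slopeR Hp Hn) (toR s) (toR g) :=
      fun s g hh => node1_sound hh
    obtain ⟨g, g', hF⟩ := cell_feas (convex_Nd1 _ _) hn c3 c4 (Nat.le_of_ble_eq_true c1)
      (Nat.le_of_ble_eq_true c2) c5 (Nat.eq_of_beq_eq_true c6) h1 h2 h3 h4
    have hT := targets_sound ts _ _ c7 V
      (by
        rcases (by unfold nmax; cases Nat.ble vL mL <;> simp : toR (nmax vL mL) = toR vL ∨ toR (nmax vL mL) = toR mL) with e | e <;> rw [e]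
        · exact h5
        · exact h1.trans h8)
      (by
        rcases toR_nmin_cases (a := vU) (b := aU) with e | e <;> rw [e]
        · exact h6
        · exact h9.trans h4)
      h11.le
    refine Or.inl ⟨profileJ V + 1 / (SS:ℝ) ^ 2, by linarith [strict_margin], Or.inl ?_⟩
    apply value1_of_feas hF
    have hS := SS_pos
    push_cast at hT
    have e : (((k:ℝ) * SS + (chainI mU g₀ l : ℕ)) / (SS:ℝ) ^ 2)
        = toR k + ((chainI mU g₀ l : ℕ):ℝ) / (SS:ℝ) ^ 2 := by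
      unfold toR
      field_simp
    rw [e] at hT
    have e2 : 2 * (((chainI mU g₀ l : ℕ):ℝ) / (SS:ℝ) ^ 2 / 2) = ((chainI mU g₀ l : ℕ):ℝ) / (SS:ℝ) ^ 2 := by
      ring
    rw [e2]
    linarith
  | cell2 k Hp Hn g₀ l ts =>
    intro mL mU aL aU vL vU h m a V h1 h2 h3 h4 h5 h6 h7 h8 h9 h10 h11
    simp only [checkS, Bool.and_eq_true] at h
    obtain ⟨⟨⟨⟨⟨⟨c1, c2⟩, c3⟩, c4⟩, c5⟩, c6⟩, c7⟩ := h
    have hn : ∀ s g, node2 k Hp Hn s g = true → Nd2 (toR k) (slopeR Hp Hn) (toR s) (toR g) :=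
      fun s g hh => node2_sound hh
    obtain ⟨g, g', hF⟩ := cell_feas (convex_Nd2 _ _) hn c3 c4 (Nat.le_of_ble_eq_true c1)
      (Nat.le_of_ble_eq_true c2) c5 (Nat.eq_of_beq_eq_true c6) h1 h2 h3 h4
    have hT := targets_sound ts _ _ c7 V
      (by
        rcases (by unfold nmax; cases Nat.ble vL mL <;> simp : toR (nmax vL mL) = toR vL ∨ toR (nmax vL mL) = toR mL) with e | e <;> rw [e]
        · exact h5
        · exact h1.trans h8)
      (by
        rcases toR_nmin_cases (a := vU) (b := aU) with e | e <;> rw [e]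
        · exact h6
        · exact h9.trans h4)
      h11.le
    refine Or.inl ⟨profileJ V + 1 / (SS:ℝ) ^ 2, by linarith [strict_margin], Or.inr ?_⟩
    apply value2_of_feas hF
    have hS := SS_pos
    push_cast at hT
    have e : (((k:ℝ) * SS + (chainI mU g₀ l : ℕ)) / (SS:ℝ) ^ 2)
        = toR k + ((chainI mU g₀ l : ℕ):ℝ) / (SS:ℝ) ^ 2 := by
      unfold toR
      field_simp
    rw [e] at hT
    have e3 : (4 * (mU:ℝ) * SS + 1) / (SS:ℝ) ^ 2 = 4 * toR mU + 1 / (SS:ℝ) ^ 2 := by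
      unfold toR
      field_simp
    rw [e3] at hT
    have e2 : 2 * (((chainI mU g₀ l : ℕ):ℝ) / (SS:ℝ) ^ 2 / 2) = ((chainI mU g₀ l : ℕ):ℝ) / (SS:ℝ) ^ 2 := by
      ring
    rw [e2]
    linarith

set_option maxRecDepth 100000 in
lemma certR1_strict : checkS certR1 0 267500000 0 SS 0 267500000 = true := by
  decide +kernel

set_option maxRecDepth 100000 in
lemma certR2_strict : checkS certR2 0 500000000 359200000 SS 359200000 500000000 = true := by
  decide +kernel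

end Vale.Agent.Lib.P232
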