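import Vale.Agent.Lib.P232.GapB2
import Vale.Agent.Lib.P232.Main
import Vale.Agent.Lib.P232.CertGThin
import Vale.Agent.Lib.P232.CertGThick
import Vale.Agent.Lib.P232.CertGTinyA
import Vale.Agent.Lib.P232.CertGTinyB

open MeasureTheory Set intervalIntegral Filter
open scoped Topology ENNReal

namespace Vale.Agent.Lib.P232

/-! ### The real analysis input in the gap -/

lemma toR_nums : toR 150000000 = 0.15 ∧ toR 510000000 = 0.51 ∧ toR 1000000000 = 1 ∧ toR 267500000 = 0.2675 ∧
    toR 359200000 = 0.3592 ∧ toR 40000 = 0.00004 ∧ toR 620000000 = 0.62 ∧ toR 800000000 = 0.8 ∧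
    toR 300000000 = 0.3 ∧ toR 322000000 = 0.322 := by
  unfold toR SS
  norm_num

lemma muR_zero : muR 0 = 0 := by
  unfold muR
  simp

lemma muR_491 : muR 491 = 0.491 := by
  unfold muR
  norm_num

lemma toR_one_pos : 0 < toR 1 := by
  unfold toR SS
  norm_num

/-- The thin direction. -/
theorem RA_thin {m a V : ℝ} (h1 : 0.2675 ≤ V) (h2 : V ≤ 0.3592) (h3 : 0 ≤ m) (h4 : m ≤ V) (h5 : V ≤ a)
    (h6 : a ≤ 1) : GoodG 0 0.15 0 m a V (profileJ V) := by
  obtain ⟨e1, e2, e3, e4, e5, e6, e7, e8, e9, e10⟩ := toR_nums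
  rcases checkG_sound ⟨0, 150000000, 0⟩ ⟨0, 0, 0, 1, 0⟩ (by unfold SS; norm_num) _ _ _ _ _ _ _
      certGthin_ok m a V (by simpa [toR_zero] using h3) (by rw [e5]; exact h4.trans h2)
      (by rw [e4]; exact h1.trans h5) (by rw [e3]; exact h6) (by rw [e4]; exact h1)
      (by rw [e5]; exact h2) h3 h4 h5 h6 (by linarith) with h | h
  · simpa [toR_zero, muR_zero, e1] using h
  · exfalso
    obtain ⟨_, _, _, a1, a2⟩ := h
    have := toR_one_pos
    simp only [toR_zero] at a2
    linarith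

/-- The base tree of the thick direction. -/
theorem RA_thick {m a V : ℝ} (h1 : 0.2675 ≤ V) (h2 : V ≤ 0.3592) (h3 : 0 ≤ m) (h4 : m ≤ V) (h5 : V ≤ a)
    (h6 : a ≤ 1) : GoodG 0.15 1 0 m a V (profileJ V) ∨
      (m ≤ 0.00004 ∧ 0.62 ≤ a ∧ a ≤ 0.8 ∧ 0.3 ≤ V ∧ V ≤ 0.322) := by
  obtain ⟨e1, e2, e3, e4, e5, e6, e7, e8, e9, e10⟩ := toR_nums
  rcases checkG_sound ⟨150000000, 1000000000, 0⟩ ⟨40000, 620000000, 800000000, 300000000, 322000000⟩
      (by unfold SS; norm_num) _ _ _ _ _ _ _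
      certGthick_ok m a V (by simpa [toR_zero] using h3) (by rw [e5]; exact h4.trans h2)
      (by rw [e4]; exact h1.trans h5) (by rw [e3]; exact h6) (by rw [e4]; exact h1)
      (by rw [e5]; exact h2) h3 h4 h5 h6 (by linarith) with h | h
  · left
    simpa [muR_zero, e1, e3] using h
  · right
    simpa only [e6, e7, e8, e9, e10] using h

/-- The first tree of the small box. -/
theorem RA_tinyA {m a V : ℝ} (h3 : 0 ≤ m) (h4 : m ≤ V) (h5 : V ≤ a) (h6 : a ≤ 1)
    (h7 : m ≤ 0.00004) (h8 : 0.62 ≤ a) (h9 : a ≤ 0.8) (h10 : 0.3 ≤ V) (h11 : V ≤ 0.322) :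
    GoodG 0.15 0.51 0 m a V (profileJ V) := by
  obtain ⟨e1, e2, e3, e4, e5, e6, e7, e8, e9, e10⟩ := toR_nums
  rcases checkG_sound ⟨150000000, 510000000, 0⟩ ⟨0, 0, 0, 1, 0⟩
      (by unfold SS; norm_num) _ _ _ _ _ _ _
      certGtinyA_ok m a V (by simpa [toR_zero] using h3) (by rw [e6]; exact h7)
      (by rw [e7]; exact h8) (by rw [e8]; exact h9) (by rw [e9]; exact h10)
      (by rw [e10]; exact h11) h3 h4 h5 h6 (by linarith) with h | h
  · simpa [muR_zero, e1, e2] using h
  · exfalso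
    obtain ⟨_, _, _, a1, a2⟩ := h
    have := toR_one_pos
    simp only [toR_zero] at a2
    linarith

/-- The second tree of the small box. -/
theorem RA_tinyB {m a V : ℝ} (h3 : 0 ≤ m) (h4 : m ≤ V) (h5 : V ≤ a) (h6 : a ≤ 1)
    (h7 : m ≤ 0.00004) (h8 : 0.62 ≤ a) (h9 : a ≤ 0.8) (h10 : 0.3 ≤ V) (h11 : V ≤ 0.322) :
    GoodG 0.15 1 0.491 m a V (profileJ V) := by
  obtain ⟨e1, e2, e3, e4, e5, e6, e7, e8, e9, e10⟩ := toR_nums
  rcases checkG_sound ⟨150000000, 1000000000, 491⟩ ⟨0, 0, 0, 1, 0⟩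
      (by unfold SS; norm_num) _ _ _ _ _ _ _
      certGtinyB_ok m a V (by simpa [toR_zero] using h3) (by rw [e6]; exact h7)
      (by rw [e7]; exact h8) (by rw [e8]; exact h9) (by rw [e9]; exact h10)
      (by rw [e10]; exact h11) h3 h4 h5 h6 (by linarith) with h | h
  · simpa [muR_491, e1, e3] using h
  · exfalso
    obtain ⟨_, _, _, a1, a2⟩ := h
    have := toR_one_pos
    simp only [toR_zero] at a2
    linarith

/-! ### One direction -/

/-- The estimate in the direction of the first coordinate, for a symmetric decreasing set. -/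
theorem gap_direction {F : Set R3} (hm : MeasurableSet F) (hp : PeriodicSet F) (hS : SD F)
    (h1 : 0.2675 ≤ torusVolume F) (h2 : torusVolume F ≤ 0.3592)
    (h12 : extA (sw23L ⁻¹' F) ≤ extA F)
    (hc : 0.15 ≤ extA (sw23L ⁻¹' F) ∨ extA (sw13L ⁻¹' F) < 0.15) :
    ENNReal.ofReal (profileJ (torusVolume F)) ≤ perimeter F := by
  rcases hc with hc | hc
  · -- both lines exist on the central phase
    by_cases hb : ∀ s t, s < (0.15:ℝ) → t < (0.51:ℝ) → WrapY F s t
    · refine direction_bound hm hp (c := 0.15) (T := 1) (M₀ := 0.491)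
        (eventually_phase hm hp hS (by norm_num) ?_ ?_) (by norm_num) hc h12 ?_
      · intro s t _ _ h3 h4
        exact absurd h4 (not_le.2 h3)
      · intro _
        exact ⟨0.51, by norm_num, hb⟩
      · intro m a h3 h4 h5 h6
        rcases RA_thick h1 h2 h3 h4 h5 h6 with h | ⟨a1, a2, a3, a4, a5⟩
        · exact h.mono le_rfl (Or.inl rfl)
        · exact RA_tinyB h3 h4 h5 h6 a1 a2 a3 a4 a5
    · push Not at hb
      obtain ⟨s₀, t₀, hs₀, ht₀, hW⟩ := hb
      refine direction_bound hm hp (c := 0.15) (T := 0.51) (M₀ := 0)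
        (eventually_phase hm hp hS (by norm_num) ?_ ?_) (by norm_num) hc h12 ?_
      · intro s t h3 _ h5 _ h7
        exact hW (h7.anti (by linarith) (by linarith))
      · intro h
        exact absurd h (lt_irrefl _)
      · intro m a h3 h4 h5 h6
        rcases RA_thick h1 h2 h3 h4 h5 h6 with h | ⟨a1, a2, a3, a4, a5⟩
        · exact h.mono (by norm_num) (Or.inl rfl)
        · exact RA_tinyA h3 h4 h5 h6 a1 a2 a3 a4 a5
  · -- the thin direction
    refine direction_bound hm hp (c := 0) (T := 0.15) (M₀ := 0)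
      (eventually_phase hm hp hS (by norm_num) ?_ ?_) (by norm_num) (extA_nonneg _) h12 ?_
    · intro s t h3 _ h5 h6 h7
      have h8 : WrapY (sw13L ⁻¹' F) t s := fun x y z a1 a2 a3 => h7 z y x a2 a1 a3
      exact not_wrap_of_gt_extA (E := sw13L ⁻¹' F) (s := t) (t := s) (by linarith) h6 h3 h8
    · intro h
      exact absurd h (lt_irrefl _)
    · intro m a h3 h4 h5 h6
      exact RA_thin h1 h2 h3 h4 h5 h6

/-! ### Relabelling of the coordinates -/

/-- The sets obtained from a symmetric decreasing set by permuting the coordinates. -/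
structure Rel (F G : Set R3) : Prop where
  meas : MeasurableSet G
  per : PeriodicSet G
  sd : SD G
  vol : torusVolume G = torusVolume F
  peri : perimeter G ≤ perimeter F

lemma Rel.sw13 {F G : Set R3} (h : Rel F G) : Rel F (sw13L ⁻¹' G) where
  meas := τ13.measurable_pre h.meas
  per := τ13.perSet h.per
  sd := fun x y z x1 y1 z1 hx hy hz hm => h.sd z y x z1 y1 x1 hz hy hx hm
  vol := (τ13.volume_pre h.meas).trans h.vol
  peri := (τ13.perimeter_pre_le G).trans h.peri

lemma Rel.sw23 {F G : Set R3} (h : Rel F G) : Rel F (sw23L ⁻¹' G) where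
  meas := τ23.measurable_pre h.meas
  per := τ23.perSet h.per
  sd := fun x y z x1 y1 z1 hx hy hz hm => h.sd x z y x1 z1 y1 hx hz hy hm
  vol := (τ23.volume_pre h.meas).trans h.vol
  peri := (τ23.perimeter_pre_le G).trans h.peri

/-- The choice of the direction. -/
lemma pigeon (c₀ a1 a2 a3 a4 a5 a6 : ℝ) :
    (a2 ≤ a1 ∧ (c₀ ≤ a2 ∨ a3 < c₀)) ∨ (a1 ≤ a2 ∧ (c₀ ≤ a1 ∨ a5 < c₀)) ∨
    (a4 ≤ a3 ∧ (c₀ ≤ a4 ∨ a1 < c₀)) ∨ (a3 ≤ a4 ∧ (c₀ ≤ a3 ∨ a6 < c₀)) ∨
    (a6 ≤ a5 ∧ (c₀ ≤ a6 ∨ a2 < c₀)) ∨ (a5 ≤ a6 ∧ (c₀ ≤ a5 ∨ a4 < c₀)) := by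
  by_contra hcon
  push Not at hcon
  obtain ⟨h1, h2, h3, h4, h5, h6⟩ := hcon
  rcases le_total a2 a1 with c1 | c1
  · obtain ⟨b1, b2⟩ := h1 c1
    rcases le_total a4 a3 with c2 | c2
    · obtain ⟨b3, b4⟩ := h3 c2
      rcases le_total a6 a5 with c3 | c3
      · obtain ⟨b5, b6⟩ := h5 c3
        linarith
      · obtain ⟨b5, b6⟩ := h6 c3
        linarith
    · obtain ⟨b3, b4⟩ := h4 c2
      linarith
  · obtain ⟨b1, b2⟩ := h2 c1
    rcases le_total a4 a3 with c2 | c2
    · obtain ⟨b3, b4⟩ := h3 c2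
      linarith
    · obtain ⟨b3, b4⟩ := h4 c2
      rcases le_total a6 a5 with c3 | c3
      · obtain ⟨b5, b6⟩ := h5 c3
        linarith
      · obtain ⟨b5, b6⟩ := h6 c3
        linarith

lemma sw23_sw23 (G : Set R3) : sw23L ⁻¹' (sw23L ⁻¹' G) = G := by
  ext p
  rfl

lemma sw13_sw13 (G : Set R3) : sw13L ⁻¹' (sw13L ⁻¹' G) = G := by
  ext p
  rfl

/-- The lower bound for a symmetric decreasing set. -/
theorem gap_SD {F : Set R3} (hm : MeasurableSet F) (hp : PeriodicSet F) (hS : SD F)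
    (h1 : 0.2675 ≤ torusVolume F) (h2 : torusVolume F ≤ 0.3592) :
    ENNReal.ofReal (profileJ (torusVolume F)) ≤ perimeter F := by
  have r1 : Rel F F := ⟨hm, hp, hS, rfl, le_rfl⟩
  have r2 := r1.sw23
  have r3 := r1.sw13
  have r4 := r3.sw23
  have r5 := r2.sw13
  have r6 := r4.sw13
  set F₂ := sw23L ⁻¹' F with hF₂
  set F₃ := sw13L ⁻¹' F with hF₃
  set F₄ := sw23L ⁻¹' F₃ with hF₄
  set F₅ := sw13L ⁻¹' F₂ with hF₅
  set F₆ := sw13L ⁻¹' F₄ with hF₆
  have hfinish : ∀ G, Rel F G → extA (sw23L ⁻¹' G) ≤ extA G →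
      (0.15 ≤ extA (sw23L ⁻¹' G) ∨ extA (sw13L ⁻¹' G) < 0.15) →
      ENNReal.ofReal (profileJ (torusVolume F)) ≤ perimeter F := by
    intro G hG h3 h4
    have h5 := gap_direction hG.meas hG.per hG.sd (by rw [hG.vol]; exact h1) (by rw [hG.vol]; exact h2) h3 h4
    rw [hG.vol] at h5
    exact h5.trans hG.peri
  have e22 : sw23L ⁻¹' F₂ = F := sw23_sw23 F
  have e33 : sw13L ⁻¹' F₃ = F := sw13_sw13 F
  have e44 : sw23L ⁻¹' F₄ = F₃ := sw23_sw23 F₃
  have e56 : sw23L ⁻¹' F₅ = F₆ := by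
    ext p
    rfl
  have e65 : sw23L ⁻¹' F₆ = F₅ := by
    ext p
    rfl
  have e52 : sw13L ⁻¹' F₅ = F₂ := sw13_sw13 F₂
  have e64 : sw13L ⁻¹' F₆ = F₄ := sw13_sw13 F₄
  rcases pigeon 0.15 (extA F) (extA F₂) (extA F₃) (extA F₄) (extA F₅) (extA F₆) with
    ⟨h3, h4⟩ | ⟨h3, h4⟩ | ⟨h3, h4⟩ | ⟨h3, h4⟩ | ⟨h3, h4⟩ | ⟨h3, h4⟩
  · exact hfinish F r1 h3 h4
  · exact hfinish F₂ r2 (by rw [e22]; exact h3) (by rw [e22]; exact h4)
  · exact hfinish F₃ r3 h3 (by rw [e33]; exact h4)
  · exact hfinish F₄ r4 (by rw [e44]; exact h3) (by rw [e44]; exact h4)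
  · exact hfinish F₅ r5 (by rw [e56]; exact h3) (by rw [e56, e52]; exact h4)
  · exact hfinish F₆ r6 (by rw [e65]; exact h3) (by rw [e65, e64]; exact h4)

/-- The lower bound in the gap. -/
theorem gap_lower {E : Set R3} (hm : MeasurableSet E) (hp : PeriodicSet E)
    (h1 : 0.2675 ≤ torusVolume E) (h2 : torusVolume E ≤ 0.3592) :
    ENNReal.ofReal (profileJ (torusVolume E)) ≤ perimeter E := by
  obtain ⟨F, h3, h4, h5, h6, h7⟩ := exists_SD E hm hp
  have h8 := gap_SD h3 h4 h7 (by rw [h5]; exact h1) (by rw [h5]; exact h2)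
  rw [h5] at h8
  exact h8.trans h6

/-! ### Complements -/

/-- The opposite of a test field. -/
noncomputable def TestField.neg (X : TestField) : TestField where
  X₁ := fun p => - X.X₁ p
  X₂ := fun p => - X.X₂ p
  X₃ := fun p => - X.X₃ p
  smooth₁ := X.smooth₁.neg
  smooth₂ := X.smooth₂.neg
  smooth₃ := X.smooth₃.neg
  periodic₁ := fun x y z => by
    have := X.periodic₁ x y z
    simp only [this.1, this.2.1, this.2.2, and_self]
  periodic₂ := fun x y z => by
    have := X.periodic₂ x y z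
    simp only [this.1, this.2.1, this.2.2, and_self]
  periodic₃ := fun x y z => by
    have := X.periodic₃ x y z
    simp only [this.1, this.2.1, this.2.2, and_self]
  norm_le_one := fun p => by
    have := X.norm_le_one p
    simpa using this

lemma TestField.neg_divergence (X : TestField) (p : R3) : X.neg.divergence p = - X.divergence p := by
  unfold TestField.divergence TestField.neg
  simp only
  rw [fderiv_fun_neg, fderiv_fun_neg, fderiv_fun_neg]
  simp only [neg_apply]
  ring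

lemma cell_divergence (X : TestField) : ∫ p in unitCell, X.divergence p = 0 := by
  have h1 := cell_fderiv_e₁ (X.smooth₁.of_le (by simp)) X.periodic₁
  have h2 := cell_fderiv_e₂ (X.smooth₂.of_le (by simp)) X.periodic₂
  have h3 := cell_fderiv_e₃ (X.smooth₃.of_le (by simp)) X.periodic₃
  have i1 := cont_integrableOn (cont_fderiv_dir (X.smooth₁.of_le (by simp)) e₁)
  have i2 := cont_integrableOn (cont_fderiv_dir (X.smooth₂.of_le (by simp)) e₂)
  have i3 := cont_integrableOn (cont_fderiv_dir (X.smooth₃.of_le (by simp)) e₃)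
  have e : ∀ p, X.divergence p = fderiv ℝ X.X₁ p e₁ + fderiv ℝ X.X₂ p e₂ + fderiv ℝ X.X₃ p e₃ :=
    fun p => rfl
  simp only [e]
  have i12 : IntegrableOn (fun p => fderiv ℝ X.X₁ p e₁ + fderiv ℝ X.X₂ p e₂) unitCell := i1.add i2
  rw [MeasureTheory.integral_add i12 i3, MeasureTheory.integral_add i1 i2, h1, h2, h3]
  simp

lemma perimeter_compl_le {E : Set R3} (hm : MeasurableSet E) : perimeter Eᶜ ≤ perimeter E := by
  change (⨆ X : TestField, ENNReal.ofReal (∫ p in Eᶜ ∩ unitCell, X.divergence p)) ≤ perimeter E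
  refine iSup_le fun X => ?_
  have hi : IntegrableOn X.divergence unitCell := cont_integrableOn X.divergence_continuous
  have h1 : ∫ p in Eᶜ ∩ unitCell, X.divergence p = ∫ p in E ∩ unitCell, X.neg.divergence p := by
    simp only [TestField.neg_divergence]
    rw [MeasureTheory.integral_neg]
    have h2 := integral_inter_add_sdiff (s := unitCell) (t := E) (f := X.divergence) hm hi
    rw [cell_divergence] at h2
    have e1 : unitCell ∩ E = E ∩ unitCell := inter_comm _ _
    have e2 : unitCell \ E = Eᶜ ∩ unitCell := by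
      ext p
      simp [and_comm]
    rw [e1, e2] at h2
    linarith
  rw [h1]
  exact le_iSup (fun X : TestField => ENNReal.ofReal (∫ p in E ∩ unitCell, X.divergence p)) X.neg

lemma periodic_compl {E : Set R3} (hp : PeriodicSet E) : PeriodicSet Eᶜ := by
  intro x y z
  have := hp x y z
  simp only [mem_compl_iff, this.1, this.2.1, this.2.2, and_self]

lemma torusVolume_compl {E : Set R3} (hm : MeasurableSet E) : torusVolume Eᶜ = 1 - torusVolume E := by
  unfold torusVolume
  have h1 : volume (E ∩ unitCell) + volume (Eᶜ ∩ unitCell) = 1 := by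
    rw [← unitCell_volume]
    have e : unitCell = (E ∩ unitCell) ∪ (Eᶜ ∩ unitCell) := by
      rw [← union_inter_distrib_right, union_compl_self, univ_inter]
    conv_rhs => rw [e]
    refine (measure_union ?_ (hm.compl.inter unitCell_measurable)).symm
    exact disjoint_compl_right.mono inter_subset_left inter_subset_left
  have h2 : volume (E ∩ unitCell) ≠ ⊤ :=
    ne_top_of_le_ne_top (by rw [unitCell_volume]; simp) (measure_mono inter_subset_right)
  have h3 : volume (Eᶜ ∩ unitCell) ≠ ⊤ :=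
    ne_top_of_le_ne_top (by rw [unitCell_volume]; simp) (measure_mono inter_subset_right)
  have h4 := congrArg ENNReal.toReal h1
  rw [ENNReal.toReal_add h2 h3] at h4
  simp at h4
  linarith

/-- The lower bound for the perimeter of subsets of the cubic torus at all volumes. -/
theorem full_lower (E : Set R3) (hE : MeasurableSet E) (hper : PeriodicSet E) :
    ENNReal.ofReal (profileJ (min (torusVolume E) (1 - torusVolume E))) ≤ perimeter E := by
  by_cases hr : min (torusVolume E) (1 - torusVolume E) ≤ 0.2675 ∨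
      0.3592 ≤ min (torusVolume E) (1 - torusVolume E)
  · exact main_lower E hE hper hr
  · push Not at hr
    obtain ⟨h1, h2⟩ := hr
    rcases le_total (torusVolume E) (1 - torusVolume E) with hc | hc
    · rw [min_eq_left hc] at h1 h2 ⊢
      exact gap_lower hE hper h1.le h2.le
    · rw [min_eq_right hc] at h1 h2 ⊢
      have hv := torusVolume_compl hE
      have h3 := gap_lower hE.compl (periodic_compl hper) (by rw [hv]; exact h1.le) (by rw [hv]; exact h2.le)
      rw [hv] at h3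
      exact h3.trans (perimeter_compl_le hE)

end Vale.Agent.Lib.P232
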