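import Vale.Agent.Lib.P232.Cl4b
import Vale.Agent.Lib.P232.Gap6

open MeasureTheory Set intervalIntegral Filter
open scoped Topology ENNReal

namespace Vale.Agent.Lib.P232

/-! ### The strict form of the trees for the phases -/

/-- The checker of the trees for the phases with a strict margin. -/
def checkGS (C : Cfg) (tb : TinyB) : CertG → ℕ → ℕ → ℕ → ℕ → ℕ → ℕ → Bool
  | .splitM c l r, mL, mU, aL, aU, vL, vU =>
    checkGS C tb l mL c aL aU vL vU && checkGS C tb r c mU aL aU vL vU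
  | .splitA c l r, mL, mU, aL, aU, vL, vU =>
    checkGS C tb l mL mU aL c vL vU && checkGS C tb r mL mU c aU vL vU
  | .splitV c l r, mL, mU, aL, aU, vL, vU =>
    checkGS C tb l mL mU aL aU vL c && checkGS C tb r mL mU aL aU c vU
  | .empty, mL, _, _, aU, vL, vU =>
    Nat.blt aU mL || Nat.blt vU mL || Nat.blt aU vL
  | .plateau, mL, _, _, aU, _, _ =>
    Nat.ble (1000000 * SS) (mL * 3141592) && Nat.ble aU SS &&
      Nat.ble (1000000 * SS) ((SS - aU) * 3141592)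
  | .corner, _, mU, aL, aU, vL, vU =>
    Nat.ble mU 500000 && Nat.ble (SS - 500000) aL && Nat.ble aU SS &&
      Nat.ble 310000000 vL && Nat.ble vU 690000000
  | .diag pL qL r q α, mL, _, aL, aU, _, _ =>
    Nat.ble (aU * 2) SS && Nat.ble (pL * pL) (aL * SS) &&
      Nat.ble (qL * qL) (mL * SS) && Nat.ble (10000 * SS) (17724 * (pL + qL)) &&
      Nat.ble (2 * pL * SS * 10000) (17724 * ((pL + qL) * (pL + qL))) &&
      stripValid C.t r q α && domL α (stripG q r) 318000000 && domL α (stripG q r) aU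
  | .tiny, _, mU, aL, aU, vL, vU =>
    Nat.ble mU tb.m && Nat.ble tb.a1 aL && Nat.ble aU tb.a2 && Nat.ble tb.v1 vL && Nat.ble vU tb.v2
  | .flat K Hp Hn D p ts, mL, _, _, aU, vL, vU =>
    Nat.ble D (4 * SS) && Nat.blt mL aU && p.valid C D aU (nmax vL mL) aU &&
      p.node K Hp Hn D mL 0 && p.node K Hp Hn D aU 0 &&
      targets (K * SS + C.c * D) 1 Hp Hn (nmax vL mL) (nmin vU aU) ts
  | .cell K Hp Hn D g₀ p ps ts, mL, mU, aL, aU, vL, vU =>
    Nat.ble D (4 * SS) && Nat.blt mL mU && p.node K Hp Hn D mL 0 &&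
      piecesOK C K Hp Hn D aL aU (nmax vL mL) mU g₀ (p :: ps) &&
      targets (K * SS + piecesI mU g₀ (p :: ps) + C.c * D) 1 Hp Hn (nmax vL mL) (nmin vU aU) ts

/-- The bound for the value given by the comparison lines, with the margin. -/
lemma targets_valS {A Hp Hn vL vU mL aU : ℕ} {ts : List Piece}
    (h : targets A 1 Hp Hn (nmax vL mL) (nmin vU aU) ts = true) {m a V : ℝ}
    (h1 : toR mL ≤ m) (h4 : a ≤ toR aU) (h5 : toR vL ≤ V) (h6 : V ≤ toR vU) (h8 : m ≤ V)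
    (h9 : V ≤ a) (h11 : 0 ≤ V) :
    profileJ V + 1 / (SS : ℝ) ^ 2 ≤ (A : ℝ) / (SS : ℝ) ^ 2 + slopeR Hp Hn * V := by
  have hT := targets_sound ts _ _ h V (toR_nmax_le h1 h5 h8)
    (by
      rcases toR_nmin_cases (a := vU) (b := aU) with e | e <;> rw [e]
      · exact h6
      · exact h9.trans h4)
    h11
  simpa using hT

/-- The strict form of the near-diagonal leaf for the phases. -/
lemma diag_goodGS {c T M₀ a m V : ℝ} (hV : 0 < V) (hm : 0 ≤ m) (hma : m ≤ a) (ha0 : 0 < a)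
    (ha : a ≤ 1 / 2)
    (hc : 2 * Real.sqrt a ≤ 1.7724 * (Real.sqrt a + Real.sqrt m) ^ 2)
    (hstrip : ∀ s ∈ Icc m a, ∀ w g : ℝ, 0 ≤ g → g ≤ 1 → w ^ 2 ≤ (1 - g ^ 2) * (4 * Real.pi * s) →
      StripOK T s w g) :
    m = a ∨ ∃ B, profileJ V < B ∧ GoodG c T M₀ m a V B := by
  rcases hma.eq_or_lt with h | hlt
  · exact Or.inl h
  right
  have hp0 := Real.sqrt_pos.2 ha0
  have hAdm := beta3_adm hm hma rfl rfl hp0
  have hval := diag_val_lt hV hm hlt hc
  set β := beta3 (Real.sqrt a) (Real.sqrt m) a m with hβ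
  set k := ck (Real.sqrt a) (Real.sqrt m) with hk
  set H := cH (Real.sqrt a) (Real.sqrt m) with hH
  refine ⟨_, hval, k, H, 0, β m, β a, ∫ s in m..a, β s, le_rfl, by norm_num,
    ⟨β, hAdm.cont, rfl, rfl, fun s hs => ⟨?_, hAdm.nn s hs⟩, le_rfl⟩, by simp⟩
  have hg0 := hAdm.nn s hs
  have hg1 := hAdm.le1 s hs
  have hcon : (k + H * s) ^ 2 ≤ (1 - β s ^ 2) * (4 * Real.pi * s) := hAdm.con s hs
  have hg : 0 ≤ 1 - β s ^ 2 := by nlinarith
  have hπ := Real.pi_pos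
  have h2 : 4 * Real.pi * s ≤ 4 * Real.pi * (1 - s) :=
    mul_le_mul_of_nonneg_left (by linarith [hs.2]) (by positivity)
  have h3 := hcon.trans (mul_le_mul_of_nonneg_left h2 hg)
  refine ⟨hg0, hg1, ⟨hcon, h3, hstrip s hs _ _ hg0 hg1 hcon⟩, fun _ => Or.inl ?_⟩
  have e4 : k + 0 + H * s = k + H * s := by ring
  rw [e4]
  exact h3

/-- The arithmetic at the corner for the phases, with a strict inequality. -/
lemma corner_arith_lt' {u r L π' : ℝ} (hu0 : 0 < u) (hu3 : u ≤ 0.0224) (hr : 1.7724 ≤ r)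
    (hlogb : u * L ≤ 1 / 20 + 2 * u) (hπ : π' ≤ 4) :
    2 * (2 * u ^ 2 + u ^ 2 * (2 * (2 * L) + π')) < 0.3 * (2 * r * u) := by
  have e : 2 * (2 * u ^ 2 + u ^ 2 * (2 * (2 * L) + π')) = u * (4 * u + 8 * (u * L) + 2 * u * π') := by
    ring
  rw [e]
  have h1 : 2 * u * π' ≤ 2 * u * 4 := mul_le_mul_of_nonneg_left hπ (by positivity)
  have h2 : 4 * u + 8 * (u * L) + 2 * u * π' ≤ 1.06 := by
    norm_num at hu3 ⊢
    linarith
  have h3 : u * (4 * u + 8 * (u * L) + 2 * u * π') ≤ u * 1.06 :=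
    mul_le_mul_of_nonneg_left h2 hu0.le
  have h4 : 1.7724 * u ≤ r * u := mul_le_mul_of_nonneg_right hr hu0.le
  norm_num at h3 h4 ⊢
  linarith

/-- The strict form of the corner leaf for the phases. -/
theorem corner_strict' {a m V : ℝ} (hm0 : 0 ≤ m) (hm : m ≤ 0.0005) (ha : 1 - 0.0005 ≤ a) (ha1 : a ≤ 1)
    (hV : 0.31 ≤ V) (hV' : V ≤ 0.69) : (m = 0 ∧ a = 1) ∨ ∃ B, profileJ V < B ∧ Value ell m a V B := by
  set ε := max m (1 - a) with hε
  have hε0 : 0 ≤ ε := hm0.trans (le_max_left _ _)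
  have hεle : ε ≤ 0.0005 := by
    apply max_le hm
    linarith
  have hmε : m ≤ ε := le_max_left _ _
  have haε : 1 - ε ≤ a := by
    have : 1 - a ≤ ε := le_max_right _ _
    linarith
  rcases hε0.eq_or_lt with h0 | h0
  · left
    constructor
    · exact le_antisymm (by rw [← h0] at hmε; exact hmε) hm0
    · have : 1 - a ≤ ε := le_max_right _ _
      rw [← h0] at this
      linarith
  right
  obtain ⟨k, H, hcon1, hcon2, hkV, hwV⟩ := corner_chord' hm0 hm ha ha1 hV hV' hε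
  have hadm : Adm ell m a k H (beta4 ε) :=
    ⟨(beta4_continuous hε0).continuousOn, fun s _ => beta4_nonneg ε s,
      fun s _ => beta4_le_one hε0 s,
      fun s hs => beta4_con hε0 (hcon1 s hs) (hcon2 s hs)⟩
  refine ⟨k + H * V + 2 * ∫ s in m..a, beta4 ε s, ?_, ⟨k, H, beta4 ε, hadm, le_rfl⟩⟩
  refine (profileJ_le_two V).trans_lt ?_
  have hI := beta4_integral (m := m) (a := a) h0 (by norm_num at hεle ⊢; linarith) hmε haε
  set u := Real.sqrt ε with hu
  have hu0 : 0 < u := Real.sqrt_pos.2 h0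
  have hu2 : u ^ 2 = ε := Real.sq_sqrt hε0
  have hu3 : u ≤ 0.0224 := by
    rw [hu]
    apply Real.sqrt_le_iff.2
    constructor
    · norm_num
    · norm_num
      norm_num at hεle
      linarith
  have hlog : Real.log (1 / ε) = 2 * Real.log (1 / u) := by
    rw [← hu2, ← one_div_pow, Real.log_pow]
    norm_num
  have hfinal := corner_arith_lt' hu0 hu3 sqrt_pi_gt.le (corner_log hu0) Real.pi_le_four
  rw [hu2, ← hlog] at hfinal
  linarith

/-- The conclusion of the strict trees. -/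
def GoodS (c T M₀ m a V : ℝ) : Prop :=
  (∃ B, profileJ V < B ∧ GoodG c T M₀ m a V B) ∨ m = a ∨ (m = 0 ∧ a = 1)

lemma GoodS.of_strictValue {c T M₀ m a V : ℝ} (h : ∃ B, profileJ V < B ∧ Value ell m a V B) :
    GoodS c T M₀ m a V := by
  obtain ⟨B, hB, hv⟩ := h
  exact Or.inl ⟨B, hB, GoodG_of_value hv⟩

/-- Soundness of the strict trees. -/
theorem checkGS_sound (C : Cfg) (tb : TinyB) (hc : C.c < SS) :
    ∀ (t : CertG) (mL mU aL aU vL vU : ℕ), checkGS C tb t mL mU aL aU vL vU = true →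
    ∀ m a V : ℝ, toR mL ≤ m → m ≤ toR mU → toR aL ≤ a → a ≤ toR aU → toR vL ≤ V → V ≤ toR vU →
      0 ≤ m → m ≤ V → V ≤ a → a ≤ 1 → 0 < V →
      GoodS (toR C.c) (toR C.t) (muR C.μ) m a V ∨
        (m ≤ toR tb.m ∧ toR tb.a1 ≤ a ∧ a ≤ toR tb.a2 ∧ toR tb.v1 ≤ V ∧ V ≤ toR tb.v2) := by
  intro t
  induction t with
  | splitM c l r ihl ihr =>
    intro mL mU aL aU vL vU h m a V h1 h2 h3 h4 h5 h6 h7 h8 h9 h10 h11
    simp only [checkGS, Bool.and_eq_true] at h
    by_cases hc' : m ≤ toR c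
    · exact ihl _ _ _ _ _ _ h.1 m a V h1 hc' h3 h4 h5 h6 h7 h8 h9 h10 h11
    · exact ihr _ _ _ _ _ _ h.2 m a V (le_of_not_ge hc') h2 h3 h4 h5 h6 h7 h8 h9 h10 h11
  | splitA c l r ihl ihr =>
    intro mL mU aL aU vL vU h m a V h1 h2 h3 h4 h5 h6 h7 h8 h9 h10 h11
    simp only [checkGS, Bool.and_eq_true] at h
    by_cases hc' : a ≤ toR c
    · exact ihl _ _ _ _ _ _ h.1 m a V h1 h2 h3 hc' h5 h6 h7 h8 h9 h10 h11
    · exact ihr _ _ _ _ _ _ h.2 m a V h1 h2 (le_of_not_ge hc') h4 h5 h6 h7 h8 h9 h10 h11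
  | splitV c l r ihl ihr =>
    intro mL mU aL aU vL vU h m a V h1 h2 h3 h4 h5 h6 h7 h8 h9 h10 h11
    simp only [checkGS, Bool.and_eq_true] at h
    by_cases hc' : V ≤ toR c
    · exact ihl _ _ _ _ _ _ h.1 m a V h1 h2 h3 h4 h5 hc' h7 h8 h9 h10 h11
    · exact ihr _ _ _ _ _ _ h.2 m a V h1 h2 h3 h4 (le_of_not_ge hc') h6 h7 h8 h9 h10 h11
  | empty =>
    intro mL mU aL aU vL vU h m a V h1 h2 h3 h4 h5 h6 h7 h8 h9 h10 h11
    simp only [checkGS, Bool.or_eq_true] at h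
    exfalso
    rcases h with (h | h) | h
    · have := toR_lt (Nat.le_of_ble_eq_true h)
      linarith
    · have := toR_lt (Nat.le_of_ble_eq_true h)
      linarith
    · have := toR_lt (Nat.le_of_ble_eq_true h)
      linarith
  | plateau =>
    intro mL mU aL aU vL vU h m a V h1 h2 h3 h4 h5 h6 h7 h8 h9 h10 h11
    simp only [checkGS, Bool.and_eq_true] at h
    obtain ⟨⟨c1, c2⟩, c3⟩ := h
    have c1' : 1000000 * SS ≤ mL * 3141592 := Nat.le_of_ble_eq_true c1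
    have c2' : aU ≤ SS := Nat.le_of_ble_eq_true c2
    have c3' : 1000000 * SS ≤ (SS - aU) * 3141592 := Nat.le_of_ble_eq_true c3
    have hS := SS_pos
    have hπ := Real.pi_pos
    have hπ' := Real.pi_gt_d6
    have key : ∀ n : ℕ, 1000000 * SS ≤ n * 3141592 → 1 / Real.pi ≤ toR n := by
      intro n hn
      have hn' : (1000000:ℝ) * SS ≤ n * 3141592 := by exact_mod_cast hn
      unfold toR
      rw [div_le_div_iff₀ hπ hS]
      have h0 : (0:ℝ) ≤ n := Nat.cast_nonneg _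
      nlinarith
    have hk := key _ c3'
    rw [toR_sub c2'] at hk
    rcases plateau_strict (V := V) (le_trans (key _ c1') h1) (by linarith) (h8.trans h9) with e | e
    · exact Or.inl (Or.inr (Or.inl e))
    · exact Or.inl (GoodS.of_strictValue e)
  | corner =>
    intro mL mU aL aU vL vU h m a V h1 h2 h3 h4 h5 h6 h7 h8 h9 h10 h11
    simp only [checkGS, Bool.and_eq_true] at h
    obtain ⟨⟨⟨⟨c1, c2⟩, c3⟩, c4⟩, c5⟩ := h
    have c1' : toR mU ≤ toR 500000 := toR_mono (Nat.le_of_ble_eq_true c1)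
    have c2' : toR (SS - 500000) ≤ toR aL := toR_mono (Nat.le_of_ble_eq_true c2)
    have c4' : toR 310000000 ≤ toR vL := toR_mono (Nat.le_of_ble_eq_true c4)
    have c5' : toR vU ≤ toR 690000000 := toR_mono (Nat.le_of_ble_eq_true c5)
    obtain ⟨e1, e2, e3, e4⟩ := corner_nums
    rw [e1] at c1'
    rw [e2] at c2'
    rw [e3] at c4'
    rw [e4] at c5'
    rcases corner_strict' h7 (h2.trans c1') (c2'.trans h3) h10 (c4'.trans h5) (h6.trans c5') with e | e
    · exact Or.inl (Or.inr (Or.inr e))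
    · exact Or.inl (GoodS.of_strictValue e)
  | diag pL qL r q α =>
    intro mL mU aL aU vL vU h m a V h1 h2 h3 h4 h5 h6 h7 h8 h9 h10 h11
    simp only [checkGS, Bool.and_eq_true] at h
    obtain ⟨⟨⟨⟨⟨⟨⟨c1, c2⟩, c3⟩, c4⟩, c5⟩, c6⟩, c7⟩, c8⟩ := h
    have hS := SS_pos
    have ha12 : a ≤ 1 / 2 := by
      have h12 : aU * 2 ≤ SS := Nat.le_of_ble_eq_true c1
      have h13 : (aU : ℝ) * 2 ≤ SS := by exact_mod_cast h12
      refine h4.trans ?_
      unfold toR
      rw [div_le_div_iff₀ hS (by norm_num)]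
      linarith
    rcases diag_goodGS (c := toR C.c) (T := toR C.t) (M₀ := muR C.μ) h11 h7 (h8.trans h9)
      (h11.trans_le h9) ha12
      (diag_const' h3 h1 (Nat.le_of_ble_eq_true c2) (Nat.le_of_ble_eq_true c3)
        (Nat.le_of_ble_eq_true c4) (Nat.le_of_ble_eq_true c5))
      (fun s hs w g hg0 hg1 hw => strip_of_dom c6 c7 c8 (h7.trans hs.1) (hs.2.trans h4) hg0 hg1 hw) with e | e
    · exact Or.inl (Or.inr (Or.inl e))
    · exact Or.inl (Or.inl e)
  | tiny =>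
    intro mL mU aL aU vL vU h m a V h1 h2 h3 h4 h5 h6 h7 h8 h9 h10 h11
    simp only [checkGS, Bool.and_eq_true] at h
    obtain ⟨⟨⟨⟨c1, c2⟩, c3⟩, c4⟩, c5⟩ := h
    exact Or.inr ⟨h2.trans (toR_mono (Nat.le_of_ble_eq_true c1)),
      (toR_mono (Nat.le_of_ble_eq_true c2)).trans h3,
      h4.trans (toR_mono (Nat.le_of_ble_eq_true c3)),
      (toR_mono (Nat.le_of_ble_eq_true c4)).trans h5,
      h6.trans (toR_mono (Nat.le_of_ble_eq_true c5))⟩
  | flat K Hp Hn D p ts =>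
    intro mL mU aL aU vL vU h m a V h1 h2 h3 h4 h5 h6 h7 h8 h9 h10 h11
    simp only [checkGS, Bool.and_eq_true] at h
    obtain ⟨⟨⟨⟨⟨c1, c2⟩, c3⟩, c4⟩, c5⟩, c6⟩ := h
    have hS := SS_pos
    have hD4 : toR D ≤ 4 := by
      have h12 : D ≤ 4 * SS := Nat.le_of_ble_eq_true c1
      have h13 : (D : ℝ) ≤ 4 * SS := by exact_mod_cast h12
      unfold toR
      rw [div_le_iff₀ hS]
      exact h13
    have hlt := toR_lt (Nat.le_of_ble_eq_true c2)
    have hseg := Feas.segment (PieceC.convex K Hp Hn D p) hlt (PieceC.node_sound c4)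
      (PieceC.node_sound c5) (toR_nonneg _) (toR_nonneg 0)
    have hma : m ≤ a := h8.trans h9
    obtain ⟨g, hg⟩ := hseg.restrict_left (m := m) ⟨h1, hma.trans h4⟩
    obtain ⟨g', hg'⟩ := hg.restrict_right (m := a) ⟨hma, h4⟩
    have hF := hg'.mono (C' := CGn C K Hp Hn D ((V - toR C.c * a) / (1 - toR C.c)))
      fun x hx gg _ hN => PieceC.to_CG hc c3 (seLow_le hc h4 (toR_nmax_le h1 h5 h8)) (hx.2.trans h4) hN
    refine Or.inl (Or.inl ⟨profileJ V + 1 / (SS : ℝ) ^ 2, by linarith [strict_margin],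
      toR K, slopeR Hp Hn, toR D, g, g', 0, toR_nonneg _, hD4, hF, ?_⟩)
    have hT := targets_valS c6 h1 h4 h5 h6 h8 h9 h11.le
    have e : (((K * SS + C.c * D : ℕ) : ℝ) / (SS : ℝ) ^ 2) = toR K + toR C.c * toR D := by
      unfold toR
      push_cast
      field_simp
    rw [e] at hT
    linarith
  | cell K Hp Hn D g₀ p ps ts =>
    intro mL mU aL aU vL vU h m a V h1 h2 h3 h4 h5 h6 h7 h8 h9 h10 h11
    simp only [checkGS, Bool.and_eq_true] at h
    obtain ⟨⟨⟨⟨c1, c2⟩, c3⟩, c4⟩, c5⟩ := h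
    have hS := SS_pos
    have hD4 : toR D ≤ 4 := by
      have h12 : D ≤ 4 * SS := Nat.le_of_ble_eq_true c1
      have h13 : (D : ℝ) ≤ 4 * SS := by exact_mod_cast h12
      unfold toR
      rw [div_le_iff₀ hS]
      exact h13
    have hlt := toR_lt (Nat.le_of_ble_eq_true c2)
    have hse := seLow_le (C := C) hc h4 (toR_nmax_le h1 h5 h8)
    obtain ⟨h20, g', hF⟩ := piecesOK_sound hc hse h3 h4 _ _ _ c4
    obtain ⟨hi, hv, hhi⟩ := piecesOK_head c4
    have hnode := piecesOK_node c4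
    have hseg := Feas.segment (PieceC.convex K Hp Hn D p) hlt (PieceC.node_sound c3)
      (PieceC.node_sound hnode) (toR_nonneg _) (toR_nonneg g₀)
    obtain ⟨g, hg⟩ := hseg.restrict_left (m := m) ⟨h1, h2⟩
    have hF2 := hg.mono (C' := CGn C K Hp Hn D ((V - toR C.c * a) / (1 - toR C.c)))
      fun x hx gg _ hN => PieceC.to_CG hc hv hse (hx.2.trans hhi) hN
    have hall := hF2.glue h2 h20 hF
    refine Or.inl (Or.inl ⟨profileJ V + 1 / (SS : ℝ) ^ 2, by linarith [strict_margin],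
      toR K, slopeR Hp Hn, toR D, g, g', _, toR_nonneg _, hD4, hall, ?_⟩)
    have hT := targets_valS c5 h1 h4 h5 h6 h8 h9 h11.le
    have e : (((K * SS + piecesI mU g₀ (p :: ps) + C.c * D : ℕ) : ℝ) / (SS : ℝ) ^ 2)
        = toR K + ((piecesI mU g₀ (p :: ps) : ℕ) : ℝ) / (SS : ℝ) ^ 2 + toR C.c * toR D := by
      unfold toR
      push_cast
      field_simp
    rw [e] at hT
    linarith

set_option maxRecDepth 100000 in
theorem certGthinS_ok : checkGS ⟨0, 150000000, 0⟩ ⟨0, 0, 0, 1, 0⟩ certGthin 0 359200000 267500000 1000000000 267500000 359200000 = true := by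
  decide +kernel

set_option maxRecDepth 100000 in
theorem certGthickS_ok : checkGS ⟨150000000, 1000000000, 0⟩ ⟨40000, 620000000, 800000000, 300000000, 322000000⟩ certGthick 0 359200000 267500000 1000000000 267500000 359200000 = true := by
  decide +kernel

set_option maxRecDepth 100000 in
theorem certGtinyAS_ok : checkGS ⟨150000000, 510000000, 0⟩ ⟨0, 0, 0, 1, 0⟩ certGtinyA 0 40000 620000000 800000000 300000000 322000000 = true := by
  decide +kernel

set_option maxRecDepth 100000 in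
theorem certGtinyBS_ok : checkGS ⟨150000000, 1000000000, 491⟩ ⟨0, 0, 0, 1, 0⟩ certGtinyB 0 40000 620000000 800000000 300000000 322000000 = true := by
  decide +kernel

/-- The thin direction. -/
theorem RA_thinS {m a V : ℝ} (h1 : 0.2675 ≤ V) (h2 : V ≤ 0.3592) (h3 : 0 ≤ m) (h4 : m ≤ V) (h5 : V ≤ a)
    (h6 : a ≤ 1) : GoodS 0 0.15 0 m a V := by
  obtain ⟨e1, e2, e3, e4, e5, e6, e7, e8, e9, e10⟩ := toR_nums
  rcases checkGS_sound ⟨0, 150000000, 0⟩ ⟨0, 0, 0, 1, 0⟩ (by unfold SS; norm_num) _ _ _ _ _ _ _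
      certGthinS_ok m a V (by simpa [toR_zero] using h3) (by rw [e5]; exact h4.trans h2)
      (by rw [e4]; exact h1.trans h5) (by rw [e3]; exact h6) (by rw [e4]; exact h1)
      (by rw [e5]; exact h2) h3 h4 h5 h6 (by linarith) with h | h
  · simpa [toR_zero, muR_zero, e1] using h
  · exfalso
    obtain ⟨_, _, _, a1, a2⟩ := h
    have := toR_one_pos
    simp only [toR_zero] at a2
    linarith

/-- The base tree of the thick direction. -/
theorem RA_thickS {m a V : ℝ} (h1 : 0.2675 ≤ V) (h2 : V ≤ 0.3592) (h3 : 0 ≤ m) (h4 : m ≤ V) (h5 : V ≤ a)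
    (h6 : a ≤ 1) : GoodS 0.15 1 0 m a V ∨
      (m ≤ 0.00004 ∧ 0.62 ≤ a ∧ a ≤ 0.8 ∧ 0.3 ≤ V ∧ V ≤ 0.322) := by
  obtain ⟨e1, e2, e3, e4, e5, e6, e7, e8, e9, e10⟩ := toR_nums
  rcases checkGS_sound ⟨150000000, 1000000000, 0⟩ ⟨40000, 620000000, 800000000, 300000000, 322000000⟩
      (by unfold SS; norm_num) _ _ _ _ _ _ _
      certGthickS_ok m a V (by simpa [toR_zero] using h3) (by rw [e5]; exact h4.trans h2)
      (by rw [e4]; exact h1.trans h5) (by rw [e3]; exact h6) (by rw [e4]; exact h1)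
      (by rw [e5]; exact h2) h3 h4 h5 h6 (by linarith) with h | h
  · left
    simpa [muR_zero, e1, e3] using h
  · right
    simpa only [e6, e7, e8, e9, e10] using h

/-- The first tree of the small box. -/
theorem RA_tinyAS {m a V : ℝ} (h3 : 0 ≤ m) (h4 : m ≤ V) (h5 : V ≤ a) (h6 : a ≤ 1)
    (h7 : m ≤ 0.00004) (h8 : 0.62 ≤ a) (h9 : a ≤ 0.8) (h10 : 0.3 ≤ V) (h11 : V ≤ 0.322) :
    GoodS 0.15 0.51 0 m a V := by
  obtain ⟨e1, e2, e3, e4, e5, e6, e7, e8, e9, e10⟩ := toR_nums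
  rcases checkGS_sound ⟨150000000, 510000000, 0⟩ ⟨0, 0, 0, 1, 0⟩
      (by unfold SS; norm_num) _ _ _ _ _ _ _
      certGtinyAS_ok m a V (by simpa [toR_zero] using h3) (by rw [e6]; exact h7)
      (by rw [e7]; exact h8) (by rw [e8]; exact h9) (by rw [e9]; exact h10)
      (by rw [e10]; exact h11) h3 h4 h5 h6 (by linarith) with h | h
  · simpa [muR_zero, e1, e2] using h
  · exfalso
    obtain ⟨_, _, _, a1, a2⟩ := h
    have := toR_one_pos
    simp only [toR_zero] at a2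
    linarith

/-- The second tree of the small box. -/
theorem RA_tinyBS {m a V : ℝ} (h3 : 0 ≤ m) (h4 : m ≤ V) (h5 : V ≤ a) (h6 : a ≤ 1)
    (h7 : m ≤ 0.00004) (h8 : 0.62 ≤ a) (h9 : a ≤ 0.8) (h10 : 0.3 ≤ V) (h11 : V ≤ 0.322) :
    GoodS 0.15 1 0.491 m a V := by
  obtain ⟨e1, e2, e3, e4, e5, e6, e7, e8, e9, e10⟩ := toR_nums
  rcases checkGS_sound ⟨150000000, 1000000000, 491⟩ ⟨0, 0, 0, 1, 0⟩
      (by unfold SS; norm_num) _ _ _ _ _ _ _
      certGtinyBS_ok m a V (by simpa [toR_zero] using h3) (by rw [e6]; exact h7)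
      (by rw [e7]; exact h8) (by rw [e8]; exact h9) (by rw [e9]; exact h10)
      (by rw [e10]; exact h11) h3 h4 h5 h6 (by linarith) with h | h
  · simpa [muR_491, e1, e3] using h
  · exfalso
    obtain ⟨_, _, _, a1, a2⟩ := h
    have := toR_one_pos
    simp only [toR_zero] at a2
    linarith

lemma GoodS.mono {c T T' M₀ M₀' m a V : ℝ} (h : T' ≤ T) (hM : M₀ = 0 ∨ M₀' = M₀)
    (hG : GoodS c T M₀ m a V) : GoodS c T' M₀' m a V := by
  rcases hG with ⟨B, hB, hv⟩ | e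
  · exact Or.inl ⟨B, hB, hv.mono h hM⟩
  · exact Or.inr e

/-- The volume lies in the essential range of the sections. -/
lemma IsRange.volume_mem {E : Set R3} (hE : MeasurableSet E) {m a : ℝ} (hR : IsRange (mg1 E) m a) :
    m ≤ torusVolume E ∧ torusVolume E ≤ a := by
  rw [← mg1_integral hE]
  constructor
  · have := intervalIntegral.integral_mono_ae (μ := volume) (a := (0:ℝ)) (b := 1) (f := fun _ => m)
      (g := mg1 E) zero_le_one intervalIntegrable_const (mg1_ii hE 0 1) hR.ae_low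
    simpa using this
  · have := intervalIntegral.integral_mono_ae (μ := volume) (a := (0:ℝ)) (b := 1) (g := fun _ => a)
      (f := mg1 E) zero_le_one (mg1_ii hE 0 1) intervalIntegrable_const hR.ae_up
    simpa using this

/-- The rigidity in one direction for a symmetric decreasing set in the gap. -/
theorem gap_direction_rigid {F : Set R3} (hm : MeasurableSet F) (hp : PeriodicSet F) (hS : SD F)
    (h1 : 0.2675 ≤ torusVolume F) (h2 : torusVolume F ≤ 0.3592)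
    (hP : perimeter F ≠ ⊤) (hJ : (perimeter F).toReal ≤ profileJ (torusVolume F))
    (h12 : extA (sw23L ⁻¹' F) ≤ extA F)
    (hc : 0.15 ≤ extA (sw23L ⁻¹' F) ∨ extA (sw13L ⁻¹' F) < 0.15)
    {m a : ℝ} (hm0 : 0 ≤ m) (ha1 : a ≤ 1) (hR : IsRange (mg1 F) m a) :
    m = a ∨ (m = 0 ∧ a = 1) := by
  obtain ⟨h3, h4⟩ := hR.volume_mem hm
  have key : ∀ {c c₁ c₂ T M₀ : ℝ}, (∀ ε > 0, ∀ᶠ n in atTop, PhaseData (smoothSeq hm hp n) c c₁ c₂ T M₀ ε) →
      0 ≤ c → c < 1 → c ≤ c₁ → c₁ ≤ c₂ → GoodS c T M₀ m a (torusVolume F) → m = a ∨ (m = 0 ∧ a = 1) := by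
    intro c c₁ c₂ T M₀ hph hc0 hc1 hcc h12' hG
    rcases hG with ⟨B, hB, hv⟩ | e
    · exfalso
      have := limit_valueG hm hp hP hph hc0 hc1 hcc h12' hR hv
      linarith
    · exact e
  rcases hc with hc | hc
  · -- both lines exist on the central phase
    by_cases hb : ∀ s t, s < (0.15:ℝ) → t < (0.51:ℝ) → WrapY F s t
    · refine key (c := 0.15) (T := 1) (M₀ := 0.491)
        (eventually_phase hm hp hS (by norm_num) ?_ ?_) (by norm_num) (by norm_num) hc h12 ?_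
      · intro s t _ _ h3 h4
        exact absurd h4 (not_le.2 h3)
      · intro _
        exact ⟨0.51, by norm_num, hb⟩
      · rcases RA_thickS h1 h2 hm0 h3 h4 ha1 with h | ⟨a1, a2, a3, a4, a5⟩
        · exact h.mono le_rfl (Or.inl rfl)
        · exact RA_tinyBS hm0 h3 h4 ha1 a1 a2 a3 a4 a5
    · push Not at hb
      obtain ⟨s₀, t₀, hs₀, ht₀, hW⟩ := hb
      refine key (c := 0.15) (T := 0.51) (M₀ := 0)
        (eventually_phase hm hp hS (by norm_num) ?_ ?_) (by norm_num) (by norm_num) hc h12 ?_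
      · intro s t h3 _ h5 _ h7
        exact hW (h7.anti (by linarith) (by linarith))
      · intro h
        exact absurd h (lt_irrefl _)
      · rcases RA_thickS h1 h2 hm0 h3 h4 ha1 with h | ⟨a1, a2, a3, a4, a5⟩
        · exact h.mono (by norm_num) (Or.inl rfl)
        · exact RA_tinyAS hm0 h3 h4 ha1 a1 a2 a3 a4 a5
  · -- the thin direction
    refine key (c := 0) (T := 0.15) (M₀ := 0)
      (eventually_phase hm hp hS (by norm_num) ?_ ?_) le_rfl (by norm_num) (extA_nonneg _) h12 ?_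
    · intro s t h3 _ h5 h6 h7
      have h8 : WrapY (sw13L ⁻¹' F) t s := fun x y z a1 a2 a3 => h7 z y x a2 a1 a3
      exact not_wrap_of_gt_extA (E := sw13L ⁻¹' F) (s := t) (t := s) (by linarith) h6 h3 h8
    · intro h
      exact absurd h (lt_irrefl _)
    · exact RA_thinS h1 h2 hm0 h3 h4 ha1

/-- The rigidity for a symmetric decreasing set in the gap: in one of the three coordinate
directions, the sections have constant area or reach both `0` and `1`. -/
theorem gap_SD_rigid {F : Set R3} (hm : MeasurableSet F) (hp : PeriodicSet F) (hS : SD F)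
    (h1 : 0.2675 ≤ torusVolume F) (h2 : torusVolume F ≤ 0.3592)
    (hP : perimeter F ≠ ⊤) (hJ : (perimeter F).toReal ≤ profileJ (torusVolume F)) :
    ∃ G : Set R3, (G = F ∨ G = sw12L ⁻¹' F ∨ G = sw13L ⁻¹' F) ∧
      ∀ m a : ℝ, 0 ≤ m → a ≤ 1 → IsRange (mg1 G) m a → m = a ∨ (m = 0 ∧ a = 1) := by
  have r1 : Rel F F := ⟨hm, hp, hS, rfl, le_rfl⟩
  have r2 := r1.sw23
  have r3 := r1.sw13
  have r4 := r3.sw23
  have r5 := r2.sw13
  have r6 := r4.sw13
  set F₂ := sw23L ⁻¹' F with hF₂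
  set F₃ := sw13L ⁻¹' F with hF₃
  set F₄ := sw23L ⁻¹' F₃ with hF₄
  set F₅ := sw13L ⁻¹' F₂ with hF₅
  set F₆ := sw13L ⁻¹' F₄ with hF₆
  have hfinish : ∀ G, Rel F G → extA (sw23L ⁻¹' G) ≤ extA G →
      (0.15 ≤ extA (sw23L ⁻¹' G) ∨ extA (sw13L ⁻¹' G) < 0.15) →
      ∀ m a : ℝ, 0 ≤ m → a ≤ 1 → IsRange (mg1 G) m a → m = a ∨ (m = 0 ∧ a = 1) := by
    intro G hG h3 h4 m a hm0 ha1 hR
    have hPG : perimeter G ≠ ⊤ := ne_top_of_le_ne_top hP hG.peri
    refine gap_direction_rigid hG.meas hG.per hG.sd (by rw [hG.vol]; exact h1) (by rw [hG.vol]; exact h2) hPG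
      ?_ h3 h4 hm0 ha1 hR
    rw [hG.vol]
    exact (ENNReal.toReal_mono hP hG.peri).trans hJ
  have e22 : sw23L ⁻¹' F₂ = F := sw23_sw23 F
  have e33 : sw13L ⁻¹' F₃ = F := sw13_sw13 F
  have e44 : sw23L ⁻¹' F₄ = F₃ := sw23_sw23 F₃
  have e56 : sw23L ⁻¹' F₅ = F₆ := by
    ext p
    rfl
  have e65 : sw23L ⁻¹' F₆ = F₅ := by
    ext p
    rfl
  have e52 : sw13L ⁻¹' F₅ = F₂ := sw13_sw13 F₂
  have e64 : sw13L ⁻¹' F₆ = F₄ := sw13_sw13 F₄
  have e6 : F₆ = sw12L ⁻¹' F := by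
    ext p
    rfl
  have hm12 : MeasurableSet (sw12L ⁻¹' F) := by
    rw [← e6]
    exact r6.meas
  have hm3 : MeasurableSet F₃ := r3.meas
  have transfer : ∀ {G G' : Set R3}, MeasurableSet G' → G = sw23L ⁻¹' G' → (∀ m a : ℝ, 0 ≤ m → a ≤ 1 → IsRange (mg1 G) m a → m = a ∨ (m = 0 ∧ a = 1)) →
      ∀ m a : ℝ, 0 ≤ m → a ≤ 1 → IsRange (mg1 G') m a → m = a ∨ (m = 0 ∧ a = 1) := by
    intro G G' hG' e h m a h0 h1 hR
    refine h m a h0 h1 ?_
    have e2 : mg1 G = mg1 G' := by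
      funext x
      rw [e]
      exact mg1_sw23 hG' x
    rw [e2]
    exact hR
  rcases pigeon 0.15 (extA F) (extA F₂) (extA F₃) (extA F₄) (extA F₅) (extA F₆) with
    ⟨h3, h4⟩ | ⟨h3, h4⟩ | ⟨h3, h4⟩ | ⟨h3, h4⟩ | ⟨h3, h4⟩ | ⟨h3, h4⟩
  · exact ⟨F, Or.inl rfl, hfinish F r1 h3 h4⟩
  · exact ⟨F, Or.inl rfl, transfer hm hF₂ (hfinish F₂ r2 (by rw [e22]; exact h3) (by rw [e22]; exact h4))⟩
  · exact ⟨F₃, Or.inr (Or.inr rfl), hfinish F₃ r3 h3 (by rw [e33]; exact h4)⟩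
  · exact ⟨F₃, Or.inr (Or.inr rfl), transfer hm3 hF₄ (hfinish F₄ r4 (by rw [e44]; exact h3) (by rw [e44]; exact h4))⟩
  · exact ⟨sw12L ⁻¹' F, Or.inr (Or.inl rfl), transfer hm12 (by rw [← e6]; exact e65.symm)
      (hfinish F₅ r5 (by rw [e56]; exact h3) (by rw [e56, e52]; exact h4))⟩
  · exact ⟨sw12L ⁻¹' F, Or.inr (Or.inl rfl), by
      rw [← e6]
      exact hfinish F₆ r6 (by rw [e65]; exact h3) (by rw [e65, e64]; exact h4)⟩

end Vale.Agent.Lib.P232
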