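import Vale.Agent.Lib.P232.Defs

open MeasureTheory Set

namespace Vale.Agent.Lib.P232

/-- The distance of `s` and `t` on the circle `ℝ / ℤ`: the distance of `s - t` to the nearest
integer. -/
noncomputable def cdist (s t : ℝ) : ℝ := |s - t - round (s - t)|

/-- The geodesic ball of radius `r` centred at the point with coordinates `(c₁, c₂, c₃)`, as a
periodic subset of `ℝ³`. -/
def ballSet (c₁ c₂ c₃ r : ℝ) : Set R3 :=
  {p | cdist p.1 c₁ ^ 2 + cdist p.2.1 c₂ ^ 2 + cdist p.2.2 c₃ ^ 2 < r ^ 2}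

/-- The solid tube of radius `r` about the closed geodesic parallel to the first axis through
the point `(c₂, c₃)` of the remaining coordinates. -/
def tubeX (c₂ c₃ r : ℝ) : Set R3 := {p | cdist p.2.1 c₂ ^ 2 + cdist p.2.2 c₃ ^ 2 < r ^ 2}

/-- The solid tube of radius `r` about a closed geodesic parallel to the second axis. -/
def tubeY (c₁ c₃ r : ℝ) : Set R3 := {p | cdist p.1 c₁ ^ 2 + cdist p.2.2 c₃ ^ 2 < r ^ 2}

/-- The solid tube of radius `r` about a closed geodesic parallel to the third axis. -/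
def tubeZ (c₁ c₂ r : ℝ) : Set R3 := {p | cdist p.1 c₁ ^ 2 + cdist p.2.1 c₂ ^ 2 < r ^ 2}

/-- The slab of width `w` centred at the coordinate torus `x = c`. -/
def slabX (c w : ℝ) : Set R3 := {p | cdist p.1 c < w / 2}

/-- The slab of width `w` centred at the coordinate torus `y = c`. -/
def slabY (c w : ℝ) : Set R3 := {p | cdist p.2.1 c < w / 2}

/-- The slab of width `w` centred at the coordinate torus `z = c`. -/
def slabZ (c w : ℝ) : Set R3 := {p | cdist p.2.2 c < w / 2}

/-- `F` and `B` agree on the torus up to a null set. -/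
def AeEqTorus (F B : Set R3) : Prop := volume ((symmDiff F B) ∩ unitCell) = 0

/-- `F` is, up to a null set, a ball, a solid tube or a slab of volume `v`, with radius at most
`1/2` and `v ≤ 1/2` so that these are embedded regions of the stated volume. -/
def IsCanonical (F : Set R3) (v : ℝ) : Prop :=
  (∃ c₁ c₂ c₃ r, 0 < r ∧ r ≤ 1 / 2 ∧ 4 / 3 * Real.pi * r ^ 3 = v ∧ AeEqTorus F (ballSet c₁ c₂ c₃ r)) ∨
  (∃ c c' r, 0 < r ∧ r ≤ 1 / 2 ∧ Real.pi * r ^ 2 = v ∧
    (AeEqTorus F (tubeX c c' r) ∨ AeEqTorus F (tubeY c c' r) ∨ AeEqTorus F (tubeZ c c' r))) ∨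
  (∃ c, AeEqTorus F (slabX c v) ∨ AeEqTorus F (slabY c v) ∨ AeEqTorus F (slabZ c v))

end Vale.Agent.Lib.P232
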