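import Vale.Agent.Lib.P232.Cl5
import Vale.Agent.Lib.P232.ClDefs

open MeasureTheory Set intervalIntegral Filter
open scoped Topology ENNReal

namespace Vale.Agent.Lib.P232

/-! ### The distance on the circle -/

lemma cdist_eq_cd (s t : ℝ) : cdist s t = 1 / 2 - cd (s - t) := by
  unfold cdist
  rw [cd_eq]
  ring

lemma cdist_nonneg (s t : ℝ) : 0 ≤ cdist s t := abs_nonneg _

lemma cdist_le_half (s t : ℝ) : cdist s t ≤ 1 / 2 := abs_sub_round _

lemma cdist_self (s : ℝ) : cdist s s = 0 := by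
  unfold cdist
  simp

lemma cdist_lip_right (x c c' : ℝ) : |cdist x c - cdist x c'| ≤ |c - c'| := by
  rw [cdist_eq_cd, cdist_eq_cd, abs_le]
  have h1 := cd_sub_le (x - c) (c' - c)
  have h2 := cd_sub_le' (x - c) (c' - c)
  have e : x - c - (c' - c) = x - c' := by ring
  rw [e] at h1 h2
  have e2 : |c' - c| = |c - c'| := abs_sub_comm _ _
  rw [e2] at h1 h2
  constructor <;> linarith

lemma cdist_comm (s t : ℝ) : cdist s t = cdist t s := by
  rw [cdist_eq_cd, cdist_eq_cd, cd_eq, cd_eq]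
  have e : t - s = -(s - t) := by ring
  rw [e]
  set u := s - t
  have h1 : |(-u) - round (-u)| = |u - round u| := by
    rw [abs_sub_round_eq_min, abs_sub_round_eq_min]
    rcases eq_or_ne (Int.fract u) 0 with h | h
    · rw [Int.fract_neg_eq_zero.2 h, h]
    · rw [Int.fract_neg h]
      rw [min_comm]
      congr 1
      ring
  rw [h1]

lemma cdist_add_int (s t : ℝ) (k : ℤ) : cdist s (t + k) = cdist s t := by
  unfold cdist
  have e : s - (t + k) = s - t - k := by ring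
  rw [e, round_sub_intCast]
  push_cast
  congr 1
  ring

lemma exists_shift (x c : ℝ) : ∃ k : ℤ, |x - (c + k)| = cdist x c := by
  refine ⟨round (x - c), ?_⟩
  unfold cdist
  congr 1
  ring

lemma abs_sub_ge_cdist (x c : ℝ) : cdist x c ≤ |x - c| := by
  have := round_le (x - c) 0
  unfold cdist
  simpa using this

lemma cdist_continuous_right (x : ℝ) : Continuous fun c => cdist x c := by
  have : (fun c => cdist x c) = fun c => 1 / 2 - cd (x - c) := funext fun c => cdist_eq_cd x c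
  refine (LipschitzWith.of_dist_le_mul (K := 1) fun c c' => ?_).continuous
  simp only [NNReal.coe_one, one_mul, Real.dist_eq]
  exact cdist_lip_right x c c'

lemma per_int {f : ℝ → ℝ} (h : ∀ x, f (x + 1) = f x) (k : ℤ) (x : ℝ) : f (x + k) = f x := by
  have := (Function.Periodic.int_mul (show Function.Periodic f 1 from h) k) x
  simpa using this

/-! ### The rotation of a calibration -/

/-- One step of the perturbation of a calibration. -/
lemma rot_step {N G P A' a₀ b₀ r ε g e : ℝ} (hN0 : 0 ≤ N)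
    (h1 : ∀ α γ : ℝ, 0 ≤ α → 0 ≤ γ → α ^ 2 + γ ^ 2 ≤ 1 → α * G + γ * P ≤ N) (h2 : |A'| ≤ P)
    (ha0 : 0 ≤ a₀) (hb0 : 0 ≤ b₀) (hn : a₀ ^ 2 + b₀ ^ 2 ≤ 1) (hr : 0 ≤ r) (hε : 0 ≤ ε)
    (hs : ε * r * b₀ ≤ a₀) (hprof : ∀ c, 0 ≤ c → c ≤ a₀ → c * g - e ≤ c * G) :
    a₀ * g - e + b₀ * |A'| + ε * (r * a₀ * |A'| - r * b₀ * g) ≤ N + (ε * r) ^ 2 / 2 * N := by
  set q := ε * r with hq
  have hq0 : 0 ≤ q := by positivity
  set w := Real.sqrt (1 + q ^ 2) with hw
  have hw2 : w ^ 2 = 1 + q ^ 2 := Real.sq_sqrt (by positivity)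
  have hw1 : 1 ≤ w := by
    rw [hw]
    exact Real.one_le_sqrt.2 (by nlinarith [sq_nonneg q])
  have hw0 : 0 < w := by linarith
  have hwle : w ≤ 1 + q ^ 2 / 2 := by
    rw [hw]
    apply Real.sqrt_le_iff.2
    constructor
    · positivity
    · nlinarith [sq_nonneg (q ^ 2)]
  have hc0 : 0 ≤ a₀ - q * b₀ := by
    rw [hq]
    linarith
  have hd0 : 0 ≤ b₀ + q * a₀ := by positivity
  have hnorm : ((a₀ - q * b₀) / w) ^ 2 + ((b₀ + q * a₀) / w) ^ 2 ≤ 1 := by
    rw [div_pow, div_pow, hw2]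
    have e1 : (a₀ - q * b₀) ^ 2 + (b₀ + q * a₀) ^ 2 = (a₀ ^ 2 + b₀ ^ 2) * (1 + q ^ 2) := by ring
    rw [← add_div, e1]
    rw [div_le_one (by positivity)]
    nlinarith [sq_nonneg q]
  have hmain := h1 _ _ (div_nonneg hc0 hw0.le) (div_nonneg hd0 hw0.le) hnorm
  have hmul : (a₀ - q * b₀) * G + (b₀ + q * a₀) * P ≤ w * N := by
    have e2 : (a₀ - q * b₀) * G + (b₀ + q * a₀) * P = w * ((a₀ - q * b₀) / w * G + (b₀ + q * a₀) / w * P) := by
      field_simp
    rw [e2]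
    exact mul_le_mul_of_nonneg_left hmain hw0.le
  have hp := hprof _ hc0 (by nlinarith [mul_nonneg hq0 hb0])
  have hA : (b₀ + q * a₀) * |A'| ≤ (b₀ + q * a₀) * P := mul_le_mul_of_nonneg_left h2 hd0
  have hNq : w * N ≤ (1 + q ^ 2 / 2) * N := mul_le_mul_of_nonneg_right hwle hN0
  have e3 : a₀ * g - e + b₀ * |A'| + ε * (r * a₀ * |A'| - r * b₀ * g)
      = (a₀ - q * b₀) * g - e + (b₀ + q * a₀) * |A'| := by
    rw [hq]
    ring
  rw [e3]
  nlinarith

/-- The data of the slicing of a function on a torus along one direction. -/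
structure Cal where
  A : ℝ → ℝ
  A' : ℝ → ℝ
  N : ℝ → ℝ
  G : ℝ → ℝ
  P : ℝ → ℝ
  hasD : ∀ x, HasDerivAt A (A' x) x
  contD : Continuous A'
  per : ∀ x, A (x + 1) = A x
  contN : Continuous N
  perN : ∀ x, N (x + 1) = N x
  h1 : ∀ x α γ, 0 ≤ α → 0 ≤ γ → α ^ 2 + γ ^ 2 ≤ 1 → α * G x + γ * P x ≤ N x
  h2 : ∀ x, |A' x| ≤ P x

namespace Cal

variable (D : Cal)

lemma contA : Continuous D.A := continuous_iff_continuousAt.2 fun x => (D.hasD x).continuousAt

lemma N_nonneg (x : ℝ) : 0 ≤ D.N x := by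
  have := D.h1 x 0 0 le_rfl le_rfl (by norm_num)
  simpa using this

lemma integral_N_nonneg : 0 ≤ ∫ x in (0:ℝ)..1, D.N x :=
  intervalIntegral.integral_nonneg zero_le_one fun x _ => D.N_nonneg x

/-- The estimate on an arc, for one function. -/
theorem arc_one {a ε C : ℝ} {α β g ρ e : ℝ → ℝ} (hα : Continuous α) (hβ : Continuous β)
    (hg : Continuous g) (hρ : Continuous ρ) (he : Continuous e)
    (hA : ∀ x, D.A x ∈ Icc 0 a) (hα0 : ∀ s ∈ Icc 0 a, 0 ≤ α s) (hβ0 : ∀ s, 0 ≤ β s)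
    (hn : ∀ s ∈ Icc 0 a, α s ^ 2 + β s ^ 2 ≤ 1)
    (hρ0 : ∀ s, 0 ≤ ρ s) (hρC : ∀ s, ρ s ≤ C)
    (hψ : ∀ s ∈ Icc 0 a, ρ s * β s * g s ≤ 1)
    (hε : 0 ≤ ε) (hsign : ∀ s ∈ Icc 0 a, ε * ρ s * β s ≤ α s)
    (heper : ∀ x, e (x + 1) = e x)
    (hprof : ∀ x c, 0 ≤ c → c ≤ α (D.A x) → c * g (D.A x) - e x ≤ c * D.G x)
    (xm xa t t' : ℝ) (ht : t ≤ t') (ht' : t' ≤ t + 1) :
    ε * |∫ s in D.A t..D.A t', ρ s * α s| ≤ ε * (t' - t) + ε ^ 2 * C ^ 2 / 2 * (∫ x in (0:ℝ)..1, D.N x)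
      + ((∫ x in (0:ℝ)..1, D.N x) - (∫ x in (0:ℝ)..1, α (D.A x) * g (D.A x))
        - 2 * (∫ s in D.A xm..D.A xa, β s) + ∫ x in (0:ℝ)..1, e x) := by
  have hAc := D.contA
  have hA'c := D.contD
  have hNc := D.contN
  set B : ℝ → ℝ := fun x => α (D.A x) * g (D.A x) - e x + β (D.A x) * |D.A' x| with hB
  set Y : ℝ → ℝ := fun x => ρ (D.A x) * α (D.A x) * |D.A' x| - ρ (D.A x) * β (D.A x) * g (D.A x) with hY
  have c1 : Continuous fun x => α (D.A x) * g (D.A x) := (hα.comp hAc).mul (hg.comp hAc)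
  have c2 : Continuous fun x => β (D.A x) * |D.A' x| := (hβ.comp hAc).mul hA'c.abs
  have c3 : Continuous fun x => ρ (D.A x) * α (D.A x) * |D.A' x| :=
    ((hρ.comp hAc).mul (hα.comp hAc)).mul hA'c.abs
  have c4 : Continuous fun x => ρ (D.A x) * β (D.A x) * g (D.A x) :=
    ((hρ.comp hAc).mul (hβ.comp hAc)).mul (hg.comp hAc)
  have cB : Continuous B := (c1.sub he).add c2
  have cY : Continuous Y := c3.sub c4
  have hC0 : 0 ≤ C := (hρ0 0).trans (hρC 0)
  -- the pointwise inequalities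
  have hpt : ∀ ε' : ℝ, 0 ≤ ε' → ε' ≤ ε → ∀ x, B x + ε' * Y x ≤ D.N x + ε' ^ 2 * C ^ 2 / 2 * D.N x := by
    intro ε' h0 h1 x
    have hr0 := hρ0 (D.A x)
    have hrC := hρC (D.A x)
    have hs := hsign _ (hA x)
    have hb0 := hβ0 (D.A x)
    have hs' : ε' * ρ (D.A x) * β (D.A x) ≤ α (D.A x) := by
      refine le_trans ?_ hs
      have : 0 ≤ ρ (D.A x) * β (D.A x) := mul_nonneg hr0 hb0
      nlinarith
    have h := rot_step (N := D.N x) (G := D.G x) (P := D.P x) (A' := D.A' x) (a₀ := α (D.A x))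
      (b₀ := β (D.A x)) (r := ρ (D.A x)) (ε := ε') (g := g (D.A x)) (e := e x) (D.N_nonneg x)
      (D.h1 x) (D.h2 x) (hα0 _ (hA x)) hb0 (hn _ (hA x)) hr0 h0 hs' (hprof x)
    have hq : (ε' * ρ (D.A x)) ^ 2 / 2 * D.N x ≤ ε' ^ 2 * C ^ 2 / 2 * D.N x := by
      apply mul_le_mul_of_nonneg_right _ (D.N_nonneg x)
      have : (ρ (D.A x)) ^ 2 ≤ C ^ 2 := pow_le_pow_left₀ hr0 hrC 2
      have h2 : ε' ^ 2 * ρ (D.A x) ^ 2 ≤ ε' ^ 2 * C ^ 2 := mul_le_mul_of_nonneg_left this (by positivity)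
      rw [mul_pow]
      linarith
    simp only [hB, hY]
    linarith
  have hI : ∀ x, B x ≤ D.N x := by
    intro x
    have := hpt 0 le_rfl hε x
    simpa using this
  -- periodicity
  have hA'per := deriv_periodic D.hasD D.per
  have hBper : Function.Periodic (fun x => D.N x - B x) 1 := by
    intro x
    simp only [hB, D.perN x, D.per x, hA'per x, heper x]
  have hNper : Function.Periodic D.N 1 := D.perN
  have shift1 : ∫ x in t..t + 1, (D.N x - B x) = ∫ x in (0:ℝ)..1, (D.N x - B x) := by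
    have := hBper.intervalIntegral_add_eq 0 t
    simpa using this.symm
  have shift2 : ∫ x in t..t + 1, D.N x = ∫ x in (0:ℝ)..1, D.N x := by
    have := hNper.intervalIntegral_add_eq 0 t
    simpa using this.symm
  have cNB : Continuous fun x => D.N x - B x := hNc.sub cB
  -- the integral over the arc
  have hint : ε * (∫ x in t..t', Y x) ≤ (∫ x in t..t', (D.N x - B x)) + ε ^ 2 * C ^ 2 / 2 * ∫ x in t..t', D.N x := by
    have c5 : Continuous fun x => ε * Y x := continuous_const.mul cY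
    have c6 : Continuous fun x => ε ^ 2 * C ^ 2 / 2 * D.N x := continuous_const.mul hNc
    have h2 : ∫ x in t..t', (B x + ε * Y x) ≤ ∫ x in t..t', (D.N x + ε ^ 2 * C ^ 2 / 2 * D.N x) :=
      intervalIntegral.integral_mono_on ht ((cB.add c5).intervalIntegrable _ _)
        ((hNc.add c6).intervalIntegrable _ _) (fun x _ => hpt ε hε le_rfl x)
    rw [intervalIntegral.integral_add (cB.intervalIntegrable _ _) (c5.intervalIntegrable _ _),
      intervalIntegral.integral_add (hNc.intervalIntegrable _ _) (c6.intervalIntegrable _ _),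
      intervalIntegral.integral_const_mul, intervalIntegral.integral_const_mul] at h2
    rw [intervalIntegral.integral_sub (hNc.intervalIntegrable _ _) (cB.intervalIntegrable _ _)]
    linarith
  have hle1 : ∫ x in t..t', (D.N x - B x) ≤ ∫ x in t..t + 1, (D.N x - B x) := by
    have h3 := intervalIntegral.integral_add_adjacent_intervals (μ := volume) (a := t) (b := t') (c := t + 1)
      (cNB.intervalIntegrable _ _) (cNB.intervalIntegrable _ _)
    have h4 : 0 ≤ ∫ x in t'..t + 1, (D.N x - B x) :=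
      intervalIntegral.integral_nonneg ht' fun x _ => by linarith [hI x]
    linarith
  have hle2 : ∫ x in t..t', D.N x ≤ ∫ x in t..t + 1, D.N x := by
    have h3 := intervalIntegral.integral_add_adjacent_intervals (μ := volume) (a := t) (b := t') (c := t + 1)
      (hNc.intervalIntegrable _ _) (hNc.intervalIntegrable _ _)
    have h4 : 0 ≤ ∫ x in t'..t + 1, D.N x :=
      intervalIntegral.integral_nonneg ht' fun x _ => D.N_nonneg x
    linarith
  -- the whole circle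
  have hosc := osc_weighted D.hasD hA'c D.per hβ hβ0 xm xa
  have hwhole : ∫ x in (0:ℝ)..1, (D.N x - B x)
      ≤ (∫ x in (0:ℝ)..1, D.N x) - (∫ x in (0:ℝ)..1, α (D.A x) * g (D.A x))
        - 2 * (∫ s in D.A xm..D.A xa, β s) + ∫ x in (0:ℝ)..1, e x := by
    rw [intervalIntegral.integral_sub (hNc.intervalIntegrable _ _) (cB.intervalIntegrable _ _)]
    simp only [hB]
    have c7 : Continuous fun x => α (D.A x) * g (D.A x) - e x := c1.sub he
    rw [intervalIntegral.integral_add (c7.intervalIntegrable _ _) (c2.intervalIntegrable _ _),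
      intervalIntegral.integral_sub (c1.intervalIntegrable _ _) (he.intervalIntegrable _ _)]
    linarith
  -- the lower bound for the arc
  have hY1 : |∫ s in D.A t..D.A t', ρ s * α s| - (t' - t) ≤ ∫ x in t..t', Y x := by
    simp only [hY]
    rw [intervalIntegral.integral_sub (c3.intervalIntegrable _ _) (c4.intervalIntegrable _ _)]
    have h5 : ∫ x in t..t', ρ (D.A x) * β (D.A x) * g (D.A x) ≤ t' - t := by
      have := intervalIntegral.integral_mono_on (μ := volume) ht (c4.intervalIntegrable t t')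
        ((continuous_const (y := (1:ℝ))).intervalIntegrable t t') (fun x _ => hψ _ (hA x))
      simpa using this
    have hφ : Continuous fun s => ρ s * α s := hρ.mul hα
    have h6 : ∫ x in t..t', ((fun s => ρ s * α s) ∘ D.A) x * D.A' x = ∫ s in D.A t..D.A t', ρ s * α s :=
      intervalIntegral.integral_comp_mul_deriv (fun x _ => D.hasD x) hA'c.continuousOn hφ
    have h7 : |∫ s in D.A t..D.A t', ρ s * α s| ≤ ∫ x in t..t', ρ (D.A x) * α (D.A x) * |D.A' x| := by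
      rw [← h6]
      refine (intervalIntegral.abs_integral_le_integral_abs ht).trans (le_of_eq ?_)
      apply intervalIntegral.integral_congr
      intro x _
      show |(ρ (D.A x) * α (D.A x)) * D.A' x| = _
      rw [abs_mul, abs_of_nonneg (mul_nonneg (hρ0 _) (hα0 _ (hA x)))]
    linarith
  have h8 : ε * (|∫ s in D.A t..D.A t', ρ s * α s| - (t' - t)) ≤ ε * ∫ x in t..t', Y x :=
    mul_le_mul_of_nonneg_left hY1 hε
  have h9 : ε ^ 2 * C ^ 2 / 2 * ∫ x in t..t', D.N x ≤ ε ^ 2 * C ^ 2 / 2 * ∫ x in (0:ℝ)..1, D.N x :=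
    mul_le_mul_of_nonneg_left (by rw [← shift2]; exact hle2) (by positivity)
  rw [shift1] at hle1
  linarith

end Cal

/-- The estimate on an arc in the limit. -/
theorem arc_limit {D : ℕ → Cal} {A : ℝ → ℝ} {a C P₀ ε₀ : ℝ} {α β g ρ : ℝ → ℝ} (hα : Continuous α)
    (hβ : Continuous β) (hg : Continuous g) (hρ : Continuous ρ)
    (hA : ∀ n x, (D n).A x ∈ Icc 0 a) (hα0 : ∀ s ∈ Icc 0 a, 0 ≤ α s) (hβ0 : ∀ s, 0 ≤ β s)
    (hn : ∀ s ∈ Icc 0 a, α s ^ 2 + β s ^ 2 ≤ 1)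
    (hρ0 : ∀ s, 0 ≤ ρ s) (hρC : ∀ s, ρ s ≤ C)
    (hψ : ∀ s ∈ Icc 0 a, ρ s * β s * g s ≤ 1)
    (hε₀ : 0 < ε₀) (hsign : ∀ s ∈ Icc 0 a, ε₀ * ρ s * β s ≤ α s)
    (hN : ∀ n, (∫ x in (0:ℝ)..1, (D n).N x) ≤ P₀)
    (hdef : ∀ η > 0, ∃ e : ℕ → ℝ → ℝ, (∀ n, Continuous (e n)) ∧ (∀ n x, e n (x + 1) = e n x) ∧
      (∀ n x c, 0 ≤ c → c ≤ α ((D n).A x) → c * g ((D n).A x) - e n x ≤ c * (D n).G x) ∧
      ∀ᶠ n in atTop, ∃ xm xa, (∫ x in (0:ℝ)..1, (D n).N x) - (∫ x in (0:ℝ)..1, α ((D n).A x) * g ((D n).A x))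
        - 2 * (∫ s in (D n).A xm..(D n).A xa, β s) + (∫ x in (0:ℝ)..1, e n x) ≤ η)
    {t t' : ℝ} (ht : t ≤ t') (ht' : t' ≤ t + 1)
    (hl : Tendsto (fun n => (D n).A t) atTop (𝓝 (A t)))
    (hl' : Tendsto (fun n => (D n).A t') atTop (𝓝 (A t'))) :
    |∫ s in A t..A t', ρ s * α s| ≤ t' - t := by
  have hφ : Continuous fun s => ρ s * α s := hρ.mul hα
  have hC0 : 0 ≤ C := (hρ0 0).trans (hρC 0)
  have hP₀ : 0 ≤ P₀ := (D 0).integral_N_nonneg.trans (hN 0)
  have hlim := (integral_endpoints_tendsto hφ hl hl').abs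
  have key : ∀ ε, 0 < ε → ε ≤ ε₀ → |∫ s in A t..A t', ρ s * α s| ≤ (t' - t) + ε * (C ^ 2 / 2 * P₀ + 1) := by
    intro ε h0 h1
    obtain ⟨e, hec, heper, hprof, hev⟩ := hdef (ε ^ 2) (by positivity)
    refine le_of_tendsto hlim ?_
    filter_upwards [hev] with n hn'
    obtain ⟨xm, xa, hΔ⟩ := hn'
    have hs : ∀ s ∈ Icc 0 a, ε * ρ s * β s ≤ α s := by
      intro s hs
      refine le_trans ?_ (hsign s hs)
      have : 0 ≤ ρ s * β s := mul_nonneg (hρ0 s) (hβ0 s)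
      nlinarith
    have h := (D n).arc_one hα hβ hg hρ (hec n) (hA n) hα0 hβ0 hn hρ0 hρC hψ h0.le hs (heper n) (hprof n)
      xm xa t t' ht ht'
    have h2 : ε ^ 2 * C ^ 2 / 2 * (∫ x in (0:ℝ)..1, (D n).N x) ≤ ε ^ 2 * C ^ 2 / 2 * P₀ :=
      mul_le_mul_of_nonneg_left (hN n) (by positivity)
    have h3 : ε * |∫ s in (D n).A t..(D n).A t', ρ s * α s| ≤ ε * ((t' - t) + ε * (C ^ 2 / 2 * P₀ + 1)) := by
      have e1 : ε * ((t' - t) + ε * (C ^ 2 / 2 * P₀ + 1)) = ε * (t' - t) + ε ^ 2 * C ^ 2 / 2 * P₀ + ε ^ 2 := by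
        ring
      rw [e1]
      linarith
    exact le_of_mul_le_mul_left h3 h0
  apply le_of_forall_pos_le_add
  intro η hη
  set K := C ^ 2 / 2 * P₀ + 1 with hK
  have hK0 : 0 < K := by positivity
  set ε := min ε₀ (η / K) with hεdef
  have h0 : 0 < ε := lt_min hε₀ (by positivity)
  have h1 := key ε h0 (min_le_left _ _)
  have h2 : ε * K ≤ η := by
    have : ε ≤ η / K := min_le_right _ _
    rwa [le_div_iff₀ hK0] at this
  linarith

/-- The estimate between two points of the circle. -/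
theorem circle_limit {D : ℕ → Cal} {A : ℝ → ℝ} {a C P₀ ε₀ : ℝ} {α β g ρ : ℝ → ℝ} (hα : Continuous α)
    (hβ : Continuous β) (hg : Continuous g) (hρ : Continuous ρ)
    (hA : ∀ n x, (D n).A x ∈ Icc 0 a) (hα0 : ∀ s ∈ Icc 0 a, 0 ≤ α s) (hβ0 : ∀ s, 0 ≤ β s)
    (hn : ∀ s ∈ Icc 0 a, α s ^ 2 + β s ^ 2 ≤ 1)
    (hρ0 : ∀ s, 0 ≤ ρ s) (hρC : ∀ s, ρ s ≤ C)
    (hψ : ∀ s ∈ Icc 0 a, ρ s * β s * g s ≤ 1)
    (hε₀ : 0 < ε₀) (hsign : ∀ s ∈ Icc 0 a, ε₀ * ρ s * β s ≤ α s)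
    (hN : ∀ n, (∫ x in (0:ℝ)..1, (D n).N x) ≤ P₀)
    (hdef : ∀ η > 0, ∃ e : ℕ → ℝ → ℝ, (∀ n, Continuous (e n)) ∧ (∀ n x, e n (x + 1) = e n x) ∧
      (∀ n x c, 0 ≤ c → c ≤ α ((D n).A x) → c * g ((D n).A x) - e n x ≤ c * (D n).G x) ∧
      ∀ᶠ n in atTop, ∃ xm xa, (∫ x in (0:ℝ)..1, (D n).N x) - (∫ x in (0:ℝ)..1, α ((D n).A x) * g ((D n).A x))
        - 2 * (∫ s in (D n).A xm..(D n).A xa, β s) + (∫ x in (0:ℝ)..1, e n x) ≤ η)
    (hAper : ∀ x, A (x + 1) = A x)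
    {x c : ℝ}
    (hl : Tendsto (fun n => (D n).A x) atTop (𝓝 (A x)))
    (hl' : Tendsto (fun n => (D n).A c) atTop (𝓝 (A c))) :
    |∫ s in A x..A c, ρ s * α s| ≤ cdist x c := by
  obtain ⟨k, hk⟩ := exists_shift x c
  set c' := c + (k : ℝ) with hc'
  have hAk : A c' = A c := per_int hAper k c
  have hDk : ∀ n, (D n).A c' = (D n).A c := fun n => per_int (D n).per k c
  have hl'' : Tendsto (fun n => (D n).A c') atTop (𝓝 (A c')) := by
    simp only [hDk, hAk]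
    exact hl'
  have hd : |x - c'| ≤ 1 / 2 := by
    rw [hk]
    exact cdist_le_half x c
  rw [← hk, ← hAk]
  rcases le_total x c' with h | h
  · have := arc_limit hα hβ hg hρ hA hα0 hβ0 hn hρ0 hρC hψ hε₀ hsign hN hdef h
      (by have := (abs_le.1 hd).1; linarith) hl hl''
    rw [abs_sub_comm x c', abs_of_nonneg (sub_nonneg.2 h)]
    exact this
  · have := arc_limit hα hβ hg hρ hA hα0 hβ0 hn hρ0 hρC hψ hε₀ hsign hN hdef h
      (by have := (abs_le.1 hd).2; linarith) hl'' hl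
    rw [intervalIntegral.integral_symm, abs_neg, abs_of_nonneg (sub_nonneg.2 h)]
    exact this

end Vale.Agent.Lib.P232
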