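import Vale.Agent.Lib.P232.Cl6

open MeasureTheory Set intervalIntegral Filter
open scoped Topology ENNReal

namespace Vale.Agent.Lib.P232

/-- The level functions of a tight calibration, and the primitive of their ratio. -/
structure Lev (a : ℝ) (α β g T : ℝ → ℝ) : Prop where
  contα : Continuous α
  contβ : Continuous β
  contg : Continuous g
  α0 : ∀ s ∈ Icc 0 a, 0 ≤ α s
  αpos : ∀ s ∈ Ioc 0 a, 0 < α s
  β0 : ∀ s, 0 ≤ β s
  norm : ∀ s ∈ Icc 0 a, α s ^ 2 + β s ^ 2 ≤ 1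
  pos : ∀ s ∈ Ioo 0 a, 0 < β s * g s
  hasT : ∀ s ∈ Ioo 0 a, HasDerivAt T (α s / (β s * g s)) s

/-- The cut-off at the low levels. -/
noncomputable def cutLow (s₁ s : ℝ) : ℝ := max 0 (min 1 (2 * s / s₁ - 1))

lemma cutLow_cont (s₁ : ℝ) : Continuous (cutLow s₁) := by
  unfold cutLow
  fun_prop

lemma cutLow_nonneg (s₁ s : ℝ) : 0 ≤ cutLow s₁ s := le_max_left _ _

lemma cutLow_le_one (s₁ s : ℝ) : cutLow s₁ s ≤ 1 := max_le zero_le_one (min_le_left _ _)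

lemma cutLow_eq_one {s₁ s : ℝ} (h0 : 0 < s₁) (h : s₁ ≤ s) : cutLow s₁ s = 1 := by
  unfold cutLow
  have h1 : 1 ≤ 2 * s / s₁ - 1 := by
    have : 2 ≤ 2 * s / s₁ := by
      rw [le_div_iff₀ h0]
      linarith
    linarith
  rw [min_eq_left h1]
  exact max_eq_right zero_le_one

lemma cutLow_eq_zero {s₁ s : ℝ} (h0 : 0 < s₁) (h : s ≤ s₁ / 2) : cutLow s₁ s = 0 := by
  unfold cutLow
  have h1 : 2 * s / s₁ - 1 ≤ 0 := by
    have : 2 * s / s₁ ≤ 1 := by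
      rw [div_le_one h0]
      linarith
    linarith
  exact max_eq_left ((min_le_right _ _).trans h1)

/-- The primitive is one-Lipschitz along the good points of the limit. -/
theorem Lev.rigid {a : ℝ} {α β g T : ℝ → ℝ} (hL : Lev a α β g T)
    {D : ℕ → Cal} {A : ℝ → ℝ} {P₀ : ℝ}
    (hA : ∀ n x, (D n).A x ∈ Icc 0 a)
    (hN : ∀ n, (∫ x in (0:ℝ)..1, (D n).N x) ≤ P₀)
    (hdef : ∀ η > 0, ∃ e : ℕ → ℝ → ℝ, (∀ n, Continuous (e n)) ∧ (∀ n x, e n (x + 1) = e n x) ∧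
      (∀ n x c, 0 ≤ c → c ≤ α ((D n).A x) → c * g ((D n).A x) - e n x ≤ c * (D n).G x) ∧
      ∀ᶠ n in atTop, ∃ xm xa, (∫ x in (0:ℝ)..1, (D n).N x) - (∫ x in (0:ℝ)..1, α ((D n).A x) * g ((D n).A x))
        - 2 * (∫ s in (D n).A xm..(D n).A xa, β s) + (∫ x in (0:ℝ)..1, e n x) ≤ η)
    (hAper : ∀ x, A (x + 1) = A x)
    {x c s₁ s₂ : ℝ} (hx0 : 0 ≤ A x) (hca : A c ≤ a)
    (hl : Tendsto (fun n => (D n).A x) atTop (𝓝 (A x)))
    (hl' : Tendsto (fun n => (D n).A c) atTop (𝓝 (A c)))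
    (h0 : 0 < s₁) (h12 : s₁ < s₂) (h2a : s₂ < a) (hx : A x ≤ s₁) (hc : s₂ ≤ A c) :
    T s₂ - T s₁ ≤ cdist x c := by
  obtain ⟨hαc, hβc, hgc, hα0, hαpos, hβ0, hnorm, hpos, hasT⟩ := hL
  have ha0 : 0 < a := by linarith
  have hK : IsCompact (Icc s₁ s₂) := isCompact_Icc
  have hβg : Continuous fun s => β s * g s := hβc.mul hgc
  obtain ⟨s₀, hs₀, hmin⟩ := hK.exists_isMinOn ⟨s₁, ⟨le_rfl, h12.le⟩⟩ hβg.continuousOn
  set η₀ := β s₀ * g s₀ with hη₀
  have hη₀0 : 0 < η₀ := hpos s₀ ⟨by linarith [hs₀.1], by linarith [hs₀.2]⟩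
  have hK' : IsCompact (Icc (s₁ / 2) a) := isCompact_Icc
  obtain ⟨s₃, hs₃, hmin'⟩ := hK'.exists_isMinOn ⟨a, ⟨by linarith, le_rfl⟩⟩ hαc.continuousOn
  set α₀ := α s₃ with hα₀
  have hα₀0 : 0 < α₀ := hαpos s₃ ⟨by linarith [hs₃.1], hs₃.2⟩
  set ρ : ℝ → ℝ := fun s => cutLow s₁ s / max (β s * g s) η₀ with hρ
  have hmax : ∀ s, 0 < max (β s * g s) η₀ := fun s => lt_max_of_lt_right hη₀0
  have hρc : Continuous ρ :=
    (cutLow_cont s₁).div (hβg.max continuous_const) fun s => (hmax s).ne'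
  have hρ0 : ∀ s, 0 ≤ ρ s := fun s => div_nonneg (cutLow_nonneg _ _) (hmax s).le
  have hρC : ∀ s, ρ s ≤ 1 / η₀ := by
    intro s
    apply div_le_div₀ zero_le_one (cutLow_le_one _ _) hη₀0 (le_max_right _ _)
  have hβ1 : ∀ s ∈ Icc 0 a, β s ≤ 1 := by
    intro s hs
    have h1 := hnorm s hs
    have h2 := hα0 s hs
    have h3 := hβ0 s
    nlinarith [sq_nonneg (α s)]
  have hψ : ∀ s ∈ Icc 0 a, ρ s * β s * g s ≤ 1 := by
    intro s _
    have e : ρ s * β s * g s = cutLow s₁ s * ((β s * g s) / max (β s * g s) η₀) := by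
      simp only [hρ]
      ring
    rw [e]
    have h1 : (β s * g s) / max (β s * g s) η₀ ≤ 1 := (div_le_one (hmax s)).2 (le_max_left _ _)
    have h2 := cutLow_le_one s₁ s
    have h3 := cutLow_nonneg s₁ s
    nlinarith
  have hsign : ∀ s ∈ Icc 0 a, (α₀ * η₀) * ρ s * β s ≤ α s := by
    intro s hs
    by_cases hcase : s ≤ s₁ / 2
    · have : ρ s = 0 := by
        simp only [hρ]
        rw [cutLow_eq_zero h0 hcase, zero_div]
      rw [this]
      simpa using hα0 s hs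
    · push Not at hcase
      have h1 : ρ s * β s ≤ 1 / η₀ * 1 :=
        mul_le_mul (hρC s) (hβ1 s hs) (hβ0 s) (by positivity)
      have h2 : α₀ ≤ α s := hmin' (⟨hcase.le, hs.2⟩ : s ∈ Icc (s₁ / 2) a)
      have h3 : (α₀ * η₀) * ρ s * β s = (α₀ * η₀) * (ρ s * β s) := by ring
      rw [h3]
      have h4 : (α₀ * η₀) * (ρ s * β s) ≤ (α₀ * η₀) * (1 / η₀ * 1) :=
        mul_le_mul_of_nonneg_left h1 (by positivity)
      have h5 : (α₀ * η₀) * (1 / η₀ * 1) = α₀ := by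
        field_simp
      linarith
  have key := circle_limit (C := 1 / η₀) hαc hβc hgc hρc hA hα0 hβ0 hnorm hρ0 hρC hψ
    (by positivity : 0 < α₀ * η₀) hsign hN hdef hAper hl hl'
  have hφc : Continuous fun s => ρ s * α s := hρc.mul hαc
  have hφ0 : ∀ s ∈ Icc 0 a, 0 ≤ ρ s * α s := fun s hs => mul_nonneg (hρ0 s) (hα0 s hs)
  -- the integral between the levels
  have hFTC : ∫ s in s₁..s₂, ρ s * α s = T s₂ - T s₁ := by
    apply intervalIntegral.integral_eq_sub_of_hasDerivAt _ (hφc.intervalIntegrable _ _)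
    intro s hs
    rw [uIcc_of_le h12.le] at hs
    have hs' : s ∈ Ioo 0 a := ⟨by linarith [hs.1], by linarith [hs.2]⟩
    have h1 : η₀ ≤ β s * g s := hmin hs
    have e : ρ s * α s = α s / (β s * g s) := by
      simp only [hρ]
      rw [cutLow_eq_one h0 hs.1, max_eq_left h1]
      ring
    rw [e]
    exact hasT s hs'
  have hsplit : ∫ s in s₁..s₂, ρ s * α s ≤ ∫ s in A x..A c, ρ s * α s := by
    have e1 := intervalIntegral.integral_add_adjacent_intervals (μ := volume) (a := A x) (b := s₁) (c := A c)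
      (hφc.intervalIntegrable _ _) (hφc.intervalIntegrable _ _)
    have e2 := intervalIntegral.integral_add_adjacent_intervals (μ := volume) (a := s₁) (b := s₂) (c := A c)
      (hφc.intervalIntegrable _ _) (hφc.intervalIntegrable _ _)
    have i1 : 0 ≤ ∫ s in A x..s₁, ρ s * α s :=
      intervalIntegral.integral_nonneg hx fun s hs => hφ0 s ⟨hx0.trans hs.1, by linarith [hs.2]⟩
    have i2 : 0 ≤ ∫ s in s₂..A c, ρ s * α s :=
      intervalIntegral.integral_nonneg hc fun s hs => hφ0 s ⟨by linarith [hs.1], hs.2.trans hca⟩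
    linarith
  rw [hFTC] at hsplit
  exact hsplit.trans ((le_abs_self _).trans key)

/-- The centre of a tight profile. -/
theorem exists_center {G : Set ℝ} {A T : ℝ → ℝ} {a : ℝ}
    (hnear : ∀ η > 0, ∃ c ∈ G, a - η < A c) (hT : ContinuousOn T (Icc 0 a)) (ha : 0 < a)
    (hrigid : ∀ x ∈ G, ∀ c ∈ G, ∀ s₁ s₂, 0 < s₁ → s₁ < s₂ → s₂ < a → A x ≤ s₁ → s₂ ≤ A c →
      T s₂ - T s₁ ≤ cdist x c) :
    ∃ c₀, ∀ x ∈ G, ∀ s₁, 0 < s₁ → s₁ < a → A x ≤ s₁ → T a - T s₁ ≤ cdist x c₀ := by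
  choose c hcG hc using fun j : ℕ => hnear (1 / ((j : ℝ) + 1)) (by positivity)
  set c' : ℕ → ℝ := fun j => Int.fract (c j) with hc'
  have hc'mem : ∀ j, c' j ∈ Icc (0:ℝ) 1 := fun j => ⟨Int.fract_nonneg _, (Int.fract_lt_one _).le⟩
  obtain ⟨c₀, _, φ, hφ, hlim⟩ := isCompact_Icc.tendsto_subseq hc'mem
  refine ⟨c₀, fun x hx s₁ h0 h1 hxs => ?_⟩
  have hη : Tendsto (fun j : ℕ => 1 / (((φ j : ℕ) : ℝ) + 1)) atTop (𝓝 0) :=
    tendsto_one_div_add_atTop_nhds_zero_nat.comp hφ.tendsto_atTop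
  have hs₂ : Tendsto (fun j : ℕ => a - 1 / (((φ j : ℕ) : ℝ) + 1)) atTop (𝓝 a) := by
    simpa using (tendsto_const_nhds (x := a)).sub hη
  have hev : ∀ᶠ j in atTop, s₁ < a - 1 / (((φ j : ℕ) : ℝ) + 1) := hs₂.eventually (lt_mem_nhds h1)
  have hTlim : Tendsto (fun j : ℕ => T (a - 1 / (((φ j : ℕ) : ℝ) + 1)) - T s₁) atTop (𝓝 (T a - T s₁)) := by
    have hTa : ContinuousWithinAt T (Icc 0 a) a := hT a ⟨ha.le, le_rfl⟩
    have hmem : ∀ᶠ j in atTop, a - 1 / (((φ j : ℕ) : ℝ) + 1) ∈ Icc 0 a := by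
      filter_upwards [hev] with j hj
      refine ⟨by linarith, ?_⟩
      have : (0:ℝ) < 1 / (((φ j : ℕ) : ℝ) + 1) := by positivity
      linarith
    have h3 : Tendsto (fun j : ℕ => a - 1 / (((φ j : ℕ) : ℝ) + 1)) atTop (𝓝[Icc 0 a] a) :=
      tendsto_nhdsWithin_iff.2 ⟨hs₂, hmem⟩
    exact (hTa.tendsto.comp h3).sub tendsto_const_nhds
  have hdlim : Tendsto (fun j : ℕ => cdist x (c' (φ j))) atTop (𝓝 (cdist x c₀)) :=
    ((cdist_continuous_right x).tendsto c₀).comp hlim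
  refine le_of_tendsto_of_tendsto hTlim hdlim ?_
  filter_upwards [hev] with j hj
  have h2 : a - 1 / (((φ j : ℕ) : ℝ) + 1) < a := by
    have : (0:ℝ) < 1 / (((φ j : ℕ) : ℝ) + 1) := by positivity
    linarith
  have h3 := hrigid x hx (c (φ j)) (hcG _) s₁ _ h0 hj h2 hxs (hc (φ j)).le
  have e : c' (φ j) = c (φ j) + ((-⌊c (φ j)⌋ : ℤ) : ℝ) := by
    simp only [hc', Int.fract]
    push_cast
    ring
  rw [e, cdist_add_int]
  exact h3

end Vale.Agent.Lib.P232
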