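import Vale.Agent.Lib.P232.Cl6b

open MeasureTheory Set intervalIntegral Filter
open scoped Topology ENNReal

namespace Vale.Agent.Lib.P232

/-! ### Fubini for the marginals -/

section Fubini

variable {E : Set R3}

lemma chi_mul_integrable (hE : MeasurableSet E) {h : R3 → ℝ} (hh : Measurable h) {C : ℝ}
    (hC : ∀ p, |h p| ≤ C) : IntegrableOn (fun p => chi E p * h p) unitCell := by
  refine integrableOn_cell_of_bdd (C := C) ((chi_measurable hE).mul hh).aestronglyMeasurable fun p => ?_
  rw [abs_mul, abs_of_nonneg (chi_nonneg p)]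
  have h1 := chi_le_one (E := E) p
  have h2 := chi_nonneg (E := E) p
  have h3 := hC p
  have h4 := abs_nonneg (h p)
  nlinarith

/-- The first marginal in a cell integral. -/
lemma cell_mg1 (hE : MeasurableSet E) {h : ℝ → ℝ} (hh : Measurable h) {C : ℝ} (hC : ∀ t, |h t| ≤ C) :
    ∫ p in unitCell, chi E p * h p.1 = ∫ x in (0:ℝ)..1, mg1 E x * h x := by
  rw [cell_eq_iter (chi_mul_integrable hE (h := fun p => h p.1) (hh.comp measurable_fst) fun p => hC p.1)]
  apply intervalIntegral.integral_congr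
  intro x _
  show (∫ y in (0:ℝ)..1, ∫ z in (0:ℝ)..1, chi E (x, y, z) * h x) = mg1 E x * h x
  unfold mg1
  rw [← intervalIntegral.integral_mul_const]
  apply intervalIntegral.integral_congr
  intro y _
  exact intervalIntegral.integral_mul_const _ _

/-- Change of variables in the cell by a coordinate symmetry. -/
lemma cell_sym (τ : CoordSym) (f : R3 → ℝ) :
    ∫ q in unitCell, f (τ.σ q) = ∫ p in unitCell, f p := by
  have e : unitCell = τ.σ ⁻¹' unitCell := by
    ext p
    exact (τ.cell p).symm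
  conv_lhs => rw [e]
  exact τ.mp.setIntegral_preimage_emb τ.emb _ _

/-- The second marginal in a cell integral. -/
lemma cell_mg2 (hE : MeasurableSet E) {h : ℝ → ℝ} (hh : Measurable h) {C : ℝ} (hC : ∀ t, |h t| ≤ C) :
    ∫ p in unitCell, chi E p * h p.2.1 = ∫ x in (0:ℝ)..1, mg1 (sw12L ⁻¹' E) x * h x := by
  have h1 : ∫ x in (0:ℝ)..1, mg1 (sw12L ⁻¹' E) x * h x = ∫ p in unitCell, chi (sw12L ⁻¹' E) p * h p.1 :=
    (cell_mg1 (τ12.measurable_pre hE) hh hC).symm
  rw [h1, ← cell_sym τ12 (fun p => chi E p * h p.2.1)]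
  rfl

/-- The third marginal in a cell integral. -/
lemma cell_mg3 (hE : MeasurableSet E) {h : ℝ → ℝ} (hh : Measurable h) {C : ℝ} (hC : ∀ t, |h t| ≤ C) :
    ∫ p in unitCell, chi E p * h p.2.2 = ∫ x in (0:ℝ)..1, mg1 (sw13L ⁻¹' E) x * h x := by
  have h1 : ∫ x in (0:ℝ)..1, mg1 (sw13L ⁻¹' E) x * h x = ∫ p in unitCell, chi (sw13L ⁻¹' E) p * h p.1 :=
    (cell_mg1 (τ13.measurable_pre hE) hh hC).symm
  rw [h1, ← cell_sym τ13 (fun p => chi E p * h p.2.2)]
  rfl

end Fubini

/-! ### The tomography lemma -/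

lemma vol_finite (S : Set R3) : volume (S ∩ unitCell) ≠ ⊤ :=
  ne_top_of_le_ne_top (by rw [unitCell_volume]; simp) (measure_mono inter_subset_right)

/-- A function positive on `B` and nonpositive off `B` detects `B` among the sets of the same
volume. -/
theorem tomography {E B : Set R3} (hE : MeasurableSet E) (hB : MeasurableSet B) {h : R3 → ℝ}
    (hh : Measurable h) {C : ℝ} (hC : ∀ p, |h p| ≤ C) (hpos : ∀ p ∈ B, 0 < h p) (hneg : ∀ p, p ∉ B → h p ≤ 0)
    (hint : ∫ p in unitCell, chi E p * h p = ∫ p in unitCell, chi B p * h p)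
    (hvol : torusVolume E = torusVolume B) : AeEqTorus E B := by
  have hC0 : 0 ≤ C := (abs_nonneg _).trans (hC 0)
  set f : R3 → ℝ := fun p => chi B p * h p - chi E p * h p with hf
  have i1 := chi_mul_integrable hE hh hC
  have i2 := chi_mul_integrable hB hh hC
  have hf0 : ∀ p, 0 ≤ f p := by
    intro p
    simp only [hf, chi]
    by_cases h1 : p ∈ B
    · have h3 := hpos p h1
      by_cases h2 : p ∈ E
      · simp [h1, h2]
      · simp [h1, h2]
        exact h3.le
    · have h3 := hneg p h1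
      by_cases h2 : p ∈ E
      · simp [h1, h2]
        exact h3
      · simp [h1, h2]
  have hI : ∫ p in unitCell, f p = 0 := by
    simp only [hf]
    rw [MeasureTheory.integral_sub i2 i1, hint, sub_self]
  have hae : f =ᵐ[volume.restrict unitCell] 0 :=
    (setIntegral_eq_zero_iff_of_nonneg_ae (Filter.Eventually.of_forall hf0) (i2.sub i1)).1 hI
  have hae2 : ∀ᵐ p ∂(volume.restrict unitCell), f p = 0 := hae
  rw [ae_restrict_iff' unitCell_measurable] at hae2
  -- the part of `B` outside `E`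
  have hBE : volume ((B \ E) ∩ unitCell) = 0 := by
    apply measure_mono_null _ hae2
    intro p hp
    obtain ⟨⟨h1, h2⟩, h3⟩ := hp
    simp only [mem_compl_iff, mem_ofPred_eq, Classical.not_imp]
    refine ⟨h3, ?_⟩
    simp only [hf, chi, indicator_of_mem h1, indicator_of_notMem h2]
    have := hpos p h1
    simp only [one_mul, zero_mul, sub_zero]
    exact this.ne'
  -- comparison of the volumes
  have hvolE : volume (E ∩ unitCell) = volume (B ∩ unitCell) := by
    unfold torusVolume at hvol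
    exact (ENNReal.toReal_eq_toReal_iff' (vol_finite E) (vol_finite B)).1 hvol
  have split1 : volume (E ∩ unitCell) = volume (E ∩ B ∩ unitCell) + volume ((E \ B) ∩ unitCell) := by
    have e : E ∩ unitCell = (E ∩ B ∩ unitCell) ∪ ((E \ B) ∩ unitCell) := by
      ext p
      simp only [mem_inter_iff, mem_union, Set.mem_sdiff]
      tauto
    conv_lhs => rw [e]
    exact measure_union (Set.disjoint_left.2 fun p hp hq => hq.1.2 hp.1.2)
      ((hE.diff hB).inter unitCell_measurable)
  have split2 : volume (B ∩ unitCell) = volume (E ∩ B ∩ unitCell) := by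
    have h1 : volume (E ∩ B ∩ unitCell) ≤ volume (B ∩ unitCell) :=
      measure_mono fun p hp => ⟨hp.1.2, hp.2⟩
    have h2 : volume (B ∩ unitCell) ≤ volume (E ∩ B ∩ unitCell) + volume ((B \ E) ∩ unitCell) := by
      refine (measure_mono ?_).trans (measure_union_le _ _)
      intro p hp
      by_cases h : p ∈ E
      · exact Or.inl ⟨⟨h, hp.1⟩, hp.2⟩
      · exact Or.inr ⟨⟨hp.1, h⟩, hp.2⟩
    rw [hBE, add_zero] at h2
    exact le_antisymm h2 h1
  have hEB : volume ((E \ B) ∩ unitCell) = 0 := by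
    have h1 : volume (E ∩ B ∩ unitCell) + volume ((E \ B) ∩ unitCell) = volume (E ∩ B ∩ unitCell) + 0 := by
      rw [← split1, hvolE, split2, add_zero]
    exact (ENNReal.add_right_inj (ne_top_of_le_ne_top (vol_finite B) (measure_mono fun p hp => ⟨hp.1.2, hp.2⟩))).1 h1
  unfold AeEqTorus
  apply nonpos_iff_eq_zero.1
  refine (measure_mono ?_).trans ((measure_union_le ((E \ B) ∩ unitCell) ((B \ E) ∩ unitCell)).trans ?_)
  · intro p hp
    rcases hp.1 with h | h
    · exact Or.inl ⟨h, hp.2⟩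
    · exact Or.inr ⟨h, hp.2⟩
  · rw [hEB, hBE, add_zero]

/-- The tomography lemma for sums of functions of one coordinate. -/
theorem tomography3 {E B : Set R3} (hE : MeasurableSet E) (hB : MeasurableSet B) {h₁ h₂ h₃ : ℝ → ℝ}
    (m₁ : Measurable h₁) (m₂ : Measurable h₂) (m₃ : Measurable h₃) {C : ℝ} (c₁ : ∀ t, |h₁ t| ≤ C)
    (c₂ : ∀ t, |h₂ t| ≤ C) (c₃ : ∀ t, |h₃ t| ≤ C)
    (hpos : ∀ p ∈ B, 0 < h₁ p.1 + h₂ p.2.1 + h₃ p.2.2) (hneg : ∀ p, p ∉ B → h₁ p.1 + h₂ p.2.1 + h₃ p.2.2 ≤ 0)
    (i₁ : ∫ x in (0:ℝ)..1, mg1 E x * h₁ x = ∫ x in (0:ℝ)..1, mg1 B x * h₁ x)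
    (i₂ : ∫ x in (0:ℝ)..1, mg1 (sw12L ⁻¹' E) x * h₂ x = ∫ x in (0:ℝ)..1, mg1 (sw12L ⁻¹' B) x * h₂ x)
    (i₃ : ∫ x in (0:ℝ)..1, mg1 (sw13L ⁻¹' E) x * h₃ x = ∫ x in (0:ℝ)..1, mg1 (sw13L ⁻¹' B) x * h₃ x)
    (hvol : torusVolume E = torusVolume B) : AeEqTorus E B := by
  have hm : Measurable fun p : R3 => h₁ p.1 + h₂ p.2.1 + h₃ p.2.2 :=
    ((m₁.comp measurable_fst).add (m₂.comp (measurable_fst.comp measurable_snd))).add
      (m₃.comp (measurable_snd.comp measurable_snd))
  have hb : ∀ p : R3, |h₁ p.1 + h₂ p.2.1 + h₃ p.2.2| ≤ 3 * C := by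
    intro p
    have h1 := abs_add_le (h₁ p.1 + h₂ p.2.1) (h₃ p.2.2)
    have h2 := abs_add_le (h₁ p.1) (h₂ p.2.1)
    linarith [c₁ p.1, c₂ p.2.1, c₃ p.2.2]
  refine tomography hE hB hm hb hpos hneg ?_ hvol
  have key : ∀ {S : Set R3}, MeasurableSet S → ∫ p in unitCell, chi S p * (h₁ p.1 + h₂ p.2.1 + h₃ p.2.2)
      = (∫ x in (0:ℝ)..1, mg1 S x * h₁ x) + (∫ x in (0:ℝ)..1, mg1 (sw12L ⁻¹' S) x * h₂ x)
        + ∫ x in (0:ℝ)..1, mg1 (sw13L ⁻¹' S) x * h₃ x := by
    intro S hS
    have a1 := chi_mul_integrable hS (h := fun p => h₁ p.1) (m₁.comp measurable_fst) fun p => c₁ p.1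
    have a2 := chi_mul_integrable hS (h := fun p => h₂ p.2.1) (m₂.comp (measurable_fst.comp measurable_snd))
      fun p => c₂ p.2.1
    have a3 := chi_mul_integrable hS (h := fun p => h₃ p.2.2) (m₃.comp (measurable_snd.comp measurable_snd))
      fun p => c₃ p.2.2
    have a12 : IntegrableOn (fun p : R3 => chi S p * h₁ p.1 + chi S p * h₂ p.2.1) unitCell := a1.add a2
    have e : ∫ p in unitCell, chi S p * (h₁ p.1 + h₂ p.2.1 + h₃ p.2.2)
        = ∫ p in unitCell, ((chi S p * h₁ p.1 + chi S p * h₂ p.2.1) + chi S p * h₃ p.2.2) := by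
      congr 1
      funext p
      ring
    rw [e, MeasureTheory.integral_add a12 a3, MeasureTheory.integral_add a1 a2,
      cell_mg1 hS m₁ c₁, cell_mg2 hS m₂ c₂, cell_mg3 hS m₃ c₃]
  rw [key hE, key hB, i₁, i₂, i₃]

/-! ### Integrals on the circle -/

lemma cdist_add_one (x c : ℝ) : cdist (x + 1) c = cdist x c := by
  rw [cdist_comm, show x + 1 = x + ((1:ℤ):ℝ) by simp, cdist_add_int, cdist_comm]

lemma cdist_shift {c t : ℝ} (ht : |t| ≤ 1 / 2) : cdist (c + t) c = |t| := by
  unfold cdist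
  have e : c + t - c = t := by ring
  rw [e]
  apply le_antisymm
  · have := round_le t 0
    simpa using this
  · by_contra hlt
    push Not at hlt
    have hk : round t ≠ 0 := by
      intro h0
      rw [h0] at hlt
      simp at hlt
    have h1 : (1:ℝ) ≤ |((round t : ℤ) : ℝ)| := by
      exact_mod_cast Int.one_le_abs hk
    have h2 : |((round t : ℤ) : ℝ)| ≤ |t - round t| + |t| := by
      have := abs_sub_abs_le_abs_sub ((round t : ℤ) : ℝ) t
      rw [abs_sub_comm ((round t : ℤ) : ℝ) t] at this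
      linarith
    linarith

lemma measurable_cdist_left (c : ℝ) : Measurable fun x => cdist x c := by
  have : (fun x => cdist x c) = fun x => 1 / 2 - cd (x - c) := funext fun x => cdist_eq_cd x c
  rw [this]
  exact measurable_const.sub (measurable_cd.comp (measurable_id.sub_const c))

lemma continuous_cdist_left (c : ℝ) : Continuous fun x => cdist x c := by
  have : (fun x => cdist x c) = fun x => cdist c x := funext fun x => cdist_comm x c
  rw [this]
  exact cdist_continuous_right c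

/-- The integral over the circle of a function of the distance to a point. -/
lemma circle_integral {f : ℝ → ℝ} (hf : Measurable f) {C : ℝ} (hb : ∀ t, |f t| ≤ C) (c : ℝ) :
    ∫ x in (0:ℝ)..1, f (cdist x c) = 2 * ∫ t in (0:ℝ)..(1 / 2), f t := by
  have hper : Function.Periodic (fun x => f (cdist x c)) 1 := by
    intro x
    simp only [cdist_add_one]
  have h1 : ∫ x in (0:ℝ)..1, f (cdist x c) = ∫ x in (c - 1 / 2)..(c + 1 / 2), f (cdist x c) := by
    have := hper.intervalIntegral_add_eq 0 (c - 1 / 2)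
    rw [zero_add] at this
    rw [this]
    congr 1
    ring
  have h2 : ∫ x in (c - 1 / 2)..(c + 1 / 2), f (cdist x c) = ∫ t in (-(1 / 2) : ℝ)..(1 / 2), f (cdist (c + t) c) := by
    have := intervalIntegral.integral_comp_add_left (a := (-(1 / 2) : ℝ)) (b := 1 / 2)
      (fun x => f (cdist x c)) c
    rw [this]
    congr 1
  have hint : ∀ a b : ℝ, IntervalIntegrable (fun t => f |t|) volume a b := by
    intro a b
    rw [intervalIntegrable_iff]
    refine Measure.integrableOn_of_bounded (M := C) (by simp) (hf.comp measurable_norm).aestronglyMeasurable ?_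
    exact Filter.Eventually.of_forall fun t => by simpa using hb |t|
  have h3 : ∫ t in (-(1 / 2) : ℝ)..(1 / 2), f (cdist (c + t) c) = ∫ t in (-(1 / 2) : ℝ)..(1 / 2), f |t| := by
    apply intervalIntegral.integral_congr
    intro t ht
    rw [uIcc_of_le (by norm_num)] at ht
    show f (cdist (c + t) c) = f |t|
    rw [cdist_shift (abs_le.2 ht)]
  have h4 := intervalIntegral.integral_add_adjacent_intervals (hint (-(1 / 2)) 0) (hint 0 (1 / 2))
  have h5 : ∫ t in (-(1 / 2) : ℝ)..0, f |t| = ∫ t in (0:ℝ)..(1 / 2), f |t| := by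
    have := intervalIntegral.integral_comp_neg (a := (-(1 / 2) : ℝ)) (b := 0) (fun t => f |t|)
    simp only [abs_neg, neg_neg, neg_zero] at this
    exact this
  have h6 : ∫ t in (0:ℝ)..(1 / 2), f |t| = ∫ t in (0:ℝ)..(1 / 2), f t := by
    apply intervalIntegral.integral_congr
    intro t ht
    rw [uIcc_of_le (by norm_num)] at ht
    show f |t| = f t
    rw [abs_of_nonneg ht.1]
  rw [h1, h2, h3, ← h4, h5, h6]
  ring

/-- The length of an arc. -/
lemma arc_length {ρ : ℝ} (h0 : 0 ≤ ρ) (h1 : ρ ≤ 1 / 2) (c : ℝ) :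
    ∫ x in (0:ℝ)..1, (Iio ρ).indicator (fun _ => (1:ℝ)) (cdist x c) = 2 * ρ := by
  rw [circle_integral (measurable_const.indicator measurableSet_Iio) (C := 1)
    (fun t => by
      by_cases h : t ∈ Iio ρ
      · simp [indicator_of_mem h]
      · simp [indicator_of_notMem h])]
  congr 1
  have hsplit : IntervalIntegrable ((Iio ρ).indicator (fun _ => (1:ℝ))) volume 0 ρ := by
    rw [intervalIntegrable_iff]
    refine Measure.integrableOn_of_bounded (M := 1) (by simp)
      (measurable_const.indicator measurableSet_Iio).aestronglyMeasurable ?_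
    refine Filter.Eventually.of_forall fun t => ?_
    by_cases h : t ∈ Iio ρ
    · simp [indicator_of_mem h]
    · simp [indicator_of_notMem h]
  have hsplit' : IntervalIntegrable ((Iio ρ).indicator (fun _ => (1:ℝ))) volume ρ (1 / 2) := by
    rw [intervalIntegrable_iff]
    refine Measure.integrableOn_of_bounded (M := 1) (by simp)
      (measurable_const.indicator measurableSet_Iio).aestronglyMeasurable ?_
    refine Filter.Eventually.of_forall fun t => ?_
    by_cases h : t ∈ Iio ρ
    · simp [indicator_of_mem h]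
    · simp [indicator_of_notMem h]
  rw [← intervalIntegral.integral_add_adjacent_intervals hsplit hsplit']
  have e1 : ∫ t in (0:ℝ)..ρ, (Iio ρ).indicator (fun _ => (1:ℝ)) t = ρ := by
    have : ∫ t in (0:ℝ)..ρ, (Iio ρ).indicator (fun _ => (1:ℝ)) t = ∫ t in (0:ℝ)..ρ, (1:ℝ) := by
      rw [intervalIntegral.integral_of_le h0, intervalIntegral.integral_of_le h0,
        integral_Ioc_eq_integral_Ioo, integral_Ioc_eq_integral_Ioo]
      apply setIntegral_congr_fun measurableSet_Ioo
      intro t ht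
      simp [indicator_of_mem (show t ∈ Iio ρ from ht.2)]
    rw [this]
    simp
  have e2 : ∫ t in ρ..(1 / 2), (Iio ρ).indicator (fun _ => (1:ℝ)) t = 0 := by
    have : ∫ t in ρ..(1 / 2), (Iio ρ).indicator (fun _ => (1:ℝ)) t = ∫ t in ρ..(1 / 2), (0:ℝ) := by
      apply intervalIntegral.integral_congr
      intro t ht
      rw [uIcc_of_le h1] at ht
      simp [indicator_of_notMem (show t ∉ Iio ρ from not_lt.2 ht.1)]
    rw [this]
    simp
  rw [e1, e2, add_zero]

/-- The length of the section of a disk. -/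
lemma row_length {R : ℝ} (h1 : R ≤ 1 / 4) (c : ℝ) :
    ∫ x in (0:ℝ)..1, ({x | cdist x c ^ 2 < R} : Set ℝ).indicator (fun _ => (1:ℝ)) x = 2 * Real.sqrt R := by
  by_cases h0 : R ≤ 0
  · have e : ({x | cdist x c ^ 2 < R} : Set ℝ) = ∅ := by
      ext x
      simp only [mem_ofPred_eq, mem_empty_iff_false, iff_false, not_lt]
      exact h0.trans (sq_nonneg _)
    rw [e, Real.sqrt_eq_zero_of_nonpos h0]
    simp
  · push Not at h0
    have hs := Real.sqrt_nonneg R
    have hs2 : Real.sqrt R ^ 2 = R := Real.sq_sqrt h0.le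
    have hs1 : Real.sqrt R ≤ 1 / 2 := by
      apply Real.sqrt_le_iff.2
      constructor
      · norm_num
      · norm_num
        linarith
    rw [← arc_length hs hs1 c]
    apply intervalIntegral.integral_congr
    intro x _
    show ({x | cdist x c ^ 2 < R} : Set ℝ).indicator (fun _ => (1:ℝ)) x
      = (Iio (Real.sqrt R)).indicator (fun _ => (1:ℝ)) (cdist x c)
    by_cases h : cdist x c ^ 2 < R
    · have h2 : cdist x c ∈ Iio (Real.sqrt R) := by
        show cdist x c < Real.sqrt R
        exact Real.lt_sqrt_of_sq_lt h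
      rw [indicator_of_mem (show x ∈ ({x | cdist x c ^ 2 < R} : Set ℝ) from h), indicator_of_mem h2]
    · have h2 : cdist x c ∉ Iio (Real.sqrt R) := by
        show ¬ cdist x c < Real.sqrt R
        intro h3
        apply h
        have := cdist_nonneg x c
        nlinarith
      rw [indicator_of_notMem (show x ∉ ({x | cdist x c ^ 2 < R} : Set ℝ) from h), indicator_of_notMem h2]

/-- The semicircle integral up to `1/2`. -/
lemma semicircle_half {ρ2 : ℝ} (h1 : ρ2 ≤ 1 / 4) :
    ∫ t in (0:ℝ)..(1 / 2), Real.sqrt (ρ2 - t ^ 2) = Real.pi / 4 * max ρ2 0 := by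
  by_cases h0 : ρ2 ≤ 0
  · rw [max_eq_right h0, mul_zero]
    have : ∫ t in (0:ℝ)..(1 / 2), Real.sqrt (ρ2 - t ^ 2) = ∫ t in (0:ℝ)..(1 / 2), (0:ℝ) := by
      apply intervalIntegral.integral_congr
      intro t _
      exact Real.sqrt_eq_zero_of_nonpos (by nlinarith [sq_nonneg t])
    rw [this]
    simp
  · push Not at h0
    rw [max_eq_left h0.le]
    set ρ := Real.sqrt ρ2 with hρ
    have hρ0 : 0 < ρ := Real.sqrt_pos.2 h0
    have hρ2 : ρ ^ 2 = ρ2 := Real.sq_sqrt h0.le
    have hρ1 : ρ ≤ 1 / 2 := by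
      apply Real.sqrt_le_iff.2
      constructor
      · norm_num
      · norm_num
        linarith
    have hc : Continuous fun t : ℝ => Real.sqrt (ρ2 - t ^ 2) := by fun_prop
    rw [← intervalIntegral.integral_add_adjacent_intervals (hc.intervalIntegrable 0 ρ) (hc.intervalIntegrable ρ (1 / 2))]
    have e2 : ∫ t in ρ..(1 / 2), Real.sqrt (ρ2 - t ^ 2) = 0 := by
      have : ∫ t in ρ..(1 / 2), Real.sqrt (ρ2 - t ^ 2) = ∫ t in ρ..(1 / 2), (0:ℝ) := by
        apply intervalIntegral.integral_congr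
        intro t ht
        rw [uIcc_of_le hρ1] at ht
        apply Real.sqrt_eq_zero_of_nonpos
        have : ρ ^ 2 ≤ t ^ 2 := pow_le_pow_left₀ hρ0.le ht.1 2
        linarith
      rw [this]
      simp
    have e1 : ∫ t in (0:ℝ)..ρ, Real.sqrt (ρ2 - t ^ 2) = ∫ t in (0:ℝ)..ρ, ρ * Real.sqrt (1 - (t / ρ) ^ 2) := by
      apply intervalIntegral.integral_congr
      intro t _
      show Real.sqrt (ρ2 - t ^ 2) = ρ * Real.sqrt (1 - (t / ρ) ^ 2)
      have e3 : ρ2 - t ^ 2 = ρ ^ 2 * (1 - (t / ρ) ^ 2) := by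
        rw [← hρ2]
        field_simp
      rw [e3, Real.sqrt_mul (by positivity), Real.sqrt_sq hρ0.le]
    rw [e1, e2, add_zero, intervalIntegral.integral_const_mul, integral_semicircle hρ0, ← hρ2]
    ring

end Vale.Agent.Lib.P232
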