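import Vale.Agent.Lib.P232.Cl7

open MeasureTheory Set intervalIntegral Filter
open scoped Topology ENNReal

namespace Vale.Agent.Lib.P232

/-! ### The marginals of the models -/

lemma measurableSet_of_cdist {f : R3 → ℝ} {R : ℝ} (hf : Measurable f) :
    MeasurableSet {p : R3 | f p < R} := hf measurableSet_Iio

lemma meas_cdist_sq (c : ℝ) : Measurable fun x => cdist x c ^ 2 := (measurable_cdist_left c).pow_const 2

lemma ballSet_measurable (c₁ c₂ c₃ r : ℝ) : MeasurableSet (ballSet c₁ c₂ c₃ r) := by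
  apply measurableSet_of_cdist (f := fun p : R3 => cdist p.1 c₁ ^ 2 + cdist p.2.1 c₂ ^ 2 + cdist p.2.2 c₃ ^ 2)
  exact (((meas_cdist_sq c₁).comp measurable_fst).add ((meas_cdist_sq c₂).comp (measurable_fst.comp measurable_snd))).add
    ((meas_cdist_sq c₃).comp (measurable_snd.comp measurable_snd))

lemma tubeX_measurable (c₂ c₃ r : ℝ) : MeasurableSet (tubeX c₂ c₃ r) := by
  apply measurableSet_of_cdist (f := fun p : R3 => cdist p.2.1 c₂ ^ 2 + cdist p.2.2 c₃ ^ 2)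
  exact ((meas_cdist_sq c₂).comp (measurable_fst.comp measurable_snd)).add
    ((meas_cdist_sq c₃).comp (measurable_snd.comp measurable_snd))

lemma slabX_measurable (c w : ℝ) : MeasurableSet (slabX c w) := by
  apply measurableSet_of_cdist (f := fun p : R3 => cdist p.1 c)
  exact (measurable_cdist_left c).comp measurable_fst

lemma chi_ballSet (c₁ c₂ c₃ r x y z : ℝ) : chi (ballSet c₁ c₂ c₃ r) (x, y, z)
    = ({t | cdist t c₃ ^ 2 < r ^ 2 - cdist x c₁ ^ 2 - cdist y c₂ ^ 2} : Set ℝ).indicator (fun _ => (1:ℝ)) z := by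
  unfold chi ballSet
  by_cases h : cdist x c₁ ^ 2 + cdist y c₂ ^ 2 + cdist z c₃ ^ 2 < r ^ 2
  · rw [indicator_of_mem (show (x, y, z) ∈ {p : R3 | cdist p.1 c₁ ^ 2 + cdist p.2.1 c₂ ^ 2 + cdist p.2.2 c₃ ^ 2 < r ^ 2} from h),
      indicator_of_mem (show z ∈ ({t | cdist t c₃ ^ 2 < r ^ 2 - cdist x c₁ ^ 2 - cdist y c₂ ^ 2} : Set ℝ) by
        show cdist z c₃ ^ 2 < _
        linarith)]
  · rw [indicator_of_notMem (show (x, y, z) ∉ {p : R3 | cdist p.1 c₁ ^ 2 + cdist p.2.1 c₂ ^ 2 + cdist p.2.2 c₃ ^ 2 < r ^ 2} from h),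
      indicator_of_notMem (show z ∉ ({t | cdist t c₃ ^ 2 < r ^ 2 - cdist x c₁ ^ 2 - cdist y c₂ ^ 2} : Set ℝ) by
        intro h2
        have h3 : cdist z c₃ ^ 2 < _ := h2
        apply h
        linarith)]

lemma sqrt_meas {f : ℝ → ℝ} (hf : Measurable f) : Measurable fun t => Real.sqrt (f t) :=
  hf.sqrt

/-- The first marginal of a ball. -/
lemma mg1_ballSet {c₁ c₂ c₃ r : ℝ} (hr : r ^ 2 ≤ 1 / 4) (x : ℝ) :
    mg1 (ballSet c₁ c₂ c₃ r) x = Real.pi * max (r ^ 2 - cdist x c₁ ^ 2) 0 := by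
  unfold mg1
  have h1 : ∀ y, ∫ z in (0:ℝ)..1, chi (ballSet c₁ c₂ c₃ r) (x, y, z)
      = 2 * Real.sqrt (r ^ 2 - cdist x c₁ ^ 2 - cdist y c₂ ^ 2) := by
    intro y
    simp only [chi_ballSet]
    exact row_length (by nlinarith [sq_nonneg (cdist x c₁), sq_nonneg (cdist y c₂)]) c₃
  simp only [h1]
  set ρ2 := r ^ 2 - cdist x c₁ ^ 2 with hρ2
  have hρ : ρ2 ≤ 1 / 4 := by nlinarith [sq_nonneg (cdist x c₁)]
  have hf : Measurable fun t : ℝ => 2 * Real.sqrt (ρ2 - t ^ 2) :=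
    measurable_const.mul (sqrt_meas (measurable_const.sub (measurable_id.pow_const 2)))
  have hb : ∀ t : ℝ, |2 * Real.sqrt (ρ2 - t ^ 2)| ≤ 2 * 1 := by
    intro t
    rw [abs_of_nonneg (by positivity)]
    have : Real.sqrt (ρ2 - t ^ 2) ≤ 1 := Real.sqrt_le_one.2 (by nlinarith [sq_nonneg t])
    linarith
  rw [circle_integral hf hb c₂, intervalIntegral.integral_const_mul, semicircle_half hρ]
  ring

lemma max_semiparabola {r : ℝ} (h0 : 0 ≤ r) (h1 : r ≤ 1 / 2) :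
    ∫ t in (0:ℝ)..(1 / 2), max (r ^ 2 - t ^ 2) 0 = 2 / 3 * r ^ 3 := by
  have hc : Continuous fun t : ℝ => max (r ^ 2 - t ^ 2) 0 := by fun_prop
  rw [← intervalIntegral.integral_add_adjacent_intervals (hc.intervalIntegrable 0 r) (hc.intervalIntegrable r (1 / 2))]
  have e2 : ∫ t in r..(1 / 2), max (r ^ 2 - t ^ 2) 0 = 0 := by
    have : ∫ t in r..(1 / 2), max (r ^ 2 - t ^ 2) 0 = ∫ t in r..(1 / 2), (0:ℝ) := by
      apply intervalIntegral.integral_congr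
      intro t ht
      rw [uIcc_of_le h1] at ht
      apply max_eq_right
      have : r ^ 2 ≤ t ^ 2 := pow_le_pow_left₀ h0 ht.1 2
      linarith
    rw [this]
    simp
  have e1 : ∫ t in (0:ℝ)..r, max (r ^ 2 - t ^ 2) 0 = ∫ t in (0:ℝ)..r, (r ^ 2 - t ^ 2) := by
    apply intervalIntegral.integral_congr
    intro t ht
    rw [uIcc_of_le h0] at ht
    apply max_eq_left
    have : t ^ 2 ≤ r ^ 2 := pow_le_pow_left₀ ht.1 ht.2 2
    linarith
  rw [e1, e2, add_zero, intervalIntegral.integral_sub (by simp) (by apply Continuous.intervalIntegrable; fun_prop)]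
  simp only [intervalIntegral.integral_const, integral_pow, sub_zero, smul_eq_mul]
  norm_num
  ring

/-- The volume of a ball. -/
lemma torusVolume_ballSet {c₁ c₂ c₃ r : ℝ} (h0 : 0 ≤ r) (h1 : r ≤ 1 / 2) :
    torusVolume (ballSet c₁ c₂ c₃ r) = 4 / 3 * Real.pi * r ^ 3 := by
  have hr : r ^ 2 ≤ 1 / 4 := by nlinarith
  rw [← mg1_integral (ballSet_measurable c₁ c₂ c₃ r)]
  simp only [mg1_ballSet hr]
  have hf : Measurable fun t : ℝ => Real.pi * max (r ^ 2 - t ^ 2) 0 :=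
    measurable_const.mul ((measurable_const.sub (measurable_id.pow_const 2)).max measurable_const)
  have hb : ∀ t : ℝ, |Real.pi * max (r ^ 2 - t ^ 2) 0| ≤ Real.pi * 1 := by
    intro t
    rw [abs_mul, abs_of_pos Real.pi_pos, abs_of_nonneg (le_max_right _ _)]
    apply mul_le_mul_of_nonneg_left _ Real.pi_pos.le
    apply max_le (by nlinarith [sq_nonneg t]) zero_le_one
  rw [circle_integral hf hb c₁, intervalIntegral.integral_const_mul, max_semiparabola h0 h1]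
  ring

lemma sw12_ballSet (c₁ c₂ c₃ r : ℝ) : sw12L ⁻¹' ballSet c₁ c₂ c₃ r = ballSet c₂ c₁ c₃ r := by
  ext ⟨x, y, z⟩
  show cdist y c₁ ^ 2 + cdist x c₂ ^ 2 + cdist z c₃ ^ 2 < r ^ 2 ↔ cdist x c₂ ^ 2 + cdist y c₁ ^ 2 + cdist z c₃ ^ 2 < r ^ 2
  rw [add_comm (cdist y c₁ ^ 2)]

lemma sw13_ballSet (c₁ c₂ c₃ r : ℝ) : sw13L ⁻¹' ballSet c₁ c₂ c₃ r = ballSet c₃ c₂ c₁ r := by
  ext ⟨x, y, z⟩
  show cdist z c₁ ^ 2 + cdist y c₂ ^ 2 + cdist x c₃ ^ 2 < r ^ 2 ↔ cdist x c₃ ^ 2 + cdist y c₂ ^ 2 + cdist z c₁ ^ 2 < r ^ 2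
  have e : cdist z c₁ ^ 2 + cdist y c₂ ^ 2 + cdist x c₃ ^ 2 = cdist x c₃ ^ 2 + cdist y c₂ ^ 2 + cdist z c₁ ^ 2 := by
    ring
  rw [e]

/-- The row of the tube. -/
lemma chi_tubeX (c₂ c₃ r x y z : ℝ) : chi (tubeX c₂ c₃ r) (x, y, z)
    = ({t | cdist t c₃ ^ 2 < r ^ 2 - cdist y c₂ ^ 2} : Set ℝ).indicator (fun _ => (1:ℝ)) z := by
  unfold chi tubeX
  by_cases h : cdist y c₂ ^ 2 + cdist z c₃ ^ 2 < r ^ 2
  · rw [indicator_of_mem (show (x, y, z) ∈ {p : R3 | cdist p.2.1 c₂ ^ 2 + cdist p.2.2 c₃ ^ 2 < r ^ 2} from h),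
      indicator_of_mem (show z ∈ ({t | cdist t c₃ ^ 2 < r ^ 2 - cdist y c₂ ^ 2} : Set ℝ) by
        show cdist z c₃ ^ 2 < _
        linarith)]
  · rw [indicator_of_notMem (show (x, y, z) ∉ {p : R3 | cdist p.2.1 c₂ ^ 2 + cdist p.2.2 c₃ ^ 2 < r ^ 2} from h),
      indicator_of_notMem (show z ∉ ({t | cdist t c₃ ^ 2 < r ^ 2 - cdist y c₂ ^ 2} : Set ℝ) by
        intro h2
        have h3 : cdist z c₃ ^ 2 < _ := h2
        apply h
        linarith)]

lemma chi_tubeX' (c₂ c₃ r x y z : ℝ) : chi (tubeX c₂ c₃ r) (x, y, z)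
    = ({t | cdist t c₂ ^ 2 < r ^ 2 - cdist z c₃ ^ 2} : Set ℝ).indicator (fun _ => (1:ℝ)) y := by
  unfold chi tubeX
  by_cases h : cdist y c₂ ^ 2 + cdist z c₃ ^ 2 < r ^ 2
  · rw [indicator_of_mem (show (x, y, z) ∈ {p : R3 | cdist p.2.1 c₂ ^ 2 + cdist p.2.2 c₃ ^ 2 < r ^ 2} from h),
      indicator_of_mem (show y ∈ ({t | cdist t c₂ ^ 2 < r ^ 2 - cdist z c₃ ^ 2} : Set ℝ) by
        show cdist y c₂ ^ 2 < _
        linarith)]
  · rw [indicator_of_notMem (show (x, y, z) ∉ {p : R3 | cdist p.2.1 c₂ ^ 2 + cdist p.2.2 c₃ ^ 2 < r ^ 2} from h),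
      indicator_of_notMem (show y ∉ ({t | cdist t c₂ ^ 2 < r ^ 2 - cdist z c₃ ^ 2} : Set ℝ) by
        intro h2
        have h3 : cdist y c₂ ^ 2 < _ := h2
        apply h
        linarith)]

/-- The second marginal of a tube. -/
lemma mg2_tubeX {c₂ c₃ r : ℝ} (hr : r ^ 2 ≤ 1 / 4) (y : ℝ) :
    mg1 (sw12L ⁻¹' tubeX c₂ c₃ r) y = 2 * Real.sqrt (r ^ 2 - cdist y c₂ ^ 2) := by
  unfold mg1
  have h1 : ∀ a, ∫ b in (0:ℝ)..1, chi (sw12L ⁻¹' tubeX c₂ c₃ r) (y, a, b)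
      = 2 * Real.sqrt (r ^ 2 - cdist y c₂ ^ 2) := by
    intro a
    have e : ∀ b, chi (sw12L ⁻¹' tubeX c₂ c₃ r) (y, a, b) = chi (tubeX c₂ c₃ r) (a, y, b) := fun b => rfl
    simp only [e, chi_tubeX]
    exact row_length (by nlinarith [sq_nonneg (cdist y c₂)]) c₃
  simp only [h1]
  simp

/-- The third marginal of a tube. -/
lemma mg3_tubeX {c₂ c₃ r : ℝ} (hr : r ^ 2 ≤ 1 / 4) (z : ℝ) :
    mg1 (sw13L ⁻¹' tubeX c₂ c₃ r) z = 2 * Real.sqrt (r ^ 2 - cdist z c₃ ^ 2) := by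
  unfold mg1
  have h1 : ∀ a, ∫ b in (0:ℝ)..1, chi (sw13L ⁻¹' tubeX c₂ c₃ r) (z, a, b)
      = ({t | cdist t c₂ ^ 2 < r ^ 2 - cdist z c₃ ^ 2} : Set ℝ).indicator (fun _ => (1:ℝ)) a := by
    intro a
    have e : ∀ b, chi (sw13L ⁻¹' tubeX c₂ c₃ r) (z, a, b) = chi (tubeX c₂ c₃ r) (b, a, z) := fun b => rfl
    simp only [e, chi_tubeX']
    simp
  simp only [h1]
  exact row_length (by nlinarith [sq_nonneg (cdist z c₃)]) c₂

/-- The volume of a tube. -/
lemma torusVolume_tubeX {c₂ c₃ r : ℝ} (h0 : 0 ≤ r) (h1 : r ≤ 1 / 2) :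
    torusVolume (tubeX c₂ c₃ r) = Real.pi * r ^ 2 := by
  have hr : r ^ 2 ≤ 1 / 4 := by nlinarith
  rw [← τ12.volume_pre (tubeX_measurable c₂ c₃ r),
    ← mg1_integral (τ12.measurable_pre (tubeX_measurable c₂ c₃ r))]
  have e : ∀ y, mg1 (τ12.σ ⁻¹' tubeX c₂ c₃ r) y = 2 * Real.sqrt (r ^ 2 - cdist y c₂ ^ 2) := mg2_tubeX hr
  simp only [e]
  have hf : Measurable fun t : ℝ => 2 * Real.sqrt (r ^ 2 - t ^ 2) :=
    measurable_const.mul (sqrt_meas (measurable_const.sub (measurable_id.pow_const 2)))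
  have hb : ∀ t : ℝ, |2 * Real.sqrt (r ^ 2 - t ^ 2)| ≤ 2 * 1 := by
    intro t
    rw [abs_of_nonneg (by positivity)]
    have : Real.sqrt (r ^ 2 - t ^ 2) ≤ 1 := Real.sqrt_le_one.2 (by nlinarith [sq_nonneg t])
    linarith
  rw [circle_integral hf hb c₂, intervalIntegral.integral_const_mul, semicircle_half hr,
    max_eq_left (by positivity)]
  ring

/-- The first marginal of a slab. -/
lemma mg1_slabX (c w x : ℝ) :
    mg1 (slabX c w) x = (Iio (w / 2)).indicator (fun _ => (1:ℝ)) (cdist x c) := by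
  unfold mg1
  have e : ∀ y z, chi (slabX c w) (x, y, z) = (Iio (w / 2)).indicator (fun _ => (1:ℝ)) (cdist x c) := by
    intro y z
    unfold chi slabX
    by_cases h : cdist x c < w / 2
    · rw [indicator_of_mem (show (x, y, z) ∈ {p : R3 | cdist p.1 c < w / 2} from h), indicator_of_mem (show cdist x c ∈ Iio (w / 2) from h)]
    · rw [indicator_of_notMem (show (x, y, z) ∉ {p : R3 | cdist p.1 c < w / 2} from h), indicator_of_notMem (show cdist x c ∉ Iio (w / 2) from h)]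
  simp only [e]
  simp

/-- The volume of a slab. -/
lemma torusVolume_slabX {c w : ℝ} (h0 : 0 ≤ w) (h1 : w ≤ 1) : torusVolume (slabX c w) = w := by
  rw [← mg1_integral (slabX_measurable c w)]
  simp only [mg1_slabX]
  rw [arc_length (by positivity) (by linarith) c]
  ring

/-! ### From the marginals to the set -/

/-- A nonnegative difference with zero integral vanishes. -/
lemma integral_eq_of_ge {f g : ℝ → ℝ} (hf : Measurable f) (hg : Measurable g) {C : ℝ}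
    (hfC : ∀ x, |f x| ≤ C) (hgC : ∀ x, |g x| ≤ C) (hle : ∀ᵐ x, f x ≤ g x)
    (hI : ∫ x in (0:ℝ)..1, f x = ∫ x in (0:ℝ)..1, g x) {h : ℝ → ℝ} (hh : Measurable h) {C' : ℝ}
    (hC' : ∀ x, |h x| ≤ C') :
    ∫ x in (0:ℝ)..1, f x * h x = ∫ x in (0:ℝ)..1, g x * h x := by
  have ii : ∀ {k : ℝ → ℝ}, Measurable k → (∀ x, |k x| ≤ C) → IntervalIntegrable k volume 0 1 := by
    intro k hk hb
    rw [intervalIntegrable_iff]
    exact Measure.integrableOn_of_bounded (M := C) (by simp) hk.aestronglyMeasurable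
      (Filter.Eventually.of_forall fun t => by simpa using hb t)
  have i1 := ii hf hfC
  have i2 := ii hg hgC
  have h0 : ∫ x in (0:ℝ)..1, (g x - f x) = 0 := by
    rw [intervalIntegral.integral_sub i2 i1, hI, sub_self]
  rw [intervalIntegral.integral_of_le zero_le_one] at h0
  have hnn : 0 ≤ᵐ[volume.restrict (Ioc (0:ℝ) 1)] fun x => g x - f x := by
    apply ae_restrict_of_ae
    filter_upwards [hle] with x hx
    simpa using hx
  have hint : IntegrableOn (fun x => g x - f x) (Ioc (0:ℝ) 1) :=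
    (intervalIntegrable_iff_integrableOn_Ioc_of_le zero_le_one).1 (i2.sub i1)
  have hz := (setIntegral_eq_zero_iff_of_nonneg_ae hnn hint).1 h0
  apply intervalIntegral.integral_congr_ae
  have hz' : ∀ᵐ x ∂(volume.restrict (Ioc (0:ℝ) 1)), g x - f x = 0 := hz
  rw [ae_restrict_iff' measurableSet_Ioc] at hz'
  filter_upwards [hz'] with x hx hmem
  rw [uIoc_of_le zero_le_one] at hmem
  have := hx hmem
  have e : f x = g x := by simpa [sub_eq_zero, eq_comm] using this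
  rw [e]

lemma mg1_abs_le {E : Set R3} (hE : MeasurableSet E) (x : ℝ) : |mg1 E x| ≤ 1 := by
  rw [abs_of_nonneg (mg1_nonneg x)]
  exact mg1_le_one hE x

/-- A set whose marginal is at least that of a slab of the same volume is that slab. -/
theorem slab_of_mg {E : Set R3} (hE : MeasurableSet E) {c w : ℝ} (h0 : 0 ≤ w) (h1 : w ≤ 1)
    (hm : ∀ᵐ x, (Iio (w / 2)).indicator (fun _ => (1:ℝ)) (cdist x c) ≤ mg1 E x)
    (hV : torusVolume E = w) : AeEqTorus E (slabX c w) := by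
  have hB := slabX_measurable c w
  have hvol : torusVolume E = torusVolume (slabX c w) := by rw [hV, torusVolume_slabX h0 h1]
  have hmm : Measurable fun t : ℝ => w / 2 - cdist t c := measurable_const.sub (measurable_cdist_left c)
  have hbb : ∀ t, |w / 2 - cdist t c| ≤ 1 := by
    intro t
    have h2 := cdist_nonneg t c
    have h3 := cdist_le_half t c
    rw [abs_le]
    constructor <;> linarith
  refine tomography3 hE hB (h₁ := fun t => w / 2 - cdist t c) (h₂ := fun _ => 0) (h₃ := fun _ => 0) hmm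
    measurable_const measurable_const (C := 1) hbb (by simp) (by simp) ?_ ?_ ?_ (by simp) (by simp) hvol
  · intro p hp
    have : cdist p.1 c < w / 2 := hp
    simp only [add_zero]
    linarith
  · intro p hp
    have : ¬ cdist p.1 c < w / 2 := hp
    simp only [add_zero]
    linarith [not_lt.1 this]
  · have hfm : Measurable (mg1 (slabX c w)) := mg1_measurable hB
    refine (integral_eq_of_ge hfm (mg1_measurable hE) (mg1_abs_le hB) (mg1_abs_le hE) ?_ ?_ hmm hbb).symm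
    · filter_upwards [hm] with x hx
      rw [mg1_slabX]
      exact hx
    · rw [mg1_integral hB, mg1_integral hE, hvol]

/-- A set whose second and third marginals are at least those of a tube of the same volume is that
tube. -/
theorem tube_of_mg {E : Set R3} (hE : MeasurableSet E) {c₂ c₃ r : ℝ} (h0 : 0 ≤ r) (h1 : r ≤ 1 / 2)
    (hm₂ : ∀ᵐ y, 2 * Real.sqrt (r ^ 2 - cdist y c₂ ^ 2) ≤ mg1 (sw12L ⁻¹' E) y)
    (hm₃ : ∀ᵐ z, 2 * Real.sqrt (r ^ 2 - cdist z c₃ ^ 2) ≤ mg1 (sw13L ⁻¹' E) z)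
    (hV : torusVolume E = Real.pi * r ^ 2) : AeEqTorus E (tubeX c₂ c₃ r) := by
  have hB := tubeX_measurable c₂ c₃ r
  have hr : r ^ 2 ≤ 1 / 4 := by nlinarith
  have hvol : torusVolume E = torusVolume (tubeX c₂ c₃ r) := by rw [hV, torusVolume_tubeX h0 h1]
  have hvar : ∀ c : ℝ, Measurable fun t : ℝ => r ^ 2 / 2 - cdist t c ^ 2 := fun c =>
    measurable_const.sub (meas_cdist_sq c)
  have hbb : ∀ c t : ℝ, |r ^ 2 / 2 - cdist t c ^ 2| ≤ 1 := by
    intro c t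
    have h2 := cdist_nonneg t c
    have h3 := cdist_le_half t c
    have h4 : cdist t c ^ 2 ≤ 1 / 4 := by nlinarith
    rw [abs_le]
    constructor <;> nlinarith [sq_nonneg r, sq_nonneg (cdist t c)]
  have hE₂ := τ12.measurable_pre hE
  have hE₃ := τ13.measurable_pre hE
  have hB₂ := τ12.measurable_pre hB
  have hB₃ := τ13.measurable_pre hB
  refine tomography3 hE hB (h₁ := fun _ => 0) (h₂ := fun t => r ^ 2 / 2 - cdist t c₂ ^ 2)
    (h₃ := fun t => r ^ 2 / 2 - cdist t c₃ ^ 2) measurable_const (hvar c₂) (hvar c₃) (C := 1)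
    (by simp) (hbb c₂) (hbb c₃) ?_ ?_ (by simp) ?_ ?_ hvol
  · intro p hp
    have : cdist p.2.1 c₂ ^ 2 + cdist p.2.2 c₃ ^ 2 < r ^ 2 := hp
    simp only [zero_add]
    linarith
  · intro p hp
    have : ¬ cdist p.2.1 c₂ ^ 2 + cdist p.2.2 c₃ ^ 2 < r ^ 2 := hp
    simp only [zero_add]
    linarith [not_lt.1 this]
  · refine (integral_eq_of_ge (mg1_measurable hB₂) (mg1_measurable hE₂) (mg1_abs_le hB₂) (mg1_abs_le hE₂) ?_ ?_
      (hvar c₂) (hbb c₂)).symm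
    · filter_upwards [hm₂] with y hy
      have e := mg2_tubeX (c₂ := c₂) (c₃ := c₃) hr y
      show mg1 (sw12L ⁻¹' tubeX c₂ c₃ r) y ≤ _
      rw [e]
      exact hy
    · rw [mg1_integral hB₂, mg1_integral hE₂, τ12.volume_pre hB, τ12.volume_pre hE, hvol]
  · refine (integral_eq_of_ge (mg1_measurable hB₃) (mg1_measurable hE₃) (mg1_abs_le hB₃) (mg1_abs_le hE₃) ?_ ?_
      (hvar c₃) (hbb c₃)).symm
    · filter_upwards [hm₃] with y hy
      have e := mg3_tubeX (c₂ := c₂) (c₃ := c₃) hr y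
      show mg1 (sw13L ⁻¹' tubeX c₂ c₃ r) y ≤ _
      rw [e]
      exact hy
    · rw [mg1_integral hB₃, mg1_integral hE₃, τ13.volume_pre hB, τ13.volume_pre hE, hvol]

/-- A set whose three marginals are at least those of a ball of the same volume is that ball. -/
theorem ball_of_mg {E : Set R3} (hE : MeasurableSet E) {c₁ c₂ c₃ r : ℝ} (h0 : 0 ≤ r) (h1 : r ≤ 1 / 2)
    (hm₁ : ∀ᵐ x, Real.pi * (r ^ 2 - cdist x c₁ ^ 2) ≤ mg1 E x)
    (hm₂ : ∀ᵐ y, Real.pi * (r ^ 2 - cdist y c₂ ^ 2) ≤ mg1 (sw12L ⁻¹' E) y)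
    (hm₃ : ∀ᵐ z, Real.pi * (r ^ 2 - cdist z c₃ ^ 2) ≤ mg1 (sw13L ⁻¹' E) z)
    (hV : torusVolume E = 4 / 3 * Real.pi * r ^ 3) : AeEqTorus E (ballSet c₁ c₂ c₃ r) := by
  have hB := ballSet_measurable c₁ c₂ c₃ r
  have hr : r ^ 2 ≤ 1 / 4 := by nlinarith
  have hvol : torusVolume E = torusVolume (ballSet c₁ c₂ c₃ r) := by rw [hV, torusVolume_ballSet h0 h1]
  have hvar : ∀ c : ℝ, Measurable fun t : ℝ => r ^ 2 / 3 - cdist t c ^ 2 := fun c =>
    measurable_const.sub (meas_cdist_sq c)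
  have hbb : ∀ c t : ℝ, |r ^ 2 / 3 - cdist t c ^ 2| ≤ 1 := by
    intro c t
    have h2 := cdist_nonneg t c
    have h3 := cdist_le_half t c
    have h4 : cdist t c ^ 2 ≤ 1 / 4 := by nlinarith
    rw [abs_le]
    constructor <;> nlinarith [sq_nonneg r, sq_nonneg (cdist t c)]
  have hE₂ := τ12.measurable_pre hE
  have hE₃ := τ13.measurable_pre hE
  have hB₂ := τ12.measurable_pre hB
  have hB₃ := τ13.measurable_pre hB
  have hmax : ∀ {c x A : ℝ}, 0 ≤ A → Real.pi * (r ^ 2 - cdist x c ^ 2) ≤ A →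
      Real.pi * max (r ^ 2 - cdist x c ^ 2) 0 ≤ A := by
    intro c x A h2 h3
    rcases le_total (r ^ 2 - cdist x c ^ 2) 0 with h4 | h4
    · rw [max_eq_right h4]
      simpa using h2
    · rw [max_eq_left h4]
      exact h3
  refine tomography3 hE hB (h₁ := fun t => r ^ 2 / 3 - cdist t c₁ ^ 2) (h₂ := fun t => r ^ 2 / 3 - cdist t c₂ ^ 2)
    (h₃ := fun t => r ^ 2 / 3 - cdist t c₃ ^ 2) (hvar c₁) (hvar c₂) (hvar c₃) (C := 1)
    (hbb c₁) (hbb c₂) (hbb c₃) ?_ ?_ ?_ ?_ ?_ hvol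
  · intro p hp
    have : cdist p.1 c₁ ^ 2 + cdist p.2.1 c₂ ^ 2 + cdist p.2.2 c₃ ^ 2 < r ^ 2 := hp
    linarith
  · intro p hp
    have : ¬ cdist p.1 c₁ ^ 2 + cdist p.2.1 c₂ ^ 2 + cdist p.2.2 c₃ ^ 2 < r ^ 2 := hp
    linarith [not_lt.1 this]
  · refine (integral_eq_of_ge (mg1_measurable hB) (mg1_measurable hE) (mg1_abs_le hB) (mg1_abs_le hE) ?_ ?_
      (hvar c₁) (hbb c₁)).symm
    · filter_upwards [hm₁] with y hy
      rw [mg1_ballSet hr]
      exact hmax (mg1_nonneg y) hy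
    · rw [mg1_integral hB, mg1_integral hE, hvol]
  · refine (integral_eq_of_ge (mg1_measurable hB₂) (mg1_measurable hE₂) (mg1_abs_le hB₂) (mg1_abs_le hE₂) ?_ ?_
      (hvar c₂) (hbb c₂)).symm
    · filter_upwards [hm₂] with y hy
      show mg1 (sw12L ⁻¹' ballSet c₁ c₂ c₃ r) y ≤ _
      rw [sw12_ballSet, mg1_ballSet hr]
      exact hmax (mg1_nonneg y) hy
    · rw [mg1_integral hB₂, mg1_integral hE₂, τ12.volume_pre hB, τ12.volume_pre hE, hvol]
  · refine (integral_eq_of_ge (mg1_measurable hB₃) (mg1_measurable hE₃) (mg1_abs_le hB₃) (mg1_abs_le hE₃) ?_ ?_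
      (hvar c₃) (hbb c₃)).symm
    · filter_upwards [hm₃] with y hy
      show mg1 (sw13L ⁻¹' ballSet c₁ c₂ c₃ r) y ≤ _
      rw [sw13_ballSet, mg1_ballSet hr]
      exact hmax (mg1_nonneg y) hy
    · rw [mg1_integral hB₃, mg1_integral hE₃, τ13.volume_pre hB, τ13.volume_pre hE, hvol]

end Vale.Agent.Lib.P232
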