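import Vale.Agent.Lib.P232.Cl7b

open MeasureTheory Set intervalIntegral Filter
open scoped Topology ENNReal

namespace Vale.Agent.Lib.P232

namespace Per3

variable (U : Per3)

lemma per_ux (x y z : ℝ) : U.ux (x + 1) y z = U.ux x y z :=
  deriv_periodic (f := fun t => U.u t y z) (f' := fun t => U.ux t y z) (fun t => U.hasX t y z)
    (fun t => U.perX t y z) x

lemma per_uy (x y z : ℝ) : U.uy (x + 1) y z = U.uy x y z := by
  have h1 := U.hasY (x + 1) y z
  have h2 := U.hasY x y z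
  simp only [U.perX] at h1
  exact h1.unique h2

lemma per_uz (x y z : ℝ) : U.uz (x + 1) y z = U.uz x y z := by
  have h1 := U.hasZ (x + 1) y z
  have h2 := U.hasZ x y z
  simp only [U.perX] at h1
  exact h1.unique h2

/-- The slicing of a smooth function by the first coordinate. -/
noncomputable def cal : Cal where
  A := U.A₁
  A' := fun x => ∫ y in (0:ℝ)..1, ∫ z in (0:ℝ)..1, U.ux x y z
  N := fun x => ∫ y in (0:ℝ)..1, ∫ z in (0:ℝ)..1,
      Real.sqrt (U.ux x y z ^ 2 + U.uy x y z ^ 2 + U.uz x y z ^ 2)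
  G := fun x => (U.sec x).D
  P := fun x => ∫ y in (0:ℝ)..1, ∫ z in (0:ℝ)..1, |U.ux x y z|
  hasD := by
    intro x
    refine hasDerivAt_param (F := fun x y => ∫ z in (0:ℝ)..1, U.u x y z)
      (F' := fun x y => ∫ z in (0:ℝ)..1, U.ux x y z) U.cont.inner U.contX.inner ?_ 0 1 x
    intro x y
    exact hasDerivAt_param (F := fun x z => U.u x y z) (F' := fun x z => U.ux x y z)
      (U.cont.slice13 y) (U.contX.slice13 y) (fun x z => U.hasX x y z) 0 1 x
  contD := U.contX.inner2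
  per := U.per_A₁
  contN := U.cont_gradFull.inner2
  perN := by
    intro x
    simp only [per_ux, per_uy, per_uz]
  h1 := by
    intro x α γ hα hγ h
    have c1 := U.cont_gradTan.inner.comp (Continuous.prodMk_right x)
    have c2 := U.cont_absX.inner.comp (Continuous.prodMk_right x)
    have c3 := U.cont_gradFull.inner.comp (Continuous.prodMk_right x)
    simp only [Function.comp_def, Function.uncurry] at c1 c2 c3
    have c1' : Continuous fun y => α * ∫ z in (0:ℝ)..1, Real.sqrt (U.uy x y z ^ 2 + U.uz x y z ^ 2) :=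
      continuous_const.mul c1
    have c2' : Continuous fun y => γ * ∫ z in (0:ℝ)..1, |U.ux x y z| := continuous_const.mul c2
    have e1 : α * (U.sec x).D = ∫ y in (0:ℝ)..1, α * ∫ z in (0:ℝ)..1, Real.sqrt (U.uy x y z ^ 2 + U.uz x y z ^ 2) :=
      (intervalIntegral.integral_const_mul _ _).symm
    have e2 : γ * (∫ y in (0:ℝ)..1, ∫ z in (0:ℝ)..1, |U.ux x y z|)
        = ∫ y in (0:ℝ)..1, γ * ∫ z in (0:ℝ)..1, |U.ux x y z| :=
      (intervalIntegral.integral_const_mul _ _).symm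
    show α * (U.sec x).D + γ * (∫ y in (0:ℝ)..1, ∫ z in (0:ℝ)..1, |U.ux x y z|) ≤ _
    rw [e1, e2, ← intervalIntegral.integral_add (c1'.intervalIntegrable _ _) (c2'.intervalIntegrable _ _)]
    apply intervalIntegral.integral_mono_on zero_le_one ((c1'.add c2').intervalIntegrable _ _)
      (c3.intervalIntegrable _ _)
    intro y _
    show α * (∫ z in (0:ℝ)..1, Real.sqrt (U.uy x y z ^ 2 + U.uz x y z ^ 2))
      + γ * (∫ z in (0:ℝ)..1, |U.ux x y z|) ≤ _
    have d1 : Continuous fun z => Real.sqrt (U.uy x y z ^ 2 + U.uz x y z ^ 2) :=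
      (U.cont_gradTan.section x).comp (Continuous.prodMk_right y)
    have d2 : Continuous fun z => |U.ux x y z| :=
      (U.cont_absX.section x).comp (Continuous.prodMk_right y)
    have d3 : Continuous fun z => Real.sqrt (U.ux x y z ^ 2 + U.uy x y z ^ 2 + U.uz x y z ^ 2) :=
      (U.cont_gradFull.section x).comp (Continuous.prodMk_right y)
    have d1' : Continuous fun z => α * Real.sqrt (U.uy x y z ^ 2 + U.uz x y z ^ 2) :=
      continuous_const.mul d1
    have d2' : Continuous fun z => γ * |U.ux x y z| := continuous_const.mul d2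
    rw [← intervalIntegral.integral_const_mul, ← intervalIntegral.integral_const_mul,
      ← intervalIntegral.integral_add (d1'.intervalIntegrable _ _) (d2'.intervalIntegrable _ _)]
    apply intervalIntegral.integral_mono_on zero_le_one ((d1'.add d2').intervalIntegrable _ _)
      (d3.intervalIntegrable _ _)
    intro z _
    have hcs := cs_point (p := Real.sqrt (U.uy x y z ^ 2 + U.uz x y z ^ 2)) (q := U.ux x y z) h
    rw [abs_of_nonneg (Real.sqrt_nonneg _), Real.sq_sqrt (by positivity)] at hcs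
    have e3 : U.uy x y z ^ 2 + U.uz x y z ^ 2 + U.ux x y z ^ 2
        = U.ux x y z ^ 2 + U.uy x y z ^ 2 + U.uz x y z ^ 2 := by ring
    rw [e3] at hcs
    exact hcs
  h2 := by
    intro x
    refine (intervalIntegral.abs_integral_le_integral_abs zero_le_one).trans ?_
    have c1 := U.contX.inner.comp (Continuous.prodMk_right x)
    have c2 := U.cont_absX.inner.comp (Continuous.prodMk_right x)
    simp only [Function.comp_def, Function.uncurry] at c1 c2
    apply intervalIntegral.integral_mono_on zero_le_one (c1.abs.intervalIntegrable _ _)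
      (c2.intervalIntegrable _ _)
    intro y _
    exact intervalIntegral.abs_integral_le_integral_abs zero_le_one

lemma cal_A : U.cal.A = U.A₁ := rfl
lemma cal_G (x : ℝ) : U.cal.G x = (U.sec x).D := rfl
lemma cal_integral_N : ∫ x in (0:ℝ)..1, U.cal.N x = U.P := rfl

/-- The error of the section estimate. -/
noncomputable def eCut (y₀ z₀ κ τ x : ℝ) : ℝ :=
  2 * (U.sec x).a y₀ + 2 * (U.sec x).b z₀ + (4 * κ + 4 * τ) + (2 / τ ^ 2) * ((U.sec x).F κ + 2 * κ)

lemma eCut_cont (y₀ z₀ κ τ : ℝ) : Continuous (U.eCut y₀ z₀ κ τ) := by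
  have hF := U.cont_secF κ
  have ca : Continuous fun x => (U.sec x).a y₀ := cont_param (U.cont.slice13 y₀) 0 1
  have cb : Continuous fun x => (U.sec x).b z₀ := cont_param (U.cont.slice12 z₀) 0 1
  unfold eCut
  fun_prop

lemma eCut_per (y₀ z₀ κ τ x : ℝ) : U.eCut y₀ z₀ κ τ (x + 1) = U.eCut y₀ z₀ κ τ x := by
  unfold eCut
  have e1 : (U.sec (x + 1)).a y₀ = (U.sec x).a y₀ := by
    show (∫ z in (0:ℝ)..1, U.u (x + 1) y₀ z) = ∫ z in (0:ℝ)..1, U.u x y₀ z
    simp only [U.perX]
  have e2 : (U.sec (x + 1)).b z₀ = (U.sec x).b z₀ := by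
    show (∫ y in (0:ℝ)..1, U.u (x + 1) y z₀) = ∫ y in (0:ℝ)..1, U.u x y z₀
    simp only [U.perX]
  have e3 : (U.sec (x + 1)).F κ = (U.sec x).F κ := by
    show (∫ y in (0:ℝ)..1, ∫ z in (0:ℝ)..1, Xi κ (U.u (x + 1) y z)) = ∫ y in (0:ℝ)..1, ∫ z in (0:ℝ)..1, Xi κ (U.u x y z)
    simp only [U.perX]
  rw [e1, e2, e3]

lemma eCut_integral (y₀ z₀ κ τ : ℝ) : ∫ x in (0:ℝ)..1, U.eCut y₀ z₀ κ τ x
    = 2 * U.A₂ y₀ + 2 * U.A₃ z₀ + (4 * κ + 4 * τ) + (2 / τ ^ 2) * (U.Ff κ + 2 * κ) := by
  have hF := U.cont_secF κ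
  have ca : Continuous fun x => (U.sec x).a y₀ := cont_param (U.cont.slice13 y₀) 0 1
  have cb : Continuous fun x => (U.sec x).b z₀ := cont_param (U.cont.slice12 z₀) 0 1
  have i1 : Continuous fun x => (U.sec x).F κ + 2 * κ := hF.add continuous_const
  have i2 : Continuous fun x => (2 / τ ^ 2) * ((U.sec x).F κ + 2 * κ) := continuous_const.mul i1
  have i3 : Continuous fun x => 2 * (U.sec x).a y₀ := continuous_const.mul ca
  have i4 : Continuous fun x => 2 * (U.sec x).b z₀ := continuous_const.mul cb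
  have i5 : Continuous fun x => 2 * (U.sec x).a y₀ + 2 * (U.sec x).b z₀ := i3.add i4
  have i6 : Continuous fun x => 2 * (U.sec x).a y₀ + 2 * (U.sec x).b z₀ + (4 * κ + 4 * τ) :=
    i5.add continuous_const
  have e1 : ∫ x in (0:ℝ)..1, 2 * (U.sec x).a y₀ = 2 * U.A₂ y₀ :=
    intervalIntegral.integral_const_mul _ _
  have e2 : ∫ x in (0:ℝ)..1, 2 * (U.sec x).b z₀ = 2 * U.A₃ z₀ :=
    intervalIntegral.integral_const_mul _ _
  have e3 : ∫ x in (0:ℝ)..1, (2 / τ ^ 2) * ((U.sec x).F κ + 2 * κ)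
      = (2 / τ ^ 2) * (U.Ff κ + 2 * κ) := by
    rw [intervalIntegral.integral_const_mul, intervalIntegral.integral_add
      (hF.intervalIntegrable _ _) (continuous_const.intervalIntegrable _ _), integral_secF]
    simp
  unfold eCut
  rw [intervalIntegral.integral_add (i6.intervalIntegrable _ _) (i2.intervalIntegrable _ _),
    intervalIntegral.integral_add (i5.intervalIntegrable _ _)
      (continuous_const.intervalIntegrable _ _),
    intervalIntegral.integral_add (i3.intervalIntegrable _ _) (i4.intervalIntegrable _ _),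
    e1, e2, e3]
  simp

lemma eCut_nonneg {κ τ : ℝ} (hκ : 0 < κ) (hτ : 0 < τ) (y₀ z₀ x : ℝ) : 0 ≤ U.eCut y₀ z₀ κ τ x := by
  have hsecF := (U.sec x).F_nonneg κ
  have ha0 := (U.sec x).a_nonneg y₀
  have hb0 := (U.sec x).b_nonneg z₀
  unfold eCut
  positivity

lemma eCut_prof {κ τ : ℝ} (hκ : 0 < κ) (hτ : 0 < τ) (y₀ z₀ x : ℝ) :
    2 * Real.sqrt (Real.pi * U.A₁ x) ≤ (U.sec x).D + U.eCut y₀ z₀ κ τ x := by
  have h := (U.sec x).cut_estimate' hκ hτ y₀ z₀
  rw [sec_A] at h
  unfold eCut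
  linarith

end Per3

/-! ### The levels of the ball calibration -/

/-- The weight of the section term. -/
noncomputable def αB (a s : ℝ) : ℝ := Real.sqrt s / Real.sqrt a
/-- The weight of the slope term. -/
noncomputable def βB (a s : ℝ) : ℝ := Real.sqrt (a - s) / Real.sqrt a
/-- The disk profile. -/
noncomputable def gB (s : ℝ) : ℝ := 2 * (Real.sqrt Real.pi * Real.sqrt s)
/-- The primitive for the ball. -/
noncomputable def TB (a s : ℝ) : ℝ := - (Real.sqrt (a - s) / Real.sqrt Real.pi)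

lemma αB_gB {a s : ℝ} (hs : 0 ≤ s) : αB a s * gB s = 2 * Real.sqrt Real.pi / Real.sqrt a * s := by
  unfold αB gB
  have : Real.sqrt s * Real.sqrt s = s := Real.mul_self_sqrt hs
  calc Real.sqrt s / Real.sqrt a * (2 * (Real.sqrt Real.pi * Real.sqrt s))
      = 2 * Real.sqrt Real.pi / Real.sqrt a * (Real.sqrt s * Real.sqrt s) := by ring
    _ = _ := by rw [this]

lemma levBall {a : ℝ} (ha : 0 < a) : Lev a (αB a) (βB a) gB (TB a) := by
  have hsa : 0 < Real.sqrt a := Real.sqrt_pos.2 ha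
  have hsp : 0 < Real.sqrt Real.pi := Real.sqrt_pos.2 Real.pi_pos
  refine ⟨?_, ?_, ?_, ?_, ?_, ?_, ?_, ?_, ?_⟩
  · unfold αB
    fun_prop
  · unfold βB
    fun_prop
  · unfold gB
    fun_prop
  · intro s _
    unfold αB
    positivity
  · intro s hs
    unfold αB
    have := Real.sqrt_pos.2 hs.1
    positivity
  · intro s
    unfold βB
    positivity
  · intro s hs
    unfold αB βB
    rw [div_pow, div_pow, Real.sq_sqrt hs.1, Real.sq_sqrt ha.le, Real.sq_sqrt (by linarith [hs.2])]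
    apply le_of_eq
    field_simp
    ring
  · intro s hs
    unfold βB gB
    have h1 := Real.sqrt_pos.2 (show 0 < a - s by linarith [hs.2])
    have h2 := Real.sqrt_pos.2 hs.1
    positivity
  · intro s hs
    have h0 : 0 < a - s := by linarith [hs.2]
    have h1 := Real.sqrt_pos.2 h0
    have h2 := Real.sqrt_pos.2 hs.1
    have hd : HasDerivAt (fun s => Real.sqrt (a - s)) (-1 / (2 * Real.sqrt (a - s))) s := by
      have := ((hasDerivAt_id s).const_sub a).sqrt h0.ne'
      simpa using this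
    have hd2 : HasDerivAt (TB a) (-(-1 / (2 * Real.sqrt (a - s)) / Real.sqrt Real.pi)) s :=
      (hd.div_const _).neg
    refine hd2.congr_deriv ?_
    unfold αB βB gB
    field_simp

lemma βB_integral {a : ℝ} (ha : 0 < a) : ∫ s in (0:ℝ)..a, βB a s = 2 / 3 * a := by
  unfold βB
  rw [intervalIntegral.integral_div, integral_sqrt_sub ha.le]
  simp only [sub_zero]
  have hsa := Real.sqrt_pos.2 ha
  have h2 : Real.sqrt a ^ 2 = a := Real.sq_sqrt ha.le
  field_simp
  rw [h2]

/-- The rigidity of the sections for a tight calibration by the ball profile. -/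
theorem ball_direction {E : Set R3} (hE : MeasurableSet E) (hper : PeriodicSet E) (hP : perimeter E ≠ ⊤)
    {a a₂ a₃ : ℝ} (ha : 0 < a) (hR : IsRange (mg1 E) 0 a) (hR₂ : IsRange (mg1 (sw12L ⁻¹' E)) 0 a₂)
    (hR₃ : IsRange (mg1 (sw13L ⁻¹' E)) 0 a₃)
    (ht : (perimeter E).toReal ≤ 4 / 3 * a + 2 * Real.sqrt Real.pi / Real.sqrt a * torusVolume E) :
    ∃ c, ∀ᵐ x, a - Real.pi * cdist x c ^ 2 ≤ mg1 E x := by
  set U := smoothSeq hE hper with hU
  have hA : Approx E U := approx_smoothSeq hE hper hP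
  obtain ⟨xm, xa, hxm, hxa, hm, ha', ltm, lta⟩ := hA.extremes hR
  have hL := levBall ha
  have hrange : ∀ n x, (U n).cal.A x ∈ Icc 0 a := fun n x =>
    ⟨(U n).A₁_nonneg x, hA.up₁ a hR.ae_up n x⟩
  have hN : ∀ n, (∫ x in (0:ℝ)..1, (U n).cal.N x) ≤ (perimeter E).toReal := fun n => hA.per n
  set H := 2 * Real.sqrt Real.pi / Real.sqrt a with hH
  have hβc := hL.contβ
  have hdef : ∀ η > 0, ∃ e : ℕ → ℝ → ℝ, (∀ n, Continuous (e n)) ∧ (∀ n x, e n (x + 1) = e n x) ∧
      (∀ n x c, 0 ≤ c → c ≤ αB a ((U n).cal.A x) → c * gB ((U n).cal.A x) - e n x ≤ c * (U n).cal.G x) ∧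
      ∀ᶠ n in atTop, ∃ xm xa, (∫ x in (0:ℝ)..1, (U n).cal.N x)
        - (∫ x in (0:ℝ)..1, αB a ((U n).cal.A x) * gB ((U n).cal.A x))
        - 2 * (∫ s in (U n).cal.A xm..(U n).cal.A xa, βB a s) + (∫ x in (0:ℝ)..1, e n x) ≤ η := by
    intro η hη
    set τ := min 1 (η / 40) with hτdef
    have hτ0 : 0 < τ := lt_min one_pos (by positivity)
    have hτ1 : τ ≤ 1 := min_le_left _ _
    have hτη : τ ≤ η / 40 := min_le_right _ _
    set κ := τ ^ 3 / 4 with hκdef
    have hκ : 0 < κ := by positivity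
    obtain ⟨y₀, hy₀, hy₀m⟩ := hR₂.near_low τ hτ0 {x | Tendsto (fun n => (U n).A₂ x) atTop (𝓝 (mg1 (sw12L ⁻¹' E) x))} hA.lim₂
    obtain ⟨z₀, hz₀, hz₀m⟩ := hR₃.near_low τ hτ0 {x | Tendsto (fun n => (U n).A₃ x) atTop (𝓝 (mg1 (sw13L ⁻¹' E) x))} hA.lim₃
    have hy' : Tendsto (fun n => (U n).A₂ y₀) atTop (𝓝 (mg1 (sw12L ⁻¹' E) y₀)) := hy₀
    have hz' : Tendsto (fun n => (U n).A₃ z₀) atTop (𝓝 (mg1 (sw13L ⁻¹' E) z₀)) := hz₀
    refine ⟨fun n => (U n).eCut y₀ z₀ κ τ, fun n => (U n).eCut_cont _ _ _ _,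
      fun n x => (U n).eCut_per _ _ _ _ x, ?_, ?_⟩
    · intro n x c hc0 hc1
      have hAx := hrange n x
      have h1 := (U n).eCut_prof hκ hτ0 y₀ z₀ x
      have h2 := (U n).eCut_nonneg hκ hτ0 y₀ z₀ x
      have hc2 : c ≤ 1 := by
        refine hc1.trans ?_
        unfold αB
        rw [div_le_one (Real.sqrt_pos.2 ha)]
        exact Real.sqrt_le_sqrt hAx.2
      have e1 : gB ((U n).cal.A x) = 2 * Real.sqrt (Real.pi * (U n).A₁ x) := by
        unfold gB
        rw [Real.sqrt_mul Real.pi_pos.le]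
        rfl
      rw [e1, (U n).cal_G x]
      have h3 := mul_le_mul_of_nonneg_left h1 hc0
      have h4 : c * (U n).eCut y₀ z₀ κ τ x ≤ 1 * (U n).eCut y₀ z₀ κ τ x :=
        mul_le_mul_of_nonneg_right hc2 h2
      nlinarith
    · -- the deficit
      have lim1 := integral_endpoints_tendsto hβc ltm lta
      rw [βB_integral ha] at lim1
      have hF := hA.Ff κ hκ
      have hlim : Tendsto (fun n => (perimeter E).toReal - H * torusVolume E
          - 2 * (∫ s in (U n).A₁ (xm n)..(U n).A₁ (xa n), βB a s)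
          + (2 * (U n).A₂ y₀ + 2 * (U n).A₃ z₀ + (4 * κ + 4 * τ) + (2 / τ ^ 2) * ((U n).Ff κ + 2 * κ)))
          atTop (𝓝 ((perimeter E).toReal - H * torusVolume E - 2 * (2 / 3 * a)
            + (2 * mg1 (sw12L ⁻¹' E) y₀ + 2 * mg1 (sw13L ⁻¹' E) z₀ + (4 * κ + 4 * τ)
              + (2 / τ ^ 2) * (0 + 2 * κ)))) :=
        (tendsto_const_nhds.sub (tendsto_const_nhds.mul lim1)).add
          (((tendsto_const_nhds.mul hy').add (tendsto_const_nhds.mul hz')).add tendsto_const_nhds |>.add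
            (tendsto_const_nhds.mul (hF.add tendsto_const_nhds)))
      have e1 : (2 / τ ^ 2) * (0 + 2 * κ) = τ := by
        rw [hκdef]
        field_simp
        ring
      have h2 : τ ^ 3 ≤ τ := by nlinarith [pow_pos hτ0 2, sq_nonneg τ, mul_pos hτ0 hτ0]
      have hlt : (perimeter E).toReal - H * torusVolume E - 2 * (2 / 3 * a)
            + (2 * mg1 (sw12L ⁻¹' E) y₀ + 2 * mg1 (sw13L ⁻¹' E) z₀ + (4 * κ + 4 * τ)
              + (2 / τ ^ 2) * (0 + 2 * κ)) < η := by
        rw [e1, hκdef]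
        have a1 : mg1 (sw12L ⁻¹' E) y₀ < τ := by linarith
        have a2 : mg1 (sw13L ⁻¹' E) z₀ < τ := by linarith
        linarith
      filter_upwards [hlim.eventually (gt_mem_nhds hlt)] with n hn
      refine ⟨xm n, xa n, ?_⟩
      rw [(U n).cal_integral_N, (U n).eCut_integral]
      have e2 : ∫ x in (0:ℝ)..1, αB a ((U n).cal.A x) * gB ((U n).cal.A x) = H * torusVolume E := by
        have : ∀ x, αB a ((U n).cal.A x) * gB ((U n).cal.A x) = H * (U n).A₁ x := by
          intro x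
          exact αB_gB ((U n).A₁_nonneg x)
        simp only [this]
        rw [intervalIntegral.integral_const_mul, ← hA.vol n]
        rfl
      rw [e2]
      have h3 := hA.per n
      show (U n).P - H * torusVolume E - 2 * (∫ s in (U n).A₁ (xm n)..(U n).A₁ (xa n), βB a s) + _ ≤ η
      linarith
  -- the good points
  set G : Set ℝ := {x | Tendsto (fun n => (U n).A₁ x) atTop (𝓝 (mg1 E x)) ∧ mg1 E x ≤ a} with hG
  have hGae : ∀ᵐ x, x ∈ G := by
    filter_upwards [hA.lim₁, hR.ae_up] with x h1 h2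
    exact ⟨h1, h2⟩
  have hnear : ∀ η > 0, ∃ c ∈ G, a - η < mg1 E c := fun η hη => hR.near_up η hη G hGae
  have hTc : ContinuousOn (TB a) (Icc 0 a) := by
    apply Continuous.continuousOn
    unfold TB
    fun_prop
  obtain ⟨c₀, hc₀⟩ := exists_center (T := TB a) hnear hTc ha (by
    intro x hx c hc s₁ s₂ h0 h12 h2a hxs hcs
    exact hL.rigid (D := fun n => (U n).cal) (A := mg1 E) hrange hN hdef (mg1_periodic hper)
      (mg1_nonneg x) hc.2 hx.1 hc.1 h0 h12 h2a hxs hcs)
  refine ⟨c₀, ?_⟩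
  filter_upwards [hGae] with x hx
  by_contra hlt
  push Not at hlt
  set d := cdist x c₀ with hd
  have hd0 := cdist_nonneg x c₀
  have hπ := Real.pi_pos
  have hA0 := mg1_nonneg (E := E) x
  have hq : 0 ≤ Real.pi * d ^ 2 := by positivity
  set s₁ := (mg1 E x + (a - Real.pi * d ^ 2)) / 2 with hs₁
  have h1 : mg1 E x < s₁ := by
    rw [hs₁]
    linarith
  have h2 : s₁ < a - Real.pi * d ^ 2 := by
    rw [hs₁]
    linarith
  have hmain := hc₀ x hx s₁ (by linarith) (by linarith) h1.le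
  unfold TB at hmain
  rw [sub_self, Real.sqrt_zero, zero_div, neg_zero, zero_sub, neg_neg] at hmain
  have hsp : 0 < Real.sqrt Real.pi := Real.sqrt_pos.2 hπ
  rw [div_le_iff₀ hsp] at hmain
  have hs2 : Real.sqrt (a - s₁) ^ 2 = a - s₁ := Real.sq_sqrt (by linarith)
  have h4 : Real.sqrt (a - s₁) ^ 2 ≤ (d * Real.sqrt Real.pi) ^ 2 :=
    pow_le_pow_left₀ (Real.sqrt_nonneg _) hmain 2
  rw [hs2, mul_pow, Real.sq_sqrt hπ.le] at h4
  linarith

end Vale.Agent.Lib.P232
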