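import Vale.Agent.Lib.P232.Cl8

open MeasureTheory Set intervalIntegral Filter
open scoped Topology ENNReal

namespace Vale.Agent.Lib.P232

/-! ### Relabelling of the marginals -/

lemma sw12_sw12 (G : Set R3) : sw12L ⁻¹' (sw12L ⁻¹' G) = G := by
  ext p
  rfl

lemma sw13_eq (E : Set R3) : sw13L ⁻¹' (sw12L ⁻¹' E) = sw23L ⁻¹' (sw13L ⁻¹' E) := by
  ext p
  rfl

lemma sw12_eq (E : Set R3) : sw12L ⁻¹' (sw13L ⁻¹' E) = sw23L ⁻¹' (sw12L ⁻¹' E) := by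
  ext p
  rfl

lemma mg1_12_13 {E : Set R3} (hE : MeasurableSet E) (x : ℝ) :
    mg1 (sw13L ⁻¹' (sw12L ⁻¹' E)) x = mg1 (sw13L ⁻¹' E) x := by
  rw [sw13_eq]
  exact mg1_sw23 (τ13.measurable_pre hE) x

lemma mg1_13_12 {E : Set R3} (hE : MeasurableSet E) (x : ℝ) :
    mg1 (sw12L ⁻¹' (sw13L ⁻¹' E)) x = mg1 (sw12L ⁻¹' E) x := by
  rw [sw12_eq]
  exact mg1_sw23 (τ12.measurable_pre hE) x

/-- The arithmetic of a tight calibration at the value zero of the smallest section. -/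
lemma ball_arith {a V : ℝ} (ha : 0 < a) (hV : 0 < V)
    (hF : 4 / 3 * a + 2 * Real.sqrt Real.pi / Real.sqrt a * V ≤ profileJ V) :
    ∃ r, 0 < r ∧ r ≤ 1 / 3 ∧ a = Real.pi * r ^ 2 ∧ V = 4 / 3 * Real.pi * r ^ 3 ∧
      profileJ V ≤ 4 / 3 * a + 2 * Real.sqrt Real.pi / Real.sqrt a * V := by
  have hπ := Real.pi_pos
  have hsp : 0 < Real.sqrt Real.pi := Real.sqrt_pos.2 hπ
  set r := Real.sqrt (a / Real.pi) with hr
  have hr0 : 0 < r := Real.sqrt_pos.2 (by positivity)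
  have hr2 : r ^ 2 = a / Real.pi := Real.sq_sqrt (by positivity)
  have haπ : a = Real.pi * r ^ 2 := by
    rw [hr2]
    field_simp
  have hsa : Real.sqrt a = Real.sqrt Real.pi * r := by
    rw [haπ, Real.sqrt_mul hπ.le, Real.sqrt_sq hr0.le]
  have hc : 2 * Real.sqrt Real.pi / Real.sqrt a = 2 / r := by
    rw [hsa]
    field_simp
  rw [hc] at hF ⊢
  set X := (36 * Real.pi) ^ (1 / 3 : ℝ) * V ^ (2 / 3 : ℝ) with hX
  have hX0 : 0 ≤ X := by positivity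
  have hX3 : X ^ 3 = 36 * Real.pi * V ^ 2 := by
    rw [hX, mul_pow]
    have e1 : ((36 * Real.pi) ^ (1 / 3 : ℝ)) ^ 3 = 36 * Real.pi := by
      rw [← Real.rpow_natCast, ← Real.rpow_mul (by positivity)]
      norm_num
    have e2 : (V ^ (2 / 3 : ℝ)) ^ 3 = V ^ 2 := by
      rw [← Real.rpow_natCast, ← Real.rpow_mul hV.le]
      norm_num
    rw [e1, e2]
  have hJX : profileJ V ≤ X := profileJ_le_ball V
  set Y := 4 / 3 * a + 2 / r * V with hY
  have hY0 : 0 < Y := by positivity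
  have hYX : Y ≤ X := hF.trans hJX
  have hid : Y ^ 3 - 36 * Real.pi * V ^ 2
      = (4 / 3 * a - 1 / r * V) ^ 2 * (4 / 3 * a + 8 / r * V) := by
    rw [hY, haπ]
    field_simp
    ring
  have hY3 : Y ^ 3 ≤ X ^ 3 := pow_le_pow_left₀ hY0.le hYX 3
  have hpos : 0 < 4 / 3 * a + 8 / r * V := by positivity
  have hz : (4 / 3 * a - 1 / r * V) ^ 2 * (4 / 3 * a + 8 / r * V) ≤ 0 := by
    rw [← hid, ← hX3]
    linarith
  have hz2 : (4 / 3 * a - 1 / r * V) ^ 2 = 0 := by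
    by_contra hne
    have : 0 < (4 / 3 * a - 1 / r * V) ^ 2 := lt_of_le_of_ne (sq_nonneg _) (Ne.symm hne)
    have := mul_pos this hpos
    linarith
  have hz3 : 4 / 3 * a - 1 / r * V = 0 := by simpa using hz2
  have hVr : V = 4 / 3 * Real.pi * r ^ 3 := by
    have e : 1 / r * V = 4 / 3 * a := by linarith
    have e2 : V = r * (4 / 3 * a) := by
      rw [← e]
      field_simp
    rw [e2, haπ]
    ring
  have hYa : Y = 4 * a := by
    have e : 2 / r * V = 2 * (1 / r * V) := by ring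
    rw [hY, e]
    have e3 : 1 / r * V = 4 / 3 * a := by linarith
    rw [e3]
    ring
  have hXY : X ≤ Y := by
    have : X ^ 3 ≤ Y ^ 3 := by
      rw [hX3]
      nlinarith [mul_nonneg (sq_nonneg (4 / 3 * a - 1 / r * V)) hpos.le]
    exact le_of_pow_le_pow_left₀ (by norm_num) hY0.le this
  refine ⟨r, hr0, ?_, haπ, hVr, hJX.trans hXY⟩
  -- the comparison with the tube
  have hT : Y ≤ 2 * Real.sqrt (Real.pi * V) := hF.trans (profileJ_le_tube V)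
  have hT2 : Y ^ 2 ≤ (2 * Real.sqrt (Real.pi * V)) ^ 2 := pow_le_pow_left₀ hY0.le hT 2
  rw [mul_pow, Real.sq_sqrt (by positivity), hYa, haπ, hVr] at hT2
  by_contra hlt
  push Not at hlt
  have h3 : 0 < Real.pi ^ 2 * r ^ 3 := by positivity
  nlinarith

/-- The value of the disk calibration at the smallest section zero, in the limit. -/
theorem value_zero_dir {E : Set R3} (hE : MeasurableSet E) (hper : PeriodicSet E) (hP : perimeter E ≠ ⊤)
    {a a₂ a₃ : ℝ} (ha : 0 < a) (hV : 0 ≤ torusVolume E) (hR : IsRange (mg1 E) 0 a)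
    (hR₂ : IsRange (mg1 (sw12L ⁻¹' E)) 0 a₂) (hR₃ : IsRange (mg1 (sw13L ⁻¹' E)) 0 a₃) :
    4 / 3 * a + 2 * Real.sqrt Real.pi / Real.sqrt a * torusVolume E ≤ (perimeter E).toReal := by
  have hA : Approx E (smoothSeq hE hper) := approx_smoothSeq hE hper hP
  have hp0 := Real.sqrt_pos.2 ha
  have hadm := beta1_adm (p := Real.sqrt a) (q := 0) (a := a) (m := 0) le_rfl ha.le rfl (by simp) (by simpa using hp0)
  have hval : Value ell0 0 a (torusVolume E) (4 / 3 * a + 2 * Real.sqrt Real.pi / Real.sqrt a * torusVolume E) :=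
    ⟨_, _, _, hadm, zero_value hV ha rfl⟩
  have := hA.limit_value2 hR hR₂ hR₃ hval
  linarith

/-- The ball branch: all the smallest sections vanish and the calibration is tight. -/
theorem ball_branch {E : Set R3} (hE : MeasurableSet E) (hper : PeriodicSet E) (hP : perimeter E ≠ ⊤)
    (hJ : (perimeter E).toReal ≤ profileJ (torusVolume E)) (hV : 0 < torusVolume E)
    {a₁ a₂ a₃ : ℝ} (ha₁ : 0 < a₁) (ha₂ : 0 < a₂) (ha₃ : 0 < a₃)
    (hR₁ : IsRange (mg1 E) 0 a₁) (hR₂ : IsRange (mg1 (sw12L ⁻¹' E)) 0 a₂)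
    (hR₃ : IsRange (mg1 (sw13L ⁻¹' E)) 0 a₃) : IsCanonical E (torusVolume E) := by
  set V := torusVolume E with hVdef
  have hE₂ : MeasurableSet (sw12L ⁻¹' E) := τ12.measurable_pre hE
  have hE₃ : MeasurableSet (sw13L ⁻¹' E) := τ13.measurable_pre hE
  have hp₂ : PeriodicSet (sw12L ⁻¹' E) := τ12.perSet hper
  have hp₃ : PeriodicSet (sw13L ⁻¹' E) := τ13.perSet hper
  have hP₂ : perimeter (sw12L ⁻¹' E) ≠ ⊤ := by
    have := τ12.perimeter_pre E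
    show perimeter (τ12.σ ⁻¹' E) ≠ ⊤
    rwa [this]
  have hP₃ : perimeter (sw13L ⁻¹' E) ≠ ⊤ := by
    have := τ13.perimeter_pre E
    show perimeter (τ13.σ ⁻¹' E) ≠ ⊤
    rwa [this]
  have ePer₂ : perimeter (sw12L ⁻¹' E) = perimeter E := τ12.perimeter_pre E
  have ePer₃ : perimeter (sw13L ⁻¹' E) = perimeter E := τ13.perimeter_pre E
  have eV₂ : torusVolume (sw12L ⁻¹' E) = V := τ12.volume_pre hE
  have eV₃ : torusVolume (sw13L ⁻¹' E) = V := τ13.volume_pre hE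
  -- the ranges of the relabelled sets
  have hR₂₁ : IsRange (mg1 (sw12L ⁻¹' (sw12L ⁻¹' E))) 0 a₁ := by rwa [sw12_sw12]
  have hR₂₃ : IsRange (mg1 (sw13L ⁻¹' (sw12L ⁻¹' E))) 0 a₃ := by
    have : mg1 (sw13L ⁻¹' (sw12L ⁻¹' E)) = mg1 (sw13L ⁻¹' E) := funext (mg1_12_13 hE)
    rwa [this]
  have hR₃₂ : IsRange (mg1 (sw12L ⁻¹' (sw13L ⁻¹' E))) 0 a₂ := by
    have : mg1 (sw12L ⁻¹' (sw13L ⁻¹' E)) = mg1 (sw12L ⁻¹' E) := funext (mg1_13_12 hE)
    rwa [this]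
  have hR₃₁ : IsRange (mg1 (sw13L ⁻¹' (sw13L ⁻¹' E))) 0 a₁ := by rwa [sw13_sw13]
  -- the values
  have v₁ := value_zero_dir hE hper hP ha₁ hV.le hR₁ hR₂ hR₃
  have v₂ := value_zero_dir hE₂ hp₂ hP₂ ha₂ (by rw [eV₂]; exact hV.le) hR₂ hR₂₁ hR₂₃
  have v₃ := value_zero_dir hE₃ hp₃ hP₃ ha₃ (by rw [eV₃]; exact hV.le) hR₃ hR₃₂ hR₃₁
  rw [eV₂, ePer₂] at v₂
  rw [eV₃, ePer₃] at v₃
  obtain ⟨r₁, h1, h2, h3, h4, h5⟩ := ball_arith ha₁ hV (v₁.trans hJ)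
  obtain ⟨r₂, i1, i2, i3, i4, i5⟩ := ball_arith ha₂ hV (v₂.trans hJ)
  obtain ⟨r₃, j1, j2, j3, j4, j5⟩ := ball_arith ha₃ hV (v₃.trans hJ)
  have hπ := Real.pi_pos
  have e12 : r₂ = r₁ := by
    have : r₂ ^ 3 = r₁ ^ 3 := by
      have : 4 / 3 * Real.pi * r₂ ^ 3 = 4 / 3 * Real.pi * r₁ ^ 3 := by rw [← i4, ← h4]
      exact mul_left_cancel₀ (by positivity) this
    exact (pow_left_inj₀ i1.le h1.le (by norm_num)).1 this
  have e13 : r₃ = r₁ := by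
    have : r₃ ^ 3 = r₁ ^ 3 := by
      have : 4 / 3 * Real.pi * r₃ ^ 3 = 4 / 3 * Real.pi * r₁ ^ 3 := by rw [← j4, ← h4]
      exact mul_left_cancel₀ (by positivity) this
    exact (pow_left_inj₀ j1.le h1.le (by norm_num)).1 this
  rw [e12] at i3
  rw [e13] at j3
  -- the rigidity
  obtain ⟨c₁, hc₁⟩ := ball_direction hE hper hP ha₁ hR₁ hR₂ hR₃ (hJ.trans h5)
  obtain ⟨c₂, hc₂⟩ := ball_direction hE₂ hp₂ hP₂ ha₂ hR₂ hR₂₁ hR₂₃ (by
    rw [eV₂, ePer₂]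
    exact hJ.trans i5)
  obtain ⟨c₃, hc₃⟩ := ball_direction hE₃ hp₃ hP₃ ha₃ hR₃ hR₃₂ hR₃₁ (by
    rw [eV₃, ePer₃]
    exact hJ.trans j5)
  have form : ∀ {a x c A : ℝ}, a = Real.pi * r₁ ^ 2 → a - Real.pi * cdist x c ^ 2 ≤ A →
      Real.pi * (r₁ ^ 2 - cdist x c ^ 2) ≤ A := by
    intro a x c A ea h
    rw [ea] at h
    linarith
  refine Or.inl ⟨c₁, c₂, c₃, r₁, h1, by linarith, h4.symm, ?_⟩
  refine ball_of_mg hE h1.le (by linarith) ?_ ?_ ?_ h4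
  · filter_upwards [hc₁] with x hx using form h3 hx
  · filter_upwards [hc₂] with x hx using form i3 hx
  · filter_upwards [hc₃] with x hx using form j3 hx

end Vale.Agent.Lib.P232
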