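import Vale.Agent.Lib.P232.Cl8b

open MeasureTheory Set intervalIntegral Filter
open scoped Topology ENNReal

namespace Vale.Agent.Lib.P232

/-! ### Almost everywhere on the circle -/

lemma ae_of_Ioc {P : ℝ → Prop} (hper : ∀ x, P (x + 1) ↔ P x)
    (h : ∀ᵐ x ∂(volume.restrict (Ioc (0:ℝ) 1)), P x) : ∀ᵐ x, P x := by
  rw [ae_restrict_iff' measurableSet_Ioc] at h
  have hp : Function.Periodic P 1 := fun x => propext (hper x)
  have hk : ∀ k : ℤ, ∀ᵐ x, x ∈ Ioc (k : ℝ) (k + 1) → P x := by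
    intro k
    have h1 := (measurePreserving_sub_right (volume : Measure ℝ) (k : ℝ)).quasiMeasurePreserving.ae h
    filter_upwards [h1] with x hx hmem
    have h2 : x - k ∈ Ioc (0:ℝ) 1 := ⟨by linarith [hmem.1], by linarith [hmem.2]⟩
    have h3 := hx h2
    have h4 := (hp.int_mul k) (x - k)
    simp only [mul_one, sub_add_cancel] at h4
    rw [h4]
    exact h3
  have hall := ae_all_iff.2 hk
  filter_upwards [hall] with x hx
  apply hx (⌈x⌉ - 1)
  push_cast
  constructor
  · linarith [Int.ceil_lt_add_one x]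
  · linarith [Int.le_ceil x]

lemma integral_tendsto_bdd {f : ℕ → ℝ → ℝ} {g : ℝ → ℝ} {C : ℝ} (hf : ∀ n, Measurable (f n))
    (hb : ∀ n x, |f n x| ≤ C) (hlim : ∀ᵐ x, Tendsto (fun n => f n x) atTop (𝓝 (g x))) :
    Tendsto (fun n => ∫ x in (0:ℝ)..1, f n x) atTop (𝓝 (∫ x in (0:ℝ)..1, g x)) := by
  apply intervalIntegral.tendsto_integral_filter_of_dominated_convergence (fun _ => C)
  · exact Filter.Eventually.of_forall fun n => (hf n).aestronglyMeasurable
  · exact Filter.Eventually.of_forall fun n => Filter.Eventually.of_forall fun x _ => by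
      simpa using hb n x
  · exact intervalIntegrable_const
  · filter_upwards [hlim] with x hx _
    exact hx

lemma ell_continuous : Continuous ell := by
  unfold ell
  fun_prop

lemma ell_eq_zero {s : ℝ} (h0 : 0 ≤ s) (h1 : s ≤ 1) (h : ell s = 0) : s = 0 ∨ s = 1 := by
  by_contra hne
  push Not at hne
  have hs0 : 0 < s := lt_of_le_of_ne h0 (Ne.symm hne.1)
  have hs1 : s < 1 := lt_of_le_of_ne h1 hne.2
  have hπ := Real.pi_pos
  have : 0 < ell s := by
    unfold ell
    refine lt_min (lt_min (by positivity) (by norm_num)) ?_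
    have : 0 < 1 - s := by linarith
    positivity
  linarith

/-! ### Splitting the perimeter -/

namespace Cal

variable (D : Cal)

/-- The perimeter splits between the sections and the variation of their masses. -/
lemma split {α γ : ℝ} (hα : 0 ≤ α) (hγ : 0 ≤ γ) (hn : α ^ 2 + γ ^ 2 ≤ 1) {g e : ℝ → ℝ} (hg : Continuous g)
    (he : Continuous e) (hprof : ∀ x, g (D.A x) - e x ≤ D.G x) :
    α * ((∫ x in (0:ℝ)..1, g (D.A x)) - ∫ x in (0:ℝ)..1, e x) + γ * ∫ x in (0:ℝ)..1, |D.A' x|
      ≤ ∫ x in (0:ℝ)..1, D.N x := by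
  have c1 : Continuous fun x => g (D.A x) := hg.comp D.contA
  have c2 : Continuous fun x => |D.A' x| := D.contD.abs
  have c3 : Continuous fun x => α * (g (D.A x) - e x) + γ * |D.A' x| :=
    (continuous_const.mul (c1.sub he)).add (continuous_const.mul c2)
  have h := intervalIntegral.integral_mono_on (μ := volume) zero_le_one (c3.intervalIntegrable 0 1)
    (D.contN.intervalIntegrable 0 1) (fun x _ => by
      have h1 := D.h1 x α γ hα hγ hn
      have h2 := mul_le_mul_of_nonneg_left (hprof x) hα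
      have h3 := mul_le_mul_of_nonneg_left (D.h2 x) hγ
      linarith)
  have c4 : Continuous fun x => g (D.A x) - e x := c1.sub he
  have c5 : Continuous fun x => α * (g (D.A x) - e x) := continuous_const.mul c4
  have c6 : Continuous fun x => γ * |D.A' x| := continuous_const.mul c2
  rw [intervalIntegral.integral_add (c5.intervalIntegrable _ _) (c6.intervalIntegrable _ _),
    intervalIntegral.integral_const_mul, intervalIntegral.integral_const_mul,
    intervalIntegral.integral_sub (c1.intervalIntegrable _ _) (he.intervalIntegrable _ _)] at h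
  exact h

/-- The variation of the masses is bounded by the total variation. -/
lemma var_le : ∫ x in (0:ℝ)..1, |D.A' x| ≤ ∫ x in (0:ℝ)..1, D.N x := by
  apply intervalIntegral.integral_mono_on zero_le_one (D.contD.abs.intervalIntegrable _ _)
    (D.contN.intervalIntegrable _ _)
  intro x _
  have h1 := D.h1 x 0 1 le_rfl zero_le_one (by norm_num)
  have h2 := D.h2 x
  linarith

lemma osc_var (xm xa : ℝ) : 2 * (D.A xa - D.A xm) ≤ ∫ x in (0:ℝ)..1, |D.A' x| :=
  osc_plain D.hasD D.contD D.per xm xa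

lemma piece (a b : ℝ) (h : a ≤ b) : |D.A b - D.A a| ≤ ∫ x in a..b, |D.A' x| := by
  have e : ∫ x in a..b, D.A' x = D.A b - D.A a :=
    intervalIntegral.integral_eq_sub_of_hasDerivAt (fun x _ => D.hasD x) (D.contD.intervalIntegrable _ _)
  rw [← e]
  exact intervalIntegral.abs_integral_le_integral_abs h

/-- The variation along four points of the circle. -/
lemma four_points {u₁ u₂ u₃ u₄ : ℝ} (h12 : u₁ ≤ u₂) (h23 : u₂ ≤ u₃) (h34 : u₃ ≤ u₄) (h41 : u₄ ≤ u₁ + 1) :
    |D.A u₂ - D.A u₁| + |D.A u₃ - D.A u₂| + |D.A u₄ - D.A u₃| + |D.A u₁ - D.A u₄|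
      ≤ ∫ x in (0:ℝ)..1, D.N x := by
  have hc := D.contD.abs
  have hper : Function.Periodic (fun x => |D.A' x|) 1 := by
    intro x
    simp only [deriv_periodic D.hasD D.per x]
  have e0 : ∫ x in (0:ℝ)..1, |D.A' x| = ∫ x in u₁..u₁ + 1, |D.A' x| := by
    have := hper.intervalIntegral_add_eq 0 u₁
    simpa using this
  have e1 := intervalIntegral.integral_add_adjacent_intervals (μ := volume) (hc.intervalIntegrable u₁ u₂) (hc.intervalIntegrable u₂ u₃)
  have e2 := intervalIntegral.integral_add_adjacent_intervals (μ := volume) (hc.intervalIntegrable u₁ u₃) (hc.intervalIntegrable u₃ u₄)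
  have e3 := intervalIntegral.integral_add_adjacent_intervals (μ := volume) (hc.intervalIntegrable u₁ u₄) (hc.intervalIntegrable u₄ (u₁ + 1))
  have p1 := D.piece u₁ u₂ h12
  have p2 := D.piece u₂ u₃ h23
  have p3 := D.piece u₃ u₄ h34
  have p4 := D.piece u₄ (u₁ + 1) h41
  rw [D.per u₁] at p4
  have := D.var_le
  linarith

end Cal

namespace Per3

variable (U : Per3)

/-- The error function of the profile of the sections. -/
noncomputable def eProf (κ τ x : ℝ) : ℝ := err τ κ ((U.sec x).F κ)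

lemma eProf_cont (κ τ : ℝ) : Continuous (U.eProf κ τ) := by
  have hF := U.cont_secF κ
  unfold eProf err
  fun_prop

lemma eProf_integral (κ τ : ℝ) : ∫ x in (0:ℝ)..1, U.eProf κ τ x = err τ κ (U.Ff κ) := by
  have hF := U.cont_secF κ
  have i1 : Continuous fun x => (U.sec x).F κ + 2 * κ := hF.add continuous_const
  have i2 : Continuous fun x => (4 / τ ^ 2) * ((U.sec x).F κ + 2 * κ) := continuous_const.mul i1
  unfold eProf err
  rw [intervalIntegral.integral_add (continuous_const.intervalIntegrable _ _) (i2.intervalIntegrable _ _),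
    intervalIntegral.integral_const_mul, intervalIntegral.integral_add (hF.intervalIntegrable _ _)
      (continuous_const.intervalIntegrable _ _), integral_secF]
  simp

lemma eProf_prof {κ τ : ℝ} (hκ : 0 < κ) (hτ : 0 < τ) (hτ1 : τ ≤ 1) (hκτ : 4 * κ ≤ τ) (x : ℝ) :
    Real.sqrt (ell (U.A₁ x)) - U.eProf κ τ x ≤ U.cal.G x := by
  have h := (U.sec x).profile hκ hτ hτ1 hκτ
  rw [sec_A] at h
  show _ ≤ (U.sec x).D
  unfold eProf err
  linarith

/-- The splitting of the perimeter for a smooth function. -/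
theorem split {α γ κ τ : ℝ} (hα : 0 ≤ α) (hγ : 0 ≤ γ) (hn : α ^ 2 + γ ^ 2 ≤ 1)
    (hκ : 0 < κ) (hτ : 0 < τ) (hτ1 : τ ≤ 1) (hκτ : 4 * κ ≤ τ) :
    α * ((∫ x in (0:ℝ)..1, Real.sqrt (ell (U.A₁ x))) - err τ κ (U.Ff κ))
      + γ * ∫ x in (0:ℝ)..1, |U.cal.A' x| ≤ U.P := by
  have h := U.cal.split (g := fun s => Real.sqrt (ell s)) (e := U.eProf κ τ) hα hγ hn
    ell_continuous.sqrt (U.eProf_cont κ τ) (U.eProf_prof hκ hτ hτ1 hκτ)
  rw [U.eProf_integral] at h
  exact h

end Per3

/-- When the sections reach both extreme values, and the perimeter is at most `2`, they have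
area `0` or `1`. -/
theorem corner_ae {E : Set R3} (hE : MeasurableSet E) (hper : PeriodicSet E) (hP : perimeter E ≠ ⊤)
    (hR : IsRange (mg1 E) 0 1) (hJ : (perimeter E).toReal ≤ 2) :
    ∀ᵐ x, mg1 E x = 0 ∨ mg1 E x = 1 := by
  set U := smoothSeq hE hper with hU
  have hA : Approx E U := approx_smoothSeq hE hper hP
  obtain ⟨xm, xa, hxm, hxa, hm, ha', ltm, lta⟩ := hA.extremes hR
  have hsq : Continuous fun s => Real.sqrt (ell s) := ell_continuous.sqrt
  have hbd : ∀ s, |Real.sqrt (ell s)| ≤ 2 := by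
    intro s
    rw [abs_of_nonneg (Real.sqrt_nonneg _)]
    exact sqrt_ell_le_strip s
  have hI := integral_tendsto_bdd (f := fun n x => Real.sqrt (ell ((U n).A₁ x)))
    (g := fun x => Real.sqrt (ell (mg1 E x))) (C := 2)
    (fun n => (hsq.comp (U n).cont_A₁).measurable) (fun n x => hbd _)
    (by
      filter_upwards [hA.lim₁] with x hx
      exact (hsq.tendsto _).comp hx)
  set I := ∫ x in (0:ℝ)..1, Real.sqrt (ell (mg1 E x)) with hIdef
  have hstep : ∀ ε : ℝ, 0 < ε → ε ≤ 1 → ∀ τ : ℝ, 0 < τ → τ ≤ 1 →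
      ε * (I - Per3.err τ (τ ^ 3 / 4) 0) + Real.sqrt (1 - ε ^ 2) * 2 ≤ 2 := by
    intro ε hε hε1 τ hτ hτ1
    have hκ : 0 < τ ^ 3 / 4 := by positivity
    have hκτ := kappa_ok hτ hτ1
    have hs : 0 ≤ 1 - ε ^ 2 := by nlinarith
    have hn : ε ^ 2 + Real.sqrt (1 - ε ^ 2) ^ 2 ≤ 1 := by
      rw [Real.sq_sqrt hs]
      linarith
    have hF := hA.Ff (τ ^ 3 / 4) hκ
    have herr : Tendsto (fun n => Per3.err τ (τ ^ 3 / 4) ((U n).Ff (τ ^ 3 / 4))) atTop (𝓝 (Per3.err τ (τ ^ 3 / 4) 0)) := by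
      unfold Per3.err
      exact tendsto_const_nhds.add (tendsto_const_nhds.mul (hF.add tendsto_const_nhds))
    have hlim : Tendsto (fun n => ε * ((∫ x in (0:ℝ)..1, Real.sqrt (ell ((U n).A₁ x))) - Per3.err τ (τ ^ 3 / 4) ((U n).Ff (τ ^ 3 / 4)))
        + Real.sqrt (1 - ε ^ 2) * (2 * ((U n).A₁ (xa n) - (U n).A₁ (xm n))))
        atTop (𝓝 (ε * (I - Per3.err τ (τ ^ 3 / 4) 0) + Real.sqrt (1 - ε ^ 2) * (2 * (1 - 0)))) :=
      (tendsto_const_nhds.mul (hI.sub herr)).add (tendsto_const_nhds.mul (tendsto_const_nhds.mul (lta.sub ltm)))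
    have hle : ε * (I - Per3.err τ (τ ^ 3 / 4) 0) + Real.sqrt (1 - ε ^ 2) * (2 * (1 - 0)) ≤ 2 := by
      refine le_of_tendsto' hlim fun n => ?_
      have h1 := (U n).split hε.le (Real.sqrt_nonneg _) hn hκ hτ hτ1 hκτ
      have h2 := (U n).cal.osc_var (xm n) (xa n)
      have h3 := mul_le_mul_of_nonneg_left h2 (Real.sqrt_nonneg (1 - ε ^ 2))
      have h4 := hA.per n
      have e : (U n).cal.A = (U n).A₁ := rfl
      rw [e] at h3
      linarith
    simpa using hle
  have hI0 : I ≤ 0 := by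
    apply le_of_forall_pos_le_add
    intro δ hδ
    set ε := min 1 (δ / 4) with hεdef
    have hε0 : 0 < ε := lt_min one_pos (by positivity)
    have hε1 : ε ≤ 1 := min_le_left _ _
    have hεδ : ε ≤ δ / 4 := min_le_right _ _
    have hγ : 1 - ε ^ 2 ≤ Real.sqrt (1 - ε ^ 2) := by
      apply Real.le_sqrt_of_sq_le
      have h1 : 0 ≤ 1 - ε ^ 2 := by nlinarith
      have h2 : 0 ≤ ε ^ 2 := sq_nonneg ε
      nlinarith
    have h1 : I ≤ 2 * ε + 12 * (δ / 4 / 12 + 0) := by
      have h0 : ∀ τ : ℝ, 0 < τ → τ ≤ 1 → ε * (I - 12 * τ) + (1 - ε ^ 2) * 2 ≤ 2 := by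
        intro τ hτ hτ1
        have h2 := hstep ε hε0 hε1 τ hτ hτ1
        have h3 := err_small hτ hτ1
        have h4 : ε * (I - 12 * τ) ≤ ε * (I - Per3.err τ (τ ^ 3 / 4) 0) :=
          mul_le_mul_of_nonneg_left (by linarith) hε0.le
        nlinarith
      set τ := min 1 (δ / 4 / 12) with hτdef
      have hτ0 : 0 < τ := lt_min one_pos (by positivity)
      have hτ1 : τ ≤ 1 := min_le_left _ _
      have hτδ : τ ≤ δ / 4 / 12 := min_le_right _ _
      have h5 := h0 τ hτ0 hτ1
      have h6 : ε * (I - 12 * τ - 2 * ε) ≤ ε * 0 := by nlinarith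
      have h7 := le_of_mul_le_mul_left h6 hε0
      linarith
    linarith
  -- the vanishing of the profile
  have hnn : 0 ≤ᵐ[volume.restrict (Ioc (0:ℝ) 1)] fun x => Real.sqrt (ell (mg1 E x)) :=
    Filter.Eventually.of_forall fun x => Real.sqrt_nonneg _
  have hmeas : Measurable fun x => Real.sqrt (ell (mg1 E x)) := hsq.measurable.comp (mg1_measurable hE)
  have hint : IntegrableOn (fun x => Real.sqrt (ell (mg1 E x))) (Ioc (0:ℝ) 1) :=
    Measure.integrableOn_of_bounded (M := 2) (by simp) hmeas.aestronglyMeasurable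
      (Filter.Eventually.of_forall fun x => by simpa using hbd (mg1 E x))
  have hI00 : ∫ x in Ioc (0:ℝ) 1, Real.sqrt (ell (mg1 E x)) = 0 := by
    rw [← intervalIntegral.integral_of_le zero_le_one]
    apply le_antisymm hI0
    exact intervalIntegral.integral_nonneg zero_le_one fun x _ => Real.sqrt_nonneg _
  have hz := (setIntegral_eq_zero_iff_of_nonneg_ae hnn hint).1 hI00
  have hz' : ∀ᵐ x ∂(volume.restrict (Ioc (0:ℝ) 1)), mg1 E x = 0 ∨ mg1 E x = 1 := by
    filter_upwards [hz] with x hx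
    have h0 := mg1_nonneg (E := E) x
    have h1 := mg1_le_one hE x
    have h2 : Real.sqrt (ell (mg1 E x)) = 0 := hx
    have h3 := ell_nonneg h0 h1
    have h4 : ell (mg1 E x) = 0 := by
      rw [Real.sqrt_eq_zero h3] at h2
      exact h2
    exact ell_eq_zero h0 h1 h4
  refine ae_of_Ioc (fun x => ?_) hz'
  rw [mg1_periodic hper]

/-- There is no alternation between the values `0` and `1` along four points. -/
lemma no_alternation {D : ℕ → Cal} {P₀ : ℝ} (hN : ∀ n, (∫ x in (0:ℝ)..1, (D n).N x) ≤ P₀)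
    (hP₀ : P₀ < 4) {u₁ u₂ u₃ u₄ : ℝ} (h12 : u₁ ≤ u₂) (h23 : u₂ ≤ u₃) (h34 : u₃ ≤ u₄) (h41 : u₄ ≤ u₁ + 1)
    (l1 : Tendsto (fun n => (D n).A u₁) atTop (𝓝 1)) (l2 : Tendsto (fun n => (D n).A u₂) atTop (𝓝 0))
    (l3 : Tendsto (fun n => (D n).A u₃) atTop (𝓝 1)) (l4 : Tendsto (fun n => (D n).A u₄) atTop (𝓝 0)) :
    False := by
  have hlim := (((l2.sub l1).abs.add (l3.sub l2).abs).add (l4.sub l3).abs).add (l1.sub l4).abs
  have hle := le_of_tendsto' hlim fun n => ((D n).four_points h12 h23 h34 h41).trans (hN n)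
  norm_num at hle
  linarith

/-- The slab: when the sections have area `0` or `1` and the perimeter is at most `2`. -/
theorem slab_finish {E : Set R3} (hE : MeasurableSet E) (hper : PeriodicSet E) (hP : perimeter E ≠ ⊤)
    (hJ : (perimeter E).toReal ≤ 2) (h01 : ∀ᵐ x, mg1 E x = 0 ∨ mg1 E x = 1)
    (hV : 0 < torusVolume E) (hV1 : torusVolume E < 1) :
    ∃ c, AeEqTorus E (slabX c (torusVolume E)) := by
  set U := smoothSeq hE hper with hU
  have hA : Approx E U := approx_smoothSeq hE hper hP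
  set V := torusVolume E with hVdef
  have hN : ∀ n, (∫ x in (0:ℝ)..1, (U n).cal.N x) ≤ (perimeter E).toReal := fun n => hA.per n
  have hnoalt := fun {u₁ u₂ u₃ u₄ : ℝ} => no_alternation (D := fun n => (U n).cal) (u₁ := u₁) (u₂ := u₂) (u₃ := u₃) (u₄ := u₄) hN (by linarith)
  set Gd : Set ℝ := {x | Tendsto (fun n => (U n).A₁ x) atTop (𝓝 (mg1 E x)) ∧ (mg1 E x = 0 ∨ mg1 E x = 1)} with hGd
  have hGae : ∀ᵐ x, x ∈ Gd := by
    filter_upwards [hA.lim₁, h01] with x h1 h2
    exact ⟨h1, h2⟩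
  have hmgper := mg1_periodic hper
  have hGper : ∀ (k : ℤ) x, x ∈ Gd → x + k ∈ Gd := by
    intro k x hx
    refine ⟨?_, ?_⟩
    · rw [per_int hmgper k x]
      have : (fun n => (U n).A₁ (x + k)) = fun n => (U n).A₁ x := funext fun n => per_int (U n).per_A₁ k x
      rw [this]
      exact hx.1
    · rw [per_int hmgper k x]
      exact hx.2
  have hmgI : ∀ t, ∫ x in t..t + 1, mg1 E x = V := by
    intro t
    have hp : Function.Periodic (mg1 E) 1 := hmgper
    have := hp.intervalIntegral_add_eq t 0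
    rw [this, zero_add]
    exact mg1_integral hE
  have hii := mg1_ii hE
  -- a point outside
  have ht₀ : ∃ t₀ ∈ Gd, mg1 E t₀ = 0 := by
    by_contra hno
    push Not at hno
    have h1 : ∀ᵐ x, (1:ℝ) ≤ mg1 E x := by
      filter_upwards [hGae] with x hx
      rcases hx.2 with h | h
      · exact absurd h (hno x hx)
      · exact h.ge
    have h2 := intervalIntegral.integral_mono_ae (μ := volume) (a := (0:ℝ)) (b := 1) (f := fun _ => (1:ℝ))
      zero_le_one intervalIntegrable_const (hii 0 1) h1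
    rw [mg1_integral hE] at h2
    simp at h2
    linarith
  obtain ⟨t₀, ht₀G, ht₀0⟩ := ht₀
  set S : Set ℝ := {x | x ∈ Gd ∧ mg1 E x = 1 ∧ t₀ < x ∧ x < t₀ + 1} with hS
  have hSne : S.Nonempty := by
    by_contra hno
    rw [Set.not_nonempty_iff_eq_empty] at hno
    have h0 : ∫ x in t₀..t₀ + 1, mg1 E x = ∫ x in t₀..t₀ + 1, (0:ℝ) := by
      apply intervalIntegral.integral_congr_ae
      have hne : ∀ᵐ x : ℝ, x ≠ t₀ + 1 := compl_mem_ae_iff.2 (measure_singleton _)
      filter_upwards [hGae, hne] with x hx hx2 hmem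
      rw [uIoc_of_le (by linarith)] at hmem
      rcases hx.2 with h | h
      · exact h
      · exfalso
        have : x ∈ S := ⟨hx, h, hmem.1, lt_of_le_of_ne hmem.2 hx2⟩
        rw [hno] at this
        exact this
    rw [hmgI] at h0
    simp at h0
    linarith
  have hbA : BddAbove S := ⟨t₀ + 1, fun x hx => hx.2.2.2.le⟩
  have hbB : BddBelow S := ⟨t₀, fun x hx => hx.2.2.1.le⟩
  set l := sInf S with hl
  set u := sSup S with hu
  obtain ⟨s₀, hs₀⟩ := hSne
  have hlu : l ≤ u := (csInf_le hbB hs₀).trans (le_csSup hbA hs₀)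
  have hl0 : t₀ ≤ l := le_csInf ⟨s₀, hs₀⟩ fun x hx => hx.2.2.1.le
  have hu1 : u ≤ t₀ + 1 := csSup_le ⟨s₀, hs₀⟩ fun x hx => hx.2.2.2.le
  have ht₁ : Tendsto (fun n => (U n).A₁ (t₀ + 1)) atTop (𝓝 0) := by
    have h1 : (fun n => (U n).A₁ (t₀ + 1)) = fun n => (U n).A₁ t₀ := funext fun n => (U n).per_A₁ t₀
    rw [h1]
    have h2 := ht₀G.1
    rwa [ht₀0] at h2
  -- the values inside the arc
  have hinside : ∀ x ∈ Gd, l < x → x < u → mg1 E x = 1 := by
    intro x hx h1 h2
    rcases hx.2 with h | h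
    · exfalso
      obtain ⟨s₁, hs₁, hs₁x⟩ := exists_lt_of_csInf_lt ⟨s₀, hs₀⟩ h1
      obtain ⟨s₂, hs₂, hs₂x⟩ := exists_lt_of_lt_csSup ⟨s₀, hs₀⟩ h2
      have l1 : Tendsto (fun n => (U n).A₁ s₁) atTop (𝓝 1) := by
        have := hs₁.1.1
        rwa [hs₁.2.1] at this
      have l3 : Tendsto (fun n => (U n).A₁ s₂) atTop (𝓝 1) := by
        have := hs₂.1.1
        rwa [hs₂.2.1] at this
      have l2 : Tendsto (fun n => (U n).A₁ x) atTop (𝓝 0) := by
        have := hx.1
        rwa [h] at this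
      exact hnoalt hs₁x.le hs₂x.le hs₂.2.2.2.le (by linarith [hs₁.2.2.1]) l1 l2 l3 ht₁
    · exact h
  -- the values outside the arc
  have houtside : ∀ x ∈ Gd, t₀ < x → x < t₀ + 1 → (x < l ∨ u < x) → mg1 E x = 0 := by
    intro x hx h1 h2 h3
    rcases hx.2 with h | h
    · exact h
    · exfalso
      have hxS : x ∈ S := ⟨hx, h, h1, h2⟩
      rcases h3 with h3 | h3
      · exact absurd (csInf_le hbB hxS) (not_le.2 h3)
      · exact absurd (le_csSup hbA hxS) (not_le.2 h3)
  -- the width of the arc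
  have hwidth : V ≤ u - l := by
    have e1 : ∫ x in t₀..l, mg1 E x = ∫ x in t₀..l, (0:ℝ) := by
      apply intervalIntegral.integral_congr_ae
      have hne : ∀ᵐ x : ℝ, x ≠ l := compl_mem_ae_iff.2 (measure_singleton _)
      filter_upwards [hGae, hne] with x hx hx2 hmem
      rw [uIoc_of_le hl0] at hmem
      have h3 : x < l := lt_of_le_of_ne hmem.2 hx2
      exact houtside x hx hmem.1 (by linarith) (Or.inl h3)
    have e2 : ∫ x in u..t₀ + 1, mg1 E x = ∫ x in u..t₀ + 1, (0:ℝ) := by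
      apply intervalIntegral.integral_congr_ae
      have hne : ∀ᵐ x : ℝ, x ≠ t₀ + 1 := compl_mem_ae_iff.2 (measure_singleton _)
      filter_upwards [hGae, hne] with x hx hx2 hmem
      rw [uIoc_of_le hu1] at hmem
      exact houtside x hx (by linarith [hmem.1]) (lt_of_le_of_ne hmem.2 hx2) (Or.inr hmem.1)
    have e3 : ∫ x in l..u, mg1 E x ≤ ∫ x in l..u, (1:ℝ) :=
      intervalIntegral.integral_mono_on hlu (hii _ _) intervalIntegrable_const fun x _ => mg1_le_one hE x
    have e4 := intervalIntegral.integral_add_adjacent_intervals (hii t₀ l) (hii l (t₀ + 1))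
    have e5 := intervalIntegral.integral_add_adjacent_intervals (hii l u) (hii u (t₀ + 1))
    rw [hmgI] at e4
    simp at e1 e2 e3
    linarith
  -- the conclusion
  set c := (l + u) / 2 with hc
  refine ⟨c, slab_of_mg hE hV.le hV1.le ?_ rfl⟩
  filter_upwards [hGae] with x hx
  by_cases hd : cdist x c < V / 2
  · rw [indicator_of_mem (show cdist x c ∈ Iio (V / 2) from hd)]
    obtain ⟨k, hk⟩ := exists_shift x c
    have hlt : |x - (c + k)| < V / 2 := by rwa [hk]
    rw [abs_lt] at hlt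
    have hy := hGper (-k) x hx
    push_cast at hy
    have h1 := hinside _ hy (by rw [hc] at hlt; linarith [hlt.1]) (by rw [hc] at hlt; linarith [hlt.2])
    have h2 := per_int hmgper (-k) x
    push_cast at h2
    rw [h2] at h1
    exact h1.ge
  · rw [indicator_of_notMem (show cdist x c ∉ Iio (V / 2) from hd)]
    exact mg1_nonneg x

end Vale.Agent.Lib.P232
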