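import Mathlib

open MeasureTheory Set intervalIntegral

namespace Vale.Agent.Lib.P232

/-- The derivative of a periodic function is periodic. -/
lemma deriv_periodic {f f' : ℝ → ℝ} (hf : ∀ x, HasDerivAt f (f' x) x)
    (hper : ∀ x, f (x + 1) = f x) (x : ℝ) : f' (x + 1) = f' x := by
  have h1 : HasDerivAt (fun t => f (t + 1)) (f' (x + 1)) x := by
    have := (hf (x + 1)).comp_add_const x 1
    simpa using this
  have h2 : (fun t => f (t + 1)) = f := funext hper
  rw [h2] at h1
  exact h1.unique (hf x)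

/-- Weighted oscillation bound on the circle. -/
lemma osc_weighted {f f' β : ℝ → ℝ} (hf : ∀ x, HasDerivAt f (f' x) x) (hf' : Continuous f')
    (hper : ∀ x, f (x + 1) = f x) (hβ : Continuous β) (hβ0 : ∀ s, 0 ≤ β s) (a b : ℝ) :
    2 * ∫ s in f a..f b, β s ≤ ∫ x in (0:ℝ)..1, β (f x) * |f' x| := by
  have hfc : Continuous f := continuous_iff_continuousAt.2 fun x => (hf x).continuousAt
  set g : ℝ → ℝ := fun x => β (f x) * |f' x| with hg
  have hgc : Continuous g := (hβ.comp hfc).mul hf'.abs
  have hf'per := deriv_periodic hf hper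
  have hgper : Function.Periodic g 1 := by
    intro x
    simp only [hg, hper x, hf'per x]
  -- antiderivative
  set Γ : ℝ → ℝ := fun s => ∫ t in f a..s, β t with hΓ
  have hΓd : ∀ s, HasDerivAt Γ (β s) s := fun s =>
    intervalIntegral.integral_hasDerivAt_right (hβ.intervalIntegrable _ _)
      (hβ.stronglyMeasurableAtFilter _ _) hβ.continuousAt
  have hh : ∀ x, HasDerivAt (fun t => Γ (f t)) (β (f x) * f' x) x := fun x =>
    (hΓd (f x)).comp x (hf x)
  have hhc : Continuous fun x => β (f x) * f' x := (hβ.comp hfc).mul hf'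
  -- the shifted point
  have hfper : Function.Periodic f 1 := hper
  set n : ℤ := ⌊b - a⌋ with hn
  set b' : ℝ := b - n with hb'
  have hfb' : f b' = f b := by
    have := hfper.sub_int_mul_eq (x := b) n
    simpa [hb'] using this
  have hb1 : a ≤ b' := by
    have := Int.floor_le (b - a)
    simp only [hb', hn]; linarith
  have hb2 : b' ≤ a + 1 := by
    have := Int.lt_floor_add_one (b - a)
    simp only [hb', hn]; linarith
  have hshift : ∫ x in (0:ℝ)..1, g x = ∫ x in a..a + 1, g x := by
    have := hgper.intervalIntegral_add_eq 0 a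
    simpa using this
  have hsplit : ∫ x in a..a + 1, g x = (∫ x in a..b', g x) + ∫ x in b'..a + 1, g x :=
    (intervalIntegral.integral_add_adjacent_intervals (hgc.intervalIntegrable _ _)
      (hgc.intervalIntegrable _ _)).symm
  have h1 : ∫ x in a..b', β (f x) * f' x ≤ ∫ x in a..b', g x := by
    apply intervalIntegral.integral_mono_on hb1 (hhc.intervalIntegrable _ _)
      (hgc.intervalIntegrable _ _)
    intro x _
    simp only [hg]
    exact mul_le_mul_of_nonneg_left (le_abs_self _) (hβ0 _)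
  have hhc' : Continuous fun x => -(β (f x) * f' x) := hhc.neg
  have h2 : ∫ x in b'..a + 1, -(β (f x) * f' x) ≤ ∫ x in b'..a + 1, g x := by
    apply intervalIntegral.integral_mono_on hb2 (hhc'.intervalIntegrable _ _)
      (hgc.intervalIntegrable _ _)
    intro x _
    simp only [hg]
    rw [← mul_neg]
    exact mul_le_mul_of_nonneg_left (neg_le_abs _) (hβ0 _)
  have e1 : ∫ x in a..b', β (f x) * f' x = Γ (f b') - Γ (f a) :=
    intervalIntegral.integral_eq_sub_of_hasDerivAt (fun x _ => hh x) (hhc.intervalIntegrable _ _)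
  have e2 : ∫ x in b'..a + 1, -(β (f x) * f' x) = Γ (f b') - Γ (f (a + 1)) := by
    rw [intervalIntegral.integral_neg,
      intervalIntegral.integral_eq_sub_of_hasDerivAt (fun x _ => hh x)
        (hhc.intervalIntegrable _ _)]
    ring
  rw [hper a] at e2
  have e3 : Γ (f a) = 0 := by simp [hΓ]
  have e4 : Γ (f b') = ∫ s in f a..f b, β s := by simp [hΓ, hfb']
  rw [hshift, hsplit]
  rw [e3, e4] at e1
  rw [e3, e4] at e2
  linarith

/-- Plain oscillation bound on the circle: `∫|f'| ≥ 2 (f b - f a)`. -/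
lemma osc_plain {f f' : ℝ → ℝ} (hf : ∀ x, HasDerivAt f (f' x) x) (hf' : Continuous f')
    (hper : ∀ x, f (x + 1) = f x) (a b : ℝ) :
    2 * (f b - f a) ≤ ∫ x in (0:ℝ)..1, |f' x| := by
  have := osc_weighted (β := fun _ => (1:ℝ)) hf hf' hper continuous_const (fun _ => zero_le_one) a b
  simpa using this

/-- The calibration lemma on the circle. -/
theorem calib_core {A A' N G P e β : ℝ → ℝ} {k H : ℝ}
    (hA : ∀ x, HasDerivAt A (A' x) x) (hA' : Continuous A') (hper : ∀ x, A (x + 1) = A x)
    (hN : Continuous N) (he : Continuous e) (hβ : Continuous β) (hβ0 : ∀ s, 0 ≤ β s)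
    (h1 : ∀ x α γ, 0 ≤ α → 0 ≤ γ → α ^ 2 + γ ^ 2 ≤ 1 → α * G x + γ * P x ≤ N x)
    (h2 : ∀ x, |A' x| ≤ P x)
    (hβ1 : ∀ x, β (A x) ≤ 1)
    (h3 : ∀ x, k + H * A x - e x ≤ Real.sqrt (1 - β (A x) ^ 2) * G x)
    (xm xa : ℝ) :
    k + H * (∫ x in (0:ℝ)..1, A x) - (∫ x in (0:ℝ)..1, e x)
        + 2 * ∫ s in A xm..A xa, β s ≤ ∫ x in (0:ℝ)..1, N x := by
  have hAc : Continuous A := continuous_iff_continuousAt.2 fun x => (hA x).continuousAt
  have hosc := osc_weighted hA hA' hper hβ hβ0 xm xa
  have hpt : ∀ x, (k + H * A x - e x) + β (A x) * |A' x| ≤ N x := by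
    intro x
    have hb0 := hβ0 (A x)
    have hb1 := hβ1 x
    have hs : 0 ≤ 1 - β (A x) ^ 2 := by nlinarith
    have hα : Real.sqrt (1 - β (A x) ^ 2) ^ 2 = 1 - β (A x) ^ 2 := Real.sq_sqrt hs
    have h4 := h1 x (Real.sqrt (1 - β (A x) ^ 2)) (β (A x)) (Real.sqrt_nonneg _) hb0 (by rw [hα]; linarith)
    have h5 := h3 x
    have h6 : β (A x) * |A' x| ≤ β (A x) * P x := mul_le_mul_of_nonneg_left (h2 x) hb0
    linarith
  have hL : Continuous fun x => (k + H * A x - e x) + β (A x) * |A' x| :=
    ((continuous_const.add (continuous_const.mul hAc)).sub he).add ((hβ.comp hAc).mul hA'.abs)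
  have hint : ∫ x in (0:ℝ)..1, ((k + H * A x - e x) + β (A x) * |A' x|) ≤ ∫ x in (0:ℝ)..1, N x :=
    intervalIntegral.integral_mono_on zero_le_one (hL.intervalIntegrable _ _)
      (hN.intervalIntegrable _ _) (fun x _ => hpt x)
  have c0 : Continuous fun x => H * A x := continuous_const.mul hAc
  have c1 : Continuous fun x => k + H * A x := continuous_const.add c0
  have c2 : Continuous fun x => k + H * A x - e x := c1.sub he
  have c3 : Continuous fun x => β (A x) * |A' x| := (hβ.comp hAc).mul hA'.abs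
  have hsplit : ∫ x in (0:ℝ)..1, ((k + H * A x - e x) + β (A x) * |A' x|)
      = k + H * (∫ x in (0:ℝ)..1, A x) - (∫ x in (0:ℝ)..1, e x)
        + ∫ x in (0:ℝ)..1, β (A x) * |A' x| := by
    rw [intervalIntegral.integral_add (c2.intervalIntegrable _ _) (c3.intervalIntegrable _ _)]
    rw [intervalIntegral.integral_sub (c1.intervalIntegrable _ _) (he.intervalIntegrable _ _)]
    rw [intervalIntegral.integral_add (continuous_const.intervalIntegrable _ _)
        (c0.intervalIntegrable _ _)]
    rw [intervalIntegral.integral_const_mul]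
    simp
  rw [hsplit] at hint
  linarith

end Vale.Agent.Lib.P232
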