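import Mathlib

open MeasureTheory Set
open scoped ContDiff ENNReal

namespace Vale.Agent.Lib.P232

/-- Euclidean three-space, with coordinates `(x, y, z)`. -/
abbrev R3 := ℝ × ℝ × ℝ

/-- `E` is invariant under integer translations, i.e. `E` is the lift to `ℝ³` of a subset of
the cubic flat torus `T = ℝ³ / ℤ³`. -/
def PeriodicSet (E : Set R3) : Prop :=
  ∀ x y z : ℝ, ((x + 1, y, z) ∈ E ↔ (x, y, z) ∈ E) ∧ ((x, y + 1, z) ∈ E ↔ (x, y, z) ∈ E) ∧
    ((x, y, z + 1) ∈ E ↔ (x, y, z) ∈ E)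

/-- A real function on `ℝ³` that descends to the torus `T`. -/
def PeriodicFun (f : R3 → ℝ) : Prop :=
  ∀ x y z : ℝ, f (x + 1, y, z) = f (x, y, z) ∧ f (x, y + 1, z) = f (x, y, z) ∧
    f (x, y, z + 1) = f (x, y, z)

/-- The fundamental domain `[0,1)³` of `T`. -/
def unitCell : Set R3 := Ico 0 1 ×ˢ Ico 0 1 ×ˢ Ico 0 1

/-- Test fields for De Giorgi's perimeter on `T`: smooth `ℤ³`-periodic vector fields
`X = (X₁, X₂, X₃)` with Euclidean norm at most one everywhere. -/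
structure TestField where
  X₁ : R3 → ℝ
  X₂ : R3 → ℝ
  X₃ : R3 → ℝ
  smooth₁ : ContDiff ℝ ∞ X₁
  smooth₂ : ContDiff ℝ ∞ X₂
  smooth₃ : ContDiff ℝ ∞ X₃
  periodic₁ : PeriodicFun X₁
  periodic₂ : PeriodicFun X₂
  periodic₃ : PeriodicFun X₃
  norm_le_one : ∀ p : R3, X₁ p ^ 2 + X₂ p ^ 2 + X₃ p ^ 2 ≤ 1

/-- The divergence `∂₁X₁ + ∂₂X₂ + ∂₃X₃` of a test field. -/
noncomputable def TestField.divergence (X : TestField) (p : R3) : ℝ :=
  fderiv ℝ X.X₁ p (1, 0, 0) + fderiv ℝ X.X₂ p (0, 1, 0) + fderiv ℝ X.X₃ p (0, 0, 1)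

/-- De Giorgi's perimeter of `E ⊂ T` (the total variation of its indicator function on `T`),
`P(E) = sup { ∫_{E ∩ [0,1)³} div X : X a test field }`, with values in `[0, ∞]`. -/
noncomputable def perimeter (E : Set R3) : ℝ≥0∞ :=
  ⨆ X : TestField, ENNReal.ofReal (∫ p in E ∩ unitCell, X.divergence p)

/-- The volume `|E|` of `E ⊂ T`: the Lebesgue measure of `E ∩ [0,1)³`. -/
noncomputable def torusVolume (E : Set R3) : ℝ := (volume (E ∩ unitCell)).toReal

/-- The conjectural isoperimetric profile of the cubic three-torus, as a function of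
`v = min(V, 1 - V)`: the minimum of the perimeters of the ball, the tube and the slab of
volume `v`. -/
noncomputable def profileJ (v : ℝ) : ℝ :=
  min (min ((36 * Real.pi) ^ (1 / 3 : ℝ) * v ^ (2 / 3 : ℝ)) (2 * Real.sqrt (Real.pi * v))) 2

end Vale.Agent.Lib.P232
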