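import Vale.Agent.Lib.P232.GapDefs

open MeasureTheory Set intervalIntegral Filter

namespace Vale.Agent.Lib.P232

/-- The strip constant: the length of a circular arc across the unit interval. -/
noncomputable def stripL (ρ : ℝ) : ℝ :=
  ∫ y in (0:ℝ)..1, Real.sqrt (1 - ρ ^ 2 * (2 * y - 1) ^ 2)

/-- A polynomial lower bound for the strip constant. -/
noncomputable def stripLo (ρ : ℝ) : ℝ := 1 - ρ ^ 2 / 6 - ρ ^ 4 / 40 - ρ ^ 6 / 112 - ρ ^ 8 / 120

lemma sqrt_poly {u : ℝ} (h0 : 0 ≤ u) (h1 : u ≤ 16 / 25) :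
    1 - u / 2 - u ^ 2 / 8 - u ^ 3 / 16 - 3 / 40 * u ^ 4 ≤ Real.sqrt (1 - u) := by
  apply Real.le_sqrt_of_sq_le
  have e : (1 - u) - (1 - u / 2 - u ^ 2 / 8 - u ^ 3 / 16 - 3 / 40 * u ^ 4) ^ 2
      = u ^ 4 * (23 / 320 - 29 / 320 * u - 29 / 1280 * u ^ 2 - 3 / 320 * u ^ 3 - 9 / 1600 * u ^ 4) := by
    ring
  have h2 : u ^ 2 ≤ (16 / 25) ^ 2 := pow_le_pow_left₀ h0 h1 2
  have h3 : u ^ 3 ≤ (16 / 25) ^ 3 := pow_le_pow_left₀ h0 h1 3
  have h4 : u ^ 4 ≤ (16 / 25) ^ 4 := pow_le_pow_left₀ h0 h1 4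
  have h5 : 0 ≤ 23 / 320 - 29 / 320 * u - 29 / 1280 * u ^ 2 - 3 / 320 * u ^ 3 - 9 / 1600 * u ^ 4 := by
    norm_num at h2 h3 h4 ⊢
    linarith
  have h6 : 0 ≤ u ^ 4 * (23 / 320 - 29 / 320 * u - 29 / 1280 * u ^ 2 - 3 / 320 * u ^ 3 - 9 / 1600 * u ^ 4) :=
    mul_nonneg (by positivity) h5
  linarith

lemma stripLo_le {ρ : ℝ} (h0 : 0 ≤ ρ) (h1 : ρ ≤ 4 / 5) : stripLo ρ ≤ stripL ρ := by
  set p : ℝ → ℝ := fun y => 1 - (ρ ^ 2 * (2 * y - 1) ^ 2) / 2 - (ρ ^ 2 * (2 * y - 1) ^ 2) ^ 2 / 8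
    - (ρ ^ 2 * (2 * y - 1) ^ 2) ^ 3 / 16 - 3 / 40 * (ρ ^ 2 * (2 * y - 1) ^ 2) ^ 4 with hp
  set G : ℝ → ℝ := fun y => y - ρ ^ 2 / 12 * (2 * y - 1) ^ 3 - ρ ^ 4 / 80 * (2 * y - 1) ^ 5
    - ρ ^ 6 / 224 * (2 * y - 1) ^ 7 - ρ ^ 8 / 240 * (2 * y - 1) ^ 9 with hG
  have hd : ∀ y, HasDerivAt G (p y) y := by
    intro y
    have h1 : HasDerivAt (fun y : ℝ => 2 * y - 1) 2 y := by
      simpa using ((hasDerivAt_id y).const_mul 2).sub_const 1
    have h3 : HasDerivAt (fun y : ℝ => ρ ^ 2 / 12 * (2 * y - 1) ^ 3)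
        (ρ ^ 2 / 12 * (3 * (2 * y - 1) ^ 2 * 2)) y := by
      simpa using (h1.fun_pow 3).const_mul (ρ ^ 2 / 12)
    have h5 : HasDerivAt (fun y : ℝ => ρ ^ 4 / 80 * (2 * y - 1) ^ 5)
        (ρ ^ 4 / 80 * (5 * (2 * y - 1) ^ 4 * 2)) y := by
      simpa using (h1.fun_pow 5).const_mul (ρ ^ 4 / 80)
    have h7 : HasDerivAt (fun y : ℝ => ρ ^ 6 / 224 * (2 * y - 1) ^ 7)
        (ρ ^ 6 / 224 * (7 * (2 * y - 1) ^ 6 * 2)) y := by
      simpa using (h1.fun_pow 7).const_mul (ρ ^ 6 / 224)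
    have h9 : HasDerivAt (fun y : ℝ => ρ ^ 8 / 240 * (2 * y - 1) ^ 9)
        (ρ ^ 8 / 240 * (9 * (2 * y - 1) ^ 8 * 2)) y := by
      simpa using (h1.fun_pow 9).const_mul (ρ ^ 8 / 240)
    have h10 := (((((hasDerivAt_id' y).fun_sub h3).fun_sub h5).fun_sub h7).fun_sub h9)
    refine h10.congr_deriv ?_
    show _ = 1 - (ρ ^ 2 * (2 * y - 1) ^ 2) / 2 - (ρ ^ 2 * (2 * y - 1) ^ 2) ^ 2 / 8
      - (ρ ^ 2 * (2 * y - 1) ^ 2) ^ 3 / 16 - 3 / 40 * (ρ ^ 2 * (2 * y - 1) ^ 2) ^ 4
    ring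
  have hpc : Continuous p := by
    simp only [hp]
    fun_prop
  have e1 : ∫ y in (0:ℝ)..1, p y = stripLo ρ := by
    rw [intervalIntegral.integral_eq_sub_of_hasDerivAt (fun y _ => hd y) (hpc.intervalIntegrable _ _)]
    simp only [hG, stripLo]
    norm_num
    ring
  rw [← e1]
  unfold stripL
  have hc : Continuous fun y : ℝ => Real.sqrt (1 - ρ ^ 2 * (2 * y - 1) ^ 2) := by fun_prop
  apply intervalIntegral.integral_mono_on zero_le_one (hpc.intervalIntegrable _ _)
    (hc.intervalIntegrable _ _)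
  intro y hy
  have hy2 : (2 * y - 1) ^ 2 ≤ 1 := by nlinarith [hy.1, hy.2]
  have hr2 : ρ ^ 2 ≤ 16 / 25 := by nlinarith
  have hu : ρ ^ 2 * (2 * y - 1) ^ 2 ≤ 16 / 25 := by
    have : ρ ^ 2 * (2 * y - 1) ^ 2 ≤ ρ ^ 2 * 1 := mul_le_mul_of_nonneg_left hy2 (by positivity)
    linarith
  exact sqrt_poly (by positivity) hu

lemma stripL_zero : stripL 0 = 1 := by
  unfold stripL
  simp

namespace Per2

variable (W : Per2)

/-- The estimate for a section containing a whole line in the second direction. -/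
theorem strip_bound (hline : ∀ y, W.w y (1 / 2) = 1) {ρ : ℝ} (h0 : 0 ≤ ρ) (h1 : ρ ≤ 1) :
    2 * stripL ρ + 2 * ρ * (W.A - W.a 0) ≤ W.D + 2 * W.b 0 := by
  set σ : ℝ → ℝ := fun y => ρ * (2 * y - 1) with hσ
  set cs : ℝ → ℝ := fun y => Real.sqrt (1 - ρ ^ 2 * (2 * y - 1) ^ 2) with hcs
  set a' : ℝ → ℝ := fun y => ∫ z in (0:ℝ)..1, W.wy y z with ha'
  set N : ℝ → ℝ := fun y => ∫ z in (0:ℝ)..1, Real.sqrt (W.wy y z ^ 2 + W.wz y z ^ 2) with hN
  set G : ℝ → ℝ := fun y => ∫ z in (0:ℝ)..1, |W.wz y z| with hG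
  have cσ : Continuous σ := by
    simp only [hσ]
    fun_prop
  have ccs : Continuous cs := by
    simp only [hcs]
    fun_prop
  have ca' : Continuous a' := cont_param W.contY 0 1
  have cN : Continuous N := cont_param W.cont_grad 0 1
  have cG : Continuous G := cont_param W.cont_gradAbsZ 0 1
  have cw0 : Continuous fun y => W.w y 0 := W.cont_col 0
  have cA := W.cont_a
  have hder : ∀ y, HasDerivAt W.a (a' y) y := fun y => hasDerivAt_param W.cont W.contY W.hasY 0 1 y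
  -- the pointwise estimate
  have hpt : ∀ y ∈ Icc (0:ℝ) 1, 2 * cs y - 2 * W.w y 0 - σ y * a' y ≤ N y := by
    intro y hy
    have hy2 : (2 * y - 1) ^ 2 ≤ 1 := by nlinarith [hy.1, hy.2]
    have hρ2 : ρ ^ 2 ≤ 1 := by nlinarith
    have hu : ρ ^ 2 * (2 * y - 1) ^ 2 ≤ 1 := by
      have : ρ ^ 2 * (2 * y - 1) ^ 2 ≤ ρ ^ 2 * 1 := mul_le_mul_of_nonneg_left hy2 (by positivity)
      linarith
    have hcs0 : 0 ≤ cs y := Real.sqrt_nonneg _
    have hcs1 : cs y ≤ 1 := by
      simp only [hcs]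
      exact Real.sqrt_le_one.2 (by nlinarith [mul_nonneg (sq_nonneg ρ) (sq_nonneg (2 * y - 1))])
    have hcs2 : cs y ^ 2 = 1 - ρ ^ 2 * (2 * y - 1) ^ 2 := Real.sq_sqrt (by linarith)
    have hσ2 : |σ y| ^ 2 = ρ ^ 2 * (2 * y - 1) ^ 2 := by
      rw [sq_abs]
      simp only [hσ]
      ring
    have hαγ : cs y ^ 2 + |σ y| ^ 2 ≤ 1 := by
      rw [hcs2, hσ2]
      linarith
    have c1 : Continuous fun z => |W.wz y z| := W.cont_gradAbsZ.comp (Continuous.prodMk_right y)
    have c2 : Continuous fun z => W.wy y z := W.cont_rowY y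
    have c3 : Continuous fun z => Real.sqrt (W.wy y z ^ 2 + W.wz y z ^ 2) :=
      W.cont_grad.comp (Continuous.prodMk_right y)
    have hint : cs y * G y - σ y * a' y ≤ N y := by
      have e1 : cs y * G y = ∫ z in (0:ℝ)..1, cs y * |W.wz y z| :=
        (intervalIntegral.integral_const_mul _ _).symm
      have e2 : σ y * a' y = ∫ z in (0:ℝ)..1, σ y * W.wy y z :=
        (intervalIntegral.integral_const_mul _ _).symm
      rw [e1, e2, ← intervalIntegral.integral_sub ((c1.const_mul _).intervalIntegrable _ _)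
        ((c2.const_mul _).intervalIntegrable _ _)]
      apply intervalIntegral.integral_mono_on zero_le_one
        (((c1.const_mul _).sub (c2.const_mul _)).intervalIntegrable _ _) (c3.intervalIntegrable _ _)
      intro z _
      have h2 := cs_point (p := W.wz y z) (q := W.wy y z) hαγ
      have h3 : - (σ y * W.wy y z) ≤ |σ y| * |W.wy y z| := by
        rw [← abs_mul]
        exact neg_le_abs _
      rw [add_comm (W.wz y z ^ 2)] at h2
      show cs y * |W.wz y z| - σ y * W.wy y z ≤ _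
      linarith
    have hosc := osc_plain (W.hasZ y) (W.cont_rowZ y) (W.perZ y) 0 (1 / 2)
    rw [hline y] at hosc
    have hw0 := W.nn y 0
    have hw1 := W.le1 y 0
    have h4 : cs y * (2 * (1 - W.w y 0)) ≤ cs y * G y := mul_le_mul_of_nonneg_left hosc hcs0
    have h5 : cs y * W.w y 0 ≤ 1 * W.w y 0 := mul_le_mul_of_nonneg_right hcs1 hw0
    nlinarith
  -- integration
  have hL : Continuous fun y => 2 * cs y - 2 * W.w y 0 - σ y * a' y :=
    ((continuous_const.mul ccs).sub (continuous_const.mul cw0)).sub (cσ.mul ca')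
  have hint : ∫ y in (0:ℝ)..1, (2 * cs y - 2 * W.w y 0 - σ y * a' y) ≤ ∫ y in (0:ℝ)..1, N y :=
    intervalIntegral.integral_mono_on zero_le_one (hL.intervalIntegrable _ _)
      (cN.intervalIntegrable _ _) (fun y hy => hpt y hy)
  have hparts : ∫ y in (0:ℝ)..1, σ y * a' y = 2 * ρ * W.a 0 - 2 * ρ * W.A := by
    have hd2 : ∀ y, HasDerivAt (fun y => σ y * W.a y) (2 * ρ * W.a y + σ y * a' y) y := by
      intro y
      have h2 : HasDerivAt (fun y : ℝ => 2 * y - 1) 2 y := by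
        simpa using ((hasDerivAt_id y).const_mul 2).sub_const 1
      have h3 : HasDerivAt σ (2 * ρ) y := (h2.const_mul ρ).congr_deriv (by ring)
      exact h3.fun_mul (hder y)
    have c6 : Continuous fun y => 2 * ρ * W.a y := continuous_const.mul cA
    have c7 : Continuous fun y => σ y * a' y := cσ.mul ca'
    have c5 : Continuous fun y => 2 * ρ * W.a y + σ y * a' y := c6.add c7
    have h6 := intervalIntegral.integral_eq_sub_of_hasDerivAt (a := 0) (b := 1)
      (fun y _ => hd2 y) (c5.intervalIntegrable _ _)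
    rw [intervalIntegral.integral_add (c6.intervalIntegrable _ _)
      (c7.intervalIntegrable _ _), intervalIntegral.integral_const_mul] at h6
    have h7 : W.a 1 = W.a 0 := by
      have := W.per_a 0
      simpa using this
    have h8 : σ 1 = ρ := by
      simp only [hσ]
      ring
    have h9 : σ 0 = - ρ := by
      simp only [hσ]
      ring
    simp only [h7, h8, h9] at h6
    have hA : ∫ y in (0:ℝ)..1, W.a y = W.A := rfl
    rw [hA] at h6
    linarith
  have e1 : ∫ y in (0:ℝ)..1, (2 * cs y - 2 * W.w y 0 - σ y * a' y)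
      = 2 * stripL ρ - 2 * W.b 0 - (2 * ρ * W.a 0 - 2 * ρ * W.A) := by
    have c8 : Continuous fun y => 2 * cs y := continuous_const.mul ccs
    have c9 : Continuous fun y => 2 * W.w y 0 := continuous_const.mul cw0
    have c10 : Continuous fun y => 2 * cs y - 2 * W.w y 0 := c8.sub c9
    have c7 : Continuous fun y => σ y * a' y := cσ.mul ca'
    rw [intervalIntegral.integral_sub (c10.intervalIntegrable _ _) (c7.intervalIntegrable _ _),
      intervalIntegral.integral_sub (c8.intervalIntegrable _ _) (c9.intervalIntegrable _ _),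
      intervalIntegral.integral_const_mul, intervalIntegral.integral_const_mul, hparts]
    rfl
  rw [e1] at hint
  have hD : ∫ y in (0:ℝ)..1, N y = W.D := rfl
  rw [hD] at hint
  linarith

/-- The cut estimate, keeping the value of the largest row. -/
theorem cut_estimate_M {κ : ℝ} (hκ : 0 < κ) {ya : ℝ} (hya : ∀ y, W.a y ≤ W.a ya) (hM0 : 0 < W.a ya)
    (y₀ z₀ : ℝ) :
    2 / W.a ya * W.A + Real.pi * W.a ya / 2 - 2 * W.a y₀ - 2 * W.b z₀ - 4 * κ
      - (2 / W.a ya) * (W.F κ + 2 * κ) ≤ W.D := by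
  obtain ⟨ym, hym⟩ := exists_min_periodic W.cont_a W.per_a
  set M := W.a ya with hM
  have hMpos : 0 < M := hM0
  set β : ℝ → ℝ := fun s => Real.sqrt (1 - (s / M) ^ 2) with hβdef
  have hβc : Continuous β := by
    simp only [hβdef]
    fun_prop
  set e : ℝ → ℝ := fun y => 4 * κ + 2 * W.w y z₀ + (2 / M) * (W.f κ y + 2 * κ) with he
  have hec : Continuous e := by
    simp only [he]
    have := W.cont_col z₀
    have := W.cont_f κ
    fun_prop
  have key := calib_core (A := W.a) (A' := fun y => ∫ z in (0:ℝ)..1, W.wy y z)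
    (N := fun y => ∫ z in (0:ℝ)..1, Real.sqrt (W.wy y z ^ 2 + W.wz y z ^ 2))
    (G := fun y => ∫ z in (0:ℝ)..1, |W.wz y z|)
    (P := fun y => ∫ z in (0:ℝ)..1, |W.wy y z|)
    (e := e) (β := β) (k := 0) (H := 2 / M)
    (fun y => hasDerivAt_param W.cont W.contY W.hasY 0 1 y)
    (cont_param W.contY 0 1)
    W.per_a
    (cont_param W.cont_grad 0 1)
    hec hβc (fun s => Real.sqrt_nonneg _)
    (fun y α γ hα hγ h => by
      have c1 := W.cont_gradAbsZ.comp (Continuous.prodMk_right y)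
      have c2 := W.cont_gradAbsY.comp (Continuous.prodMk_right y)
      have c3 := W.cont_grad.comp (Continuous.prodMk_right y)
      simp only [Function.comp_def, Function.uncurry] at c1 c2 c3
      rw [← intervalIntegral.integral_const_mul, ← intervalIntegral.integral_const_mul,
        ← intervalIntegral.integral_add ((c1.const_mul α).intervalIntegrable _ _)
          ((c2.const_mul γ).intervalIntegrable _ _)]
      apply intervalIntegral.integral_mono_on zero_le_one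
        (((c1.const_mul α).add (c2.const_mul γ)).intervalIntegrable _ _)
        (c3.intervalIntegrable _ _)
      intro z _
      have := cs_point (p := W.wz y z) (q := W.wy y z) h
      rwa [add_comm (W.wz y z ^ 2)] at this)
    (fun y => intervalIntegral.abs_integral_le_integral_abs zero_le_one)
    (fun y => Real.sqrt_le_one.2 (by nlinarith [sq_nonneg (W.a y / M)]))
    (fun y => by
      have hy0 := W.a_nonneg y
      have hy1 := hya y
      have hs : Real.sqrt (1 - β (W.a y) ^ 2) = W.a y / M := by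
        have h0 : 0 ≤ W.a y / M := div_nonneg hy0 hMpos.le
        have h1 : W.a y / M ≤ 1 := (div_le_one hMpos).2 hy1
        have h2 : β (W.a y) ^ 2 = 1 - (W.a y / M) ^ 2 := by
          simp only [hβdef]
          rw [Real.sq_sqrt]
          nlinarith
        rw [h2]
        have : (1 - (1 - (W.a y / M) ^ 2)) = (W.a y / M) ^ 2 := by ring
        rw [this]
        exact Real.sqrt_sq h0
      rw [hs]
      have hfy := W.f_nonneg κ y
      have hw := W.nn y z₀
      have hMi : 0 < 2 / M := by positivity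
      rcases section_cut (W.hasZ y) (W.cont_rowZ y) (W.perZ y) hκ z₀ with h | h
      · have h' : 2 / M * W.a y ≤ 2 / M * (W.f κ y + 2 * κ) :=
          mul_le_mul_of_nonneg_left h hMi.le
        simp only [he]
        have hG : 0 ≤ ∫ z in (0:ℝ)..1, |W.wz y z| :=
          intervalIntegral.integral_nonneg zero_le_one fun z _ => abs_nonneg _
        have : 0 ≤ W.a y / M * ∫ z in (0:ℝ)..1, |W.wz y z| :=
          mul_nonneg (div_nonneg hy0 hMpos.le) hG
        linarith
      · simp only [he]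
        have hq0 : 0 ≤ W.a y / M := div_nonneg hy0 hMpos.le
        have hq1 : W.a y / M ≤ 1 := (div_le_one hMpos).2 hy1
        have h3 : W.a y / M * (2 * (1 - 2 * κ)) ≤
            W.a y / M * ((∫ z in (0:ℝ)..1, |W.wz y z|) + 2 * W.w y z₀) :=
          mul_le_mul_of_nonneg_left h hq0
        have h4 : W.a y / M * (2 * W.w y z₀) ≤ 1 * (2 * W.w y z₀) :=
          mul_le_mul_of_nonneg_right hq1 (by linarith)
        have h5 : W.a y / M * (4 * κ) ≤ 1 * (4 * κ) :=
          mul_le_mul_of_nonneg_right hq1 (by linarith)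
        have h6 : 2 / M * W.a y = W.a y / M * 2 := by ring
        have h7 : 0 ≤ 2 / M * (W.f κ y + 2 * κ) := by
          apply mul_nonneg hMi.le; linarith
        nlinarith)
    ym ya
  -- evaluate the terms
  have hc1 := W.cont_col z₀
  have hc2 := W.cont_f κ
  have hE : ∫ y in (0:ℝ)..1, e y = 4 * κ + 2 * W.b z₀ + (2 / M) * (W.F κ + 2 * κ) := by
    simp only [he, b, F]
    have i1 : Continuous fun y => 4 * κ + 2 * W.w y z₀ := continuous_const.add (continuous_const.mul hc1)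
    have i2 : Continuous fun y => (2 / M) * (W.f κ y + 2 * κ) :=
      continuous_const.mul (hc2.add continuous_const)
    have i3 : Continuous fun y => 2 * W.w y z₀ := continuous_const.mul hc1
    have i4 : Continuous fun y => W.f κ y + 2 * κ := hc2.add continuous_const
    rw [intervalIntegral.integral_add (i1.intervalIntegrable _ _) (i2.intervalIntegrable _ _)]
    rw [intervalIntegral.integral_add (continuous_const.intervalIntegrable _ _)
      (i3.intervalIntegrable _ _)]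
    have e1 : ∫ _ in (0:ℝ)..1, (4 * κ) = 4 * κ := by simp
    have e2 : ∫ y in (0:ℝ)..1, 2 * W.w y z₀ = 2 * ∫ y in (0:ℝ)..1, W.w y z₀ :=
      intervalIntegral.integral_const_mul _ _
    have e3 : ∫ y in (0:ℝ)..1, (2 / M) * (W.f κ y + 2 * κ)
        = (2 / M) * ((∫ y in (0:ℝ)..1, W.f κ y) + 2 * κ) := by
      rw [intervalIntegral.integral_const_mul, intervalIntegral.integral_add
        (hc2.intervalIntegrable _ _) (continuous_const.intervalIntegrable _ _)]
      simp
    rw [e1, e2, e3]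
  have hI : Real.pi * M / 4 - W.a ym ≤ ∫ s in W.a ym..M, β s :=
    integral_semicircle_ge hMpos (W.a_nonneg ym)
  have hy₀ := hym y₀
  have hV : ∫ y in (0:ℝ)..1, W.a y = W.A := rfl
  rw [hV, hE] at key
  have hD : (∫ y in (0:ℝ)..1, ∫ z in (0:ℝ)..1, Real.sqrt (W.wy y z ^ 2 + W.wz y z ^ 2)) = W.D := rfl
  rw [hD] at key
  linarith

/-- The estimate for a function with short rows. -/
theorem rods_bound {M₀ κ τ : ℝ} (hκ : 0 < κ) (hτ : 0 < τ) (hM₀ : 0 < M₀) (hrow : ∀ y, W.a y ≤ M₀)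
    (hA : Real.pi * M₀ ^ 2 / 4 ≤ W.A) (hAτ : τ ^ 2 ≤ W.A) (y₀ z₀ : ℝ) :
    2 / M₀ * W.A + Real.pi / 2 * M₀ ≤ W.D + 2 * W.a y₀ + 2 * W.b z₀ + 4 * κ
      + (2 / τ ^ 2) * (W.F κ + 2 * κ) := by
  obtain ⟨ya, hya⟩ := exists_max_periodic W.cont_a W.per_a
  have hAM : W.A ≤ W.a ya := by
    have := intervalIntegral.integral_mono_on (μ := volume) zero_le_one
      ((W.cont_a).intervalIntegrable 0 1)
      ((continuous_const (y := W.a ya)).intervalIntegrable 0 1) (fun y _ => hya y)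
    simpa [A] using this
  have hApos : 0 < W.A := lt_of_lt_of_le (by positivity) hAτ
  have hMpos : 0 < W.a ya := lt_of_lt_of_le hApos hAM
  have key := W.cut_estimate_M hκ hya hMpos y₀ z₀
  set M := W.a ya with hMdef
  have hMM : M ≤ M₀ := hrow ya
  have hFF : 0 ≤ W.F κ + 2 * κ := by linarith [W.F_nonneg κ]
  have hmon : (2 / M) * (W.F κ + 2 * κ) ≤ (2 / τ ^ 2) * (W.F κ + 2 * κ) := by
    apply mul_le_mul_of_nonneg_right _ hFF
    exact div_le_div_of_nonneg_left (by norm_num) (by positivity) (hAτ.trans hAM)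
  have hπ := Real.pi_pos
  have hval : 2 / M₀ * W.A + Real.pi / 2 * M₀ ≤ 2 / M * W.A + Real.pi * M / 2 := by
    have e : (2 / M * W.A + Real.pi * M / 2) - (2 / M₀ * W.A + Real.pi / 2 * M₀)
        = (M₀ - M) * ((2 * W.A - Real.pi / 2 * (M * M₀)) / (M * M₀)) := by
      field_simp
      ring
    have h1 : 0 ≤ 2 * W.A - Real.pi / 2 * (M * M₀) := by
      have : M * M₀ ≤ M₀ * M₀ := mul_le_mul_of_nonneg_right hMM hM₀.le
      nlinarith
    have h2 : 0 ≤ (M₀ - M) * ((2 * W.A - Real.pi / 2 * (M * M₀)) / (M * M₀)) :=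
      mul_nonneg (by linarith) (div_nonneg h1 (by positivity))
    linarith
  linarith

end Per2

/-! ### The constraints of the calibrations -/

/-- The constraint coming from a section with a whole line, with thin far face `T`. -/
def StripOK (T s w g : ℝ) : Prop :=
  ∃ ρ, 0 ≤ ρ ∧ ρ ≤ 1 ∧ 0 ≤ 2 * stripL ρ + 2 * ρ * (s - T) ∧
    w ^ 2 ≤ (1 - g ^ 2) * (2 * stripL ρ + 2 * ρ * (s - T)) ^ 2

/-- The constraint coming from a cross section with short complementary rows. -/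
def RodOK (M₀ s w g : ℝ) : Prop :=
  0 < M₀ ∧ Real.pi * M₀ ^ 2 / 4 ≤ 1 - s ∧
    w ^ 2 ≤ (1 - g ^ 2) * (2 / M₀ * (1 - s) + Real.pi / 2 * M₀) ^ 2

/-- The constraints for the sections away from the centre. -/
def FarCon (T s w g : ℝ) : Prop :=
  w ^ 2 ≤ (1 - g ^ 2) * (4 * Real.pi * s) ∧ w ^ 2 ≤ (1 - g ^ 2) * (4 * Real.pi * (1 - s)) ∧
    StripOK T s w g

/-- The constraints for the sections near the centre. -/
def NearCon (M₀ s w g : ℝ) : Prop :=
  w ^ 2 ≤ (1 - g ^ 2) * (4 * Real.pi * (1 - s)) ∨ RodOK M₀ s w g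

/-- All the constraints on a calibration. -/
def CG (T M₀ se k H δ s g : ℝ) : Prop :=
  0 ≤ g ∧ g ≤ 1 ∧ FarCon T s (k + H * s) g ∧ (se ≤ s → NearCon M₀ s (k + δ + H * s) g)

/-- From a squared constraint with a nonnegative root to the form used in the calibration. -/
lemma chord_step' {w r g D e : ℝ} (hg0 : 0 ≤ g) (hg1 : g ≤ 1) (hr : 0 ≤ r)
    (hcon : w ^ 2 ≤ (1 - g ^ 2) * r ^ 2) (hprof : r ≤ D + e) (he : 0 ≤ e) :
    w - e ≤ Real.sqrt (1 - g ^ 2) * D := by
  have h1 : 0 ≤ 1 - g ^ 2 := by nlinarith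
  set c := Real.sqrt (1 - g ^ 2) with hc
  have hc0 : 0 ≤ c := Real.sqrt_nonneg _
  have hc2 : c ^ 2 = 1 - g ^ 2 := Real.sq_sqrt h1
  have hc1 : c ≤ 1 := Real.sqrt_le_one.2 (by nlinarith)
  have h2 : w ≤ c * r := by
    have h3 : w ^ 2 ≤ (c * r) ^ 2 := by
      rw [mul_pow, hc2]
      exact hcon
    exact (abs_le_of_sq_le_sq' h3 (mul_nonneg hc0 hr)).2
  have h4 : c * r ≤ c * (D + e) := mul_le_mul_of_nonneg_left hprof hc0
  have h5 : c * e ≤ 1 * e := mul_le_mul_of_nonneg_right hc1 he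
  nlinarith

end Vale.Agent.Lib.P232
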