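import Vale.Agent.Lib.P232.Gap1

open MeasureTheory Set intervalIntegral Filter

namespace Vale.Agent.Lib.P232

/-- The calibration lemma on the circle, with an integrable error. -/
theorem calib_core' {A A' N G P e β : ℝ → ℝ} {k H : ℝ}
    (hA : ∀ x, HasDerivAt A (A' x) x) (hA' : Continuous A') (hper : ∀ x, A (x + 1) = A x)
    (hN : Continuous N) (he : IntervalIntegrable e volume 0 1) (hβ : Continuous β)
    (hβ0 : ∀ s, 0 ≤ β s)
    (h1 : ∀ x α γ, 0 ≤ α → 0 ≤ γ → α ^ 2 + γ ^ 2 ≤ 1 → α * G x + γ * P x ≤ N x)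
    (h2 : ∀ x, |A' x| ≤ P x)
    (hβ1 : ∀ x, β (A x) ≤ 1)
    (h3 : ∀ x ∈ Icc (0:ℝ) 1, k + H * A x - e x ≤ Real.sqrt (1 - β (A x) ^ 2) * G x)
    (xm xa : ℝ) :
    k + H * (∫ x in (0:ℝ)..1, A x) - (∫ x in (0:ℝ)..1, e x)
        + 2 * ∫ s in A xm..A xa, β s ≤ ∫ x in (0:ℝ)..1, N x := by
  have hAc : Continuous A := continuous_iff_continuousAt.2 fun x => (hA x).continuousAt
  have hosc := osc_weighted hA hA' hper hβ hβ0 xm xa
  have hpt : ∀ x ∈ Icc (0:ℝ) 1, (k + H * A x - e x) + β (A x) * |A' x| ≤ N x := by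
    intro x hx
    have hb0 := hβ0 (A x)
    have hb1 := hβ1 x
    have hs : 0 ≤ 1 - β (A x) ^ 2 := by nlinarith
    have hα : Real.sqrt (1 - β (A x) ^ 2) ^ 2 = 1 - β (A x) ^ 2 := Real.sq_sqrt hs
    have h4 := h1 x (Real.sqrt (1 - β (A x) ^ 2)) (β (A x)) (Real.sqrt_nonneg _) hb0 (by rw [hα]; linarith)
    have h5 := h3 x hx
    have h6 : β (A x) * |A' x| ≤ β (A x) * P x := mul_le_mul_of_nonneg_left (h2 x) hb0
    linarith
  have c0 : Continuous fun x => H * A x := continuous_const.mul hAc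
  have c1 : Continuous fun x => k + H * A x := continuous_const.add c0
  have c2 : IntervalIntegrable (fun x => k + H * A x - e x) volume 0 1 :=
    (c1.intervalIntegrable _ _).sub he
  have c3 : Continuous fun x => β (A x) * |A' x| := (hβ.comp hAc).mul hA'.abs
  have hint : ∫ x in (0:ℝ)..1, ((k + H * A x - e x) + β (A x) * |A' x|) ≤ ∫ x in (0:ℝ)..1, N x :=
    intervalIntegral.integral_mono_on zero_le_one (c2.add (c3.intervalIntegrable _ _))
      (hN.intervalIntegrable _ _) hpt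
  have hsplit : ∫ x in (0:ℝ)..1, ((k + H * A x - e x) + β (A x) * |A' x|)
      = k + H * (∫ x in (0:ℝ)..1, A x) - (∫ x in (0:ℝ)..1, e x)
        + ∫ x in (0:ℝ)..1, β (A x) * |A' x| := by
    rw [intervalIntegral.integral_add c2 (c3.intervalIntegrable _ _)]
    rw [intervalIntegral.integral_sub (c1.intervalIntegrable _ _) he]
    rw [intervalIntegral.integral_add (continuous_const.intervalIntegrable _ _)
        (c0.intervalIntegrable _ _)]
    rw [intervalIntegral.integral_const_mul]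
    simp
  rw [hsplit] at hint
  linarith

namespace Per3

variable (U : Per3)

/-- The calibration identity for the slicing by the first coordinate, with an integrable error. -/
theorem slice_calib' {k H : ℝ} {β e : ℝ → ℝ} (hβ : Continuous β) (hβ0 : ∀ s, 0 ≤ β s)
    (he : IntervalIntegrable e volume 0 1) (hβ1 : ∀ x, β (U.A₁ x) ≤ 1)
    (h3 : ∀ x ∈ Icc (0:ℝ) 1, k + H * U.A₁ x - e x ≤ Real.sqrt (1 - β (U.A₁ x) ^ 2) * (U.sec x).D)
    (xm xa : ℝ) :
    k + H * U.V - (∫ x in (0:ℝ)..1, e x) + 2 * ∫ s in U.A₁ xm..U.A₁ xa, β s ≤ U.P := by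
  have hder : ∀ x, HasDerivAt U.A₁ (∫ y in (0:ℝ)..1, ∫ z in (0:ℝ)..1, U.ux x y z) x := by
    intro x
    refine hasDerivAt_param (F := fun x y => ∫ z in (0:ℝ)..1, U.u x y z)
      (F' := fun x y => ∫ z in (0:ℝ)..1, U.ux x y z) U.cont.inner U.contX.inner ?_ 0 1 x
    intro x y
    exact hasDerivAt_param (F := fun x z => U.u x y z) (F' := fun x z => U.ux x y z)
      (U.cont.slice13 y) (U.contX.slice13 y) (fun x z => U.hasX x y z) 0 1 x
  exact calib_core' (A := U.A₁) (A' := fun x => ∫ y in (0:ℝ)..1, ∫ z in (0:ℝ)..1, U.ux x y z)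
    (N := fun x => ∫ y in (0:ℝ)..1, ∫ z in (0:ℝ)..1,
      Real.sqrt (U.ux x y z ^ 2 + U.uy x y z ^ 2 + U.uz x y z ^ 2))
    (G := fun x => (U.sec x).D)
    (P := fun x => ∫ y in (0:ℝ)..1, ∫ z in (0:ℝ)..1, |U.ux x y z|)
    (e := e) (β := β) (k := k) (H := H)
    hder U.contX.inner2 U.per_A₁ U.cont_gradFull.inner2 he hβ hβ0
    (fun x α γ hα hγ h => by
      have c1 := U.cont_gradTan.inner.comp (Continuous.prodMk_right x)
      have c2 := U.cont_absX.inner.comp (Continuous.prodMk_right x)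
      have c3 := U.cont_gradFull.inner.comp (Continuous.prodMk_right x)
      simp only [Function.comp_def, Function.uncurry] at c1 c2 c3
      have c1' : Continuous fun y => α * ∫ z in (0:ℝ)..1, Real.sqrt (U.uy x y z ^ 2 + U.uz x y z ^ 2) :=
        continuous_const.mul c1
      have c2' : Continuous fun y => γ * ∫ z in (0:ℝ)..1, |U.ux x y z| := continuous_const.mul c2
      have e1 : α * (U.sec x).D = ∫ y in (0:ℝ)..1, α * ∫ z in (0:ℝ)..1, Real.sqrt (U.uy x y z ^ 2 + U.uz x y z ^ 2) :=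
        (intervalIntegral.integral_const_mul _ _).symm
      have e2 : γ * (∫ y in (0:ℝ)..1, ∫ z in (0:ℝ)..1, |U.ux x y z|)
          = ∫ y in (0:ℝ)..1, γ * ∫ z in (0:ℝ)..1, |U.ux x y z| :=
        (intervalIntegral.integral_const_mul _ _).symm
      show α * (U.sec x).D + γ * (∫ y in (0:ℝ)..1, ∫ z in (0:ℝ)..1, |U.ux x y z|) ≤ _
      rw [e1, e2, ← intervalIntegral.integral_add (c1'.intervalIntegrable _ _) (c2'.intervalIntegrable _ _)]
      apply intervalIntegral.integral_mono_on zero_le_one ((c1'.add c2').intervalIntegrable _ _)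
        (c3.intervalIntegrable _ _)
      intro y _
      show α * (∫ z in (0:ℝ)..1, Real.sqrt (U.uy x y z ^ 2 + U.uz x y z ^ 2))
        + γ * (∫ z in (0:ℝ)..1, |U.ux x y z|) ≤ _
      have d1 : Continuous fun z => Real.sqrt (U.uy x y z ^ 2 + U.uz x y z ^ 2) :=
        (U.cont_gradTan.section x).comp (Continuous.prodMk_right y)
      have d2 : Continuous fun z => |U.ux x y z| :=
        (U.cont_absX.section x).comp (Continuous.prodMk_right y)
      have d3 : Continuous fun z => Real.sqrt (U.ux x y z ^ 2 + U.uy x y z ^ 2 + U.uz x y z ^ 2) :=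
        (U.cont_gradFull.section x).comp (Continuous.prodMk_right y)
      have d1' : Continuous fun z => α * Real.sqrt (U.uy x y z ^ 2 + U.uz x y z ^ 2) :=
        continuous_const.mul d1
      have d2' : Continuous fun z => γ * |U.ux x y z| := continuous_const.mul d2
      rw [← intervalIntegral.integral_const_mul, ← intervalIntegral.integral_const_mul,
        ← intervalIntegral.integral_add (d1'.intervalIntegrable _ _) (d2'.intervalIntegrable _ _)]
      apply intervalIntegral.integral_mono_on zero_le_one ((d1'.add d2').intervalIntegrable _ _)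
        (d3.intervalIntegrable _ _)
      intro z _
      have hcs := cs_point (p := Real.sqrt (U.uy x y z ^ 2 + U.uz x y z ^ 2)) (q := U.ux x y z) h
      rw [abs_of_nonneg (Real.sqrt_nonneg _), Real.sq_sqrt (by positivity)] at hcs
      have e3 : U.uy x y z ^ 2 + U.uz x y z ^ 2 + U.ux x y z ^ 2
          = U.ux x y z ^ 2 + U.uy x y z ^ 2 + U.uz x y z ^ 2 := by ring
      rw [e3] at hcs
      exact hcs)
    (fun x => by
      refine (intervalIntegral.abs_integral_le_integral_abs zero_le_one).trans ?_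
      have c1 := U.contX.inner.comp (Continuous.prodMk_right x)
      have c2 := U.cont_absX.inner.comp (Continuous.prodMk_right x)
      simp only [Function.comp_def, Function.uncurry] at c1 c2
      apply intervalIntegral.integral_mono_on zero_le_one (c1.abs.intervalIntegrable _ _)
        (c2.intervalIntegrable _ _)
      intro y _
      exact intervalIntegral.abs_integral_le_integral_abs zero_le_one)
    hβ1 h3 xm xa

end Per3

/-! ### Measures of the phases -/

/-- The layer of the level set of `|2x - 1|` around the value `b`. -/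
def layer (b ε : ℝ) : Set ℝ := {x | b - ε < |2 * x - 1| ∧ |2 * x - 1| < b + ε}

/-- The central phase. -/
def nearSet (b : ℝ) : Set ℝ := {x | |2 * x - 1| ≤ b}

lemma layer_measurable (b ε : ℝ) : MeasurableSet (layer b ε) := by
  have h : Continuous fun x : ℝ => |2 * x - 1| := by fun_prop
  exact (isOpen_lt continuous_const h).measurableSet.inter (isOpen_lt h continuous_const).measurableSet

lemma nearSet_measurable (b : ℝ) : MeasurableSet (nearSet b) := by
  have h : Continuous fun x : ℝ => |2 * x - 1| := by fun_prop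
  exact (isClosed_le h continuous_const).measurableSet

/-- The unit function on a set. -/
noncomputable def ind1 (S : Set ℝ) : ℝ → ℝ := S.indicator fun _ => (1:ℝ)

lemma ind1_nonneg (S : Set ℝ) (x : ℝ) : 0 ≤ ind1 S x := by
  unfold ind1
  exact indicator_nonneg (fun _ _ => zero_le_one) x

lemma ind1_of_mem {S : Set ℝ} {x : ℝ} (h : x ∈ S) : ind1 S x = 1 := by
  unfold ind1
  exact indicator_of_mem h _

lemma ind1_interval {S : Set ℝ} (hS : MeasurableSet S) : IntervalIntegrable (ind1 S) volume 0 1 := by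
  unfold ind1
  rw [intervalIntegrable_iff_integrableOn_Ioc_of_le zero_le_one]
  have : IntegrableOn (fun _ : ℝ => (1:ℝ)) (Ioc 0 1) volume := integrableOn_const (by simp)
  exact this.indicator hS

lemma ind1_integral {S : Set ℝ} (hS : MeasurableSet S) :
    ∫ x in (0:ℝ)..1, ind1 S x = (volume (S ∩ Ioc 0 1)).toReal := by
  unfold ind1
  rw [intervalIntegral.integral_of_le zero_le_one, MeasureTheory.integral_indicator hS]
  simp only [Measure.restrict_restrict hS]
  simp
  rfl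

lemma vol_fin (S : Set ℝ) : volume (S ∩ Ioc 0 1) ≠ ⊤ := by
  have : volume (S ∩ Ioc (0:ℝ) 1) ≤ volume (Ioc (0:ℝ) 1) := measure_mono inter_subset_right
  refine ne_top_of_le_ne_top ?_ this
  simp

lemma layer_integral_le {b ε : ℝ} (hε : 0 < ε) : ∫ x in (0:ℝ)..1, ind1 (layer b ε) x ≤ 2 * ε := by
  rw [ind1_integral (layer_measurable b ε)]
  have hsub : layer b ε ∩ Ioc 0 1 ⊆ Ioo ((1 - b - ε) / 2) ((1 - b + ε) / 2)
      ∪ Ioo ((1 + b - ε) / 2) ((1 + b + ε) / 2) := by
    rintro x ⟨⟨h1, h2⟩, _⟩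
    rcases le_total 0 (2 * x - 1) with h | h
    · right
      rw [abs_of_nonneg h] at h1 h2
      constructor <;> linarith
    · left
      rw [abs_of_nonpos h] at h1 h2
      constructor <;> linarith
  have h1 : volume (layer b ε ∩ Ioc 0 1) ≤ ENNReal.ofReal ε + ENNReal.ofReal ε := by
    refine (measure_mono hsub).trans ((measure_union_le _ _).trans ?_)
    rw [Real.volume_Ioo, Real.volume_Ioo]
    apply add_le_add <;> apply ENNReal.ofReal_le_ofReal <;> linarith
  have h2 := ENNReal.toReal_mono (by simp) h1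
  rw [ENNReal.toReal_add (by simp) (by simp), ENNReal.toReal_ofReal hε.le] at h2
  linarith

lemma near_integral_ge {b : ℝ} (hb : b ≤ 1) : b ≤ ∫ x in (0:ℝ)..1, ind1 (nearSet b) x := by
  rw [ind1_integral (nearSet_measurable b)]
  rcases le_or_gt b 0 with h0 | h0
  · exact h0.trans ENNReal.toReal_nonneg
  have hsub : Ioc ((1 - b) / 2) ((1 + b) / 2) ⊆ nearSet b ∩ Ioc 0 1 := by
    rintro x ⟨h1, h2⟩
    refine ⟨?_, ?_, ?_⟩
    · show |2 * x - 1| ≤ b
      rw [abs_le]
      constructor <;> linarith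
    · linarith
    · linarith
  have h1 := ENNReal.toReal_mono (vol_fin _) (measure_mono hsub)
  rw [Real.volume_Ioc, ENNReal.toReal_ofReal (by linarith)] at h1
  linarith

/-! ### The pointwise estimate in the phases -/

/-- The error function of the calibration. -/
noncomputable def phaseErr (U : Per3) (c c₁ c₂ δ ε κ τ : ℝ) (x : ℝ) : ℝ :=
  (4 * κ + 4 * τ + (2 / τ ^ 2) * ((U.sec x).F κ + 2 * κ)) + 4 * ε
    + 4 * (ind1 (layer c ε) x + ind1 (layer c₁ ε) x + ind1 (layer c₂ ε) x)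
    - δ * ind1 (nearSet (c - ε)) x

lemma two_sqrt_sq {q : ℝ} (hq : 0 ≤ q) : (2 * Real.sqrt (Real.pi * q)) ^ 2 = 4 * Real.pi * q := by
  rw [mul_pow, Real.sq_sqrt (by have := Real.pi_pos; positivity)]
  ring

section Pointwise

variable {U : Per3} {c c₁ c₂ T M₀ ε κ τ : ℝ}

/-- The cross estimate: both lines inside. -/
lemma cross_step (hκ : 0 < κ) (hτ : 0 < τ) {x w g : ℝ}
    (hY : ∀ y, U.u x y (1 / 2) = 1) (hZ : ∀ z, U.u x (1 / 2) z = 1)
    (hg0 : 0 ≤ g) (hg1 : g ≤ 1) (hcon : w ^ 2 ≤ (1 - g ^ 2) * (4 * Real.pi * (1 - U.A₁ x))) :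
    w - (4 * κ + 4 * τ + (2 / τ ^ 2) * ((U.sec x).F κ + 2 * κ))
      ≤ Real.sqrt (1 - g ^ 2) * (U.sec x).D := by
  set W := U.sec x with hW
  have hA1 : U.A₁ x ≤ 1 := U.A₁_le_one x
  have ha : W.compl.a (1 / 2) = 0 := by
    rw [Per2.compl_a]
    have : W.a (1 / 2) = ∫ _ in (0:ℝ)..1, (1:ℝ) := by
      apply intervalIntegral.integral_congr
      intro z _
      exact hZ z
    rw [this]
    simp
  have hb : W.compl.b (1 / 2) = 0 := by
    rw [Per2.compl_b]
    have : W.b (1 / 2) = ∫ _ in (0:ℝ)..1, (1:ℝ) := by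
      apply intervalIntegral.integral_congr
      intro y _
      exact hY y
    rw [this]
    simp
  have hprof := W.compl.cut_estimate' hκ hτ (1 / 2) (1 / 2)
  rw [ha, hb, Per2.compl_A, Per2.compl_D, Per2.compl_F] at hprof
  have hsA : W.A = U.A₁ x := rfl
  rw [hsA] at hprof
  have hE : 0 ≤ 4 * κ + 4 * τ + (2 / τ ^ 2) * (W.F κ + 2 * κ) := by
    have := W.F_nonneg κ
    positivity
  refine chord_step' (r := 2 * Real.sqrt (Real.pi * (1 - U.A₁ x))) hg0 hg1 (by positivity) ?_ ?_ hE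
  · rw [two_sqrt_sq (by linarith)]
    exact hcon
  · linarith

/-- The disk estimate: thin faces in both directions. -/
lemma disk_step (hκ : 0 < κ) (hτ : 0 < τ) {x w g : ℝ} (hε : 0 ≤ ε)
    (hY : (U.sec x).a 0 ≤ ε) (hZ : (U.sec x).b 0 ≤ ε)
    (hg0 : 0 ≤ g) (hg1 : g ≤ 1) (hcon : w ^ 2 ≤ (1 - g ^ 2) * (4 * Real.pi * U.A₁ x)) :
    w - ((4 * κ + 4 * τ + (2 / τ ^ 2) * ((U.sec x).F κ + 2 * κ)) + 4 * ε)
      ≤ Real.sqrt (1 - g ^ 2) * (U.sec x).D := by
  set W := U.sec x with hW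
  have hprof := W.cut_estimate' hκ hτ 0 0
  have hsA : W.A = U.A₁ x := rfl
  rw [hsA] at hprof
  have hA0 := U.A₁_nonneg x
  have hE : 0 ≤ (4 * κ + 4 * τ + (2 / τ ^ 2) * (W.F κ + 2 * κ)) + 4 * ε := by
    have := W.F_nonneg κ
    positivity
  refine chord_step' (r := 2 * Real.sqrt (Real.pi * U.A₁ x)) hg0 hg1 (by positivity) ?_ ?_ hE
  · rw [two_sqrt_sq hA0]
    exact hcon
  · linarith

/-- The strip estimate: a line in the second direction, thin face in the third direction. -/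
lemma strip_step {x w g : ℝ} (hε : 0 ≤ ε) (hY : ∀ y, U.u x y (1 / 2) = 1)
    (hZ : (U.sec x).b 0 ≤ ε) (hTh : (U.sec x).a 0 ≤ T + ε)
    (hg0 : 0 ≤ g) (hg1 : g ≤ 1) (hcon : StripOK T (U.A₁ x) w g) :
    w - 4 * ε ≤ Real.sqrt (1 - g ^ 2) * (U.sec x).D := by
  obtain ⟨ρ, h0, h1, hQ, hw⟩ := hcon
  have hb := (U.sec x).strip_bound hY h0 h1
  have hsA : (U.sec x).A = U.A₁ x := rfl
  rw [hsA] at hb
  refine chord_step' (r := 2 * stripL ρ + 2 * ρ * (U.A₁ x - T)) hg0 hg1 hQ hw ?_ (by positivity)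
  have h2 : ρ * ((U.sec x).a 0 - T) ≤ 1 * ε := by
    have h3 : (U.sec x).a 0 - T ≤ ε := by linarith
    rcases le_or_gt ((U.sec x).a 0 - T) 0 with h4 | h4
    · have : ρ * ((U.sec x).a 0 - T) ≤ 0 := mul_nonpos_of_nonneg_of_nonpos h0 h4
      linarith
    · exact mul_le_mul h1 h3 h4.le zero_le_one
  nlinarith

/-- The rods estimate. -/
lemma rods_step (hκ : 0 < κ) (hτ : 0 < τ) {x w g : ℝ}
    (hY : ∀ y, U.u x y (1 / 2) = 1) (hZ : ∀ z, U.u x (1 / 2) z = 1)
    (hrod : ∀ y, 1 - (U.sec x).a y ≤ M₀)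
    (hτM : τ ^ 2 ≤ Real.pi * M₀ ^ 2 / 4)
    (hg0 : 0 ≤ g) (hg1 : g ≤ 1) (hcon : RodOK M₀ (U.A₁ x) w g) :
    w - (4 * κ + 4 * τ + (2 / τ ^ 2) * ((U.sec x).F κ + 2 * κ))
      ≤ Real.sqrt (1 - g ^ 2) * (U.sec x).D := by
  set W := U.sec x with hW
  obtain ⟨hM, hπM, hw⟩ := hcon
  have hsA : W.A = U.A₁ x := rfl
  have hA1 : U.A₁ x ≤ 1 := U.A₁_le_one x
  have ha : W.compl.a (1 / 2) = 0 := by
    rw [Per2.compl_a]
    have : W.a (1 / 2) = ∫ _ in (0:ℝ)..1, (1:ℝ) := by
      apply intervalIntegral.integral_congr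
      intro z _
      exact hZ z
    rw [this]
    simp
  have hb : W.compl.b (1 / 2) = 0 := by
    rw [Per2.compl_b]
    have : W.b (1 / 2) = ∫ _ in (0:ℝ)..1, (1:ℝ) := by
      apply intervalIntegral.integral_congr
      intro y _
      exact hY y
    rw [this]
    simp
  have hprof := W.compl.rods_bound hκ hτ hM (fun y => by rw [Per2.compl_a]; exact hrod y)
    (by rw [Per2.compl_A, hsA]; exact hπM) (by rw [Per2.compl_A, hsA]; exact hτM.trans hπM)
    (1 / 2) (1 / 2)
  rw [ha, hb, Per2.compl_A, Per2.compl_D, Per2.compl_F, hsA] at hprof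
  have hE : 0 ≤ 4 * κ + 4 * τ + (2 / τ ^ 2) * (W.F κ + 2 * κ) := by
    have := W.F_nonneg κ
    positivity
  have hπ := Real.pi_pos
  refine chord_step' (r := 2 / M₀ * (1 - U.A₁ x) + Real.pi / 2 * M₀) hg0 hg1 ?_ hw ?_ hE
  · have : 0 ≤ 1 - U.A₁ x := by linarith
    positivity
  · linarith

/-- The crude bound for the calibrated value. -/
lemma far_crude {s w g : ℝ} (hg0 : 0 ≤ g) (hg1 : g ≤ 1) (hcon : FarCon T s w g) : w ≤ 4 := by
  obtain ⟨h1, h2, _⟩ := hcon
  have hg : 0 ≤ 1 - g ^ 2 := by nlinarith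
  have hg' : 1 - g ^ 2 ≤ 1 := by nlinarith [sq_nonneg g]
  have hπ := Real.pi_le_four
  have hπ0 := Real.pi_pos
  by_contra hneg
  push Not at hneg
  have h3 : (16:ℝ) < w ^ 2 := by nlinarith
  -- the sum of the two constraints
  have h4 : 2 * w ^ 2 ≤ (1 - g ^ 2) * (4 * Real.pi) := by nlinarith
  have h5 : (1 - g ^ 2) * (4 * Real.pi) ≤ 1 * (4 * Real.pi) :=
    mul_le_mul_of_nonneg_right hg' (by positivity)
  nlinarith

end Pointwise

namespace Per3

variable (U : Per3)

/-- The phase calibration. -/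
theorem phase_calib {c c₁ c₂ T M₀ ε κ τ k H δ : ℝ} (hD : PhaseData U c c₁ c₂ T M₀ ε)
    (hc1 : c < 1) (hcc : c ≤ c₁) (h12 : c₁ ≤ c₂) (hε : 0 < ε)
    (hκ : 0 < κ) (hτ : 0 < τ) (hδ0 : 0 ≤ δ) (hδ4 : δ ≤ 4)
    (hτM : 0 < M₀ → τ ^ 2 ≤ Real.pi * M₀ ^ 2 / 4)
    {β : ℝ → ℝ} (hβ : Continuous β) (hβ0 : ∀ s, 0 ≤ β s) (hβ1 : ∀ s, β s ≤ 1)
    (xm xa : ℝ) (hm : ∀ x, U.A₁ xm ≤ U.A₁ x) (ha : ∀ x, U.A₁ x ≤ U.A₁ xa)
    (hCG : ∀ s ∈ Icc (U.A₁ xm) (U.A₁ xa),
      CG T M₀ ((U.V - c * U.A₁ xa) / (1 - c)) k H δ s (β s)) :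
    k + H * U.V + 2 * (∫ s in U.A₁ xm..U.A₁ xa, β s) + c * δ
      ≤ U.P + (4 * κ + 4 * τ + (2 / τ ^ 2) * (U.Ff κ + 2 * κ)) + 32 * ε := by
  set e := phaseErr U c c₁ c₂ δ ε κ τ with he
  have hF := U.cont_secF κ
  have i1 : Continuous fun x => (U.sec x).F κ + 2 * κ := hF.add continuous_const
  have i2 : Continuous fun x => (2 / τ ^ 2) * ((U.sec x).F κ + 2 * κ) := continuous_const.mul i1
  have i3 : Continuous fun x => (4 * κ + 4 * τ) + (2 / τ ^ 2) * ((U.sec x).F κ + 2 * κ) :=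
    continuous_const.add i2
  have i4 : Continuous fun x => ((4 * κ + 4 * τ) + (2 / τ ^ 2) * ((U.sec x).F κ + 2 * κ)) + 4 * ε :=
    i3.add continuous_const
  have L1 := ind1_interval (layer_measurable c ε)
  have L2 := ind1_interval (layer_measurable c₁ ε)
  have L3 := ind1_interval (layer_measurable c₂ ε)
  have L4 := ind1_interval (nearSet_measurable (c - ε))
  have L12 := L1.add L2
  have L123 := L12.add L3
  have hS : IntervalIntegrable
      (fun x => 4 * (ind1 (layer c ε) x + ind1 (layer c₁ ε) x + ind1 (layer c₂ ε) x)) volume 0 1 :=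
    L123.const_mul 4
  have hN : IntervalIntegrable (fun x => δ * ind1 (nearSet (c - ε)) x) volume 0 1 := L4.const_mul δ
  have hSum := (i4.intervalIntegrable 0 1).add hS
  have heI : IntervalIntegrable e volume 0 1 := hSum.sub hN
  have hIe : ∫ x in (0:ℝ)..1, e x ≤ (4 * κ + 4 * τ + (2 / τ ^ 2) * (U.Ff κ + 2 * κ)) + 32 * ε - c * δ := by
    have e1 : ∫ x in (0:ℝ)..1, e x = (∫ x in (0:ℝ)..1, (((4 * κ + 4 * τ) + (2 / τ ^ 2) * ((U.sec x).F κ + 2 * κ)) + 4 * ε))
        + 4 * ((∫ x in (0:ℝ)..1, ind1 (layer c ε) x) + (∫ x in (0:ℝ)..1, ind1 (layer c₁ ε) x)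
          + (∫ x in (0:ℝ)..1, ind1 (layer c₂ ε) x))
        - δ * ∫ x in (0:ℝ)..1, ind1 (nearSet (c - ε)) x := by
      have : e = fun x => (((4 * κ + 4 * τ) + (2 / τ ^ 2) * ((U.sec x).F κ + 2 * κ)) + 4 * ε)
          + 4 * (ind1 (layer c ε) x + ind1 (layer c₁ ε) x + ind1 (layer c₂ ε) x)
          - δ * ind1 (nearSet (c - ε)) x := rfl
      rw [this, intervalIntegral.integral_sub hSum hN,
        intervalIntegral.integral_add (i4.intervalIntegrable 0 1) hS,
        intervalIntegral.integral_const_mul, intervalIntegral.integral_const_mul,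
        intervalIntegral.integral_add L12 L3, intervalIntegral.integral_add L1 L2]
    have e2 : ∫ x in (0:ℝ)..1, (((4 * κ + 4 * τ) + (2 / τ ^ 2) * ((U.sec x).F κ + 2 * κ)) + 4 * ε)
        = (4 * κ + 4 * τ + (2 / τ ^ 2) * (U.Ff κ + 2 * κ)) + 4 * ε := by
      rw [intervalIntegral.integral_add (i3.intervalIntegrable _ _)
        (continuous_const.intervalIntegrable _ _), intervalIntegral.integral_add
        (continuous_const.intervalIntegrable _ _) (i2.intervalIntegrable _ _),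
        intervalIntegral.integral_const_mul, intervalIntegral.integral_add
        (hF.intervalIntegrable _ _) (continuous_const.intervalIntegrable _ _), integral_secF]
      simp
    have b1 := layer_integral_le (b := c) hε
    have b2 := layer_integral_le (b := c₁) hε
    have b3 := layer_integral_le (b := c₂) hε
    have b4 := near_integral_ge (b := c - ε) (by linarith)
    have b5 : δ * (c - ε) ≤ δ * ∫ x in (0:ℝ)..1, ind1 (nearSet (c - ε)) x :=
      mul_le_mul_of_nonneg_left b4 hδ0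
    rw [e1, e2]
    nlinarith
  have key := U.slice_calib' (k := k) (H := H) hβ hβ0 heI (fun x => hβ1 _) ?_ xm xa
  · linarith
  intro x hx
  set s := U.A₁ x with hs
  have hmem : s ∈ Icc (U.A₁ xm) (U.A₁ xa) := ⟨hm x, ha x⟩
  obtain ⟨hg0, hg1, hfar, hnear⟩ := hCG s hmem
  set g := β s with hg
  set E₀ := 4 * κ + 4 * τ + (2 / τ ^ 2) * ((U.sec x).F κ + 2 * κ) with hE₀
  have hFx := (U.sec x).F_nonneg κ
  have hE₀0 : 0 ≤ E₀ := by
    rw [hE₀]
    positivity
  have hD0 := (U.sec x).D_nonneg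
  have hsq0 : 0 ≤ Real.sqrt (1 - g ^ 2) * (U.sec x).D := mul_nonneg (Real.sqrt_nonneg _) hD0
  have n1 := ind1_nonneg (layer c ε) x
  have n2 := ind1_nonneg (layer c₁ ε) x
  have n3 := ind1_nonneg (layer c₂ ε) x
  have n4 := ind1_nonneg (nearSet (c - ε)) x
  have hex : e x = E₀ + 4 * ε + 4 * (ind1 (layer c ε) x + ind1 (layer c₁ ε) x + ind1 (layer c₂ ε) x)
      - δ * ind1 (nearSet (c - ε)) x := rfl
  rw [hex]
  set ℓ := |2 * x - 1| with hℓ
  by_cases hnr : ℓ ≤ c - ε
  · -- the central phase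
    have hind : ind1 (nearSet (c - ε)) x = 1 := ind1_of_mem hnr
    rw [hind]
    have hlY := hD.lineY x hx (by linarith)
    have hlZ := hD.lineZ x hx (by linarith)
    have hse : (U.V - c * U.A₁ xa) / (1 - c) ≤ s := hD.nearMass x hx hnr _ ha
    have hstep : (k + δ + H * s) - E₀ ≤ Real.sqrt (1 - g ^ 2) * (U.sec x).D := by
      rcases hnear hse with h | h
      · exact cross_step hκ hτ hlY hlZ hg0 hg1 h
      · exact rods_step hκ hτ hlY hlZ (hD.rods h.1 x hx hnr) (hτM h.1) hg0 hg1 h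
    nlinarith
  push Not at hnr
  have hnotin : ind1 (nearSet (c - ε)) x = 0 := by
    have hnm : x ∉ nearSet (c - ε) := not_le.2 hnr
    unfold ind1
    rw [indicator_of_notMem hnm]
  rw [hnotin]
  have hcrude := far_crude hg0 hg1 hfar
  by_cases hl1 : x ∈ layer c ε ∪ layer c₁ ε ∪ layer c₂ ε
  · -- the layers
    have hsum : 1 ≤ ind1 (layer c ε) x + ind1 (layer c₁ ε) x + ind1 (layer c₂ ε) x := by
      rcases hl1 with (h | h) | h
      · rw [ind1_of_mem h]; linarith
      · rw [ind1_of_mem h]; linarith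
      · rw [ind1_of_mem h]; linarith
    nlinarith
  -- the far phases
  have hnot : ∀ b, x ∉ layer b ε → ℓ ≤ b - ε ∨ b + ε ≤ ℓ := by
    intro b hb
    by_contra hcon
    push Not at hcon
    exact hb ⟨hcon.1, hcon.2⟩
  simp only [mem_union, not_or] at hl1
  obtain ⟨⟨hl1a, hl1b⟩, hl1c⟩ := hl1
  have hcc' : c + ε ≤ ℓ := by
    rcases hnot c hl1a with h | h
    · linarith
    · exact h
  obtain ⟨hf1, hf2, hf3⟩ := hfar
  rcases hnot c₁ hl1b with h1 | h1
  · -- cross
    have h := cross_step (U := U) (x := x) hκ hτ (hD.lineY x hx (by linarith)) (hD.lineZ x hx h1) hg0 hg1 hf2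
    nlinarith
  · rcases hnot c₂ hl1c with h2 | h2
    · -- strip
      have h := strip_step (T := T) hε.le (hD.lineY x hx h2) (hD.farZ x hx h1) (hD.thick x hx hcc') hg0 hg1 hf3
      nlinarith
    · -- disk
      have h := disk_step (U := U) (x := x) hκ hτ hε.le (hD.farY x hx h2) (hD.farZ x hx h1) hg0 hg1 hf1
      nlinarith

end Per3

end Vale.Agent.Lib.P232
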