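import Vale.Agent.Lib.P232.RA5

open MeasureTheory Set intervalIntegral

namespace Vale.Agent.Lib.P232

/-- A line lying above the conjectural profile, valid up to the abscissa `ve`. -/
inductive Piece where
  | slab (ve : ℕ)
  | tube (c₀ c₁ ve : ℕ)
  | ball (c₀ c₁ ve : ℕ)

namespace Piece

/-- End of the validity range. -/
def ve : Piece → ℕ
  | slab v => v
  | tube _ _ v => v
  | ball _ _ v => v

/-- Intercept. -/
def c0 : Piece → ℕ
  | slab _ => 2 * SS
  | tube c _ _ => c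
  | ball c _ _ => c

/-- Slope. -/
def c1 : Piece → ℕ
  | slab _ => 0
  | tube _ c _ => c
  | ball _ c _ => c

/-- The product condition of the line. -/
def kindOK : Piece → Bool
  | slab _ => true
  | tube c₀ c₁ _ => Nat.ble (3141593 * (SS * SS)) (c₀ * c₁ * 1000000)
  | ball c₀ c₁ _ => Nat.ble (16 * 3141593 * (SS * SS * SS)) (3 * c₀ * (c₁ * c₁) * 1000000)

lemma kind_sound {p : Piece} (h : p.kindOK = true) {v : ℝ} (hv : 0 ≤ v) :
    profileJ v ≤ toR p.c0 + toR p.c1 * v := by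
  have hS := SS_pos
  cases p with
  | slab ve =>
    have e : toR (slab ve).c0 = 2 := by
      simp only [c0, toR]
      push_cast
      field_simp
    have e' : toR (slab ve).c1 = 0 := by simp [c1, toR]
    rw [e, e']
    simpa using profileJ_le_two v
  | tube a b ve =>
    have h1 : 3141593 * (SS * SS) ≤ a * b * 1000000 := Nat.le_of_ble_eq_true h
    have h2 : (3141593:ℝ) * (SS * SS) ≤ a * b * 1000000 := by exact_mod_cast h1
    refine (profileJ_le_tube v).trans (tube_le_line (toR_nonneg _) (toR_nonneg _) ?_ hv)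
    refine le_piHi.trans ?_
    simp only [c0, c1, toR, piHi]
    rw [show (3.141593:ℝ) = 3141593 / 1000000 by norm_num, div_mul_div_comm,
      div_le_div_iff₀ (by norm_num) (by positivity)]
    nlinarith
  | ball a b ve =>
    have h1 : 16 * 3141593 * (SS * SS * SS) ≤ 3 * a * (b * b) * 1000000 := Nat.le_of_ble_eq_true h
    have h2 : (16:ℝ) * 3141593 * (SS * SS * SS) ≤ 3 * a * (b * b) * 1000000 := by exact_mod_cast h1
    refine (profileJ_le_ball v).trans (ball_le_line (toR_nonneg _) (toR_nonneg _) ?_ hv)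
    have h3 : 16 * Real.pi / 3 ≤ 16 * piHi / 3 := by
      have := le_piHi
      linarith
    refine h3.trans ?_
    simp only [c0, c1, toR, piHi]
    have e : ((a:ℝ) / SS) * ((b:ℝ) / SS) ^ 2 = (a * (b * b)) / (SS * SS * SS) := by
      field_simp
    rw [e, show (16 * 3.141593 / 3 : ℝ) = 16 * 3141593 / 3000000 by norm_num,
      div_le_div_iff₀ (by norm_num) (by positivity)]
    nlinarith

end Piece

/-- Minimum of natural numbers. -/
def nmin (a b : ℕ) : ℕ := bif Nat.ble a b then a else b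
/-- Maximum of natural numbers. -/
def nmax (a b : ℕ) : ℕ := bif Nat.ble a b then b else a

lemma nmin_le_left (a b : ℕ) : (nmin a b : ℕ) ≤ a := by
  unfold nmin
  cases h : Nat.ble a b
  · simpa [h] using (Nat.le_of_lt (Nat.lt_of_not_ge (fun h' => by simp [Nat.ble_eq_true_of_le h'] at h)))
  · simp

lemma nmin_le_right (a b : ℕ) : (nmin a b : ℕ) ≤ b := by
  unfold nmin
  cases h : Nat.ble a b
  · simp
  · simpa using Nat.le_of_ble_eq_true h

lemma le_nmin {a b v : ℕ} (h1 : v ≤ a) (h2 : v ≤ b) : v ≤ nmin a b := by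
  unfold nmin
  cases h : Nat.ble a b <;> simpa [h]

lemma le_nmax_left (a b : ℕ) : a ≤ nmax a b := by
  unfold nmax
  cases h : Nat.ble a b
  · simp
  · simpa using Nat.le_of_ble_eq_true h

lemma le_nmax_right (a b : ℕ) : b ≤ nmax a b := by
  unfold nmax
  cases h : Nat.ble a b
  · simpa [h] using (Nat.le_of_lt (Nat.lt_of_not_ge (fun h' => by simp [Nat.ble_eq_true_of_le h'] at h)))
  · simp

/-- Either of the two endpoints bounds `nmin` from above in the real line. -/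
lemma toR_nmin_cases {a b : ℕ} : toR (nmin a b) = toR a ∨ toR (nmin a b) = toR b := by
  unfold nmin
  cases h : Nat.ble a b <;> simp

/-- The line comparison at one abscissa. -/
def lineOK (A L Hp Hn c₀ c₁ V : ℕ) : Bool :=
  Nat.ble (c₀ * SS + c₁ * V + Hn * V + L) (A + Hp * V)

/-- The comparison of the value line with pieces of lines above the conjectural profile. -/
def targets (A L Hp Hn : ℕ) : ℕ → ℕ → List Piece → Bool
  | Vl, Vu, [] => Nat.blt Vu Vl
  | Vl, Vu, p :: ps =>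
    p.kindOK && lineOK A L Hp Hn p.c0 p.c1 Vl && lineOK A L Hp Hn p.c0 p.c1 (nmin p.ve Vu) &&
      targets A L Hp Hn p.ve Vu ps

lemma linear_between {α β l u v : ℝ} (h1 : 0 ≤ α + β * l) (h2 : 0 ≤ α + β * u) (hl : l ≤ v)
    (hu : v ≤ u) : 0 ≤ α + β * v := by
  rcases hl.eq_or_lt with h | h
  · rw [← h]; exact h1
  have hd : 0 < u - l := by linarith
  have e : (u - l) * (α + β * v) = (u - v) * (α + β * l) + (v - l) * (α + β * u) := by ring
  have h3 : 0 ≤ (u - l) * (α + β * v) := by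
    rw [e]
    have : 0 ≤ u - v := by linarith
    have : 0 ≤ v - l := by linarith
    positivity
  exact nonneg_of_mul_nonneg_right h3 hd

lemma lineOK_real {A L Hp Hn c₀ c₁ V : ℕ} (h : lineOK A L Hp Hn c₀ c₁ V = true) :
    0 ≤ ((A : ℝ) - L - c₀ * SS) + ((Hp : ℝ) - Hn - c₁) * (V : ℝ) := by
  have h1 : c₀ * SS + c₁ * V + Hn * V + L ≤ A + Hp * V := Nat.le_of_ble_eq_true h
  have h2 : (c₀:ℝ) * SS + c₁ * V + Hn * V + L ≤ A + Hp * V := by exact_mod_cast h1
  nlinarith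

theorem targets_sound {A L Hp Hn : ℕ} :
    ∀ (ps : List Piece) (Vl Vu : ℕ), targets A L Hp Hn Vl Vu ps = true →
      ∀ v : ℝ, toR Vl ≤ v → v ≤ toR Vu → 0 ≤ v →
        profileJ v + (L : ℝ) / (SS : ℝ) ^ 2 ≤ (A : ℝ) / (SS : ℝ) ^ 2 + slopeR Hp Hn * v := by
  have hS := SS_pos
  intro ps
  induction ps with
  | nil =>
    intro Vl Vu h v h1 h2 _
    have hlt : Vu < Vl := Nat.le_of_ble_eq_true h
    have : toR Vu < toR Vl := by
      unfold toR
      apply div_lt_div_of_pos_right _ hS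
      exact_mod_cast hlt
    linarith
  | cons p ps ih =>
    intro Vl Vu h v h1 h2 hv
    simp only [targets, Bool.and_eq_true] at h
    obtain ⟨⟨⟨hk, hl⟩, hr⟩, hrest⟩ := h
    by_cases hcase : v ≤ toR p.ve
    · have hJ := Piece.kind_sound hk hv
      have hup : v ≤ toR (nmin p.ve Vu) := by
        rcases toR_nmin_cases (a := p.ve) (b := Vu) with e | e <;> rw [e] <;> assumption
      have a1 := lineOK_real hl
      have a2 := lineOK_real hr
      have hx1 : ((Vl:ℝ)) ≤ v * SS := by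
        unfold toR at h1
        rwa [div_le_iff₀ hS] at h1
      have hx2 : v * SS ≤ ((nmin p.ve Vu : ℕ) : ℝ) := by
        unfold toR at hup
        rwa [le_div_iff₀ hS] at hup
      have a3 := linear_between a1 a2 hx1 hx2
      have e1 : toR p.c0 + toR p.c1 * v = ((p.c0:ℝ) * SS + p.c1 * (v * SS)) / (SS:ℝ) ^ 2 := by
        unfold toR
        field_simp
      have e2 : (A : ℝ) / (SS : ℝ) ^ 2 + slopeR Hp Hn * v - (L : ℝ) / (SS : ℝ) ^ 2
          = ((A:ℝ) - L + (Hp - Hn) * (v * SS)) / (SS:ℝ) ^ 2 := by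
        unfold slopeR
        field_simp
        ring
      have h5 : ((p.c0:ℝ) * SS + p.c1 * (v * SS)) / (SS:ℝ) ^ 2
          ≤ ((A:ℝ) - L + (Hp - Hn) * (v * SS)) / (SS:ℝ) ^ 2 := by
        apply div_le_div_of_nonneg_right _ (by positivity)
        nlinarith
      rw [e1] at hJ
      rw [← e2] at h5
      linarith
    · push Not at hcase
      exact ih _ _ hrest v hcase.le h2 hv

/-- The certificate trees. -/
inductive Cert where
  | splitM (c : ℕ) (l r : Cert)
  | splitA (c : ℕ) (l r : Cert)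
  | splitV (c : ℕ) (l r : Cert)
  | empty
  | small
  | thin1 (p₀ x₀ : ℕ)
  | thin2 (p₀ x₀ : ℕ)
  | diag (pL qL : ℕ)
  | plateau
  | corner
  | cell1 (k Hp Hn g₀ : ℕ) (l : List (ℕ × ℕ)) (ts : List Piece)
  | cell2 (k Hp Hn g₀ : ℕ) (l : List (ℕ × ℕ)) (ts : List Piece)

/-- The checker of the certificate trees, on the box `m ∈ [mL, mU]`, `a ∈ [aL, aU]`,
`V ∈ [vL, vU]`. -/
def check : Cert → ℕ → ℕ → ℕ → ℕ → ℕ → ℕ → Bool
  | .splitM c l r, mL, mU, aL, aU, vL, vU =>
    check l mL c aL aU vL vU && check r c mU aL aU vL vU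
  | .splitA c l r, mL, mU, aL, aU, vL, vU =>
    check l mL mU aL c vL vU && check r mL mU c aU vL vU
  | .splitV c l r, mL, mU, aL, aU, vL, vU =>
    check l mL mU aL aU vL c && check r mL mU aL aU c vU
  | .empty, mL, _, _, aU, vL, vU =>
    Nat.blt aU mL || Nat.blt vU mL || Nat.blt aU vL
  | .small, _, _, _, aU, _, _ => Nat.ble (10000 * aU) (1056 * SS)
  | .thin1 p₀ x₀, _, mU, aL, aU, _, _ =>
    Nat.ble (aU * 3141593) (SS * 1000000) && Nat.ble (aU * SS) (p₀ * p₀) &&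
      Nat.ble (mU * (SS * SS)) (x₀ * x₀ * aL) &&
      Nat.ble (p₀ * (96 * (SS * SS) + 210 * x₀ * SS + 28 * (x₀ * x₀)) * 10000)
        (744408 * (SS * SS * SS))
  | .thin2 p₀ x₀, _, mU, aL, aU, _, _ =>
    Nat.ble (aU * SS) (p₀ * p₀) && Nat.ble (mU * (SS * SS)) (x₀ * x₀ * aL) &&
      Nat.ble (p₀ * (96 * (SS * SS) + 294 * x₀ * SS + 112 * (x₀ * x₀)) * 10000)
        (744408 * (SS * SS * SS))
  | .diag pL qL, mL, _, aL, aU, _, _ =>
    Nat.ble (aU * 3141593) (SS * 1000000) && Nat.ble (pL * pL) (aL * SS) &&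
      Nat.ble (qL * qL) (mL * SS) && Nat.ble (10000 * SS) (17724 * (pL + qL)) &&
      Nat.ble (2 * pL * SS * 10000) (17724 * ((pL + qL) * (pL + qL)))
  | .plateau, mL, _, _, aU, _, _ =>
    Nat.ble (1000000 * SS) (mL * 3141592) && Nat.ble aU SS &&
      Nat.ble (1000000 * SS) ((SS - aU) * 3141592)
  | .corner, _, mU, aL, aU, vL, vU =>
    Nat.ble mU 900000 && Nat.ble (SS - 900000) aL && Nat.ble aU SS &&
      Nat.ble 351000000 vL && Nat.ble vU 649000000
  | .cell1 k Hp Hn g₀ l ts, mL, mU, aL, aU, vL, vU =>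
    Nat.blt mL mU && Nat.blt aL aU && node1 k Hp Hn mL 0 && node1 k Hp Hn aU 0 &&
      chainOK (node1 k Hp Hn) mU g₀ l && Nat.beq (chainEnd mU l) aL &&
      targets (k * SS + chainI mU g₀ l) 0 Hp Hn (nmax vL mL) (nmin vU aU) ts
  | .cell2 k Hp Hn g₀ l ts, mL, mU, aL, aU, vL, vU =>
    Nat.blt mL mU && Nat.blt aL aU && node2 k Hp Hn mL 0 && node2 k Hp Hn aU 0 &&
      chainOK (node2 k Hp Hn) mU g₀ l && Nat.beq (chainEnd mU l) aL &&
      targets (k * SS + chainI mU g₀ l) (4 * mU * SS) Hp Hn (nmax vL mL) (nmin vU aU) ts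

/-- The goal of the real analysis. -/
def Good (m a V : ℝ) : Prop :=
  Value ell m a V (profileJ V) ∨ Value ell0 m a V (profileJ V + 4 * m)

lemma toR_lt {a b : ℕ} (h : a < b) : toR a < toR b := by
  unfold toR
  apply div_lt_div_of_pos_right _ SS_pos
  exact_mod_cast h

lemma one_div_pi_ge {aU : ℕ} (h : aU * 3141593 ≤ SS * 1000000) : toR aU ≤ 1 / Real.pi := by
  have hS := SS_pos
  have hπ := Real.pi_pos
  have h2 : (aU:ℝ) * 3141593 ≤ SS * 1000000 := by exact_mod_cast h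
  unfold toR
  rw [div_le_div_iff₀ hS hπ]
  have h3 := Real.pi_lt_d6
  have h4 : (0:ℝ) ≤ aU := Nat.cast_nonneg _
  nlinarith

lemma sqrt_le_of_toR {a : ℝ} {aU p₀ : ℕ} (ha : a ≤ toR aU) (h : aU * SS ≤ p₀ * p₀) :
    Real.sqrt a ≤ toR p₀ := by
  have hS := SS_pos
  have h2 : (aU:ℝ) * SS ≤ p₀ * p₀ := by exact_mod_cast h
  apply Real.sqrt_le_iff.2
  refine ⟨toR_nonneg _, ha.trans ?_⟩
  unfold toR
  rw [div_pow, div_le_div_iff₀ hS (by positivity)]
  nlinarith

lemma sqrt_thin {a m : ℝ} {mU aL x₀ : ℕ} (hm : m ≤ toR mU) (ha : toR aL ≤ a)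
    (h : mU * (SS * SS) ≤ x₀ * x₀ * aL) :
    Real.sqrt m ≤ toR x₀ * Real.sqrt a := by
  have hS := SS_pos
  have h2 : (mU:ℝ) * (SS * SS) ≤ x₀ * x₀ * aL := by exact_mod_cast h
  have h3 : m ≤ toR x₀ ^ 2 * a := by
    have h4 : toR mU ≤ toR x₀ ^ 2 * toR aL := by
      unfold toR
      rw [div_pow, div_mul_div_comm, div_le_div_iff₀ hS (by positivity)]
      nlinarith
    have h5 : toR x₀ ^ 2 * toR aL ≤ toR x₀ ^ 2 * a :=
      mul_le_mul_of_nonneg_left ha (by positivity)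
    linarith
  have h6 : toR x₀ * Real.sqrt a = Real.sqrt (toR x₀ ^ 2 * a) := by
    rw [Real.sqrt_mul (by positivity), Real.sqrt_sq (toR_nonneg _)]
  rw [h6]
  exact Real.sqrt_le_sqrt h3

lemma thin1_const {p₀ x₀ : ℕ}
    (h : p₀ * (96 * (SS * SS) + 210 * x₀ * SS + 28 * (x₀ * x₀)) * 10000 ≤ 744408 * (SS * SS * SS)) :
    toR p₀ * (4 + 4 / 7 + 10 * toR x₀ + 4 / 3 * toR x₀ ^ 2) ≤ 2 * 1.7724 := by
  have hS := SS_pos
  have h2 : (p₀:ℝ) * (96 * (SS * SS) + 210 * x₀ * SS + 28 * (x₀ * x₀)) * 10000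
      ≤ 744408 * (SS * SS * SS) := by exact_mod_cast h
  unfold toR
  have e : (p₀:ℝ) / SS * (4 + 4 / 7 + 10 * ((x₀:ℝ) / SS) + 4 / 3 * ((x₀:ℝ) / SS) ^ 2)
      = ((p₀:ℝ) * (96 * (SS * SS) + 210 * x₀ * SS + 28 * (x₀ * x₀)) * 10000)
        / (210000 * (SS * SS * SS)) := by
    field_simp
    ring
  rw [e, div_le_iff₀ (by positivity)]
  norm_num
  nlinarith

lemma thin2_const {p₀ x₀ : ℕ}
    (h : p₀ * (96 * (SS * SS) + 294 * x₀ * SS + 112 * (x₀ * x₀)) * 10000 ≤ 744408 * (SS * SS * SS)) :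
    toR p₀ * (4 + 4 / 7 + 14 * toR x₀ + 16 / 3 * toR x₀ ^ 2) ≤ 2 * 1.7724 := by
  have hS := SS_pos
  have h2 : (p₀:ℝ) * (96 * (SS * SS) + 294 * x₀ * SS + 112 * (x₀ * x₀)) * 10000
      ≤ 744408 * (SS * SS * SS) := by exact_mod_cast h
  unfold toR
  have e : (p₀:ℝ) / SS * (4 + 4 / 7 + 14 * ((x₀:ℝ) / SS) + 16 / 3 * ((x₀:ℝ) / SS) ^ 2)
      = ((p₀:ℝ) * (96 * (SS * SS) + 294 * x₀ * SS + 112 * (x₀ * x₀)) * 10000)
        / (210000 * (SS * SS * SS)) := by
    field_simp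
    ring
  rw [e, div_le_iff₀ (by positivity)]
  norm_num
  nlinarith

/-- The arithmetic condition of the near-diagonal leaf. -/
lemma diag_const {a m : ℝ} {aL mL pL qL : ℕ} (ha : toR aL ≤ a) (hm : toR mL ≤ m)
    (h1 : pL * pL ≤ aL * SS) (h2 : qL * qL ≤ mL * SS) (h3 : 10000 * SS ≤ 17724 * (pL + qL))
    (h4 : 2 * pL * SS * 10000 ≤ 17724 * ((pL + qL) * (pL + qL))) :
    2 * Real.sqrt a ≤ (Real.sqrt a + Real.sqrt m) ^ 2 * Real.sqrt Real.pi := by
  have hS := SS_pos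
  have hsqrtpi : (1.7724:ℝ) ≤ Real.sqrt Real.pi := by
    apply Real.le_sqrt_of_sq_le
    have := Real.pi_gt_d6
    norm_num at this ⊢
    linarith
  have h1' : (pL:ℝ) * pL ≤ aL * SS := by exact_mod_cast h1
  have h2' : (qL:ℝ) * qL ≤ mL * SS := by exact_mod_cast h2
  have h3' : (10000:ℝ) * SS ≤ 17724 * (pL + qL) := by exact_mod_cast h3
  have h4' : (2:ℝ) * pL * SS * 10000 ≤ 17724 * ((pL + qL) * (pL + qL)) := by exact_mod_cast h4
  set p := Real.sqrt a
  set q := Real.sqrt m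
  have hp1 : toR pL ≤ p := by
    apply Real.le_sqrt_of_sq_le
    refine le_trans ?_ ha
    unfold toR
    rw [div_pow, div_le_div_iff₀ (by positivity) hS]
    nlinarith
  have hq1 : toR qL ≤ q := by
    apply Real.le_sqrt_of_sq_le
    refine le_trans ?_ hm
    unfold toR
    rw [div_pow, div_le_div_iff₀ (by positivity) hS]
    nlinarith
  set x := toR pL
  set y := toR qL
  have hx0 : 0 ≤ x := toR_nonneg _
  have hy0 : 0 ≤ y := toR_nonneg _
  have hc1 : 1 ≤ 1.7724 * (x + y) := by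
    have : (1:ℝ) = (10000 * SS) / (10000 * SS) := by field_simp
    have e : 1.7724 * (x + y) = (17724 * ((pL:ℝ) + qL)) / (10000 * SS) := by
      simp only [x, y, toR]
      field_simp
      norm_num
      ring
    rw [e, le_div_iff₀ (by positivity)]
    linarith
  have hc2 : 2 * x ≤ 1.7724 * (x + y) ^ 2 := by
    have e1 : 2 * x = ((2:ℝ) * pL * SS * 10000) / (10000 * (SS:ℝ) ^ 2) := by
      simp only [x, toR]
      field_simp
    have e2 : 1.7724 * (x + y) ^ 2 = (17724 * (((pL:ℝ) + qL) * ((pL:ℝ) + qL))) / (10000 * (SS:ℝ) ^ 2) := by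
      simp only [x, y, toR]
      field_simp
      norm_num
      ring
    rw [e1, e2]
    exact div_le_div_of_nonneg_right h4' (by positivity)
  have hpq : x + y ≤ p + q := by linarith
  have hmain : 2 * p ≤ 1.7724 * (p + q) ^ 2 := by
    have hd : 0 ≤ p + q - (x + y) := by linarith
    have h5 : (x + y) ^ 2 + 2 * (x + y) * (p + q - (x + y)) ≤ (p + q) ^ 2 := by nlinarith
    have h6 : 2 * (p + q - (x + y)) ≤ 1.7724 * (2 * (x + y) * (p + q - (x + y))) := by
      nlinarith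
    have h7 : 0 ≤ q - y := by linarith
    nlinarith
  have hnn : 0 ≤ (p + q) ^ 2 := by positivity
  have := mul_le_mul_of_nonneg_left hsqrtpi hnn
  nlinarith

theorem check_sound : ∀ (c : Cert) (mL mU aL aU vL vU : ℕ), check c mL mU aL aU vL vU = true →
    ∀ m a V : ℝ, toR mL ≤ m → m ≤ toR mU → toR aL ≤ a → a ≤ toR aU → toR vL ≤ V → V ≤ toR vU →
      0 ≤ m → m ≤ V → V ≤ a → a ≤ 1 → 0 < V → Good m a V := by
  intro c
  induction c with
  | splitM c l r ihl ihr =>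
    intro mL mU aL aU vL vU h m a V h1 h2 h3 h4 h5 h6 h7 h8 h9 h10 h11
    simp only [check, Bool.and_eq_true] at h
    by_cases hc : m ≤ toR c
    · exact ihl _ _ _ _ _ _ h.1 m a V h1 hc h3 h4 h5 h6 h7 h8 h9 h10 h11
    · exact ihr _ _ _ _ _ _ h.2 m a V (le_of_not_ge hc) h2 h3 h4 h5 h6 h7 h8 h9 h10 h11
  | splitA c l r ihl ihr =>
    intro mL mU aL aU vL vU h m a V h1 h2 h3 h4 h5 h6 h7 h8 h9 h10 h11
    simp only [check, Bool.and_eq_true] at h
    by_cases hc : a ≤ toR c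
    · exact ihl _ _ _ _ _ _ h.1 m a V h1 h2 h3 hc h5 h6 h7 h8 h9 h10 h11
    · exact ihr _ _ _ _ _ _ h.2 m a V h1 h2 (le_of_not_ge hc) h4 h5 h6 h7 h8 h9 h10 h11
  | splitV c l r ihl ihr =>
    intro mL mU aL aU vL vU h m a V h1 h2 h3 h4 h5 h6 h7 h8 h9 h10 h11
    simp only [check, Bool.and_eq_true] at h
    by_cases hc : V ≤ toR c
    · exact ihl _ _ _ _ _ _ h.1 m a V h1 h2 h3 h4 h5 hc h7 h8 h9 h10 h11
    · exact ihr _ _ _ _ _ _ h.2 m a V h1 h2 h3 h4 (le_of_not_ge hc) h6 h7 h8 h9 h10 h11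
  | empty =>
    intro mL mU aL aU vL vU h m a V h1 h2 h3 h4 h5 h6 h7 h8 h9 h10 h11
    simp only [check, Bool.or_eq_true] at h
    exfalso
    rcases h with (h | h) | h
    · have := toR_lt (Nat.le_of_ble_eq_true h)
      linarith
    · have := toR_lt (Nat.le_of_ble_eq_true h)
      linarith
    · have := toR_lt (Nat.le_of_ble_eq_true h)
      linarith
  | small =>
    intro mL mU aL aU vL vU h m a V h1 h2 h3 h4 h5 h6 h7 h8 h9 h10 h11
    simp only [check] at h
    have hn : 10000 * aU ≤ 1056 * SS := Nat.le_of_ble_eq_true h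
    have hn' : (10000:ℝ) * aU ≤ 1056 * SS := by exact_mod_cast hn
    have hS := SS_pos
    have ha : a ≤ 0.1056 := by
      refine h4.trans ?_
      unfold toR
      rw [div_le_iff₀ hS]
      norm_num
      linarith
    exact Or.inl (small_value h11.le h7 (h8.trans h9) (h11.trans_le h9) ha)
  | thin1 p₀ x₀ =>
    intro mL mU aL aU vL vU h m a V h1 h2 h3 h4 h5 h6 h7 h8 h9 h10 h11
    simp only [check, Bool.and_eq_true] at h
    obtain ⟨⟨⟨c1, c2⟩, c3⟩, c4⟩ := h
    exact Or.inl (thin1_value h11.le h7 (h8.trans h9) (h11.trans_le h9)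
      (h4.trans (one_div_pi_ge (Nat.le_of_ble_eq_true c1)))
      (sqrt_le_of_toR h4 (Nat.le_of_ble_eq_true c2)) (toR_nonneg _)
      (sqrt_thin h2 h3 (Nat.le_of_ble_eq_true c3))
      (thin1_const (Nat.le_of_ble_eq_true c4)))
  | thin2 p₀ x₀ =>
    intro mL mU aL aU vL vU h m a V h1 h2 h3 h4 h5 h6 h7 h8 h9 h10 h11
    simp only [check, Bool.and_eq_true] at h
    obtain ⟨⟨c2, c3⟩, c4⟩ := h
    exact Or.inr (thin2_value h11.le h7 (h8.trans h9) (h11.trans_le h9)
      (sqrt_le_of_toR h4 (Nat.le_of_ble_eq_true c2)) (toR_nonneg _)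
      (sqrt_thin h2 h3 (Nat.le_of_ble_eq_true c3))
      (thin2_const (Nat.le_of_ble_eq_true c4)))
  | diag pL qL =>
    intro mL mU aL aU vL vU h m a V h1 h2 h3 h4 h5 h6 h7 h8 h9 h10 h11
    simp only [check, Bool.and_eq_true] at h
    obtain ⟨⟨⟨⟨c1, c2⟩, c3⟩, c4⟩, c5⟩ := h
    exact Or.inl (diag_value h11.le h7 (h8.trans h9) (h11.trans_le h9)
      (h4.trans (one_div_pi_ge (Nat.le_of_ble_eq_true c1)))
      (diag_const h3 h1 (Nat.le_of_ble_eq_true c2) (Nat.le_of_ble_eq_true c3)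
        (Nat.le_of_ble_eq_true c4) (Nat.le_of_ble_eq_true c5)))
  | plateau =>
    intro mL mU aL aU vL vU h m a V h1 h2 h3 h4 h5 h6 h7 h8 h9 h10 h11
    simp only [check, Bool.and_eq_true] at h
    obtain ⟨⟨c1, c2⟩, c3⟩ := h
    have c1' : 1000000 * SS ≤ mL * 3141592 := Nat.le_of_ble_eq_true c1
    have c2' : aU ≤ SS := Nat.le_of_ble_eq_true c2
    have c3' : 1000000 * SS ≤ (SS - aU) * 3141592 := Nat.le_of_ble_eq_true c3
    have hS := SS_pos
    have hπ := Real.pi_pos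
    have hπ' := Real.pi_gt_d6
    have key : ∀ n : ℕ, 1000000 * SS ≤ n * 3141592 → 1 / Real.pi ≤ toR n := by
      intro n hn
      have hn' : (1000000:ℝ) * SS ≤ n * 3141592 := by exact_mod_cast hn
      unfold toR
      rw [div_le_div_iff₀ hπ hS]
      have h0 : (0:ℝ) ≤ n := Nat.cast_nonneg _
      nlinarith
    apply Or.inl
    apply plateau_value (le_trans (key _ c1') h1)
    have := key _ c3'
    rw [toR_sub c2'] at this
    linarith
  | corner =>
    intro mL mU aL aU vL vU h m a V h1 h2 h3 h4 h5 h6 h7 h8 h9 h10 h11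
    simp only [check, Bool.and_eq_true] at h
    obtain ⟨⟨⟨⟨c1, c2⟩, c3⟩, c4⟩, c5⟩ := h
    have hS := SS_pos
    have c1' : toR mU ≤ toR 900000 := toR_mono (Nat.le_of_ble_eq_true c1)
    have c2' : toR (SS - 900000) ≤ toR aL := toR_mono (Nat.le_of_ble_eq_true c2)
    have c4' : toR 351000000 ≤ toR vL := toR_mono (Nat.le_of_ble_eq_true c4)
    have c5' : toR vU ≤ toR 649000000 := toR_mono (Nat.le_of_ble_eq_true c5)
    have e1 : toR 900000 = 0.0009 := by
      unfold toR SS; norm_num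
    have e2 : toR (SS - 900000) = 1 - 0.0009 := by
      unfold toR SS; norm_num
    have e3 : toR 351000000 = 0.351 := by
      unfold toR SS; norm_num
    have e4 : toR 649000000 = 0.649 := by
      unfold toR SS; norm_num
    rw [e1] at c1'
    rw [e2] at c2'
    rw [e3] at c4'
    rw [e4] at c5'
    exact Or.inl (corner_value h7 (h2.trans c1') (c2'.trans h3) h10 (c4'.trans h5) (h6.trans c5'))
  | cell1 k Hp Hn g₀ l ts =>
    intro mL mU aL aU vL vU h m a V h1 h2 h3 h4 h5 h6 h7 h8 h9 h10 h11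
    simp only [check, Bool.and_eq_true] at h
    obtain ⟨⟨⟨⟨⟨⟨c1, c2⟩, c3⟩, c4⟩, c5⟩, c6⟩, c7⟩ := h
    have hn : ∀ s g, node1 k Hp Hn s g = true → Nd1 (toR k) (slopeR Hp Hn) (toR s) (toR g) :=
      fun s g hh => node1_sound hh
    obtain ⟨g, g', hF⟩ := cell_feas (convex_Nd1 _ _) hn c3 c4 (Nat.le_of_ble_eq_true c1)
      (Nat.le_of_ble_eq_true c2) c5 (Nat.eq_of_beq_eq_true c6) h1 h2 h3 h4
    have hT := targets_sound ts _ _ c7 V
      (by
        rcases (by unfold nmax; cases Nat.ble vL mL <;> simp : toR (nmax vL mL) = toR vL ∨ toR (nmax vL mL) = toR mL) with e | e <;> rw [e]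
        · exact h5
        · exact h1.trans h8)
      (by
        rcases toR_nmin_cases (a := vU) (b := aU) with e | e <;> rw [e]
        · exact h6
        · exact h9.trans h4)
      h11.le
    apply Or.inl
    apply value1_of_feas hF
    have hS := SS_pos
    push_cast at hT
    have e : (((k:ℝ) * SS + (chainI mU g₀ l : ℕ)) / (SS:ℝ) ^ 2)
        = toR k + ((chainI mU g₀ l : ℕ):ℝ) / (SS:ℝ) ^ 2 := by
      unfold toR
      field_simp
    rw [e] at hT
    simp only [zero_div, add_zero] at hT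
    have e2 : 2 * (((chainI mU g₀ l : ℕ):ℝ) / (SS:ℝ) ^ 2 / 2) = ((chainI mU g₀ l : ℕ):ℝ) / (SS:ℝ) ^ 2 := by
      ring
    rw [e2]
    linarith
  | cell2 k Hp Hn g₀ l ts =>
    intro mL mU aL aU vL vU h m a V h1 h2 h3 h4 h5 h6 h7 h8 h9 h10 h11
    simp only [check, Bool.and_eq_true] at h
    obtain ⟨⟨⟨⟨⟨⟨c1, c2⟩, c3⟩, c4⟩, c5⟩, c6⟩, c7⟩ := h
    have hn : ∀ s g, node2 k Hp Hn s g = true → Nd2 (toR k) (slopeR Hp Hn) (toR s) (toR g) :=
      fun s g hh => node2_sound hh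
    obtain ⟨g, g', hF⟩ := cell_feas (convex_Nd2 _ _) hn c3 c4 (Nat.le_of_ble_eq_true c1)
      (Nat.le_of_ble_eq_true c2) c5 (Nat.eq_of_beq_eq_true c6) h1 h2 h3 h4
    have hT := targets_sound ts _ _ c7 V
      (by
        rcases (by unfold nmax; cases Nat.ble vL mL <;> simp : toR (nmax vL mL) = toR vL ∨ toR (nmax vL mL) = toR mL) with e | e <;> rw [e]
        · exact h5
        · exact h1.trans h8)
      (by
        rcases toR_nmin_cases (a := vU) (b := aU) with e | e <;> rw [e]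
        · exact h6
        · exact h9.trans h4)
      h11.le
    apply Or.inr
    apply value2_of_feas hF
    have hS := SS_pos
    push_cast at hT
    have e : (((k:ℝ) * SS + (chainI mU g₀ l : ℕ)) / (SS:ℝ) ^ 2)
        = toR k + ((chainI mU g₀ l : ℕ):ℝ) / (SS:ℝ) ^ 2 := by
      unfold toR
      field_simp
    rw [e] at hT
    have e3 : (4 * (mU:ℝ) * SS) / (SS:ℝ) ^ 2 = 4 * toR mU := by
      unfold toR
      field_simp
    rw [e3] at hT
    have e2 : 2 * (((chainI mU g₀ l : ℕ):ℝ) / (SS:ℝ) ^ 2 / 2) = ((chainI mU g₀ l : ℕ):ℝ) / (SS:ℝ) ^ 2 := by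
      ring
    rw [e2]
    linarith

/-- The real analysis input from a checked certificate. -/
theorem RA_of_check {Vlo Vhi : ℕ} {c : Cert} (h : check c 0 Vhi Vlo SS Vlo Vhi = true) {v : ℝ}
    (h1 : toR Vlo ≤ v) (h2 : v ≤ toR Vhi) (h3 : 0 < v) : Per3.RAhyp v (profileJ v) := by
  intro m a hm0 hmv hva ha1
  have hS := SS_pos
  have e0 : toR 0 = 0 := by simp [toR]
  have e1 : toR SS = 1 := by
    unfold toR
    field_simp
  exact check_sound c _ _ _ _ _ _ h m a v (by rw [e0]; exact hm0) (hmv.trans h2) (h1.trans hva)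
    (by rw [e1]; exact ha1) h1 h2 hm0 hmv hva ha1 h3

end Vale.Agent.Lib.P232
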