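import Vale.Agent.Lib.P232.Gap2
import Vale.Agent.Lib.P232.RA6

open MeasureTheory Set intervalIntegral Filter
open scoped Topology ENNReal

namespace Vale.Agent.Lib.P232

/-- The goal of the real analysis for the phase calibrations. -/
def GoodG (c T M₀ m a V B : ℝ) : Prop :=
  ∃ k H δ g g' I, 0 ≤ δ ∧ δ ≤ 4 ∧ Feas (CG T M₀ ((V - c * a) / (1 - c)) k H δ) m a g g' I ∧
    B ≤ k + H * V + 2 * I + c * δ

/-- The bound for the perimeter in one direction, given the slices of the mollified functions. -/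
theorem direction_bound {F : Set R3} (hm : MeasurableSet F) (hp : PeriodicSet F)
    {c c₁ c₂ T M₀ B : ℝ}
    (hph : ∀ ε > 0, ∀ᶠ n in atTop, PhaseData (smoothSeq hm hp n) c c₁ c₂ T M₀ ε)
    (hc1 : c < 1) (hcc : c ≤ c₁) (h12 : c₁ ≤ c₂)
    (hRA : ∀ m a, 0 ≤ m → m ≤ torusVolume F → torusVolume F ≤ a → a ≤ 1 →
      GoodG c T M₀ m a (torusVolume F) B) :
    ENNReal.ofReal B ≤ perimeter F := by
  by_cases hP : perimeter F = ⊤
  · rw [hP]
    exact le_top
  have hP' : perimeter F ≠ ⊤ := hP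
  rw [← ENNReal.ofReal_toReal hP']
  apply ENNReal.ofReal_le_ofReal
  -- the bound for one index
  have hone : ∀ ε κ τ, 0 < ε → 0 < κ → 0 < τ → (0 < M₀ → τ ^ 2 ≤ Real.pi * M₀ ^ 2 / 4) → ∀ n,
      PhaseData (smoothSeq hm hp n) c c₁ c₂ T M₀ ε →
      B ≤ (perimeter F).toReal + (4 * κ + 4 * τ + (2 / τ ^ 2) * ((smoothSeq hm hp n).Ff κ + 2 * κ))
        + 32 * ε := by
    intro ε κ τ hε hκ hτ hτM n hD
    set U := smoothSeq hm hp n with hU
    have hV : U.V = torusVolume F := smoothSeq_V hm hp n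
    have hPn : U.P ≤ (perimeter F).toReal := smoothSeq_P hm hp hP' n
    obtain ⟨xm, hxm⟩ := exists_min_periodic U.cont_A₁ U.per_A₁
    obtain ⟨xa, hxa⟩ := exists_max_periodic U.cont_A₁ U.per_A₁
    have hma : U.A₁ xm ≤ U.A₁ xa := hxa xm
    obtain ⟨k, H, δ, g, g', I, hδ0, hδ4, ⟨β, hc, _, _, hpt, hI⟩, hB⟩ :=
      hRA (U.A₁ xm) (U.A₁ xa) (U.A₁_nonneg _) (by rw [← hV]; exact U.V_ge_min hxm)
        (by rw [← hV]; exact U.V_le_max hxa) (U.A₁_le_one _)
    -- extension of the weight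
    have hAdm : ∃ β' : ℝ → ℝ, Continuous β' ∧ (∀ s, 0 ≤ β' s) ∧ (∀ s, β' s ≤ 1) ∧
        ∀ s ∈ Icc (U.A₁ xm) (U.A₁ xa), β' s = β s := by
      refine ⟨IccExtend hma ((Icc (U.A₁ xm) (U.A₁ xa)).domRestrict β), ?_, ?_, ?_, ?_⟩
      · exact (continuousOn_iff_continuous_domRestrict.1 hc).Icc_extend'
      · intro s
        exact (hpt _ (projIcc _ _ hma s).2).2
      · intro s
        exact (hpt _ (projIcc _ _ hma s).2).1.2.1
      · intro s hs
        rw [IccExtend_of_mem _ _ hs]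
        rfl
    obtain ⟨β', hc', h0, h1, heq⟩ := hAdm
    have key := U.phase_calib hD hc1 hcc h12 hε hκ hτ hδ0 hδ4 hτM hc' h0 h1 xm xa hxm hxa
      (k := k) (H := H) (fun s hs => by
        rw [heq s hs, hV]
        exact (hpt s hs).1)
    have hint : ∫ s in U.A₁ xm..U.A₁ xa, β' s = ∫ s in U.A₁ xm..U.A₁ xa, β s := by
      apply intervalIntegral.integral_congr
      intro s hs
      rw [uIcc_of_le hma] at hs
      exact heq s hs
    rw [hint, hV] at key
    linarith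
  -- the limit in the index
  have hlim : ∀ ε κ τ, 0 < ε → 0 < κ → 0 < τ → (0 < M₀ → τ ^ 2 ≤ Real.pi * M₀ ^ 2 / 4) →
      B ≤ (perimeter F).toReal + (4 * κ + 4 * τ + (2 / τ ^ 2) * (0 + 2 * κ)) + 32 * ε := by
    intro ε κ τ hε hκ hτ hτM
    have hF := smoothSeq_Ff hm hp hκ
    have ht : Tendsto (fun n => (perimeter F).toReal
        + (4 * κ + 4 * τ + (2 / τ ^ 2) * ((smoothSeq hm hp n).Ff κ + 2 * κ)) + 32 * ε)
        atTop (𝓝 ((perimeter F).toReal + (4 * κ + 4 * τ + (2 / τ ^ 2) * (0 + 2 * κ)) + 32 * ε)) :=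
      (tendsto_const_nhds.add (tendsto_const_nhds.add
        (tendsto_const_nhds.mul (hF.add tendsto_const_nhds)))).add tendsto_const_nhds
    refine ge_of_tendsto ht ?_
    filter_upwards [hph ε hε] with n hn
    exact hone ε κ τ hε hκ hτ hτM n hn
  apply le_of_forall_pos_le_add
  intro η hη
  -- the choice of the parameters
  obtain ⟨τ₀, hτ₀, hτ₀M⟩ : ∃ τ₀ : ℝ, 0 < τ₀ ∧ (0 < M₀ → τ₀ ≤ M₀ / 2) := by
    by_cases hM : 0 < M₀
    · exact ⟨M₀ / 2, by positivity, fun _ => le_rfl⟩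
    · exact ⟨1, one_pos, fun h => absurd h hM⟩
  set τ := min (min 1 (η / 16)) τ₀ with hτdef
  have hτ0 : 0 < τ := lt_min (lt_min one_pos (by positivity)) hτ₀
  have hτ1 : τ ≤ 1 := (min_le_left _ _).trans (min_le_left _ _)
  have hτη : τ ≤ η / 16 := (min_le_left _ _).trans (min_le_right _ _)
  have hτM : 0 < M₀ → τ ^ 2 ≤ Real.pi * M₀ ^ 2 / 4 := by
    intro hM
    have h1 : τ ≤ M₀ / 2 := (min_le_right _ _).trans (hτ₀M hM)
    have h2 : τ ^ 2 ≤ (M₀ / 2) ^ 2 := pow_le_pow_left₀ hτ0.le h1 2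
    have h3 := Real.pi_gt_three
    nlinarith [sq_nonneg M₀]
  have h1 := hlim (η / 64) (τ ^ 3 / 4) τ (by positivity) (by positivity) hτ0 hτM
  have e1 : 2 / τ ^ 2 * (0 + 2 * (τ ^ 3 / 4)) = τ := by
    field_simp
    ring
  rw [e1] at h1
  have h2 : τ ^ 3 ≤ τ := by nlinarith [pow_pos hτ0 2, sq_nonneg τ, mul_pos hτ0 hτ0]
  nlinarith

/-! ### Monotonicity in the parameters -/

lemma StripOK.mono {T T' s w g : ℝ} (h : T' ≤ T) (hg0 : 0 ≤ g) (hg1 : g ≤ 1) (hO : StripOK T s w g) :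
    StripOK T' s w g := by
  obtain ⟨ρ, h0, h1, hQ, hw⟩ := hO
  have hQ' : 2 * stripL ρ + 2 * ρ * (s - T) ≤ 2 * stripL ρ + 2 * ρ * (s - T') := by
    have : ρ * (T' - T) ≤ 0 := mul_nonpos_of_nonneg_of_nonpos h0 (by linarith)
    nlinarith
  refine ⟨ρ, h0, h1, hQ.trans hQ', hw.trans ?_⟩
  apply mul_le_mul_of_nonneg_left (pow_le_pow_left₀ hQ hQ' 2)
  nlinarith

lemma CG.mono {T T' M₀ M₀' se k H δ s g : ℝ} (h : T' ≤ T) (hM : M₀ = 0 ∨ M₀' = M₀)
    (hC : CG T M₀ se k H δ s g) : CG T' M₀' se k H δ s g := by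
  obtain ⟨hg0, hg1, ⟨h1, h2, h3⟩, h4⟩ := hC
  refine ⟨hg0, hg1, ⟨h1, h2, h3.mono h hg0 hg1⟩, fun hs => ?_⟩
  rcases h4 hs with h5 | h5
  · exact Or.inl h5
  · rcases hM with hM | hM
    · exact absurd h5.1 (by rw [hM]; exact lt_irrefl _)
    · rw [hM]
      exact Or.inr h5

lemma Feas.mono {C C' : ℝ → ℝ → Prop} {lo hi glo ghi I : ℝ}
    (h : ∀ s ∈ Icc lo hi, ∀ g, 0 ≤ g → C s g → C' s g) (hF : Feas C lo hi glo ghi I) :
    Feas C' lo hi glo ghi I := by
  obtain ⟨β, c, l, r, p, i⟩ := hF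
  exact ⟨β, c, l, r, fun s hs => ⟨h s hs _ (p s hs).2 (p s hs).1, (p s hs).2⟩, i⟩

lemma GoodG.mono {c T T' M₀ M₀' m a V B : ℝ} (h : T' ≤ T) (hM : M₀ = 0 ∨ M₀' = M₀)
    (hG : GoodG c T M₀ m a V B) : GoodG c T' M₀' m a V B := by
  obtain ⟨k, H, δ, g, g', I, h0, h1, hF, hB⟩ := hG
  exact ⟨k, H, δ, g, g', I, h0, h1, hF.mono fun s _ g _ hC => hC.mono h hM, hB⟩

/-- The constant strip with no curvature. -/
lemma stripOK_zero {T s w g : ℝ} (hw : w ^ 2 ≤ (1 - g ^ 2) * 4) : StripOK T s w g := by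
  refine ⟨0, le_rfl, zero_le_one, ?_, ?_⟩
  · rw [stripL_zero]
    norm_num
  · rw [stripL_zero]
    norm_num
    linarith

/-- A calibration below the old profile gives one for the phases. -/
lemma GoodG_of_value {c T M₀ m a V B : ℝ} (h : Value ell m a V B) : GoodG c T M₀ m a V B := by
  obtain ⟨k, H, β, hAdm, hB⟩ := h
  refine ⟨k, H, 0, β m, β a, ∫ s in m..a, β s, le_rfl, by norm_num,
    ⟨β, hAdm.cont, rfl, rfl, fun s hs => ⟨?_, hAdm.nn s hs⟩, le_rfl⟩, by simpa using hB⟩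
  have hg0 := hAdm.nn s hs
  have hg1 := hAdm.le1 s hs
  have hcon := hAdm.con s hs
  have hg : 0 ≤ 1 - β s ^ 2 := by nlinarith
  have e1 : ell s ≤ 4 * Real.pi * s := (min_le_left _ _).trans (min_le_left _ _)
  have e2 : ell s ≤ 4 := (min_le_left _ _).trans (min_le_right _ _)
  have e3 : ell s ≤ 4 * Real.pi * (1 - s) := min_le_right _ _
  refine ⟨hg0, hg1, ⟨hcon.trans (mul_le_mul_of_nonneg_left e1 hg),
    hcon.trans (mul_le_mul_of_nonneg_left e3 hg),
    stripOK_zero (hcon.trans (mul_le_mul_of_nonneg_left e2 hg))⟩, fun _ => Or.inl ?_⟩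
  have e4 : k + 0 + H * s = k + H * s := by ring
  rw [e4]
  exact hcon.trans (mul_le_mul_of_nonneg_left e3 hg)

/-! ### A corner estimate on a wider range of volumes -/

/-- The chord for the corner leaf. -/
lemma corner_chord' {a m V ε : ℝ} (hm0 : 0 ≤ m) (hm : m ≤ 0.0005) (ha : 1 - 0.0005 ≤ a) (ha1 : a ≤ 1)
    (hV : 0.31 ≤ V) (hV' : V ≤ 0.69) (hε : ε = max m (1 - a)) :
    ∃ k H : ℝ, (∀ s ∈ Icc m a, (k + H * s) ^ 2 ≤ ell s) ∧ (∀ s ∈ Icc m a, (k + H * s) ^ 2 ≤ 4 * Real.pi * ε)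
      ∧ 0 ≤ k + H * V ∧ 0.3 * (2 * Real.sqrt Real.pi * Real.sqrt ε) ≤ k + H * V := by
  have hπ := Real.pi_pos
  have hma : m < a := by norm_num at hm ha; linarith
  have hd : 0 < a - m := by linarith
  have hε0 : 0 ≤ ε := by rw [hε]; exact hm0.trans (le_max_left _ _)
  have hmε : m ≤ ε := by rw [hε]; exact le_max_left _ _
  set ψm := Real.sqrt (ell m) with hψm
  set ψa := Real.sqrt (ell a) with hψa
  have hinv : (0.31 : ℝ) ≤ 1 / Real.pi := by
    rw [le_div_iff₀ hπ]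
    have := Real.pi_lt_d2
    norm_num at this ⊢
    linarith
  have hm1 : m ≤ 1 / Real.pi := by norm_num at hm; linarith
  have ha2 : 1 - a ≤ 1 / Real.pi := by norm_num at ha; linarith
  have ellm : ell m = 4 * Real.pi * m := ell_eq_of_le hm1
  have ella : ell a = 4 * Real.pi * (1 - a) := ell_eq_of_le' ha2
  have hm2 : ψm ^ 2 = 4 * Real.pi * m := by
    rw [hψm, ← ellm]
    apply Real.sq_sqrt
    rw [ellm]
    positivity
  have ha3 : ψa ^ 2 = 4 * Real.pi * (1 - a) := by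
    rw [hψa, ← ella]
    apply Real.sq_sqrt
    rw [ella]
    have : 0 ≤ 1 - a := by linarith
    positivity
  have hψm0 : 0 ≤ ψm := Real.sqrt_nonneg _
  have hψa0 : 0 ≤ ψa := Real.sqrt_nonneg _
  set H := (ψa - ψm) / (a - m) with hH
  set k := ψm - H * m with hk
  have hw : ∀ s, k + H * s = (1 - (s - m) / (a - m)) * ψm + (s - m) / (a - m) * ψa := by
    intro s
    rw [hk, hH]
    field_simp
    ring
  have hpoint : ∀ s, (1 - (s - m) / (a - m)) * m + (s - m) / (a - m) * a = s := by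
    intro s
    field_simp
    ring
  have ht : ∀ s ∈ Icc m a, 0 ≤ (s - m) / (a - m) ∧ (s - m) / (a - m) ≤ 1 := by
    intro s hs
    exact ⟨div_nonneg (by linarith [hs.1]) hd.le, (div_le_one hd).2 (by linarith [hs.2])⟩
  have hmax : ψm ^ 2 ≤ 4 * Real.pi * ε ∧ ψa ^ 2 ≤ 4 * Real.pi * ε := by
    rw [hm2, ha3]
    constructor
    · exact mul_le_mul_of_nonneg_left hmε (by positivity)
    · refine mul_le_mul_of_nonneg_left ?_ (by positivity)
      rw [hε]
      exact le_max_right _ _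
  refine ⟨k, H, ?_, ?_, ?_⟩
  · intro s hs
    have h1 := exact_chord (m := m) (a := a) (ψm := ψm) (ψa := ψa) (t := (s - m) / (a - m))
      (by rw [hm2, ellm]) (by rw [ha3, ella]) (ht s hs).1 (ht s hs).2
    rw [hpoint, ← hw] at h1
    exact h1
  · intro s hs
    rw [hw]
    have h0 := (ht s hs).1
    have h1 := (ht s hs).2
    set t := (s - m) / (a - m)
    have ht' : 0 ≤ 1 - t := by linarith
    have hsq : ((1 - t) * ψm + t * ψa) ^ 2 ≤ (1 - t) * ψm ^ 2 + t * ψa ^ 2 := by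
      nlinarith [mul_nonneg (mul_nonneg h0 ht') (sq_nonneg (ψm - ψa))]
    nlinarith [hmax.1, hmax.2]
  · have hVmem : V ∈ Icc m a := ⟨by norm_num at hm hV; linarith, by norm_num at ha hV'; linarith⟩
    have htV := ht V hVmem
    have ht1 : 0.3 ≤ (V - m) / (a - m) := by
      rw [le_div_iff₀ hd]
      norm_num at hm hV ha ha1 hV' ⊢
      nlinarith
    have ht2 : (V - m) / (a - m) ≤ 0.7 := by
      rw [div_le_iff₀ hd]
      norm_num at hm hV ha ha1 hV' ⊢
      nlinarith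
    have hwV : 0.3 * (ψm + ψa) ≤ k + H * V := by
      rw [hw]
      norm_num at ht1 ht2 ⊢
      nlinarith
    have hsum : 2 * Real.sqrt Real.pi * Real.sqrt ε ≤ ψm + ψa := by
      have h1 : (2 * Real.sqrt Real.pi * Real.sqrt ε) ^ 2 = 4 * Real.pi * ε := by
        rw [mul_pow, mul_pow, sqrt_pi_sq, Real.sq_sqrt hε0]
        ring
      have h2 : 4 * Real.pi * ε ≤ (ψm + ψa) ^ 2 := by
        rcases le_total m (1 - a) with hc | hc
        · have e : ε = 1 - a := by rw [hε]; exact max_eq_right hc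
          rw [e, ← ha3]
          nlinarith [mul_nonneg hψm0 hψa0, sq_nonneg ψm]
        · have e : ε = m := by rw [hε]; exact max_eq_left hc
          rw [e, ← hm2]
          nlinarith [mul_nonneg hψm0 hψa0, sq_nonneg ψa]
      rw [← h1] at h2
      exact abs_le_of_sq_le_sq' h2 (by positivity) |>.2
    have h5 : 0 ≤ 0.3 * (ψm + ψa) := by positivity
    constructor
    · linarith
    · linarith

/-- The arithmetic at the corner. -/
lemma corner_arith' {u r L π' : ℝ} (hu0 : 0 < u) (hu3 : u ≤ 0.0224) (hr : 1.7724 ≤ r)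
    (hlogb : u * L ≤ 1 / 20 + 2 * u) (hπ : π' ≤ 4) :
    2 * (2 * u ^ 2 + u ^ 2 * (2 * (2 * L) + π')) ≤ 0.3 * (2 * r * u) := by
  have e : 2 * (2 * u ^ 2 + u ^ 2 * (2 * (2 * L) + π')) = u * (4 * u + 8 * (u * L) + 2 * u * π') := by
    ring
  rw [e]
  have h1 : 2 * u * π' ≤ 2 * u * 4 := mul_le_mul_of_nonneg_left hπ (by positivity)
  have h2 : 4 * u + 8 * (u * L) + 2 * u * π' ≤ 1.06 := by
    norm_num at hu3 ⊢
    linarith
  have h3 : u * (4 * u + 8 * (u * L) + 2 * u * π') ≤ u * 1.06 :=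
    mul_le_mul_of_nonneg_left h2 hu0.le
  have h4 : 1.7724 * u ≤ r * u := mul_le_mul_of_nonneg_right hr hu0.le
  norm_num at h3 h4 ⊢
  linarith

/-- The corner leaf: when the sections almost reach both `0` and `1`. -/
theorem corner_value' {a m V : ℝ} (hm0 : 0 ≤ m) (hm : m ≤ 0.0005) (ha : 1 - 0.0005 ≤ a) (ha1 : a ≤ 1)
    (hV : 0.31 ≤ V) (hV' : V ≤ 0.69) : Value ell m a V (profileJ V) := by
  set ε := max m (1 - a) with hε
  have hε0 : 0 ≤ ε := hm0.trans (le_max_left _ _)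
  have hεle : ε ≤ 0.0005 := by
    apply max_le hm
    linarith
  have hmε : m ≤ ε := le_max_left _ _
  have haε : 1 - ε ≤ a := by
    have : 1 - a ≤ ε := le_max_right _ _
    linarith
  obtain ⟨k, H, hcon1, hcon2, hkV, hwV⟩ := corner_chord' hm0 hm ha ha1 hV hV' hε
  have hadm : Adm ell m a k H (beta4 ε) :=
    ⟨(beta4_continuous hε0).continuousOn, fun s _ => beta4_nonneg ε s,
      fun s _ => beta4_le_one hε0 s,
      fun s hs => beta4_con hε0 (hcon1 s hs) (hcon2 s hs)⟩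
  refine ⟨k, H, beta4 ε, hadm, (profileJ_le_two V).trans ?_⟩
  rcases hε0.eq_or_lt with h0 | h0
  · -- the exact corner
    have hb : ∫ s in m..a, beta4 ε s = ∫ s in m..a, (1:ℝ) := by
      rw [← h0]
      apply intervalIntegral.integral_congr
      intro s _
      simp [beta4]
    rw [hb]
    have hm00 : m = 0 := le_antisymm (by rw [← h0] at hmε; exact hmε) hm0
    have ha11 : a = 1 := by
      have : 1 - a ≤ ε := le_max_right _ _
      rw [← h0] at this
      linarith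
    rw [hm00, ha11]
    simp only [intervalIntegral.integral_const, sub_zero, smul_eq_mul, mul_one]
    linarith
  · -- the general case
    have hI := beta4_integral (m := m) (a := a) h0 (by norm_num at hεle ⊢; linarith) hmε haε
    set u := Real.sqrt ε with hu
    have hu0 : 0 < u := Real.sqrt_pos.2 h0
    have hu2 : u ^ 2 = ε := Real.sq_sqrt hε0
    have hu3 : u ≤ 0.0224 := by
      rw [hu]
      apply Real.sqrt_le_iff.2
      constructor
      · norm_num
      · norm_num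
        norm_num at hεle
        linarith
    have hlog : Real.log (1 / ε) = 2 * Real.log (1 / u) := by
      rw [← hu2, ← one_div_pow, Real.log_pow]
      norm_num
    have hsqrtpi : (1.7724:ℝ) ≤ Real.sqrt Real.pi := by
      apply Real.le_sqrt_of_sq_le
      have := Real.pi_gt_d6
      norm_num at this ⊢
      linarith
    have hfinal := corner_arith' hu0 hu3 hsqrtpi (corner_log hu0) Real.pi_le_four
    rw [hu2, ← hlog] at hfinal
    linarith

end Vale.Agent.Lib.P232
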