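import Vale.Agent.Lib.P232.Gap3

open MeasureTheory Set intervalIntegral

namespace Vale.Agent.Lib.P232

/-! ### Lines at the nodes -/

/-- The numerator `4 π_lo` in the scale of the certificates. -/
def G4 : ℕ := 12566368000

/-- The rod parameter, in thousandths. -/
noncomputable def muR (μ : ℕ) : ℝ := (μ : ℝ) / 1000

/-- The constraint of a line at a node. -/
def conL (W R α γp γn s : ℕ) : Bool :=
  Nat.ble (γn * s) (α * SS + γp * s) && Nat.ble (W * W) (R * lineNum α γp γn s)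

lemma conL_real {W R α γp γn s : ℕ} (h : conL W R α γp γn s = true) :
    0 ≤ toR α + slopeR γp γn * toR s ∧
      ((W : ℝ) / (SS : ℝ) ^ 2) ^ 2
        ≤ ((R : ℝ) / (SS : ℝ) ^ 2) * (toR α + slopeR γp γn * toR s) := by
  have hS := SS_pos
  simp only [conL, Bool.and_eq_true] at h
  obtain ⟨h1, h2⟩ := h
  have hl : γn * s ≤ α * SS + γp * s := Nat.le_of_ble_eq_true h1
  have h3 : W * W ≤ R * lineNum α γp γn s := Nat.le_of_ble_eq_true h2
  have h4 : (W : ℝ) * W ≤ R * (lineNum α γp γn s : ℕ) := by exact_mod_cast h3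
  rw [line_eq hl]
  refine ⟨by positivity, ?_⟩
  have e1 : ((W : ℝ) / (SS : ℝ) ^ 2) ^ 2 = ((W : ℝ) * W) / (SS : ℝ) ^ 4 := by
    field_simp
  have e2 : ((R : ℝ) / (SS : ℝ) ^ 2) * ((lineNum α γp γn s : ℕ) / (SS : ℝ) ^ 2)
      = (R * (lineNum α γp γn s : ℕ)) / (SS : ℝ) ^ 4 := by
    field_simp
  rw [e1, e2]
  exact div_le_div_of_nonneg_right h4 (by positivity)

/-- The constraint of a node as an affine constraint. -/
lemma conL_aff {k Hp Hn g s α γp γn : ℕ} (hl : Hn * s ≤ k * SS + Hp * s) (hg : g ≤ SS)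
    (h : conL (lineNum k Hp Hn s) (SS * SS - g * g) α γp γn s = true) :
    AffCon (toR α) (slopeR γp γn) (toR k) (slopeR Hp Hn) (toR s) (toR g) := by
  obtain ⟨h1, h2⟩ := conL_real h
  rw [← line_eq hl, ← one_sub_sq_eq hg] at h2
  exact ⟨h1, h2⟩

lemma toR_zero : toR 0 = 0 := by simp [toR]

lemma toR_G4 : toR G4 = 4 * piLo := by
  unfold toR G4 SS piLo
  norm_num

lemma slopeR_G4 : slopeR G4 0 = 4 * piLo := by
  unfold slopeR G4 SS piLo
  norm_num

lemma slopeR_G4' : slopeR 0 G4 = - (4 * piLo) := by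
  unfold slopeR G4 SS piLo
  norm_num

lemma toR_add (a b : ℕ) : toR (a + b) = toR a + toR b := by
  unfold toR
  push_cast
  ring

/-- The numerical constraint at a node. -/
def nodeP (K Hp Hn D α γ : ℕ) (has : Bool) (nα nγp nγn s g : ℕ) : Bool :=
  Nat.ble g SS && Nat.ble (Hn * s) (K * SS + Hp * s) &&
    conL (lineNum K Hp Hn s) (SS * SS - g * g) 0 G4 0 s &&
    conL (lineNum K Hp Hn s) (SS * SS - g * g) G4 0 G4 s &&
    conL (lineNum K Hp Hn s) (SS * SS - g * g) α γ 0 s &&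
    (!has || conL (lineNum (K + D) Hp Hn s) (SS * SS - g * g) nα nγp nγn s)

/-- The real constraint at a node. -/
def NdP (k H αs γs : ℝ) (has : Bool) (k₂ nα nγ s g : ℝ) : Prop :=
  0 ≤ g ∧ g ≤ 1 ∧ AffCon 0 (4 * piLo) k H s g ∧ AffCon (4 * piLo) (- (4 * piLo)) k H s g ∧
    AffCon αs γs k H s g ∧ (has = true → AffCon nα nγ k₂ H s g)

lemma convex_NdP (k H αs γs : ℝ) (has : Bool) (k₂ nα nγ : ℝ) :
    ConvexCon (NdP k H αs γs has k₂ nα nγ) := by
  intro s₀ s₁ g₀ g₁ t ht0 ht1 h0 h1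
  obtain ⟨a0, a1, a2, a3, a4, a5⟩ := h0
  obtain ⟨b0, b1, b2, b3, b4, b5⟩ := h1
  have ha := sq_le_one_of a0 a1
  have hb := sq_le_one_of b0 b1
  exact ⟨interp_nonneg ht0 ht1 a0 b0, interp_le_one ht0 ht1 a1 b1,
    AffCon.convex ht0 ht1 ha hb a2 b2, AffCon.convex ht0 ht1 ha hb a3 b3,
    AffCon.convex ht0 ht1 ha hb a4 b4,
    fun hh => AffCon.convex ht0 ht1 ha hb (a5 hh) (b5 hh)⟩

lemma nodeP_sound {K Hp Hn D α γ : ℕ} {has : Bool} {nα nγp nγn s g : ℕ}
    (h : nodeP K Hp Hn D α γ has nα nγp nγn s g = true) :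
    NdP (toR K) (slopeR Hp Hn) (toR α) (slopeR γ 0) has (toR K + toR D) (toR nα) (slopeR nγp nγn)
      (toR s) (toR g) := by
  simp only [nodeP, Bool.and_eq_true, Bool.or_eq_true, Bool.not_eq_true'] at h
  obtain ⟨⟨⟨⟨⟨h1, h2⟩, h3⟩, h4⟩, h5⟩, h6⟩ := h
  have hg : g ≤ SS := Nat.le_of_ble_eq_true h1
  have hl : Hn * s ≤ K * SS + Hp * s := Nat.le_of_ble_eq_true h2
  have a3 := conL_aff hl hg h3
  have a4 := conL_aff hl hg h4
  have a5 := conL_aff hl hg h5
  rw [toR_zero, slopeR_G4] at a3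
  rw [toR_G4, slopeR_G4'] at a4
  refine ⟨toR_nonneg g, toR_le_one hg, a3, a4, a5, fun hh => ?_⟩
  rcases h6 with h6 | h6
  · rw [hh] at h6
    exact absurd h6 (by simp)
  · have hl2 : Hn * s ≤ (K + D) * SS + Hp * s := by
      have : K * SS ≤ (K + D) * SS := Nat.mul_le_mul_right _ (Nat.le_add_right _ _)
      omega
    have a6 := conL_aff hl2 hg h6
    rwa [toR_add] at a6

/-! ### The strip lines -/

/-- Numerator of the correction in the lower bound for the strip constant. -/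
def loNum (r : ℕ) : ℕ :=
  280 * r ^ 2 * 10 ^ 18 + 42 * r ^ 4 * 10 ^ 12 + 15 * r ^ 6 * 10 ^ 6 + 14 * r ^ 8

/-- The common denominator of the strip constants. -/
def loDen : ℕ := 1680 * 10 ^ 24

/-- The check of a strip line for the far sections with thickness `t`. -/
def stripValid (t r q α : ℕ) : Bool :=
  Nat.ble r 800 && Nat.blt 0 q &&
    Nat.ble (α * loDen * 10 ^ 6 + q * q * loDen * SS + 4 * q * r * t * loDen
        + 4 * q * 1000 * loNum r * SS)
      (4 * q * 1000 * loDen * SS)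

/-- The slope of a strip line. -/
def stripG (q r : ℕ) : ℕ := 4 * q * r * 1000

lemma stripLo_eq (r : ℕ) :
    stripLo ((r : ℝ) / 1000) = 1 - (loNum r : ℝ) / (loDen : ℝ) := by
  unfold stripLo loNum loDen
  push_cast
  ring

/-- The real form of the strip line. -/
lemma strip_real {ρ q₀ X T αr k H s g : ℝ} (hρ0 : 0 ≤ ρ) (hρ1 : ρ ≤ 4 / 5) (hq0 : 0 < q₀)
    (hX : stripLo ρ = 1 - X) (hα : αr ≤ 4 * q₀ * (1 - X) - q₀ ^ 2 - 4 * q₀ * ρ * T)
    (hg0 : 0 ≤ g) (hg1 : g ≤ 1) (hA : AffCon αr (4 * q₀ * ρ) k H s g) :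
    StripOK T s (k + H * s) g := by
  obtain ⟨hA1, hA2⟩ := hA
  have hg2 : 0 ≤ 1 - g ^ 2 := by nlinarith
  have hlo := stripLo_le hρ0 hρ1
  set Qlo := 2 * stripLo ρ + 2 * ρ * (s - T) with hQlo
  set Q := 2 * stripL ρ + 2 * ρ * (s - T) with hQ
  have hQQ : Qlo ≤ Q := by
    rw [hQlo, hQ]
    linarith
  have hval : αr + 4 * q₀ * ρ * s ≤ 2 * q₀ * Qlo - q₀ ^ 2 := by
    have e : 2 * q₀ * Qlo - q₀ ^ 2
        = (4 * q₀ * (1 - X) - q₀ ^ 2 - 4 * q₀ * ρ * T) + 4 * q₀ * ρ * s := by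
      rw [hQlo, hX]
      ring
    rw [e]
    linarith
  have hQ0 : 0 ≤ Qlo := by
    have h1 : 0 ≤ 2 * q₀ * Qlo - q₀ ^ 2 := hA1.trans hval
    by_contra hneg
    push Not at hneg
    have h2 : 2 * q₀ * Qlo < 0 := by
      have : q₀ * Qlo < 0 := mul_neg_of_pos_of_neg hq0 hneg
      linarith
    nlinarith [sq_nonneg q₀]
  refine ⟨ρ, hρ0, hρ1.trans (by norm_num), hQ0.trans hQQ, ?_⟩
  have h5 : 2 * q₀ * Qlo - q₀ ^ 2 ≤ Q ^ 2 := by
    have h6 : Qlo ^ 2 ≤ Q ^ 2 := pow_le_pow_left₀ hQ0 hQQ 2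
    nlinarith [sq_nonneg (Qlo - q₀)]
  exact hA2.trans (mul_le_mul_of_nonneg_left (hval.trans h5) hg2)

/-- The arithmetic of the check of a strip line. -/
lemma strip_arith {t r q α : ℕ}
    (h : α * loDen * 10 ^ 6 + q * q * loDen * SS + 4 * q * r * t * loDen
        + 4 * q * 1000 * loNum r * SS ≤ 4 * q * 1000 * loDen * SS) :
    toR α ≤ 4 * ((q : ℝ) / 1000) * (1 - (loNum r : ℝ) / (loDen : ℝ)) - ((q : ℝ) / 1000) ^ 2
      - 4 * ((q : ℝ) / 1000) * ((r : ℝ) / 1000) * toR t := by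
  have hS := SS_pos
  have hD : (0:ℝ) < (loDen : ℝ) := by
    have : 0 < loDen := by
      unfold loDen
      positivity
    exact_mod_cast this
  generalize loDen = D at h hD
  generalize loNum r = N at h
  have hmain : (α : ℝ) * D * 10 ^ 6 + q * q * D * SS + 4 * q * r * t * D
      + 4 * q * 1000 * N * SS ≤ 4 * q * 1000 * D * SS := by exact_mod_cast h
  have e : 4 * ((q : ℝ) / 1000) * (1 - (N : ℝ) / (D : ℝ)) - ((q : ℝ) / 1000) ^ 2
      - 4 * ((q : ℝ) / 1000) * ((r : ℝ) / 1000) * toR t - toR α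
      = ((4 : ℝ) * q * 1000 * D * SS - ((α : ℝ) * D * 10 ^ 6 + q * q * D * SS + 4 * q * r * t * D
        + 4 * q * 1000 * N * SS)) / (10 ^ 6 * D * SS) := by
    unfold toR
    field_simp
    ring
  have h7 : 0 ≤ 4 * ((q : ℝ) / 1000) * (1 - (N : ℝ) / (D : ℝ)) - ((q : ℝ) / 1000) ^ 2
      - 4 * ((q : ℝ) / 1000) * ((r : ℝ) / 1000) * toR t - toR α := by
    rw [e]
    apply div_nonneg (by linarith) (by positivity)
  linarith

lemma strip_sound {t r q α : ℕ} (hv : stripValid t r q α = true) {k H s g : ℝ}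
    (hg0 : 0 ≤ g) (hg1 : g ≤ 1)
    (hA : AffCon (toR α) (slopeR (stripG q r) 0) k H s g) :
    StripOK (toR t) s (k + H * s) g := by
  simp only [stripValid, Bool.and_eq_true] at hv
  obtain ⟨⟨h1, h2⟩, h3⟩ := hv
  have hr : r ≤ 800 := Nat.le_of_ble_eq_true h1
  have hq : 0 < q := Nat.le_of_ble_eq_true h2
  have hr' : (r : ℝ) ≤ 800 := by exact_mod_cast hr
  have hq' : (0 : ℝ) < q := by exact_mod_cast hq
  have hγ : slopeR (stripG q r) 0 = 4 * ((q : ℝ) / 1000) * ((r : ℝ) / 1000) := by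
    unfold slopeR stripG SS
    push_cast
    ring
  rw [hγ] at hA
  exact strip_real (X := (loNum r : ℝ) / (loDen : ℝ)) (by positivity) (by linarith) (by positivity)
    (stripLo_eq r) (strip_arith (Nat.le_of_ble_eq_true h3)) hg0 hg1 hA

/-! ### The rod lines -/

/-- The check of a rod line. -/
def rodValid (μ q α γn : ℕ) : Bool :=
  Nat.blt 0 μ && Nat.ble ((α * 10 ^ 6 + q * q * SS) * (μ * (2 * 10 ^ 9)))
      (SS * 2000 * q * (4000 * 10 ^ 9 + 3141592 * μ * μ)) &&
    Nat.ble (4 * q * SS) (γn * μ)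

/-- The validity range of a rod line. -/
def rodRange (μ hi : ℕ) : Bool :=
  Nat.ble hi SS && Nat.ble (3141593 * μ * μ * SS) ((SS - hi) * (4 * 10 ^ 12))

lemma rod_sound {μ q α γn hi : ℕ} (hv : rodValid μ q α γn = true) (hr : rodRange μ hi = true)
    {k H s g : ℝ} (hg0 : 0 ≤ g) (hg1 : g ≤ 1) (hs0 : 0 ≤ s) (hs1 : s ≤ toR hi)
    (hA : AffCon (toR α) (slopeR 0 γn) k H s g) :
    RodOK (muR μ) s (k + H * s) g := by
  simp only [rodValid, rodRange, Bool.and_eq_true] at hv hr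
  obtain ⟨⟨h1, h2⟩, h3⟩ := hv
  obtain ⟨h4, h5⟩ := hr
  have hμ : 0 < μ := Nat.le_of_ble_eq_true h1
  have h2' := Nat.le_of_ble_eq_true h2
  have h3' := Nat.le_of_ble_eq_true h3
  have h4' := Nat.le_of_ble_eq_true h4
  have h5' := Nat.le_of_ble_eq_true h5
  have hμ' : (0 : ℝ) < μ := by exact_mod_cast hμ
  have hS := SS_pos
  have hπ := Real.pi_pos
  have hg2 : 0 ≤ 1 - g ^ 2 := by nlinarith
  set M := muR μ with hM
  have hM0 : 0 < M := by
    rw [hM]
    unfold muR
    positivity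
  have hhi1 : toR hi ≤ 1 := toR_le_one h4'
  have hs2 : 0 ≤ 1 - s := by linarith
  -- validity range
  have hrange : Real.pi * M ^ 2 / 4 ≤ 1 - s := by
    have e : (3141593 : ℝ) * μ * μ * SS ≤ ((SS : ℝ) - hi) * (4 * 10 ^ 12) := by
      have := h5'
      have h6 : ((3141593 * μ * μ * SS : ℕ) : ℝ) ≤ ((SS - hi) * (4 * 10 ^ 12) : ℕ) := by
        exact_mod_cast this
      push_cast [Nat.cast_sub h4'] at h6
      linarith
    have e2 : piHi * M ^ 2 / 4 ≤ 1 - toR hi := by
      have e3 : 1 - toR hi - piHi * M ^ 2 / 4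
          = (((SS : ℝ) - hi) * (4 * 10 ^ 12) - (3141593 : ℝ) * μ * μ * SS) / (4 * 10 ^ 12 * SS) := by
        rw [hM]
        unfold muR piHi toR
        field_simp
        ring
      have e4 : 0 ≤ 1 - toR hi - piHi * M ^ 2 / 4 := by
        rw [e3]
        apply div_nonneg (by linarith) (by positivity)
      linarith
    have e5 : Real.pi * M ^ 2 / 4 ≤ piHi * M ^ 2 / 4 := by
      have := le_piHi
      have h0 : 0 ≤ M ^ 2 := by positivity
      nlinarith
    linarith
  -- the parameters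
  set q₀ : ℝ := (q : ℝ) / 1000 with hq₀
  have hq0 : 0 ≤ q₀ := by positivity
  set Ar := 2 / M + piLo / 2 * M with hAr
  set Br := 2 / M with hBr
  have hα : toR α ≤ 2 * q₀ * Ar - q₀ ^ 2 := by
    have e6 : (((α : ℝ) * 10 ^ 6 + q * q * SS) * (μ * (2 * 10 ^ 9)))
        ≤ SS * 2000 * q * (4000 * 10 ^ 9 + 3141592 * μ * μ) := by exact_mod_cast h2'
    have e7 : 2 * q₀ * Ar - q₀ ^ 2 - toR α
        = (SS * 2000 * q * (4000 * 10 ^ 9 + 3141592 * μ * μ)
          - ((α : ℝ) * 10 ^ 6 + q * q * SS) * (μ * (2 * 10 ^ 9))) / (SS * 10 ^ 6 * (μ * (2 * 10 ^ 9))) := by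
      rw [hAr, hBr, hq₀, hM]
      unfold muR piLo toR
      field_simp
      ring
    have e8 : 0 ≤ 2 * q₀ * Ar - q₀ ^ 2 - toR α := by
      rw [e7]
      apply div_nonneg (by linarith) (by positivity)
    linarith
  have hγ : 2 * q₀ * Br ≤ toR γn := by
    have e6 : (4 : ℝ) * q * SS ≤ γn * μ := by exact_mod_cast h3'
    have e7 : toR γn - 2 * q₀ * Br = ((γn : ℝ) * μ - 4 * q * SS) / (SS * μ) := by
      rw [hBr, hq₀, hM]
      unfold muR toR
      field_simp
      ring
    have e8 : 0 ≤ toR γn - 2 * q₀ * Br := by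
      rw [e7]
      apply div_nonneg (by linarith) (by positivity)
    linarith
  have hsl : slopeR 0 γn = - toR γn := by
    unfold slopeR toR
    push_cast
    ring
  rw [hsl] at hA
  obtain ⟨hA1, hA2⟩ := hA
  set r := 2 / M * (1 - s) + Real.pi / 2 * M with hr_
  have hrlo : Ar - Br * s ≤ r := by
    rw [hAr, hBr, hr_]
    have := piLo_le
    have e9 : 2 / M + piLo / 2 * M - 2 / M * s = 2 / M * (1 - s) + piLo / 2 * M := by ring
    rw [e9]
    nlinarith
  have hrlo0 : 0 ≤ Ar - Br * s := by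
    have e9 : Ar - Br * s = 2 / M * (1 - s) + piLo / 2 * M := by
      rw [hAr, hBr]
      ring
    rw [e9]
    have := piLo_pos
    positivity
  refine ⟨hM0, hrange, hA2.trans (mul_le_mul_of_nonneg_left ?_ hg2)⟩
  have h7 : toR α + - toR γn * s ≤ 2 * q₀ * (Ar - Br * s) - q₀ ^ 2 := by
    have : 2 * q₀ * Br * s ≤ toR γn * s := mul_le_mul_of_nonneg_right hγ hs0
    nlinarith
  have h8 : (Ar - Br * s) ^ 2 ≤ r ^ 2 := pow_le_pow_left₀ hrlo0 hrlo 2
  nlinarith [sq_nonneg (Ar - Br * s - q₀)]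

/-! ### The pieces of a chain -/

/-- The kinds of constraints in the central phase. -/
inductive NearK where
  | none
  | co
  | rod (q α γn : ℕ)

namespace NearK

/-- Whether there is a line. -/
def has : NearK → Bool
  | none => false
  | _ => true

/-- Constant term of the line. -/
def nα : NearK → ℕ
  | none => 0
  | co => G4
  | rod _ α _ => α

/-- Positive slope of the line. -/
def nγp : NearK → ℕ
  | _ => 0

/-- Negative slope of the line. -/
def nγn : NearK → ℕ
  | none => 0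
  | co => G4
  | rod _ _ γ => γ

/-- The check of the central phase up to the mass `hi`, on the box with `a ≤ aU`, `vL ≤ V`. -/
def valid (c μ D aU vL hi : ℕ) : NearK → Bool
  | none => Nat.beq D 0 || Nat.blt (hi * (SS - c) + c * aU) (vL * SS)
  | co => true
  | rod q α γn => rodValid μ q α γn && rodRange μ hi

end NearK

/-- Configuration of a certificate tree. -/
structure Cfg where
  c : ℕ
  t : ℕ
  μ : ℕ

/-- The data of a piece of a chain. -/
structure PieceC where
  r : ℕ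
  q : ℕ
  α : ℕ
  nk : NearK
  l : List (ℕ × ℕ)

/-- The node check of a piece. -/
def PieceC.node (K Hp Hn D : ℕ) (p : PieceC) (s g : ℕ) : Bool :=
  nodeP K Hp Hn D p.α (stripG p.q p.r) p.nk.has p.nk.nα p.nk.nγp p.nk.nγn s g

/-- The validity of the lines of a piece. -/
def PieceC.valid (C : Cfg) (D aU vL : ℕ) (p : PieceC) (hi : ℕ) : Bool :=
  stripValid C.t p.r p.q p.α && p.nk.valid C.c C.μ D aU vL hi

/-- The threshold for the central phase. -/
noncomputable def seLow (C : Cfg) (aU vL : ℕ) : ℝ :=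
  (toR vL - toR C.c * toR aU) / (1 - toR C.c)

/-- The passage from the nodes of a piece to the constraints. -/
lemma PieceC.to_CG {C : Cfg} (hc : C.c < SS) {K Hp Hn D aU vL hi : ℕ} {p : PieceC}
    (hv : p.valid C D aU vL hi = true) {se s g : ℝ} (hse : seLow C aU vL ≤ se) (hs : s ≤ toR hi)
    (hN : NdP (toR K) (slopeR Hp Hn) (toR p.α) (slopeR (stripG p.q p.r) 0) p.nk.has
      (toR K + toR D) (toR p.nk.nα) (slopeR p.nk.nγp p.nk.nγn) s g) :
    CG (toR C.t) (muR C.μ) se (toR K) (slopeR Hp Hn) (toR D) s g := by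
  obtain ⟨hg0, hg1, a1, a2, a3, a4⟩ := hN
  simp only [PieceC.valid, Bool.and_eq_true] at hv
  obtain ⟨hst, hnk⟩ := hv
  have hg := sq_le_one_of hg0 hg1
  have hs0 : 0 ≤ s := by
    have h0 := a1.1
    have hp := piLo_pos
    simp only [zero_add] at h0
    by_contra hneg
    push Not at hneg
    nlinarith
  refine ⟨hg0, hg1, ⟨affCon_pi hg a1, affCon_pi' hg a2, strip_sound hst hg0 hg1 a3⟩, fun hse2 => ?_⟩
  cases hk : p.nk with
  | none =>
    rw [hk] at hnk
    simp only [NearK.valid, Bool.or_eq_true] at hnk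
    rcases hnk with h | h
    · have hD : D = 0 := Nat.eq_of_beq_eq_true h
      left
      rw [hD, toR_zero, add_zero]
      exact affCon_pi' hg a2
    · exfalso
      have hlt : hi * (SS - C.c) + C.c * aU < vL * SS := Nat.le_of_ble_eq_true h
      have hlt' : ((hi * (SS - C.c) + C.c * aU : ℕ) : ℝ) < (vL * SS : ℕ) := by exact_mod_cast hlt
      push_cast [Nat.cast_sub hc.le] at hlt'
      have hS := SS_pos
      have hcS : (C.c : ℝ) < SS := by exact_mod_cast hc
      have hc1 : 0 < 1 - toR C.c := by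
        have : toR C.c < 1 := by
          unfold toR
          rw [div_lt_one hS]
          exact hcS
        linarith
      have h2 : toR hi < seLow C aU vL := by
        unfold seLow
        rw [lt_div_iff₀ hc1]
        unfold toR
        have e : (vL : ℝ) / SS - (C.c : ℝ) / SS * ((aU : ℝ) / SS) - (hi : ℝ) / SS * (1 - (C.c : ℝ) / SS)
            = ((vL : ℝ) * SS - ((hi : ℝ) * (SS - C.c) + C.c * aU)) / (SS * SS) := by
          field_simp
          ring
        have e2 : 0 < (vL : ℝ) / SS - (C.c : ℝ) / SS * ((aU : ℝ) / SS)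
            - (hi : ℝ) / SS * (1 - (C.c : ℝ) / SS) := by
          rw [e]
          apply div_pos (by linarith) (by positivity)
        linarith
      linarith
  | co =>
    rw [hk] at a4
    have a5 := a4 rfl
    simp only [NearK.nα, NearK.nγp, NearK.nγn] at a5
    rw [toR_G4, slopeR_G4'] at a5
    left
    exact affCon_pi' hg a5
  | rod q α γn =>
    rw [hk] at a4 hnk
    have a5 := a4 rfl
    simp only [NearK.nα, NearK.nγp, NearK.nγn] at a5
    simp only [NearK.valid, Bool.and_eq_true] at hnk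
    right
    exact rod_sound hnk.1 hnk.2 hg0 hg1 hs0 hs a5

/-- The sum of the trapezoid sums of a list of pieces. -/
def piecesI : ℕ → ℕ → List PieceC → ℕ
  | _, _, [] => 0
  | s, g, p :: ps => chainI s g p.l + piecesI (chainEnd s p.l) (chainEndG g p.l) ps

/-- The check of a list of consecutive pieces from the node `(s, g)`, up to the mass `aL`, and then
to the mass `aU` with the value `0`. -/
def piecesOK (C : Cfg) (K Hp Hn D aL aU vL : ℕ) : ℕ → ℕ → List PieceC → Bool
  | _, _, [] => false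
  | s, g, [p] =>
    p.valid C D aU vL aU && chainOK (p.node K Hp Hn D) s g p.l && Nat.beq (chainEnd s p.l) aL &&
      p.node K Hp Hn D aU 0 && Nat.blt aL aU
  | s, g, p :: p' :: ps =>
    p.valid C D aU vL (chainEnd s p.l) && chainOK (p.node K Hp Hn D) s g p.l &&
      piecesOK C K Hp Hn D aL aU vL (chainEnd s p.l) (chainEndG g p.l) (p' :: ps)

/-- A local abbreviation for the constraints. -/
abbrev CGn (C : Cfg) (K Hp Hn D : ℕ) (se : ℝ) : ℝ → ℝ → Prop :=
  CG (toR C.t) (muR C.μ) se (toR K) (slopeR Hp Hn) (toR D)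

lemma PieceC.convex (K Hp Hn D : ℕ) (p : PieceC) :
    ConvexCon (NdP (toR K) (slopeR Hp Hn) (toR p.α) (slopeR (stripG p.q p.r) 0) p.nk.has
      (toR K + toR D) (toR p.nk.nα) (slopeR p.nk.nγp p.nk.nγn)) := convex_NdP _ _ _ _ _ _ _ _

lemma PieceC.node_sound {K Hp Hn D : ℕ} {p : PieceC} {s g : ℕ}
    (h : p.node K Hp Hn D s g = true) :
    NdP (toR K) (slopeR Hp Hn) (toR p.α) (slopeR (stripG p.q p.r) 0) p.nk.has
      (toR K + toR D) (toR p.nk.nα) (slopeR p.nk.nγp p.nk.nγn) (toR s) (toR g) :=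
  nodeP_sound h

lemma chain_head {nd : ℕ → ℕ → Bool} {s g : ℕ} {l : List (ℕ × ℕ)} (h : chainOK nd s g l = true) :
    nd s g = true := by
  cases l with
  | nil => exact h
  | cons n l =>
    simp only [chainOK, Bool.and_eq_true] at h
    exact h.1.1

/-- The last node of a chain passes the check. -/
lemma chain_last {nd : ℕ → ℕ → Bool} :
    ∀ (l : List (ℕ × ℕ)) (s g : ℕ), chainOK nd s g l = true →
      nd (chainEnd s l) (chainEndG g l) = true := by
  intro l
  induction l with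
  | nil => intro s g h; exact h
  | cons n l ih =>
    intro s g h
    simp only [chainOK, Bool.and_eq_true] at h
    exact ih n.1 n.2 h.2

/-- Soundness of the list of pieces. -/
theorem piecesOK_sound {C : Cfg} (hc : C.c < SS) {K Hp Hn D aL aU vL : ℕ} {se : ℝ}
    (hse : seLow C aU vL ≤ se) {a : ℝ} (ha1 : toR aL ≤ a) (ha2 : a ≤ toR aU) :
    ∀ (ps : List PieceC) (s g : ℕ), piecesOK C K Hp Hn D aL aU vL s g ps = true →
      toR s ≤ a ∧ ∃ g', Feas (CGn C K Hp Hn D se) (toR s) a (toR g) g'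
        ((piecesI s g ps : ℝ) / (SS : ℝ) ^ 2 / 2) := by
  intro ps
  induction ps with
  | nil =>
    intro s g h
    simp [piecesOK] at h
  | cons p ps ih =>
    intro s g h
    cases ps with
    | nil =>
      simp only [piecesOK, Bool.and_eq_true] at h
      obtain ⟨⟨⟨⟨h1, h2⟩, h3⟩, h4⟩, h5⟩ := h
      have hend : chainEnd s p.l = aL := Nat.eq_of_beq_eq_true h3
      have hlt : aL < aU := Nat.le_of_ble_eq_true h5
      have hlt' := toR_lt hlt
      obtain ⟨hF, hle⟩ := chain_sound (PieceC.convex K Hp Hn D p)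
        (fun s g hh => PieceC.node_sound hh) p.l s g h2
      rw [hend] at hF hle
      have hlast := PieceC.node_sound (chain_last (nd := p.node K Hp Hn D) p.l s g h2)
      rw [hend] at hlast
      have hseg := Feas.segment (PieceC.convex K Hp Hn D p) hlt' hlast
        (PieceC.node_sound h4) (toR_nonneg _) (toR_nonneg 0)
      obtain ⟨g', hg'⟩ := hseg.restrict_right (m := a) ⟨ha1, ha2⟩
      have hall := hF.glue hle ha1 hg'
      refine ⟨hle.trans ha1, g', ?_⟩
      have e : ((piecesI s g [p] : ℕ) : ℝ) / (SS : ℝ) ^ 2 / 2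
          = ((chainI s g p.l : ℕ) : ℝ) / (SS : ℝ) ^ 2 / 2 + 0 := by
        simp [piecesI]
      rw [e]
      refine hall.mono fun x hx gg _ hN => PieceC.to_CG hc h1 hse (hx.2.trans ha2) hN
    | cons p' ps =>
      simp only [piecesOK, Bool.and_eq_true] at h
      obtain ⟨⟨h1, h2⟩, h3⟩ := h
      obtain ⟨hF, hle⟩ := chain_sound (PieceC.convex K Hp Hn D p)
        (fun s g hh => PieceC.node_sound hh) p.l s g h2
      obtain ⟨h4, g', h5⟩ := ih _ _ h3
      have hF' := hF.mono (C' := CGn C K Hp Hn D se)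
        fun x hx gg _ hN => PieceC.to_CG hc h1 hse hx.2 hN
      have hall := hF'.glue hle h4 h5
      refine ⟨hle.trans h4, g', ?_⟩
      have e : ((piecesI s g (p :: p' :: ps) : ℕ) : ℝ) / (SS : ℝ) ^ 2 / 2
          = ((chainI s g p.l : ℕ) : ℝ) / (SS : ℝ) ^ 2 / 2
            + ((piecesI (chainEnd s p.l) (chainEndG g p.l) (p' :: ps) : ℕ) : ℝ) / (SS : ℝ) ^ 2 / 2 := by
        simp only [piecesI]
        push_cast
        ring
      rw [e]
      exact hall

lemma chainEnd_ge {nd : ℕ → ℕ → Bool} :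
    ∀ (l : List (ℕ × ℕ)) (s g : ℕ), chainOK nd s g l = true → s ≤ chainEnd s l := by
  intro l
  induction l with
  | nil => intro s g _; exact le_rfl
  | cons n l ih =>
    intro s g h
    simp only [chainOK, Bool.and_eq_true] at h
    have h1 : s < n.1 := Nat.le_of_ble_eq_true h.1.2
    exact h1.le.trans (ih n.1 n.2 h.2)

/-- The first piece of a checked list is valid up to a mass above the head. -/
lemma piecesOK_head {C : Cfg} {K Hp Hn D aL aU vL s g : ℕ} {p : PieceC} {ps : List PieceC}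
    (h : piecesOK C K Hp Hn D aL aU vL s g (p :: ps) = true) :
    ∃ hi, p.valid C D aU vL hi = true ∧ toR s ≤ toR hi := by
  cases ps with
  | nil =>
    simp only [piecesOK, Bool.and_eq_true] at h
    obtain ⟨⟨⟨⟨h1, h2⟩, h3⟩, h4⟩, h5⟩ := h
    have hend : chainEnd s p.l = aL := Nat.eq_of_beq_eq_true h3
    have hlt : aL < aU := Nat.le_of_ble_eq_true h5
    have hle := chainEnd_ge p.l s g h2
    exact ⟨aU, h1, toR_mono (by omega)⟩
  | cons p' ps =>
    simp only [piecesOK, Bool.and_eq_true] at h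
    obtain ⟨⟨h1, h2⟩, h3⟩ := h
    exact ⟨_, h1, toR_mono (chainEnd_ge p.l s g h2)⟩

end Vale.Agent.Lib.P232
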