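import Vale.Agent.Lib.P232.Gap4

open MeasureTheory Set intervalIntegral

namespace Vale.Agent.Lib.P232

/-- The certificate trees for the phases. -/
inductive CertG where
  | splitM (c : ℕ) (l r : CertG)
  | splitA (c : ℕ) (l r : CertG)
  | splitV (c : ℕ) (l r : CertG)
  | empty
  | plateau
  | corner
  | diag (pL qL r q α : ℕ)
  | tiny
  | flat (K Hp Hn D : ℕ) (p : PieceC) (ts : List Piece)
  | cell (K Hp Hn D g₀ : ℕ) (p : PieceC) (ps : List PieceC) (ts : List Piece)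

/-- A box of parameters treated separately. -/
structure TinyB where
  m : ℕ
  a1 : ℕ
  a2 : ℕ
  v1 : ℕ
  v2 : ℕ

/-- The comparison of a strip line with the disk profile. -/
def domL (α γ s : ℕ) : Bool :=
  Nat.ble (4 * 3141593 * s * SS) ((α * SS + γ * s) * 1000000)

/-- The checker of the trees, on the box `m ∈ [mL, mU]`, `a ∈ [aL, aU]`, `V ∈ [vL, vU]`. -/
def checkG (C : Cfg) (tb : TinyB) : CertG → ℕ → ℕ → ℕ → ℕ → ℕ → ℕ → Bool
  | .splitM c l r, mL, mU, aL, aU, vL, vU =>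
    checkG C tb l mL c aL aU vL vU && checkG C tb r c mU aL aU vL vU
  | .splitA c l r, mL, mU, aL, aU, vL, vU =>
    checkG C tb l mL mU aL c vL vU && checkG C tb r mL mU c aU vL vU
  | .splitV c l r, mL, mU, aL, aU, vL, vU =>
    checkG C tb l mL mU aL aU vL c && checkG C tb r mL mU aL aU c vU
  | .empty, mL, _, _, aU, vL, vU =>
    Nat.blt aU mL || Nat.blt vU mL || Nat.blt aU vL
  | .plateau, mL, _, _, aU, _, _ =>
    Nat.ble (1000000 * SS) (mL * 3141592) && Nat.ble aU SS &&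
      Nat.ble (1000000 * SS) ((SS - aU) * 3141592)
  | .corner, _, mU, aL, aU, vL, vU =>
    Nat.ble mU 500000 && Nat.ble (SS - 500000) aL && Nat.ble aU SS &&
      Nat.ble 310000000 vL && Nat.ble vU 690000000
  | .diag pL qL r q α, mL, _, aL, aU, _, _ =>
    Nat.ble (aU * 2) SS && Nat.ble (pL * pL) (aL * SS) &&
      Nat.ble (qL * qL) (mL * SS) && Nat.ble (10000 * SS) (17724 * (pL + qL)) &&
      Nat.ble (2 * pL * SS * 10000) (17724 * ((pL + qL) * (pL + qL))) &&
      stripValid C.t r q α && domL α (stripG q r) 318000000 && domL α (stripG q r) aU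
  | .tiny, _, mU, aL, aU, vL, vU =>
    Nat.ble mU tb.m && Nat.ble tb.a1 aL && Nat.ble aU tb.a2 && Nat.ble tb.v1 vL && Nat.ble vU tb.v2
  | .flat K Hp Hn D p ts, mL, _, _, aU, vL, vU =>
    Nat.ble D (4 * SS) && Nat.blt mL aU && p.valid C D aU (nmax vL mL) aU &&
      p.node K Hp Hn D mL 0 && p.node K Hp Hn D aU 0 &&
      targets (K * SS + C.c * D) 0 Hp Hn (nmax vL mL) (nmin vU aU) ts
  | .cell K Hp Hn D g₀ p ps ts, mL, mU, aL, aU, vL, vU =>
    Nat.ble D (4 * SS) && Nat.blt mL mU && p.node K Hp Hn D mL 0 &&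
      piecesOK C K Hp Hn D aL aU (nmax vL mL) mU g₀ (p :: ps) &&
      targets (K * SS + piecesI mU g₀ (p :: ps) + C.c * D) 0 Hp Hn (nmax vL mL) (nmin vU aU) ts

/-- The conclusion of the near-diagonal leaf. -/
lemma diag_goodG {c T M₀ a m V : ℝ} (hV : 0 ≤ V) (hm : 0 ≤ m) (hma : m ≤ a) (ha0 : 0 < a)
    (ha : a ≤ 1 / 2)
    (hc : 2 * Real.sqrt a ≤ (Real.sqrt a + Real.sqrt m) ^ 2 * Real.sqrt Real.pi)
    (hstrip : ∀ s ∈ Icc m a, ∀ w g : ℝ, 0 ≤ g → g ≤ 1 → w ^ 2 ≤ (1 - g ^ 2) * (4 * Real.pi * s) →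
      StripOK T s w g) :
    GoodG c T M₀ m a V (profileJ V) := by
  have hp0 := Real.sqrt_pos.2 ha0
  have hAdm := beta3_adm hm hma rfl rfl hp0
  have hval := A3_value hV hm hma rfl rfl hp0 hc
  set β := beta3 (Real.sqrt a) (Real.sqrt m) a m with hβ
  set k := ck (Real.sqrt a) (Real.sqrt m) with hk
  set H := cH (Real.sqrt a) (Real.sqrt m) with hH
  refine ⟨k, H, 0, β m, β a, ∫ s in m..a, β s, le_rfl, by norm_num,
    ⟨β, hAdm.cont, rfl, rfl, fun s hs => ⟨?_, hAdm.nn s hs⟩, le_rfl⟩, by simpa using hval⟩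
  have hg0 := hAdm.nn s hs
  have hg1 := hAdm.le1 s hs
  have hcon : (k + H * s) ^ 2 ≤ (1 - β s ^ 2) * (4 * Real.pi * s) := hAdm.con s hs
  have hg : 0 ≤ 1 - β s ^ 2 := by nlinarith
  have hπ := Real.pi_pos
  have h2 : 4 * Real.pi * s ≤ 4 * Real.pi * (1 - s) :=
    mul_le_mul_of_nonneg_left (by linarith [hs.2]) (by positivity)
  have h3 := hcon.trans (mul_le_mul_of_nonneg_left h2 hg)
  refine ⟨hg0, hg1, ⟨hcon, h3, hstrip s hs _ _ hg0 hg1 hcon⟩, fun _ => Or.inl ?_⟩
  have e4 : k + 0 + H * s = k + H * s := by ring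
  rw [e4]
  exact h3

/-- The strip constraint from a line above the disk profile. -/
lemma strip_of_dom {t r q α aU : ℕ} (hv : stripValid t r q α = true)
    (h1 : domL α (stripG q r) 318000000 = true) (h2 : domL α (stripG q r) aU = true)
    {s w g : ℝ} (hs0 : 0 ≤ s) (hs : s ≤ toR aU) (hg0 : 0 ≤ g) (hg1 : g ≤ 1)
    (hw : w ^ 2 ≤ (1 - g ^ 2) * (4 * Real.pi * s)) : StripOK (toR t) s w g := by
  have hS := SS_pos
  have hg : 0 ≤ 1 - g ^ 2 := by nlinarith
  have hπ := Real.pi_pos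
  have hsmall : toR 318000000 = 0.318 := by
    unfold toR SS
    norm_num
  by_cases hc : s ≤ toR 318000000
  · apply stripOK_zero
    refine hw.trans (mul_le_mul_of_nonneg_left ?_ hg)
    rw [hsmall] at hc
    have := Real.pi_lt_d6
    nlinarith
  · push Not at hc
    have key : ∀ x : ℕ, domL α (stripG q r) x = true →
        0 ≤ toR α + (slopeR (stripG q r) 0 - 4 * piHi) * toR x := by
      intro x hx
      have h3 : 4 * 3141593 * x * SS ≤ (α * SS + stripG q r * x) * 1000000 := Nat.le_of_ble_eq_true hx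
      have h4 : (4 * 3141593 * x * SS : ℝ) ≤ ((α : ℝ) * SS + stripG q r * x) * 1000000 := by
        exact_mod_cast h3
      have e : toR α + (slopeR (stripG q r) 0 - 4 * piHi) * toR x
          = (((α : ℝ) * SS + stripG q r * x) * 1000000 - 4 * 3141593 * x * SS) / (1000000 * SS ^ 2) := by
        unfold toR slopeR piHi
        push_cast
        field_simp
        ring
      rw [e]
      apply div_nonneg (by linarith) (by positivity)
    have hline := linear_between (key _ h1) (key _ h2) hc.le hs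
    have hdom : 4 * Real.pi * s ≤ toR α + slopeR (stripG q r) 0 * s := by
      have := le_piHi
      nlinarith
    have h5 : AffCon (toR α) (slopeR (stripG q r) 0) w 0 s g :=
      ⟨by nlinarith [mul_nonneg (mul_nonneg (by norm_num : (0:ℝ) ≤ 4) hπ.le) hs0], by
        simp only [zero_mul, add_zero]
        exact hw.trans (mul_le_mul_of_nonneg_left hdom hg)⟩
    have h6 := strip_sound hv hg0 hg1 h5
    simpa using h6

/-- Numbers in the corner leaf. -/
lemma corner_nums : toR 500000 = 0.0005 ∧ toR (SS - 500000) = 1 - 0.0005 ∧ toR 310000000 = 0.31 ∧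
    toR 690000000 = 0.69 := by
  unfold toR SS
  norm_num

/-- The threshold of the central phase only decreases over a box. -/
lemma seLow_le {C : Cfg} (hc : C.c < SS) {aU vL : ℕ} {a V : ℝ} (ha : a ≤ toR aU) (hV : toR vL ≤ V) :
    seLow C aU vL ≤ (V - toR C.c * a) / (1 - toR C.c) := by
  have hS := SS_pos
  have hcS : (C.c : ℝ) < SS := by exact_mod_cast hc
  have hc1 : 0 < 1 - toR C.c := by
    have : toR C.c < 1 := by
      unfold toR
      rw [div_lt_one hS]
      exact hcS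
    linarith
  unfold seLow
  apply div_le_div_of_nonneg_right _ hc1.le
  have := mul_le_mul_of_nonneg_left ha (toR_nonneg C.c)
  linarith

lemma piecesOK_node {C : Cfg} {K Hp Hn D aL aU vL s g : ℕ} {p : PieceC} {ps : List PieceC}
    (h : piecesOK C K Hp Hn D aL aU vL s g (p :: ps) = true) : p.node K Hp Hn D s g = true := by
  cases ps with
  | nil =>
    simp only [piecesOK, Bool.and_eq_true] at h
    exact chain_head h.1.1.1.2
  | cons p' ps =>
    simp only [piecesOK, Bool.and_eq_true] at h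
    exact chain_head h.1.2

lemma toR_nmax_le {vL mL : ℕ} {m V : ℝ} (h1 : toR mL ≤ m) (h5 : toR vL ≤ V) (h8 : m ≤ V) :
    toR (nmax vL mL) ≤ V := by
  rcases (by unfold nmax; cases Nat.ble vL mL <;> simp : toR (nmax vL mL) = toR vL ∨ toR (nmax vL mL) = toR mL) with e | e <;> rw [e]
  · exact h5
  · exact h1.trans h8

/-- The bound for the value given by the comparison lines. -/
lemma targets_val {A Hp Hn vL vU mL aU : ℕ} {ts : List Piece}
    (h : targets A 0 Hp Hn (nmax vL mL) (nmin vU aU) ts = true) {m a V : ℝ}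
    (h1 : toR mL ≤ m) (h4 : a ≤ toR aU) (h5 : toR vL ≤ V) (h6 : V ≤ toR vU) (h8 : m ≤ V)
    (h9 : V ≤ a) (h11 : 0 ≤ V) :
    profileJ V ≤ (A : ℝ) / (SS : ℝ) ^ 2 + slopeR Hp Hn * V := by
  have hT := targets_sound ts _ _ h V (toR_nmax_le h1 h5 h8)
    (by
      rcases toR_nmin_cases (a := vU) (b := aU) with e | e <;> rw [e]
      · exact h6
      · exact h9.trans h4)
    h11
  simpa using hT

/-- Soundness of the trees. -/
theorem checkG_sound (C : Cfg) (tb : TinyB) (hc : C.c < SS) :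
    ∀ (t : CertG) (mL mU aL aU vL vU : ℕ), checkG C tb t mL mU aL aU vL vU = true →
    ∀ m a V : ℝ, toR mL ≤ m → m ≤ toR mU → toR aL ≤ a → a ≤ toR aU → toR vL ≤ V → V ≤ toR vU →
      0 ≤ m → m ≤ V → V ≤ a → a ≤ 1 → 0 < V →
      GoodG (toR C.c) (toR C.t) (muR C.μ) m a V (profileJ V) ∨
        (m ≤ toR tb.m ∧ toR tb.a1 ≤ a ∧ a ≤ toR tb.a2 ∧ toR tb.v1 ≤ V ∧ V ≤ toR tb.v2) := by
  intro t
  induction t with
  | splitM c l r ihl ihr =>
    intro mL mU aL aU vL vU h m a V h1 h2 h3 h4 h5 h6 h7 h8 h9 h10 h11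
    simp only [checkG, Bool.and_eq_true] at h
    by_cases hc' : m ≤ toR c
    · exact ihl _ _ _ _ _ _ h.1 m a V h1 hc' h3 h4 h5 h6 h7 h8 h9 h10 h11
    · exact ihr _ _ _ _ _ _ h.2 m a V (le_of_not_ge hc') h2 h3 h4 h5 h6 h7 h8 h9 h10 h11
  | splitA c l r ihl ihr =>
    intro mL mU aL aU vL vU h m a V h1 h2 h3 h4 h5 h6 h7 h8 h9 h10 h11
    simp only [checkG, Bool.and_eq_true] at h
    by_cases hc' : a ≤ toR c
    · exact ihl _ _ _ _ _ _ h.1 m a V h1 h2 h3 hc' h5 h6 h7 h8 h9 h10 h11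
    · exact ihr _ _ _ _ _ _ h.2 m a V h1 h2 (le_of_not_ge hc') h4 h5 h6 h7 h8 h9 h10 h11
  | splitV c l r ihl ihr =>
    intro mL mU aL aU vL vU h m a V h1 h2 h3 h4 h5 h6 h7 h8 h9 h10 h11
    simp only [checkG, Bool.and_eq_true] at h
    by_cases hc' : V ≤ toR c
    · exact ihl _ _ _ _ _ _ h.1 m a V h1 h2 h3 h4 h5 hc' h7 h8 h9 h10 h11
    · exact ihr _ _ _ _ _ _ h.2 m a V h1 h2 h3 h4 (le_of_not_ge hc') h6 h7 h8 h9 h10 h11
  | empty =>
    intro mL mU aL aU vL vU h m a V h1 h2 h3 h4 h5 h6 h7 h8 h9 h10 h11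
    simp only [checkG, Bool.or_eq_true] at h
    exfalso
    rcases h with (h | h) | h
    · have := toR_lt (Nat.le_of_ble_eq_true h)
      linarith
    · have := toR_lt (Nat.le_of_ble_eq_true h)
      linarith
    · have := toR_lt (Nat.le_of_ble_eq_true h)
      linarith
  | plateau =>
    intro mL mU aL aU vL vU h m a V h1 h2 h3 h4 h5 h6 h7 h8 h9 h10 h11
    simp only [checkG, Bool.and_eq_true] at h
    obtain ⟨⟨c1, c2⟩, c3⟩ := h
    have c1' : 1000000 * SS ≤ mL * 3141592 := Nat.le_of_ble_eq_true c1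
    have c2' : aU ≤ SS := Nat.le_of_ble_eq_true c2
    have c3' : 1000000 * SS ≤ (SS - aU) * 3141592 := Nat.le_of_ble_eq_true c3
    have hS := SS_pos
    have hπ := Real.pi_pos
    have hπ' := Real.pi_gt_d6
    have key : ∀ n : ℕ, 1000000 * SS ≤ n * 3141592 → 1 / Real.pi ≤ toR n := by
      intro n hn
      have hn' : (1000000:ℝ) * SS ≤ n * 3141592 := by exact_mod_cast hn
      unfold toR
      rw [div_le_div_iff₀ hπ hS]
      have h0 : (0:ℝ) ≤ n := Nat.cast_nonneg _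
      nlinarith
    apply Or.inl
    apply GoodG_of_value
    apply plateau_value (le_trans (key _ c1') h1)
    have := key _ c3'
    rw [toR_sub c2'] at this
    linarith
  | corner =>
    intro mL mU aL aU vL vU h m a V h1 h2 h3 h4 h5 h6 h7 h8 h9 h10 h11
    simp only [checkG, Bool.and_eq_true] at h
    obtain ⟨⟨⟨⟨c1, c2⟩, c3⟩, c4⟩, c5⟩ := h
    have c1' : toR mU ≤ toR 500000 := toR_mono (Nat.le_of_ble_eq_true c1)
    have c2' : toR (SS - 500000) ≤ toR aL := toR_mono (Nat.le_of_ble_eq_true c2)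
    have c4' : toR 310000000 ≤ toR vL := toR_mono (Nat.le_of_ble_eq_true c4)
    have c5' : toR vU ≤ toR 690000000 := toR_mono (Nat.le_of_ble_eq_true c5)
    obtain ⟨e1, e2, e3, e4⟩ := corner_nums
    rw [e1] at c1'
    rw [e2] at c2'
    rw [e3] at c4'
    rw [e4] at c5'
    exact Or.inl (GoodG_of_value
      (corner_value' h7 (h2.trans c1') (c2'.trans h3) h10 (c4'.trans h5) (h6.trans c5')))
  | diag pL qL r q α =>
    intro mL mU aL aU vL vU h m a V h1 h2 h3 h4 h5 h6 h7 h8 h9 h10 h11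
    simp only [checkG, Bool.and_eq_true] at h
    obtain ⟨⟨⟨⟨⟨⟨⟨c1, c2⟩, c3⟩, c4⟩, c5⟩, c6⟩, c7⟩, c8⟩ := h
    have hS := SS_pos
    have ha12 : a ≤ 1 / 2 := by
      have h12 : aU * 2 ≤ SS := Nat.le_of_ble_eq_true c1
      have h13 : (aU : ℝ) * 2 ≤ SS := by exact_mod_cast h12
      refine h4.trans ?_
      unfold toR
      rw [div_le_div_iff₀ hS (by norm_num)]
      linarith
    refine Or.inl (diag_goodG h11.le h7 (h8.trans h9) (h11.trans_le h9) ha12
      (diag_const h3 h1 (Nat.le_of_ble_eq_true c2) (Nat.le_of_ble_eq_true c3)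
        (Nat.le_of_ble_eq_true c4) (Nat.le_of_ble_eq_true c5)) ?_)
    intro s hs w g hg0 hg1 hw
    exact strip_of_dom c6 c7 c8 (h7.trans hs.1) (hs.2.trans h4) hg0 hg1 hw
  | tiny =>
    intro mL mU aL aU vL vU h m a V h1 h2 h3 h4 h5 h6 h7 h8 h9 h10 h11
    simp only [checkG, Bool.and_eq_true] at h
    obtain ⟨⟨⟨⟨c1, c2⟩, c3⟩, c4⟩, c5⟩ := h
    exact Or.inr ⟨h2.trans (toR_mono (Nat.le_of_ble_eq_true c1)),
      (toR_mono (Nat.le_of_ble_eq_true c2)).trans h3,
      h4.trans (toR_mono (Nat.le_of_ble_eq_true c3)),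
      (toR_mono (Nat.le_of_ble_eq_true c4)).trans h5,
      h6.trans (toR_mono (Nat.le_of_ble_eq_true c5))⟩
  | flat K Hp Hn D p ts =>
    intro mL mU aL aU vL vU h m a V h1 h2 h3 h4 h5 h6 h7 h8 h9 h10 h11
    simp only [checkG, Bool.and_eq_true] at h
    obtain ⟨⟨⟨⟨⟨c1, c2⟩, c3⟩, c4⟩, c5⟩, c6⟩ := h
    have hS := SS_pos
    have hD4 : toR D ≤ 4 := by
      have h12 : D ≤ 4 * SS := Nat.le_of_ble_eq_true c1
      have h13 : (D : ℝ) ≤ 4 * SS := by exact_mod_cast h12
      unfold toR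
      rw [div_le_iff₀ hS]
      exact h13
    have hlt := toR_lt (Nat.le_of_ble_eq_true c2)
    have hseg := Feas.segment (PieceC.convex K Hp Hn D p) hlt (PieceC.node_sound c4)
      (PieceC.node_sound c5) (toR_nonneg _) (toR_nonneg 0)
    have hma : m ≤ a := h8.trans h9
    obtain ⟨g, hg⟩ := hseg.restrict_left (m := m) ⟨h1, hma.trans h4⟩
    obtain ⟨g', hg'⟩ := hg.restrict_right (m := a) ⟨hma, h4⟩
    have hF := hg'.mono (C' := CGn C K Hp Hn D ((V - toR C.c * a) / (1 - toR C.c)))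
      fun x hx gg _ hN => PieceC.to_CG hc c3 (seLow_le hc h4 (toR_nmax_le h1 h5 h8)) (hx.2.trans h4) hN
    refine Or.inl ⟨toR K, slopeR Hp Hn, toR D, g, g', 0, toR_nonneg _, hD4, hF, ?_⟩
    have hT := targets_val c6 h1 h4 h5 h6 h8 h9 h11.le
    have e : (((K * SS + C.c * D : ℕ) : ℝ) / (SS : ℝ) ^ 2) = toR K + toR C.c * toR D := by
      unfold toR
      push_cast
      field_simp
    rw [e] at hT
    linarith
  | cell K Hp Hn D g₀ p ps ts =>
    intro mL mU aL aU vL vU h m a V h1 h2 h3 h4 h5 h6 h7 h8 h9 h10 h11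
    simp only [checkG, Bool.and_eq_true] at h
    obtain ⟨⟨⟨⟨c1, c2⟩, c3⟩, c4⟩, c5⟩ := h
    have hS := SS_pos
    have hD4 : toR D ≤ 4 := by
      have h12 : D ≤ 4 * SS := Nat.le_of_ble_eq_true c1
      have h13 : (D : ℝ) ≤ 4 * SS := by exact_mod_cast h12
      unfold toR
      rw [div_le_iff₀ hS]
      exact h13
    have hlt := toR_lt (Nat.le_of_ble_eq_true c2)
    have hse := seLow_le (C := C) hc h4 (toR_nmax_le h1 h5 h8)
    obtain ⟨h20, g', hF⟩ := piecesOK_sound hc hse h3 h4 _ _ _ c4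
    obtain ⟨hi, hv, hhi⟩ := piecesOK_head c4
    have hnode := piecesOK_node c4
    have hseg := Feas.segment (PieceC.convex K Hp Hn D p) hlt (PieceC.node_sound c3)
      (PieceC.node_sound hnode) (toR_nonneg _) (toR_nonneg g₀)
    obtain ⟨g, hg⟩ := hseg.restrict_left (m := m) ⟨h1, h2⟩
    have hF2 := hg.mono (C' := CGn C K Hp Hn D ((V - toR C.c * a) / (1 - toR C.c)))
      fun x hx gg _ hN => PieceC.to_CG hc hv hse (hx.2.trans hhi) hN
    have hall := hF2.glue h2 h20 hF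
    refine Or.inl ⟨toR K, slopeR Hp Hn, toR D, g, g', _, toR_nonneg _, hD4, hall, ?_⟩
    have hT := targets_val c5 h1 h4 h5 h6 h8 h9 h11.le
    have e : (((K * SS + piecesI mU g₀ (p :: ps) + C.c * D : ℕ) : ℝ) / (SS : ℝ) ^ 2)
        = toR K + ((piecesI mU g₀ (p :: ps) : ℕ) : ℝ) / (SS : ℝ) ^ 2 + toR C.c * toR D := by
      unfold toR
      push_cast
      field_simp
    rw [e] at hT
    linarith

end Vale.Agent.Lib.P232
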