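import Vale.Agent.Lib.P232.Gap3

open MeasureTheory Set intervalIntegral Filter
open scoped Topology ENNReal

namespace Vale.Agent.Lib.P232

/-! ### The level function -/

lemma cd_eq (t : ℝ) : cd t = 1 / 2 - |t - round t| := by
  unfold cd
  rw [abs_sub_round_eq_min]
  have h0 := Int.fract_nonneg t
  have h1 := Int.fract_lt_one t
  rcases le_total (Int.fract t) (1 / 2) with h | h
  · rw [abs_of_nonpos (by linarith), min_eq_left (by linarith)]
    ring
  · rw [abs_of_nonneg (by linarith), min_eq_right (by linarith)]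
    ring

lemma cd_sub_le (x t : ℝ) : cd x ≤ cd (x - t) + |t| := by
  rw [cd_eq, cd_eq]
  have h1 : |x - t - ↑(round (x - t))| ≤ |x - t - ↑(round x)| := round_le (x - t) _
  have h2 : |x - t - ↑(round x)| ≤ |x - ↑(round x)| + |t| := by
    have : x - t - ↑(round x) = (x - ↑(round x)) + (-t) := by ring
    rw [this]
    refine (abs_add_le _ _).trans ?_
    rw [abs_neg]
  linarith

lemma cd_sub_le' (x t : ℝ) : cd (x - t) ≤ cd x + |t| := by
  rw [cd_eq, cd_eq]
  have h3 : |x - ↑(round x)| ≤ |x - ↑(round (x - t))| := round_le x _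
  have h4 : |x - ↑(round (x - t))| ≤ |x - t - ↑(round (x - t))| + |t| := by
    have : x - ↑(round (x - t)) = (x - t - ↑(round (x - t))) + t := by ring
    rw [this]
    exact abs_add_le _ _
  linarith

lemma lev_sub_le (x t : ℝ) : lev (x - t) ≤ lev x + 2 * |t| := by
  unfold lev
  have := cd_sub_le' x t
  linarith

lemma lev_le_sub (x t : ℝ) : lev x ≤ lev (x - t) + 2 * |t| := by
  unfold lev
  have := cd_sub_le x t
  linarith

lemma lev_nonneg (t : ℝ) : 0 ≤ lev t := by
  unfold lev cd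
  positivity

lemma lev_le_one (t : ℝ) : lev t ≤ 1 := by
  unfold lev cd
  have h0 := Int.fract_nonneg t
  have h1 := Int.fract_lt_one t
  have : |Int.fract t - 1 / 2| ≤ 1 / 2 := by
    rw [abs_le]
    constructor <;> linarith
  linarith

lemma lev_of_mem {x : ℝ} (h : x ∈ Icc (0:ℝ) 1) : lev x = |2 * x - 1| := by
  unfold lev cd
  rcases h.2.eq_or_lt with h1 | h1
  · subst h1
    norm_num
  · have e : Int.fract x = x := Int.fract_eq_self.2 ⟨h.1, h1⟩
    rw [e]
    have e2 : 2 * x - 1 = 2 * (x - 1 / 2) := by ring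
    rw [e2, abs_mul]
    norm_num

lemma lev_zero : lev 0 = 1 := by
  rw [lev_of_mem (by norm_num)]
  norm_num

lemma lev_half : lev (1 / 2) = 0 := by
  rw [lev_of_mem (by norm_num)]
  norm_num

lemma lev_lt_one {y : ℝ} (h : y ∉ Set.range (Int.cast : ℤ → ℝ)) : lev y < 1 := by
  unfold lev cd
  have h0 : 0 < Int.fract y := by
    rcases (Int.fract_nonneg y).eq_or_lt with h1 | h1
    · exfalso
      apply h
      refine ⟨⌊y⌋, ?_⟩
      have := Int.self_sub_floor y
      rw [← h1] at this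
      linarith
    · exact h1
  have h1 := Int.fract_lt_one y
  have : |Int.fract y - 1 / 2| < 1 / 2 := by
    rw [abs_lt]
    constructor <;> linarith
  linarith

/-- Comparison of the levels implies the comparison of the distances to the centre. -/
lemma cd_le_of_lev {x y : ℝ} (h : lev x ≤ lev y) : cd x ≤ cd y := by
  unfold lev at h
  linarith

/-! ### Almost everywhere statements -/

lemma ae_lev_snd (y : ℝ) : ∀ᵐ t : R3 ∂volume, lev (y - t.2.1) < 1 := by
  set A : Set ℝ := Set.range fun k : ℤ => y - (k : ℝ) with hA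
  have hA0 : volume A = 0 := (Set.countable_range _).measure_zero volume
  have hN : volume (Set.univ ×ˢ (A ×ˢ Set.univ) : Set R3) = 0 := by
    rw [Measure.volume_eq_prod, Measure.prod_prod, Measure.volume_eq_prod, Measure.prod_prod, hA0]
    simp
  have : ∀ᵐ t : R3 ∂volume, t ∉ (Set.univ ×ˢ (A ×ˢ Set.univ) : Set R3) :=
    measure_eq_zero_iff_ae_notMem.1 hN
  filter_upwards [this] with t ht
  apply lev_lt_one
  rintro ⟨k, hk⟩
  apply ht
  refine ⟨mem_univ _, ⟨k, ?_⟩, mem_univ _⟩
  show y - (k : ℝ) = t.2.1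
  rw [hk]
  ring

lemma ae_lev_thd (z : ℝ) : ∀ᵐ t : R3 ∂volume, lev (z - t.2.2) < 1 := by
  set A : Set ℝ := Set.range fun k : ℤ => z - (k : ℝ) with hA
  have hA0 : volume A = 0 := (Set.countable_range _).measure_zero volume
  have hN : volume (Set.univ ×ˢ (Set.univ ×ˢ A) : Set R3) = 0 := by
    rw [Measure.volume_eq_prod, Measure.prod_prod, Measure.volume_eq_prod, Measure.prod_prod, hA0]
    simp
  have : ∀ᵐ t : R3 ∂volume, t ∉ (Set.univ ×ˢ (Set.univ ×ˢ A) : Set R3) :=
    measure_eq_zero_iff_ae_notMem.1 hN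
  filter_upwards [this] with t ht
  apply lev_lt_one
  rintro ⟨k, hk⟩
  apply ht
  refine ⟨mem_univ _, mem_univ _, ⟨k, ?_⟩⟩
  show z - (k : ℝ) = t.2.2
  rw [hk]
  ring

/-! ### The mollified functions -/

section MollLemmas

variable {φ : ContDiffBump (0 : R3)} {E : Set R3}

lemma normed_eq_zero {t : R3} (h : t ∉ Metric.ball (0 : R3) φ.rOut) : φ.normed volume t = 0 := by
  have : t ∉ Function.support (φ.normed volume) := by
    rwa [φ.support_normed_eq]
  simpa using this

lemma moll_eq_one {x : R3} (h : ∀ᵐ t : R3 ∂volume, t ∈ Metric.ball (0 : R3) φ.rOut → x - t ∈ E) :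
    moll φ E x = 1 := by
  rw [moll_apply]
  have h1 : ∫ t, φ.normed volume t = 1 := φ.integral_normed (μ := volume)
  rw [← h1]
  apply MeasureTheory.integral_congr_ae
  filter_upwards [h] with t ht
  by_cases hb : t ∈ Metric.ball (0 : R3) φ.rOut
  · have := ht hb
    simp [chi, this]
  · rw [normed_eq_zero hb]
    simp

lemma moll_eq_zero {x : R3} (h : ∀ t ∈ Metric.ball (0 : R3) φ.rOut, x - t ∉ E) :
    moll φ E x = 0 := by
  rw [moll_apply]
  have : ∀ t, φ.normed volume t * chi E (x - t) = 0 := by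
    intro t
    by_cases hb : t ∈ Metric.ball (0 : R3) φ.rOut
    · have := h t hb
      simp [chi, this]
    · rw [normed_eq_zero hb]
      simp
  simp [this]

lemma moll_mono (hE : MeasurableSet E) {x x' : R3}
    (h : ∀ t ∈ Metric.ball (0 : R3) φ.rOut, x - t ∈ E → x' - t ∈ E) :
    moll φ E x ≤ moll φ E x' := by
  rw [moll_apply, moll_apply]
  apply integral_mono (moll_integrable hE x) (moll_integrable hE x')
  intro t
  show φ.normed volume t * chi E (x - t) ≤ φ.normed volume t * chi E (x' - t)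
  by_cases hb : t ∈ Metric.ball (0 : R3) φ.rOut
  · apply mul_le_mul_of_nonneg_left _ (φ.nonneg_normed t)
    by_cases hx : x - t ∈ E
    · have := h t hb hx
      simp [chi, this, hx]
    · have e : chi E (x - t) = 0 := by simp [chi, hx]
      rw [e]
      exact chi_nonneg _
  · rw [normed_eq_zero hb]
    simp

lemma ball_coords {t : R3} {r : ℝ} (h : t ∈ Metric.ball (0 : R3) r) :
    |t.1| < r ∧ |t.2.1| < r ∧ |t.2.2| < r := by
  rw [mem_ball_zero_iff] at h
  have h1 : ‖t.1‖ ≤ ‖t‖ := norm_fst_le t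
  have h2 : ‖t.2‖ ≤ ‖t‖ := norm_snd_le t
  have h3 : ‖t.2.1‖ ≤ ‖t.2‖ := norm_fst_le t.2
  have h4 : ‖t.2.2‖ ≤ ‖t.2‖ := norm_snd_le t.2
  simp only [Real.norm_eq_abs] at h1 h3 h4
  exact ⟨by linarith, by linarith, by linarith⟩

/-- Vanishing next to a point outside the set, for a symmetric decreasing set. -/
lemma moll_zero_of_witness (hS : SD E) {x y z x' y' z' : ℝ} (hw : (x', y', z') ∉ E)
    (h1 : lev x' + 2 * φ.rOut ≤ lev x) (h2 : lev y' + 2 * φ.rOut ≤ lev y)
    (h3 : lev z' + 2 * φ.rOut ≤ lev z) : moll φ E (x, y, z) = 0 := by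
  apply moll_eq_zero
  intro t ht hmem
  obtain ⟨a1, a2, a3⟩ := ball_coords ht
  apply hw
  refine hS (x - t.1) (y - t.2.1) (z - t.2.2) x' y' z' ?_ ?_ ?_ hmem
  · apply cd_le_of_lev
    have := lev_le_sub x t.1
    linarith
  · apply cd_le_of_lev
    have := lev_le_sub y t.2.1
    linarith
  · apply cd_le_of_lev
    have := lev_le_sub z t.2.2
    linarith

/-- Monotonicity in the first coordinate of the mollified function of a symmetric decreasing set. -/
lemma moll_mono_SD (hE : MeasurableSet E) (hS : SD E) {x x' y z : ℝ}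
    (h : lev x + 4 * φ.rOut ≤ lev x') : moll φ E (x', y, z) ≤ moll φ E (x, y, z) := by
  apply moll_mono hE
  intro t ht hmem
  obtain ⟨a1, _, _⟩ := ball_coords ht
  refine hS (x' - t.1) (y - t.2.1) (z - t.2.2) (x - t.1) (y - t.2.1) (z - t.2.2) ?_ le_rfl le_rfl hmem
  apply cd_le_of_lev
  have h1 := lev_sub_le x t.1
  have h2 := lev_le_sub x' t.1
  linarith

/-- The mollified function equals one on the bands of whole lines in the second direction. -/
lemma moll_one_Y {s t : ℝ} (hW : WrapY E s t) {x y z : ℝ} (h1 : lev x + 2 * φ.rOut ≤ s)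
    (h2 : lev z + 2 * φ.rOut ≤ t) : moll φ E (x, y, z) = 1 := by
  apply moll_eq_one
  filter_upwards [ae_lev_snd y] with u hu hb
  obtain ⟨a1, _, a3⟩ := ball_coords hb
  refine hW (x - u.1) (y - u.2.1) (z - u.2.2) ?_ ?_ hu
  · have := lev_sub_le x u.1
    linarith
  · have := lev_sub_le z u.2.2
    linarith

/-- The mollified function equals one on the bands of whole lines in the third direction. -/
lemma moll_one_Z {s t : ℝ} (hW : WrapY (sw23L ⁻¹' E) s t) {x y z : ℝ} (h1 : lev x + 2 * φ.rOut ≤ s)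
    (h2 : lev y + 2 * φ.rOut ≤ t) : moll φ E (x, y, z) = 1 := by
  apply moll_eq_one
  filter_upwards [ae_lev_thd z] with u hu hb
  obtain ⟨a1, a2, _⟩ := ball_coords hb
  refine hW (x - u.1) (z - u.2.2) (y - u.2.1) ?_ ?_ hu
  · have := lev_sub_le x u.1
    linarith
  · have := lev_sub_le y u.2.1
    linarith

end MollLemmas

/-! ### Integrals on the circle -/

/-- The central phase, with a strict inequality. -/
def coreSet (b : ℝ) : Set ℝ := {x | |2 * x - 1| < b}

lemma coreSet_measurable (b : ℝ) : MeasurableSet (coreSet b) := by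
  have h : Continuous fun x : ℝ => |2 * x - 1| := by fun_prop
  exact (isOpen_lt h continuous_const).measurableSet

lemma core_integral_le {b : ℝ} (hb : 0 ≤ b) : ∫ x in (0:ℝ)..1, ind1 (coreSet b) x ≤ b := by
  rw [ind1_integral (coreSet_measurable b)]
  have hsub : coreSet b ∩ Ioc 0 1 ⊆ Ioo ((1 - b) / 2) ((1 + b) / 2) := by
    rintro x ⟨h1, _⟩
    have h2 : |2 * x - 1| < b := h1
    rw [abs_lt] at h2
    constructor <;> linarith
  have h1 := measure_mono (μ := (volume : Measure ℝ)) hsub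
  rw [Real.volume_Ioo] at h1
  have h2 := ENNReal.toReal_mono (by simp) h1
  rw [ENNReal.toReal_ofReal (by linarith)] at h2
  linarith

/-- The integral of a function vanishing outside of the central phase. -/
lemma integral_le_of_zero {f : ℝ → ℝ} (hf : Continuous f) (h1 : ∀ z, f z ≤ 1) {b : ℝ} (hb : 0 ≤ b)
    (h0 : ∀ z ∈ Icc (0:ℝ) 1, b ≤ |2 * z - 1| → f z = 0) : ∫ z in (0:ℝ)..1, f z ≤ b := by
  refine le_trans ?_ (core_integral_le hb)
  apply intervalIntegral.integral_mono_on zero_le_one (hf.intervalIntegrable _ _)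
    (ind1_interval (coreSet_measurable b))
  intro z hz
  by_cases hc : z ∈ coreSet b
  · rw [ind1_of_mem hc]
    exact h1 z
  · rw [h0 z hz (not_lt.1 hc)]
    exact ind1_nonneg _ _

/-- The integral of a function equal to one on the central phase. -/
lemma le_integral_of_one {f : ℝ → ℝ} (hf : Continuous f) (h0 : ∀ z, 0 ≤ f z) {b : ℝ} (hb : b ≤ 1)
    (h1 : ∀ z ∈ Icc (0:ℝ) 1, |2 * z - 1| ≤ b → f z = 1) : b ≤ ∫ z in (0:ℝ)..1, f z := by
  refine (near_integral_ge hb).trans ?_
  apply intervalIntegral.integral_mono_on zero_le_one (ind1_interval (nearSet_measurable b))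
    (hf.intervalIntegrable _ _)
  intro z hz
  by_cases hc : z ∈ nearSet b
  · rw [ind1_of_mem hc]
    exact (h1 z hz hc).ge
  · have e : ind1 (nearSet b) z = 0 := by
      unfold ind1
      rw [indicator_of_notMem hc]
    rw [e]
    exact h0 z

/-! ### The extents -/

lemma WrapY.anti {E : Set R3} {s t s' t' : ℝ} (h : WrapY E s t) (hs : s' ≤ s) (ht : t' ≤ t) :
    WrapY E s' t' := fun x y z h1 h2 h3 => h x y z (h1.trans hs) (h2.trans ht) h3

lemma extA_nonneg (E : Set R3) : 0 ≤ extA E :=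
  Real.sSup_nonneg fun _ hs => hs.1.1

lemma extA_bdd (E : Set R3) : BddAbove {s | s ∈ Icc (0:ℝ) 1 ∧ ∃ t, 0 < t ∧ WrapY E s t} :=
  ⟨1, fun _ hs => hs.1.2⟩

lemma extA_le_one (E : Set R3) : extA E ≤ 1 :=
  Real.sSup_le (fun _ hs => hs.1.2) zero_le_one

/-- Below the extent the whole lines exist. -/
lemma wrap_of_lt_extA {E : Set R3} {s : ℝ} (h : s < extA E) : ∃ t, 0 < t ∧ WrapY E s t := by
  by_cases hs : s < 0
  · refine ⟨1, one_pos, fun x y z h1 _ _ => ?_⟩
    have := lev_nonneg x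
    linarith
  · push Not at hs
    have hne : {s | s ∈ Icc (0:ℝ) 1 ∧ ∃ t, 0 < t ∧ WrapY E s t}.Nonempty := by
      by_contra hemp
      rw [Set.not_nonempty_iff_eq_empty] at hemp
      unfold extA at h
      rw [hemp, Real.sSup_empty] at h
      linarith
    obtain ⟨s', ⟨_, t, ht, hW⟩, hlt⟩ := exists_lt_of_lt_csSup hne h
    exact ⟨t, ht, hW.anti hlt.le le_rfl⟩

/-- Above the extent the whole lines do not exist. -/
lemma not_wrap_of_gt_extA {E : Set R3} {s t : ℝ} (h : extA E < s) (hs : s ≤ 1) (ht : 0 < t) :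
    ¬ WrapY E s t := by
  intro hW
  have h0 : 0 ≤ s := (extA_nonneg E).trans h.le
  have := le_csSup (extA_bdd E) (⟨⟨h0, hs⟩, t, ht, hW⟩ : s ∈ {s | s ∈ Icc (0:ℝ) 1 ∧ ∃ t, 0 < t ∧ WrapY E s t})
  unfold extA at h
  linarith

lemma not_wrap_witness {E : Set R3} {s t : ℝ} (h : ¬ WrapY E s t) :
    ∃ x y z : ℝ, lev x ≤ s ∧ lev z ≤ t ∧ lev y < 1 ∧ (x, y, z) ∉ E := by
  unfold WrapY at h
  push Not at h
  exact h

/-! ### The radii of the mollifiers -/

/-- The radius of the mollifier. -/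
lemma eventually_rOut {η : ℝ} (hη : 0 < η) : ∀ᶠ n : ℕ in atTop, (bumpSeq n).rOut ≤ η := by
  have h1 : Tendsto (fun n : ℕ => 2 * (1 / ((n : ℝ) + 1))) atTop (𝓝 (2 * 0)) :=
    tendsto_const_nhds.mul tendsto_one_div_add_atTop_nhds_zero_nat
  rw [mul_zero] at h1
  have h2 := h1.eventually (ge_mem_nhds hη)
  filter_upwards [h2] with n hn
  have e : (bumpSeq n).rOut = 2 * (1 / ((n : ℝ) + 1)) := by
    show 2 / ((n : ℝ) + 1) = _
    ring
  rw [e]
  exact hn

lemma rOut_pos (n : ℕ) : 0 < (bumpSeq n).rOut := (bumpSeq n).rOut_pos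

end Vale.Agent.Lib.P232
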