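import Vale.Agent.Lib.P232.GapB1

open MeasureTheory Set intervalIntegral Filter
open scoped Topology ENNReal

namespace Vale.Agent.Lib.P232

section Phase

variable {F : Set R3} (hm : MeasurableSet F) (hp : PeriodicSet F)

include hm hp

lemma smooth_u (n : ℕ) (x y z : ℝ) :
    (smoothSeq hm hp n).u x y z = moll (bumpSeq n) F (x, y, z) := rfl

omit hm hp in
lemma abs_le_one_of_mem {x : ℝ} (hx : x ∈ Icc (0:ℝ) 1) : |2 * x - 1| ≤ 1 := by
  rw [← lev_of_mem hx]
  exact lev_le_one x

/-- The lines in the second direction for the mollified functions. -/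
lemma ev_lineY {ε : ℝ} (hε : 0 < ε) : ∀ᶠ n : ℕ in atTop, ∀ x ∈ Icc (0:ℝ) 1,
    |2 * x - 1| ≤ extA F - ε → ∀ y, (smoothSeq hm hp n).u x y (1 / 2) = 1 := by
  obtain ⟨t, ht, hW⟩ := wrap_of_lt_extA (E := F) (s := extA F - ε / 2) (by linarith)
  filter_upwards [eventually_rOut (η := ε / 4) (by positivity),
    eventually_rOut (η := t / 2) (by positivity)] with n h1 h2 x hx hl y
  rw [smooth_u]
  refine moll_one_Y hW ?_ ?_
  · rw [lev_of_mem hx]
    linarith
  · rw [lev_half]
    linarith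

/-- The lines in the third direction for the mollified functions. -/
lemma ev_lineZ {ε : ℝ} (hε : 0 < ε) : ∀ᶠ n : ℕ in atTop, ∀ x ∈ Icc (0:ℝ) 1,
    |2 * x - 1| ≤ extA (sw23L ⁻¹' F) - ε → ∀ z, (smoothSeq hm hp n).u x (1 / 2) z = 1 := by
  obtain ⟨t, ht, hW⟩ := wrap_of_lt_extA (E := sw23L ⁻¹' F) (s := extA (sw23L ⁻¹' F) - ε / 2)
    (by linarith)
  filter_upwards [eventually_rOut (η := ε / 4) (by positivity),
    eventually_rOut (η := t / 2) (by positivity)] with n h1 h2 x hx hl z
  rw [smooth_u]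
  refine moll_one_Z hW ?_ ?_
  · rw [lev_of_mem hx]
    linarith
  · rw [lev_half]
    linarith

/-- The thickness of the far face in the third direction. -/
lemma ev_far_a (hS : SD F) {c T : ℝ} (hTh : ∀ s t, c < s → s ≤ 1 → T < t → t ≤ 1 → ¬ WrapY F s t)
    {ε : ℝ} (hε : 0 < ε) : ∀ᶠ n : ℕ in atTop, ∀ x ∈ Icc (0:ℝ) 1,
    c + ε ≤ |2 * x - 1| → ((smoothSeq hm hp n).sec x).a 0 ≤ T + ε := by
  by_cases h1 : c + ε / 2 ≤ 1
  swap
  · refine Eventually.of_forall fun n x hx hl => ?_
    have := abs_le_one_of_mem hx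
    exfalso
    linarith
  by_cases h2 : T + ε / 4 ≤ 1
  swap
  · refine Eventually.of_forall fun n x _ _ => ?_
    have := ((smoothSeq hm hp n).sec x).a_le_one 0
    linarith
  obtain ⟨x', y', z', hx', hz', hy', hw⟩ := not_wrap_witness
    (hTh (c + ε / 2) (T + ε / 4) (by linarith) h1 (by linarith) h2)
  have hy1 : 0 < (1 - lev y') / 2 := by linarith
  filter_upwards [eventually_rOut (η := ε / 8) (by positivity), eventually_rOut hy1]
    with n hr1 hr2 x hx hl
  have hr0 := rOut_pos n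
  have hz0 := lev_nonneg z'
  have hb : ((smoothSeq hm hp n).sec x).a 0 ≤ T + ε / 4 + 2 * (bumpSeq n).rOut := by
    refine integral_le_of_zero (((smoothSeq hm hp n).sec x).cont_row 0)
      (fun z => (smoothSeq hm hp n).le1 x 0 z) (by linarith) ?_
    intro z hz hzl
    show (smoothSeq hm hp n).u x 0 z = 0
    rw [smooth_u]
    refine moll_zero_of_witness hS hw ?_ ?_ ?_
    · rw [lev_of_mem hx]
      linarith
    · rw [lev_zero]
      linarith
    · rw [lev_of_mem hz]
      linarith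
  linarith

/-- The thickness of the far face in the second direction. -/
lemma ev_far_b (hS : SD F) {c T : ℝ}
    (hTh : ∀ s t, c < s → s ≤ 1 → T < t → t ≤ 1 → ¬ WrapY (sw23L ⁻¹' F) s t)
    {ε : ℝ} (hε : 0 < ε) : ∀ᶠ n : ℕ in atTop, ∀ x ∈ Icc (0:ℝ) 1,
    c + ε ≤ |2 * x - 1| → ((smoothSeq hm hp n).sec x).b 0 ≤ T + ε := by
  by_cases h1 : c + ε / 2 ≤ 1
  swap
  · refine Eventually.of_forall fun n x hx hl => ?_
    have := abs_le_one_of_mem hx
    exfalso
    linarith
  by_cases h2 : T + ε / 4 ≤ 1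
  swap
  · refine Eventually.of_forall fun n x _ _ => ?_
    have := ((smoothSeq hm hp n).sec x).b_le_one 0
    linarith
  obtain ⟨x', y', z', hx', hz', hy', hw⟩ := not_wrap_witness
    (hTh (c + ε / 2) (T + ε / 4) (by linarith) h1 (by linarith) h2)
  have hw' : (x', z', y') ∉ F := hw
  have hy1 : 0 < (1 - lev y') / 2 := by linarith
  filter_upwards [eventually_rOut (η := ε / 8) (by positivity), eventually_rOut hy1]
    with n hr1 hr2 x hx hl
  have hr0 := rOut_pos n
  have hz0 := lev_nonneg z'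
  have hb : ((smoothSeq hm hp n).sec x).b 0 ≤ T + ε / 4 + 2 * (bumpSeq n).rOut := by
    refine integral_le_of_zero (((smoothSeq hm hp n).sec x).cont_col 0)
      (fun y => (smoothSeq hm hp n).le1 x y 0) (by linarith) ?_
    intro y hy hyl
    show (smoothSeq hm hp n).u x y 0 = 0
    rw [smooth_u]
    refine moll_zero_of_witness hS hw' ?_ ?_ ?_
    · rw [lev_of_mem hx]
      linarith
    · rw [lev_of_mem hy]
      linarith
    · rw [lev_zero]
      linarith
  linarith

/-- The rows of the complement in the central phase are short. -/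
lemma ev_rods {c M₀ b₀ : ℝ} (hM : 0 < M₀) (hb : 1 - b₀ < M₀)
    (hband : ∀ s t, s < c → t < b₀ → WrapY F s t) {ε : ℝ} (hε : 0 < ε) :
    ∀ᶠ n : ℕ in atTop, ∀ x ∈ Icc (0:ℝ) 1, |2 * x - 1| ≤ c - ε →
      ∀ y, 1 - ((smoothSeq hm hp n).sec x).a y ≤ M₀ := by
  set t := (1 - M₀ + b₀) / 2 with ht
  have ht1 : t < b₀ := by rw [ht]; linarith
  have ht2 : 1 - M₀ < t := by rw [ht]; linarith
  have hW := hband (c - ε / 2) t (by linarith) ht1
  filter_upwards [eventually_rOut (η := ε / 4) (by positivity),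
    eventually_rOut (η := (t - (1 - M₀)) / 2) (by linarith)] with n hr1 hr2 x hx hl y
  set b := min (t - 2 * (bumpSeq n).rOut) 1 with hbdef
  have hb1 : b ≤ 1 := min_le_right _ _
  have hb2 : b ≤ t - 2 * (bumpSeq n).rOut := min_le_left _ _
  have hb3 : b ≤ ((smoothSeq hm hp n).sec x).a y := by
    refine le_integral_of_one (((smoothSeq hm hp n).sec x).cont_row y)
      (fun z => (smoothSeq hm hp n).nn x y z) hb1 ?_
    intro z hz hzl
    show (smoothSeq hm hp n).u x y z = 1
    rw [smooth_u]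
    refine moll_one_Y hW ?_ ?_
    · rw [lev_of_mem hx]
      linarith
    · rw [lev_of_mem hz]
      linarith
  have hb4 : 1 - M₀ ≤ b := by
    apply le_min
    · linarith
    · linarith
  linarith

/-- The central sections have the largest mass, up to the part in the central phase. -/
lemma ev_nearMass (hS : SD F) {c : ℝ} (hc1 : c < 1) {ε : ℝ} (hε : 0 < ε) :
    ∀ᶠ n : ℕ in atTop, ∀ x ∈ Icc (0:ℝ) 1, |2 * x - 1| ≤ c - ε → ∀ a,
      (∀ x', (smoothSeq hm hp n).A₁ x' ≤ a) →
      ((smoothSeq hm hp n).V - c * a) / (1 - c) ≤ (smoothSeq hm hp n).A₁ x := by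
  filter_upwards [eventually_rOut (η := ε / 8) (by positivity)] with n hr x hx hl a ha
  set U := smoothSeq hm hp n with hU
  set A := U.A₁ x with hA
  have habs : 0 ≤ |2 * x - 1| := abs_nonneg _
  have hc' : 0 ≤ c - ε / 2 := by linarith
  have hAa : A ≤ a := ha x
  -- far sections have less mass
  have hfar : ∀ x', x' ∉ coreSet (c - ε / 2) → x' ∈ Icc (0:ℝ) 1 → U.A₁ x' ≤ A := by
    intro x' hx' hmem
    have hl' : c - ε / 2 ≤ lev x' := by
      rw [lev_of_mem hmem]
      exact not_lt.1 hx'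
    apply intervalIntegral.integral_mono_on zero_le_one
      (((U.sec x').cont_a).intervalIntegrable _ _) (((U.sec x).cont_a).intervalIntegrable _ _)
    intro y _
    apply intervalIntegral.integral_mono_on zero_le_one
      (((U.sec x').cont_row y).intervalIntegrable _ _) (((U.sec x).cont_row y).intervalIntegrable _ _)
    intro z _
    show U.u x' y z ≤ U.u x y z
    rw [hU, smooth_u, smooth_u]
    apply moll_mono_SD hm hS
    rw [lev_of_mem hx]
    linarith
  have hS1 := ind1_interval (coreSet_measurable (c - ε / 2))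
  have hS2 : IntervalIntegrable (fun x' => A + (a - A) * ind1 (coreSet (c - ε / 2)) x') volume 0 1 :=
    intervalIntegrable_const.add (hS1.const_mul _)
  have hV : U.V ≤ ∫ x' in (0:ℝ)..1, (A + (a - A) * ind1 (coreSet (c - ε / 2)) x') := by
    rw [U.V_eq]
    apply intervalIntegral.integral_mono_on zero_le_one ((U.cont_A₁).intervalIntegrable _ _) hS2
    intro x' hx'
    by_cases hc : x' ∈ coreSet (c - ε / 2)
    · rw [ind1_of_mem hc]
      have := ha x'
      linarith
    · have e : ind1 (coreSet (c - ε / 2)) x' = 0 := by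
        unfold ind1
        rw [indicator_of_notMem hc]
      rw [e]
      have := hfar x' hc hx'
      linarith
  have hI : ∫ x' in (0:ℝ)..1, (A + (a - A) * ind1 (coreSet (c - ε / 2)) x')
      = A + (a - A) * ∫ x' in (0:ℝ)..1, ind1 (coreSet (c - ε / 2)) x' := by
    rw [intervalIntegral.integral_add intervalIntegrable_const (hS1.const_mul _),
      intervalIntegral.integral_const_mul]
    simp
  have hcore := core_integral_le hc'
  have h3 : (a - A) * ∫ x' in (0:ℝ)..1, ind1 (coreSet (c - ε / 2)) x' ≤ (a - A) * (c - ε / 2) :=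
    mul_le_mul_of_nonneg_left hcore (by linarith)
  rw [hI] at hV
  rw [div_le_iff₀ (by linarith)]
  nlinarith

/-- The phases of the mollified functions. -/
theorem eventually_phase (hS : SD F) {c T M₀ : ℝ} (hc1 : c < 1)
    (hTh : ∀ s t, c < s → s ≤ 1 → T < t → t ≤ 1 → ¬ WrapY F s t)
    (hband : 0 < M₀ → ∃ b₀, 1 - b₀ < M₀ ∧ ∀ s t, s < c → t < b₀ → WrapY F s t) :
    ∀ ε > 0, ∀ᶠ n : ℕ in atTop,
      PhaseData (smoothSeq hm hp n) c (extA (sw23L ⁻¹' F)) (extA F) T M₀ ε := by
  intro ε hε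
  have e1 := ev_lineY hm hp hε
  have e2 := ev_lineZ hm hp hε
  have e3 := ev_far_a hm hp hS (c := extA F) (T := 0)
    (fun s t h1 h2 h3 _ => not_wrap_of_gt_extA h1 h2 h3) hε
  have e4 := ev_far_b hm hp hS (c := extA (sw23L ⁻¹' F)) (T := 0)
    (fun s t h1 h2 h3 _ => not_wrap_of_gt_extA h1 h2 h3) hε
  have e5 := ev_far_a hm hp hS hTh hε
  have e6 : ∀ᶠ n : ℕ in atTop, 0 < M₀ → ∀ x ∈ Icc (0:ℝ) 1, |2 * x - 1| ≤ c - ε →
      ∀ y, 1 - ((smoothSeq hm hp n).sec x).a y ≤ M₀ := by
    by_cases hM : 0 < M₀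
    · obtain ⟨b₀, hb, hb'⟩ := hband hM
      filter_upwards [ev_rods hm hp hM hb hb' hε] with n hn _
      exact hn
    · exact Eventually.of_forall fun n h => absurd h hM
  have e7 := ev_nearMass hm hp hS hc1 hε
  filter_upwards [e1, e2, e3, e4, e5, e6, e7] with n h1 h2 h3 h4 h5 h6 h7
  exact ⟨h1, h2, fun x hx hl => by simpa using h3 x hx hl, fun x hx hl => by simpa using h4 x hx hl,
    h5, h6, h7⟩

end Phase

end Vale.Agent.Lib.P232
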