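import Vale.Agent.Lib.P232.Sym5

open MeasureTheory Set intervalIntegral Filter Topology
open scoped ContDiff ENNReal

namespace Vale.Agent.Lib.P232

/-- The symmetric decreasing sets: the sets whose lines in the three coordinate directions are
all arcs centred at `1/2`, in a monotone way. -/
def SD (E : Set R3) : Prop :=
  ∀ x y z x1 y1 z1 : ℝ, cd x1 ≤ cd x → cd y1 ≤ cd y → cd z1 ≤ cd z → (x, y, z) ∈ E → (x1, y1, z1) ∈ E

/-- Monotonicity in the first coordinate. -/
def MonoX (E : Set R3) : Prop := ∀ x x1 y z : ℝ, cd x1 ≤ cd x → (x, y, z) ∈ E → (x1, y, z) ∈ E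
/-- Monotonicity in the second coordinate. -/
def MonoY (E : Set R3) : Prop := ∀ x y y1 z : ℝ, cd y1 ≤ cd y → (x, y, z) ∈ E → (x, y1, z) ∈ E
/-- Monotonicity in the third coordinate. -/
def MonoZ (E : Set R3) : Prop := ∀ x y z z1 : ℝ, cd z1 ≤ cd z → (x, y, z) ∈ E → (x, y, z1) ∈ E

section Mono

variable {E : Set R3}

lemma symZ_monoZ (E : Set R3) : MonoZ (symZ E) := fun _ _ _ _ h hz => lt_of_le_of_lt h hz

lemma symZ_monoX (hE : MeasurableSet E) (h : MonoX E) : MonoX (symZ E) := by
  intro x x1 y z hx hz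
  have h1 : lineLen E x y ≤ lineLen E x1 y := lineLen_mono hE fun z' => h x x1 y z' hx
  show cd z < lineLen E x1 y / 2
  have h2 : cd z < lineLen E x y / 2 := hz
  linarith

lemma symZ_monoY (hE : MeasurableSet E) (h : MonoY E) : MonoY (symZ E) := by
  intro x y y1 z hy hz
  have h1 : lineLen E x y ≤ lineLen E x y1 := lineLen_mono hE fun z' => h x y y1 z' hy
  show cd z < lineLen E x y1 / 2
  have h2 : cd z < lineLen E x y / 2 := hz
  linarith

end Mono

/-- A coordinate symmetry of the torus, with the data needed to transport the geometry. -/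
structure CoordSym where
  σ : R3 →L[ℝ] R3
  invol : ∀ p, σ (σ p) = p
  mp : MeasurePreserving σ (volume : Measure R3) volume
  cell : ∀ p, σ p ∈ unitCell ↔ p ∈ unitCell
  perSet : ∀ {E : Set R3}, PeriodicSet E → PeriodicSet (σ ⁻¹' E)
  pull : TestField → TestField
  pull_div : ∀ (X : TestField) (p : R3), (pull X).divergence p = X.divergence (σ p)

namespace CoordSym

variable (τ : CoordSym) {E : Set R3}

/-- The symmetry as a measurable equivalence. -/
noncomputable def equiv : R3 ≃ᵐ R3 where
  toFun := τ.σ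
  invFun := τ.σ
  left_inv := τ.invol
  right_inv := τ.invol
  measurable_toFun := τ.σ.continuous.measurable
  measurable_invFun := τ.σ.continuous.measurable

lemma emb : MeasurableEmbedding τ.σ := τ.equiv.measurableEmbedding

lemma measurable_pre (hE : MeasurableSet E) : MeasurableSet (τ.σ ⁻¹' E) :=
  τ.σ.continuous.measurable hE

lemma pre_inter (E : Set R3) : τ.σ ⁻¹' E ∩ unitCell = τ.σ ⁻¹' (E ∩ unitCell) := by
  ext p
  simp only [mem_inter_iff, mem_preimage, τ.cell]

lemma volume_pre (hE : MeasurableSet E) : torusVolume (τ.σ ⁻¹' E) = torusVolume E := by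
  unfold torusVolume
  rw [τ.pre_inter, τ.mp.measure_preimage (hE.inter unitCell_measurable).nullMeasurableSet]

lemma perimeter_pre_le (E : Set R3) : perimeter (τ.σ ⁻¹' E) ≤ perimeter E := by
  change (⨆ X : TestField, ENNReal.ofReal (∫ p in τ.σ ⁻¹' E ∩ unitCell, X.divergence p)) ≤ perimeter E
  refine iSup_le fun X => ?_
  have h1 : ∫ p in τ.σ ⁻¹' E ∩ unitCell, X.divergence p
      = ∫ p in E ∩ unitCell, (τ.pull X).divergence p := by
    have e : ∀ p, X.divergence p = (τ.pull X).divergence (τ.σ p) := by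
      intro p
      rw [τ.pull_div, τ.invol]
    rw [τ.pre_inter]
    simp only [e]
    exact τ.mp.setIntegral_preimage_emb τ.emb _ _
  rw [h1]
  exact le_iSup (fun X : TestField => ENNReal.ofReal (∫ p in E ∩ unitCell, X.divergence p)) (τ.pull X)

/-- The symmetrisation in the direction exchanged with the third one by `τ`. -/
def symm (τ : CoordSym) (E : Set R3) : Set R3 := τ.σ ⁻¹' symZ (τ.σ ⁻¹' E)

lemma symm_measurable (hE : MeasurableSet E) : MeasurableSet (τ.symm E) :=
  τ.measurable_pre (symZ_measurable (τ.measurable_pre hE))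

lemma symm_periodic (hp : PeriodicSet E) : PeriodicSet (τ.symm E) :=
  τ.perSet (symZ_periodic (τ.perSet hp))

lemma symm_volume (hE : MeasurableSet E) : torusVolume (τ.symm E) = torusVolume E := by
  unfold symm
  rw [τ.volume_pre (symZ_measurable (τ.measurable_pre hE)),
    torusVolume_symZ (τ.measurable_pre hE), τ.volume_pre hE]

lemma symm_perimeter_le (hE : MeasurableSet E) (hp : PeriodicSet E) :
    perimeter (τ.symm E) ≤ perimeter E :=
  (τ.perimeter_pre_le _).trans
    ((perimeter_symZ_le (τ.measurable_pre hE) (τ.perSet hp)).trans (τ.perimeter_pre_le _))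

end CoordSym

section Chain

lemma fderiv_comp_clm {F : R3 → ℝ} (hF : Differentiable ℝ F) (σ : R3 →L[ℝ] R3) (p v : R3) :
    fderiv ℝ (fun q => F (σ q)) p v = fderiv ℝ F (σ p) (σ v) := by
  have h : HasFDerivAt (fun q => F (σ q)) ((fderiv ℝ F (σ p)).comp σ) p :=
    (hF (σ p)).hasFDerivAt.comp p σ.hasFDerivAt
  rw [h.fderiv]
  rfl

end Chain

/-! ### The two swaps -/

/-- The swap of the first and third coordinates. -/
noncomputable def sw13L : R3 →L[ℝ] R3 :=
  ((ContinuousLinearMap.snd ℝ ℝ ℝ).comp (ContinuousLinearMap.snd ℝ ℝ (ℝ × ℝ))).prod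
    (((ContinuousLinearMap.fst ℝ ℝ ℝ).comp (ContinuousLinearMap.snd ℝ ℝ (ℝ × ℝ))).prod
      (ContinuousLinearMap.fst ℝ ℝ (ℝ × ℝ)))

/-- The swap of the second and third coordinates. -/
noncomputable def sw23L : R3 →L[ℝ] R3 :=
  (ContinuousLinearMap.fst ℝ ℝ (ℝ × ℝ)).prod
    (((ContinuousLinearMap.snd ℝ ℝ ℝ).comp (ContinuousLinearMap.snd ℝ ℝ (ℝ × ℝ))).prod
      ((ContinuousLinearMap.fst ℝ ℝ ℝ).comp (ContinuousLinearMap.snd ℝ ℝ (ℝ × ℝ))))

@[simp] lemma sw13L_apply (x y z : ℝ) : sw13L (x, y, z) = (z, y, x) := rfl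
@[simp] lemma sw23L_apply (x y z : ℝ) : sw23L (x, y, z) = (x, z, y) := rfl

lemma mp_sw23 : MeasurePreserving sw23L (volume : Measure R3) volume :=
  (MeasurePreserving.id (volume : Measure ℝ)).prod
    (Measure.measurePreserving_swap (μ := (volume : Measure ℝ)) (ν := (volume : Measure ℝ)))

lemma mp_sw12 : MeasurePreserving (fun p : R3 => ((p.2.1, p.1, p.2.2) : R3)) (volume : Measure R3) volume := by
  have h1 := (measurePreserving_prodAssoc (volume : Measure ℝ) (volume : Measure ℝ) (volume : Measure ℝ)).symm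
  have h2 := (Measure.measurePreserving_swap (μ := (volume : Measure ℝ)) (ν := (volume : Measure ℝ))).prod
    (MeasurePreserving.id (volume : Measure ℝ))
  have h3 := measurePreserving_prodAssoc (volume : Measure ℝ) (volume : Measure ℝ) (volume : Measure ℝ)
  exact h3.comp (h2.comp h1)

lemma mp_sw13 : MeasurePreserving sw13L (volume : Measure R3) volume :=
  mp_sw12.comp (mp_sw23.comp mp_sw12)

/-- The swap of the first and third coordinates, with its data. -/
noncomputable def τ13 : CoordSym where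
  σ := sw13L
  invol := fun _ => rfl
  mp := mp_sw13
  cell := by
    rintro ⟨x, y, z⟩
    simp only [sw13L_apply, unitCell, mem_prod]
    tauto
  perSet := by
    intro E hE x y z
    refine ⟨?_, ?_, ?_⟩
    · exact (hE z y x).2.2
    · exact (hE z y x).2.1
    · exact (hE z y x).1
  pull := fun X =>
    { X₁ := fun p => X.X₃ (sw13L p)
      X₂ := fun p => X.X₂ (sw13L p)
      X₃ := fun p => X.X₁ (sw13L p)
      smooth₁ := X.smooth₃.comp sw13L.contDiff
      smooth₂ := X.smooth₂.comp sw13L.contDiff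
      smooth₃ := X.smooth₁.comp sw13L.contDiff
      periodic₁ := fun x y z => ⟨(X.periodic₃ z y x).2.2, (X.periodic₃ z y x).2.1, (X.periodic₃ z y x).1⟩
      periodic₂ := fun x y z => ⟨(X.periodic₂ z y x).2.2, (X.periodic₂ z y x).2.1, (X.periodic₂ z y x).1⟩
      periodic₃ := fun x y z => ⟨(X.periodic₁ z y x).2.2, (X.periodic₁ z y x).2.1, (X.periodic₁ z y x).1⟩
      norm_le_one := fun p => by
        have := X.norm_le_one (sw13L p)
        linarith }
  pull_div := by
    intro X p
    unfold TestField.divergence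
    simp only
    rw [fderiv_comp_clm (X.smooth₃.differentiable (by simp)),
      fderiv_comp_clm (X.smooth₂.differentiable (by simp)),
      fderiv_comp_clm (X.smooth₁.differentiable (by simp))]
    simp only [sw13L_apply]
    ring

/-- The swap of the second and third coordinates, with its data. -/
noncomputable def τ23 : CoordSym where
  σ := sw23L
  invol := fun _ => rfl
  mp := mp_sw23
  cell := by
    rintro ⟨x, y, z⟩
    simp only [sw23L_apply, unitCell, mem_prod]
    tauto
  perSet := by
    intro E hE x y z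
    refine ⟨?_, ?_, ?_⟩
    · exact (hE x z y).1
    · exact (hE x z y).2.2
    · exact (hE x z y).2.1
  pull := fun X =>
    { X₁ := fun p => X.X₁ (sw23L p)
      X₂ := fun p => X.X₃ (sw23L p)
      X₃ := fun p => X.X₂ (sw23L p)
      smooth₁ := X.smooth₁.comp sw23L.contDiff
      smooth₂ := X.smooth₃.comp sw23L.contDiff
      smooth₃ := X.smooth₂.comp sw23L.contDiff
      periodic₁ := fun x y z => ⟨(X.periodic₁ x z y).1, (X.periodic₁ x z y).2.2, (X.periodic₁ x z y).2.1⟩
      periodic₂ := fun x y z => ⟨(X.periodic₃ x z y).1, (X.periodic₃ x z y).2.2, (X.periodic₃ x z y).2.1⟩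
      periodic₃ := fun x y z => ⟨(X.periodic₂ x z y).1, (X.periodic₂ x z y).2.2, (X.periodic₂ x z y).2.1⟩
      norm_le_one := fun p => by
        have := X.norm_le_one (sw23L p)
        linarith }
  pull_div := by
    intro X p
    unfold TestField.divergence
    simp only
    rw [fderiv_comp_clm (X.smooth₁.differentiable (by simp)),
      fderiv_comp_clm (X.smooth₃.differentiable (by simp)),
      fderiv_comp_clm (X.smooth₂.differentiable (by simp))]
    simp only [sw23L_apply]
    ring

/-! ### The symmetric decreasing rearrangement -/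

section Main

variable {E : Set R3}

lemma monoX_τ13 (h : MonoZ E) : MonoX (sw13L ⁻¹' E) := by
  intro x x1 y z hx hm
  exact h z y x x1 hx hm

lemma monoZ_τ13 (h : MonoX E) : MonoZ (sw13L ⁻¹' E) := by
  intro x y z z1 hz hm
  exact h z z1 y x hz hm

lemma monoX_τ23 (h : MonoX E) : MonoX (sw23L ⁻¹' E) := by
  intro x x1 y z hx hm
  exact h x x1 z y hx hm

lemma monoY_τ23 (h : MonoZ E) : MonoY (sw23L ⁻¹' E) := by
  intro x y y1 z hy hm
  exact h x z y y1 hy hm

lemma monoZ_τ23 (h : MonoY E) : MonoZ (sw23L ⁻¹' E) := by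
  intro x y z z1 hz hm
  exact h x z z1 y hz hm

/-- The symmetric decreasing rearrangement of `E` in the three circle directions. -/
def symAll (E : Set R3) : Set R3 := τ23.symm (τ13.symm (symZ E))

theorem exists_SD (E : Set R3) (hm : MeasurableSet E) (hp : PeriodicSet E) :
    ∃ F, MeasurableSet F ∧ PeriodicSet F ∧ torusVolume F = torusVolume E ∧ perimeter F ≤ perimeter E ∧ SD F := by
  have m1 : MeasurableSet (symZ E) := symZ_measurable hm
  have p1 : PeriodicSet (symZ E) := symZ_periodic hp
  have m2 : MeasurableSet (τ13.symm (symZ E)) := τ13.symm_measurable m1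
  have p2 : PeriodicSet (τ13.symm (symZ E)) := τ13.symm_periodic p1
  refine ⟨symAll E, τ23.symm_measurable m2, τ23.symm_periodic p2, ?_, ?_, ?_⟩
  · unfold symAll
    rw [τ23.symm_volume m2, τ13.symm_volume m1, torusVolume_symZ hm]
  · exact (τ23.symm_perimeter_le m2 p2).trans ((τ13.symm_perimeter_le m1 p1).trans (perimeter_symZ_le hm hp))
  · -- monotonicity
    have hZ1 : MonoZ (symZ E) := symZ_monoZ E
    have m1' : MeasurableSet (sw13L ⁻¹' symZ E) := τ13.measurable_pre m1
    have hX2' : MonoX (symZ (sw13L ⁻¹' symZ E)) := symZ_monoX m1' (monoX_τ13 hZ1)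
    have hZ2' : MonoZ (symZ (sw13L ⁻¹' symZ E)) := symZ_monoZ _
    have hX2 : MonoX (τ13.symm (symZ E)) := monoX_τ13 hZ2'
    have hZ2 : MonoZ (τ13.symm (symZ E)) := monoZ_τ13 hX2'
    have m2' : MeasurableSet (sw23L ⁻¹' τ13.symm (symZ E)) := τ23.measurable_pre m2
    have hX3' : MonoX (symZ (sw23L ⁻¹' τ13.symm (symZ E))) := symZ_monoX m2' (monoX_τ23 hX2)
    have hY3' : MonoY (symZ (sw23L ⁻¹' τ13.symm (symZ E))) := symZ_monoY m2' (monoY_τ23 hZ2)
    have hZ3' : MonoZ (symZ (sw23L ⁻¹' τ13.symm (symZ E))) := symZ_monoZ _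
    have hX3 : MonoX (symAll E) := monoX_τ23 hX3'
    have hY3 : MonoY (symAll E) := monoY_τ23 hZ3'
    have hZ3 : MonoZ (symAll E) := monoZ_τ23 hY3'
    intro x y z x1 y1 z1 hx hy hz hmem
    exact hZ3 x1 y1 z z1 hz (hY3 x1 y y1 z hy (hX3 x x1 y z hx hmem))

end Main

end Vale.Agent.Lib.P232
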