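import Vale.Agent.Lib.P232.Moll4
import Vale.Agent.Lib.P232.Sym6

open MeasureTheory Set intervalIntegral Filter

namespace Vale.Agent.Lib.P232

/-- Normalised distance to the centre of the circle: `0` at half-integers, `1` at integers. -/
noncomputable def lev (t : ℝ) : ℝ := 2 * cd t

/-- The band `lev x ≤ s`, `lev z ≤ t` lies in `E` along whole lines in the second direction. -/
def WrapY (E : Set R3) (s t : ℝ) : Prop :=
  ∀ x y z : ℝ, lev x ≤ s → lev z ≤ t → lev y < 1 → (x, y, z) ∈ E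

/-- The extent along the first coordinate of the set of lines in the second direction lying in
`E`. -/
noncomputable def extA (E : Set R3) : ℝ :=
  sSup {s | s ∈ Icc (0:ℝ) 1 ∧ ∃ t, 0 < t ∧ WrapY E s t}

/-- The geometric information on a smooth function used for the slicing by the first coordinate. -/
structure PhaseData (U : Per3) (c c₁ c₂ T M₀ ε : ℝ) : Prop where
  lineY : ∀ x ∈ Icc (0:ℝ) 1, |2 * x - 1| ≤ c₂ - ε → ∀ y, U.u x y (1 / 2) = 1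
  lineZ : ∀ x ∈ Icc (0:ℝ) 1, |2 * x - 1| ≤ c₁ - ε → ∀ z, U.u x (1 / 2) z = 1
  farY : ∀ x ∈ Icc (0:ℝ) 1, c₂ + ε ≤ |2 * x - 1| → (U.sec x).a 0 ≤ ε
  farZ : ∀ x ∈ Icc (0:ℝ) 1, c₁ + ε ≤ |2 * x - 1| → (U.sec x).b 0 ≤ ε
  thick : ∀ x ∈ Icc (0:ℝ) 1, c + ε ≤ |2 * x - 1| → (U.sec x).a 0 ≤ T + ε
  rods : 0 < M₀ → ∀ x ∈ Icc (0:ℝ) 1, |2 * x - 1| ≤ c - ε → ∀ y, 1 - (U.sec x).a y ≤ M₀
  nearMass : ∀ x ∈ Icc (0:ℝ) 1, |2 * x - 1| ≤ c - ε → ∀ a, (∀ x', U.A₁ x' ≤ a) →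
    (U.V - c * a) / (1 - c) ≤ U.A₁ x

end Vale.Agent.Lib.P232
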