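import Vale.Agent.Lib.P232.T2c

open MeasureTheory Set intervalIntegral

namespace Vale.Agent.Lib.P232

/-- Joint continuity of a function of three variables. -/
def Cont3 (F : ℝ → ℝ → ℝ → ℝ) : Prop := Continuous fun p : ℝ × ℝ × ℝ => F p.1 p.2.1 p.2.2

lemma Cont3.inner {F : ℝ → ℝ → ℝ → ℝ} (hF : Cont3 F) :
    Continuous (Function.uncurry fun x y => ∫ z in (0:ℝ)..1, F x y z) := by
  have h : Continuous (Function.uncurry fun (q : ℝ × ℝ) z => F q.1 q.2 z) := by
    have : (Function.uncurry fun (q : ℝ × ℝ) z => F q.1 q.2 z)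
        = (fun p : ℝ × ℝ × ℝ => F p.1 p.2.1 p.2.2) ∘ fun r : (ℝ × ℝ) × ℝ => (r.1.1, r.1.2, r.2) := by
      funext r; rfl
    rw [this]
    exact hF.comp (by fun_prop)
  exact cont_param h 0 1

lemma Cont3.inner2 {F : ℝ → ℝ → ℝ → ℝ} (hF : Cont3 F) :
    Continuous fun x => ∫ y in (0:ℝ)..1, ∫ z in (0:ℝ)..1, F x y z :=
  cont_param hF.inner 0 1

lemma Cont3.section {F : ℝ → ℝ → ℝ → ℝ} (hF : Cont3 F) (x : ℝ) :
    Continuous (Function.uncurry (F x)) := by
  have : Function.uncurry (F x) = (fun p : ℝ × ℝ × ℝ => F p.1 p.2.1 p.2.2) ∘ fun r : ℝ × ℝ => (x, r.1, r.2) := by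
    funext r; rfl
  rw [this]
  exact hF.comp (by fun_prop)

lemma Cont3.slice13 {F : ℝ → ℝ → ℝ → ℝ} (hF : Cont3 F) (y : ℝ) :
    Continuous (Function.uncurry fun x z => F x y z) := by
  have : (Function.uncurry fun x z => F x y z) = (fun p : ℝ × ℝ × ℝ => F p.1 p.2.1 p.2.2) ∘ fun r : ℝ × ℝ => (r.1, y, r.2) := by
    funext r; rfl
  rw [this]
  exact hF.comp (by fun_prop)

lemma Cont3.slice12 {F : ℝ → ℝ → ℝ → ℝ} (hF : Cont3 F) (z : ℝ) :
    Continuous (Function.uncurry fun x y => F x y z) := by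
  have : (Function.uncurry fun x y => F x y z) = (fun p : ℝ × ℝ × ℝ => F p.1 p.2.1 p.2.2) ∘ fun r : ℝ × ℝ => (r.1, r.2, z) := by
    funext r; rfl
  rw [this]
  exact hF.comp (by fun_prop)

lemma Cont3.swap12 {F : ℝ → ℝ → ℝ → ℝ} (hF : Cont3 F) : Cont3 fun y x z => F x y z := by
  have : (fun p : ℝ × ℝ × ℝ => F p.2.1 p.1 p.2.2) = (fun p : ℝ × ℝ × ℝ => F p.1 p.2.1 p.2.2) ∘ fun r : ℝ × ℝ × ℝ => (r.2.1, r.1, r.2.2) := by
    funext r; rfl
  show Continuous (fun p : ℝ × ℝ × ℝ => F p.2.1 p.1 p.2.2)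
  rw [this]
  exact hF.comp (by fun_prop)

lemma Cont3.swap13 {F : ℝ → ℝ → ℝ → ℝ} (hF : Cont3 F) : Cont3 fun z y x => F x y z := by
  have : (fun p : ℝ × ℝ × ℝ => F p.2.2 p.2.1 p.1) = (fun p : ℝ × ℝ × ℝ => F p.1 p.2.1 p.2.2) ∘ fun r : ℝ × ℝ × ℝ => (r.2.2, r.2.1, r.1) := by
    funext r; rfl
  show Continuous (fun p : ℝ × ℝ × ℝ => F p.2.2 p.2.1 p.1)
  rw [this]
  exact hF.comp (by fun_prop)

/-- Iterated integral over the unit cube. -/
noncomputable def iter3 (F : ℝ → ℝ → ℝ → ℝ) : ℝ :=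
  ∫ x in (0:ℝ)..1, ∫ y in (0:ℝ)..1, ∫ z in (0:ℝ)..1, F x y z

lemma iter3_swap12 {F : ℝ → ℝ → ℝ → ℝ} (hF : Cont3 F) :
    iter3 (fun y x z => F x y z) = iter3 F :=
  (swap_integral hF.inner 0 1 0 1).symm

lemma iter3_swap23 {F : ℝ → ℝ → ℝ → ℝ} (hF : Cont3 F) :
    iter3 (fun x z y => F x y z) = iter3 F := by
  unfold iter3
  apply intervalIntegral.integral_congr
  intro x _
  exact (swap_integral (hF.section x) 0 1 0 1).symm

lemma iter3_swap13 {F : ℝ → ℝ → ℝ → ℝ} (hF : Cont3 F) :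
    iter3 (fun z y x => F x y z) = iter3 F := by
  have h1 : iter3 (fun z y x => F x y z) = iter3 (fun y z x => F x y z) :=
    iter3_swap12 (F := fun y z x => F x y z) ((hF.swap13).swap12)
  have h2 : iter3 (fun y z x => F x y z) = iter3 (fun y x z => F x y z) :=
    iter3_swap23 (F := fun y x z => F x y z) hF.swap12
  rw [h1, h2, iter3_swap12 hF]

/-- Smooth data on the three-torus with values in `[0,1]`. -/
structure Per3 where
  u : ℝ → ℝ → ℝ → ℝ
  ux : ℝ → ℝ → ℝ → ℝ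
  uy : ℝ → ℝ → ℝ → ℝ
  uz : ℝ → ℝ → ℝ → ℝ
  cont : Cont3 u
  contX : Cont3 ux
  contY : Cont3 uy
  contZ : Cont3 uz
  hasX : ∀ x y z, HasDerivAt (fun t => u t y z) (ux x y z) x
  hasY : ∀ x y z, HasDerivAt (fun t => u x t z) (uy x y z) y
  hasZ : ∀ x y z, HasDerivAt (fun t => u x y t) (uz x y z) z
  perX : ∀ x y z, u (x + 1) y z = u x y z
  perY : ∀ x y z, u x (y + 1) z = u x y z
  perZ : ∀ x y z, u x y (z + 1) = u x y z
  nn : ∀ x y z, 0 ≤ u x y z
  le1 : ∀ x y z, u x y z ≤ 1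

namespace Per3

variable (U : Per3)

/-- The section at a fixed first coordinate. -/
def sec (x : ℝ) : Per2 where
  w := U.u x
  wy := U.uy x
  wz := U.uz x
  cont := U.cont.section x
  contY := U.contY.section x
  contZ := U.contZ.section x
  hasY := U.hasY x
  hasZ := U.hasZ x
  perY := U.perY x
  perZ := U.perZ x
  nn := U.nn x
  le1 := U.le1 x

/-- Total mass. -/
noncomputable def V : ℝ := iter3 U.u

/-- Total variation of the gradient. -/
noncomputable def P : ℝ :=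
  iter3 fun x y z => Real.sqrt (U.ux x y z ^ 2 + U.uy x y z ^ 2 + U.uz x y z ^ 2)

/-- Mass away from the values `0` and `1`. -/
noncomputable def Ff (κ : ℝ) : ℝ := iter3 fun x y z => Xi κ (U.u x y z)

/-- Section masses in the first direction. -/
noncomputable def A₁ (x : ℝ) : ℝ := ∫ y in (0:ℝ)..1, ∫ z in (0:ℝ)..1, U.u x y z
/-- Section masses in the second direction. -/
noncomputable def A₂ (y : ℝ) : ℝ := ∫ x in (0:ℝ)..1, ∫ z in (0:ℝ)..1, U.u x y z
/-- Section masses in the third direction. -/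
noncomputable def A₃ (z : ℝ) : ℝ := ∫ x in (0:ℝ)..1, ∫ y in (0:ℝ)..1, U.u x y z

lemma cont_A₁ : Continuous U.A₁ := U.cont.inner2

lemma cont_A₂ : Continuous U.A₂ := by
  have h : Cont3 fun y x z => U.u x y z := U.cont.swap12
  exact h.inner2

lemma cont_A₃ : Continuous U.A₃ := by
  have h1 : Cont3 fun z x y => U.u x y z := by
    have : (fun p : ℝ × ℝ × ℝ => U.u p.2.1 p.2.2 p.1) = (fun p : ℝ × ℝ × ℝ => U.u p.1 p.2.1 p.2.2) ∘ fun r : ℝ × ℝ × ℝ => (r.2.1, r.2.2, r.1) := by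
      funext r; rfl
    show Continuous (fun p : ℝ × ℝ × ℝ => U.u p.2.1 p.2.2 p.1)
    rw [this]
    exact U.cont.comp (by fun_prop)
  exact h1.inner2

lemma per_A₁ (x : ℝ) : U.A₁ (x + 1) = U.A₁ x := by simp only [A₁, U.perX]
lemma per_A₂ (y : ℝ) : U.A₂ (y + 1) = U.A₂ y := by simp only [A₂, U.perY]
lemma per_A₃ (z : ℝ) : U.A₃ (z + 1) = U.A₃ z := by simp only [A₃, U.perZ]

lemma sec_A (x : ℝ) : (U.sec x).A = U.A₁ x := rfl

lemma V_eq : U.V = ∫ x in (0:ℝ)..1, U.A₁ x := rfl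

lemma A₁_nonneg (x : ℝ) : 0 ≤ U.A₁ x := (U.sec x).A_nonneg
lemma A₁_le_one (x : ℝ) : U.A₁ x ≤ 1 := (U.sec x).A_le_one

lemma V_le_max {M : ℝ} (h : ∀ x, U.A₁ x ≤ M) : U.V ≤ M := by
  have := intervalIntegral.integral_mono_on (μ := volume) zero_le_one
    ((U.cont_A₁).intervalIntegrable 0 1)
    ((continuous_const (y := M)).intervalIntegrable 0 1) (fun x _ => h x)
  simpa [V_eq] using this

lemma V_ge_min {M : ℝ} (h : ∀ x, M ≤ U.A₁ x) : M ≤ U.V := by
  have := intervalIntegral.integral_mono_on (μ := volume) zero_le_one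
    ((continuous_const (y := M)).intervalIntegrable 0 1)
    ((U.cont_A₁).intervalIntegrable 0 1) (fun x _ => h x)
  simpa [V_eq] using this

lemma cont_gradFull : Cont3 fun x y z => Real.sqrt (U.ux x y z ^ 2 + U.uy x y z ^ 2 + U.uz x y z ^ 2) :=
  (((U.contX.pow 2).add (U.contY.pow 2)).add (U.contZ.pow 2)).sqrt

lemma cont_gradTan : Cont3 fun x y z => Real.sqrt (U.uy x y z ^ 2 + U.uz x y z ^ 2) :=
  ((U.contY.pow 2).add (U.contZ.pow 2)).sqrt

lemma cont_absX : Cont3 fun x y z => |U.ux x y z| := U.contX.abs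

lemma cont_Xi (κ : ℝ) : Cont3 fun x y z => Xi κ (U.u x y z) := (Xi_continuous κ).comp U.cont

/-- The calibration identity for the slicing by the first coordinate. -/
theorem slice_calib {k H : ℝ} {β e : ℝ → ℝ} (hβ : Continuous β) (hβ0 : ∀ s, 0 ≤ β s)
    (he : Continuous e) (hβ1 : ∀ x, β (U.A₁ x) ≤ 1)
    (h3 : ∀ x, k + H * U.A₁ x - e x ≤ Real.sqrt (1 - β (U.A₁ x) ^ 2) * (U.sec x).D) (xm xa : ℝ) :
    k + H * U.V - (∫ x in (0:ℝ)..1, e x) + 2 * ∫ s in U.A₁ xm..U.A₁ xa, β s ≤ U.P := by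
  have hder : ∀ x, HasDerivAt U.A₁ (∫ y in (0:ℝ)..1, ∫ z in (0:ℝ)..1, U.ux x y z) x := by
    intro x
    refine hasDerivAt_param (F := fun x y => ∫ z in (0:ℝ)..1, U.u x y z)
      (F' := fun x y => ∫ z in (0:ℝ)..1, U.ux x y z) U.cont.inner U.contX.inner ?_ 0 1 x
    intro x y
    exact hasDerivAt_param (F := fun x z => U.u x y z) (F' := fun x z => U.ux x y z)
      (U.cont.slice13 y) (U.contX.slice13 y) (fun x z => U.hasX x y z) 0 1 x
  exact calib_core (A := U.A₁) (A' := fun x => ∫ y in (0:ℝ)..1, ∫ z in (0:ℝ)..1, U.ux x y z)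
    (N := fun x => ∫ y in (0:ℝ)..1, ∫ z in (0:ℝ)..1,
      Real.sqrt (U.ux x y z ^ 2 + U.uy x y z ^ 2 + U.uz x y z ^ 2))
    (G := fun x => (U.sec x).D)
    (P := fun x => ∫ y in (0:ℝ)..1, ∫ z in (0:ℝ)..1, |U.ux x y z|)
    (e := e) (β := β) (k := k) (H := H)
    hder U.contX.inner2 U.per_A₁ U.cont_gradFull.inner2 he hβ hβ0
    (fun x α γ hα hγ h => by
      have c1 := U.cont_gradTan.inner.comp (Continuous.prodMk_right x)
      have c2 := U.cont_absX.inner.comp (Continuous.prodMk_right x)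
      have c3 := U.cont_gradFull.inner.comp (Continuous.prodMk_right x)
      simp only [Function.comp_def, Function.uncurry] at c1 c2 c3
      have c1' : Continuous fun y => α * ∫ z in (0:ℝ)..1, Real.sqrt (U.uy x y z ^ 2 + U.uz x y z ^ 2) :=
        continuous_const.mul c1
      have c2' : Continuous fun y => γ * ∫ z in (0:ℝ)..1, |U.ux x y z| := continuous_const.mul c2
      have e1 : α * (U.sec x).D = ∫ y in (0:ℝ)..1, α * ∫ z in (0:ℝ)..1, Real.sqrt (U.uy x y z ^ 2 + U.uz x y z ^ 2) :=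
        (intervalIntegral.integral_const_mul _ _).symm
      have e2 : γ * (∫ y in (0:ℝ)..1, ∫ z in (0:ℝ)..1, |U.ux x y z|)
          = ∫ y in (0:ℝ)..1, γ * ∫ z in (0:ℝ)..1, |U.ux x y z| :=
        (intervalIntegral.integral_const_mul _ _).symm
      show α * (U.sec x).D + γ * (∫ y in (0:ℝ)..1, ∫ z in (0:ℝ)..1, |U.ux x y z|) ≤ _
      rw [e1, e2, ← intervalIntegral.integral_add (c1'.intervalIntegrable _ _) (c2'.intervalIntegrable _ _)]
      apply intervalIntegral.integral_mono_on zero_le_one ((c1'.add c2').intervalIntegrable _ _)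
        (c3.intervalIntegrable _ _)
      intro y _
      show α * (∫ z in (0:ℝ)..1, Real.sqrt (U.uy x y z ^ 2 + U.uz x y z ^ 2))
        + γ * (∫ z in (0:ℝ)..1, |U.ux x y z|) ≤ _
      have d1 : Continuous fun z => Real.sqrt (U.uy x y z ^ 2 + U.uz x y z ^ 2) :=
        (U.cont_gradTan.section x).comp (Continuous.prodMk_right y)
      have d2 : Continuous fun z => |U.ux x y z| :=
        (U.cont_absX.section x).comp (Continuous.prodMk_right y)
      have d3 : Continuous fun z => Real.sqrt (U.ux x y z ^ 2 + U.uy x y z ^ 2 + U.uz x y z ^ 2) :=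
        (U.cont_gradFull.section x).comp (Continuous.prodMk_right y)
      have d1' : Continuous fun z => α * Real.sqrt (U.uy x y z ^ 2 + U.uz x y z ^ 2) :=
        continuous_const.mul d1
      have d2' : Continuous fun z => γ * |U.ux x y z| := continuous_const.mul d2
      rw [← intervalIntegral.integral_const_mul, ← intervalIntegral.integral_const_mul,
        ← intervalIntegral.integral_add (d1'.intervalIntegrable _ _) (d2'.intervalIntegrable _ _)]
      apply intervalIntegral.integral_mono_on zero_le_one ((d1'.add d2').intervalIntegrable _ _)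
        (d3.intervalIntegrable _ _)
      intro z _
      have hcs := cs_point (p := Real.sqrt (U.uy x y z ^ 2 + U.uz x y z ^ 2)) (q := U.ux x y z) h
      rw [abs_of_nonneg (Real.sqrt_nonneg _), Real.sq_sqrt (by positivity)] at hcs
      have e3 : U.uy x y z ^ 2 + U.uz x y z ^ 2 + U.ux x y z ^ 2
          = U.ux x y z ^ 2 + U.uy x y z ^ 2 + U.uz x y z ^ 2 := by ring
      rw [e3] at hcs
      exact hcs)
    (fun x => by
      refine (intervalIntegral.abs_integral_le_integral_abs zero_le_one).trans ?_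
      have c1 := U.contX.inner.comp (Continuous.prodMk_right x)
      have c2 := U.cont_absX.inner.comp (Continuous.prodMk_right x)
      simp only [Function.comp_def, Function.uncurry] at c1 c2
      apply intervalIntegral.integral_mono_on zero_le_one (c1.abs.intervalIntegrable _ _)
        (c2.intervalIntegrable _ _)
      intro y _
      exact intervalIntegral.abs_integral_le_integral_abs zero_le_one)
    hβ1 h3 xm xa

end Per3

end Vale.Agent.Lib.P232
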