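import Vale.Agent.Lib.P232.Defs
import Vale.Agent.Lib.P232.T3a

open MeasureTheory Set intervalIntegral

namespace Vale.Agent.Lib.P232

lemma unitCell_measurable : MeasurableSet unitCell :=
  measurableSet_Ico.prod (measurableSet_Ico.prod measurableSet_Ico)

lemma unitCell_volume_lt : volume unitCell < ⊤ := by
  have h1 : volume unitCell = volume (Ico (0:ℝ) 1) * (volume (Ico (0:ℝ) 1) * volume (Ico (0:ℝ) 1)) := by
    unfold unitCell
    rw [Measure.volume_eq_prod, Measure.prod_prod, Measure.volume_eq_prod, Measure.prod_prod]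
  rw [h1]
  simp

lemma unitCell_volume : volume unitCell = 1 := by
  have h1 : volume unitCell = volume (Ico (0:ℝ) 1) * (volume (Ico (0:ℝ) 1) * volume (Ico (0:ℝ) 1)) := by
    unfold unitCell
    rw [Measure.volume_eq_prod, Measure.prod_prod, Measure.volume_eq_prod, Measure.prod_prod]
  rw [h1]
  simp

lemma Ico_eq_interval (f : ℝ → ℝ) : ∫ x in Ico (0:ℝ) 1, f x = ∫ x in (0:ℝ)..1, f x := by
  rw [intervalIntegral.integral_of_le zero_le_one, integral_Ico_eq_integral_Ioo,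
    integral_Ioc_eq_integral_Ioo]

/-- The integral over the unit cell is an iterated interval integral. -/
lemma cell_eq_iter {F : R3 → ℝ} (hF : IntegrableOn F unitCell) :
    ∫ p in unitCell, F p = ∫ x in (0:ℝ)..1, ∫ y in (0:ℝ)..1, ∫ z in (0:ℝ)..1, F (x, y, z) := by
  have h1 : ∫ p in unitCell, F p
      = ∫ x in Ico (0:ℝ) 1, ∫ q in Ico (0:ℝ) 1 ×ˢ Ico (0:ℝ) 1, F (x, q) := by
    have := setIntegral_prod (μ := (volume : Measure ℝ)) (ν := (volume : Measure (ℝ × ℝ))) F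
      (s := Ico (0:ℝ) 1) (t := Ico (0:ℝ) 1 ×ˢ Ico (0:ℝ) 1) hF
    exact this
  rw [h1, ← Ico_eq_interval (fun x => ∫ y in (0:ℝ)..1, ∫ z in (0:ℝ)..1, F (x, y, z))]
  have hae : ∀ᵐ x ∂(volume.restrict (Ico (0:ℝ) 1)),
      IntegrableOn (fun q => F (x, q)) (Ico (0:ℝ) 1 ×ˢ Ico (0:ℝ) 1) := by
    have h2 : Integrable F ((volume.restrict (Ico (0:ℝ) 1)).prod
        ((volume : Measure (ℝ × ℝ)).restrict (Ico (0:ℝ) 1 ×ˢ Ico (0:ℝ) 1))) := by
      rw [Measure.prod_restrict]
      exact hF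
    exact h2.prod_right_ae
  apply setIntegral_congr_ae measurableSet_Ico
  have hae' := (ae_restrict_iff' measurableSet_Ico).1 hae
  filter_upwards [hae'] with x hx hxm
  have h3 := setIntegral_prod (μ := (volume : Measure ℝ)) (ν := (volume : Measure ℝ))
    (fun q => F (x, q)) (s := Ico (0:ℝ) 1) (t := Ico (0:ℝ) 1) (hx hxm)
  have h4 : ∫ q in Ico (0:ℝ) 1 ×ˢ Ico (0:ℝ) 1, F (x, q)
      = ∫ y in Ico (0:ℝ) 1, ∫ z in Ico (0:ℝ) 1, F (x, y, z) := h3
  rw [h4]
  have h5 : ∀ y, ∫ z in Ico (0:ℝ) 1, F (x, y, z) = ∫ z in (0:ℝ)..1, F (x, y, z) :=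
    fun y => Ico_eq_interval _
  simp only [h5]
  exact Ico_eq_interval _

lemma integrableOn_cell_of_bdd {F : R3 → ℝ} (hF : AEStronglyMeasurable F volume) {C : ℝ}
    (hC : ∀ p, |F p| ≤ C) : IntegrableOn F unitCell := by
  refine Measure.integrableOn_of_bounded (M := C) unitCell_volume_lt.ne hF ?_
  exact Filter.Eventually.of_forall fun p => by simpa using hC p

/-- Continuous functions: the cell integral is the iterated integral `iter3`. -/
lemma cell_eq_iter3 {F : R3 → ℝ} (hF : Continuous F) :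
    ∫ p in unitCell, F p = iter3 fun x y z => F (x, y, z) := by
  have hK : IsCompact (Icc (0:ℝ) 1 ×ˢ (Icc (0:ℝ) 1 ×ˢ Icc (0:ℝ) 1) : Set R3) :=
    isCompact_Icc.prod (isCompact_Icc.prod isCompact_Icc)
  have h1 : IntegrableOn F (Icc (0:ℝ) 1 ×ˢ (Icc (0:ℝ) 1 ×ˢ Icc (0:ℝ) 1) : Set R3) :=
    hF.continuousOn.integrableOn_compact hK
  have h2 : IntegrableOn F unitCell := by
    refine h1.mono_set ?_
    unfold unitCell
    exact prod_mono Ico_subset_Icc_self (prod_mono Ico_subset_Icc_self Ico_subset_Icc_self)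
  exact cell_eq_iter h2

/-- Shift invariance of the interval integral of a periodic function. -/
lemma periodic_shift {f : ℝ → ℝ} (hf : ∀ x, f (x + 1) = f x) (t : ℝ) :
    ∫ x in (0:ℝ)..1, f (x + t) = ∫ x in (0:ℝ)..1, f x := by
  rw [intervalIntegral.integral_comp_add_right]
  have hp : Function.Periodic f 1 := hf
  have := hp.intervalIntegral_add_eq (0 + t) 0
  simpa [add_comm] using this

/-- The translation invariance of the integral over the unit cell. -/
lemma cell_shift {f : R3 → ℝ} (hper : PeriodicFun f) (hm : Measurable f) {C : ℝ} (hC : ∀ p, |f p| ≤ C)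
    (t : R3) : ∫ p in unitCell, f (p + t) = ∫ p in unitCell, f p := by
  have h1 : IntegrableOn f unitCell := integrableOn_cell_of_bdd hm.aestronglyMeasurable hC
  have h2 : IntegrableOn (fun p => f (p + t)) unitCell :=
    integrableOn_cell_of_bdd (hm.comp (measurable_add_const t)).aestronglyMeasurable
      (fun p => hC (p + t))
  rw [cell_eq_iter h1, cell_eq_iter h2]
  obtain ⟨t₁, t₂, t₃⟩ := t
  show ∫ x in (0:ℝ)..1, ∫ y in (0:ℝ)..1, ∫ z in (0:ℝ)..1, f (x + t₁, y + t₂, z + t₃) = _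
  have s1 : ∀ x y, ∫ z in (0:ℝ)..1, f (x, y, z + t₃) = ∫ z in (0:ℝ)..1, f (x, y, z) := fun x y =>
    periodic_shift (f := fun z => f (x, y, z)) (fun z => (hper x y z).2.2) t₃
  have s2 : ∀ x, ∫ y in (0:ℝ)..1, ∫ z in (0:ℝ)..1, f (x, y + t₂, z)
      = ∫ y in (0:ℝ)..1, ∫ z in (0:ℝ)..1, f (x, y, z) := fun x =>
    periodic_shift (f := fun y => ∫ z in (0:ℝ)..1, f (x, y, z))
      (fun y => by simp only [(hper x y _).2.1]) t₂
  have s3 : ∫ x in (0:ℝ)..1, ∫ y in (0:ℝ)..1, ∫ z in (0:ℝ)..1, f (x + t₁, y, z)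
      = ∫ x in (0:ℝ)..1, ∫ y in (0:ℝ)..1, ∫ z in (0:ℝ)..1, f (x, y, z) :=
    periodic_shift (f := fun x => ∫ y in (0:ℝ)..1, ∫ z in (0:ℝ)..1, f (x, y, z))
      (fun x => by simp only [(hper x _ _).1]) t₁
  simp only [s1, s2]
  exact s3

/-- A continuous periodic function is bounded. -/
lemma bdd_of_periodic {f : R3 → ℝ} (hper : PeriodicFun f) (hc : Continuous f) :
    ∃ C, ∀ p, |f p| ≤ C := by
  have hK : IsCompact (Icc (0:ℝ) 1 ×ˢ (Icc (0:ℝ) 1 ×ˢ Icc (0:ℝ) 1) : Set R3) :=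
    isCompact_Icc.prod (isCompact_Icc.prod isCompact_Icc)
  obtain ⟨C, hC⟩ := hK.exists_bound_of_continuousOn hc.continuousOn
  refine ⟨C, ?_⟩
  rintro ⟨x, y, z⟩
  have h1 : Function.Periodic (fun x => f (x, y, z)) 1 := fun x => (hper x y z).1
  obtain ⟨x', hx', e1⟩ := h1.exists_mem_Ico₀ one_pos x
  have h2 : Function.Periodic (fun y => f (x', y, z)) 1 := fun y => (hper x' y z).2.1
  obtain ⟨y', hy', e2⟩ := h2.exists_mem_Ico₀ one_pos y
  have h3 : Function.Periodic (fun z => f (x', y', z)) 1 := fun z => (hper x' y' z).2.2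
  obtain ⟨z', hz', e3⟩ := h3.exists_mem_Ico₀ one_pos z
  have e : f (x, y, z) = f (x', y', z') := e1.trans (e2.trans e3)
  rw [e]
  have hm : (x', y', z') ∈ (Icc (0:ℝ) 1 ×ˢ (Icc (0:ℝ) 1 ×ˢ Icc (0:ℝ) 1) : Set R3) := by
    refine ⟨⟨hx'.1, ?_⟩, ⟨hy'.1, ?_⟩, ⟨hz'.1, ?_⟩⟩
    · exact hx'.2.le
    · exact hy'.2.le
    · exact hz'.2.le
  simpa using hC _ hm

/-- The integral of the derivative in the first variable vanishes for periodic functions. -/
lemma iter3_deriv_x {F F' : ℝ → ℝ → ℝ → ℝ} (hF : Cont3 F) (hF' : Cont3 F')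
    (hd : ∀ x y z, HasDerivAt (fun t => F t y z) (F' x y z) x)
    (hper : ∀ x y z, F (x + 1) y z = F x y z) : iter3 F' = 0 := by
  have hG : ∀ x, HasDerivAt (fun s => ∫ y in (0:ℝ)..1, ∫ z in (0:ℝ)..1, F s y z)
      (∫ y in (0:ℝ)..1, ∫ z in (0:ℝ)..1, F' x y z) x := by
    intro x
    refine hasDerivAt_param (F := fun x y => ∫ z in (0:ℝ)..1, F x y z)
      (F' := fun x y => ∫ z in (0:ℝ)..1, F' x y z) hF.inner hF'.inner ?_ 0 1 x
    intro x y
    exact hasDerivAt_param (F := fun x z => F x y z) (F' := fun x z => F' x y z)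
      (hF.slice13 y) (hF'.slice13 y) (fun x z => hd x y z) 0 1 x
  have h := intervalIntegral.integral_eq_sub_of_hasDerivAt (a := 0) (b := 1) (fun x _ => hG x)
    (hF'.inner2.intervalIntegrable _ _)
  unfold iter3
  rw [h]
  have : (1:ℝ) = 0 + 1 := by norm_num
  rw [this]
  simp only [hper]
  ring

/-- The integral of the derivative in the second variable vanishes for periodic functions. -/
lemma iter3_deriv_y {F F' : ℝ → ℝ → ℝ → ℝ} (hF : Cont3 F) (hF' : Cont3 F')
    (hd : ∀ x y z, HasDerivAt (fun t => F x t z) (F' x y z) y)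
    (hper : ∀ x y z, F x (y + 1) z = F x y z) : iter3 F' = 0 := by
  have h := iter3_deriv_x (F := fun y x z => F x y z) (F' := fun y x z => F' x y z)
    hF.swap12 hF'.swap12 (fun y x z => hd x y z) (fun y x z => hper x y z)
  rwa [iter3_swap12 hF'] at h

/-- The integral of the derivative in the third variable vanishes for periodic functions. -/
lemma iter3_deriv_z {F F' : ℝ → ℝ → ℝ → ℝ} (hF : Cont3 F) (hF' : Cont3 F')
    (hd : ∀ x y z, HasDerivAt (fun t => F x y t) (F' x y z) z)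
    (hper : ∀ x y z, F x y (z + 1) = F x y z) : iter3 F' = 0 := by
  have h := iter3_deriv_x (F := fun z y x => F x y z) (F' := fun z y x => F' x y z)
    hF.swap13 hF'.swap13 (fun z y x => hd x y z) (fun z y x => hper x y z)
  rwa [iter3_swap13 hF'] at h

end Vale.Agent.Lib.P232
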