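import Vale.Agent.Lib.P232.T3a

open MeasureTheory Set intervalIntegral

namespace Vale.Agent.Lib.P232

/-- Admissible chord calibrations on `[m, a]` for the squared profile `ℓ`. -/
structure Adm (ℓ : ℝ → ℝ) (m a k H : ℝ) (β : ℝ → ℝ) : Prop where
  cont : ContinuousOn β (Icc m a)
  nn : ∀ s ∈ Icc m a, 0 ≤ β s
  le1 : ∀ s ∈ Icc m a, β s ≤ 1
  con : ∀ s ∈ Icc m a, (k + H * s) ^ 2 ≤ (1 - β s ^ 2) * ℓ s

/-- `B` is a value certified at volume `V` by a chord calibration on `[m, a]`. -/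
def Value (ℓ : ℝ → ℝ) (m a V B : ℝ) : Prop :=
  ∃ k H β, Adm ℓ m a k H β ∧ B ≤ k + H * V + 2 * ∫ s in m..a, β s

/-- The squared disk profile. -/
noncomputable def ell0 (s : ℝ) : ℝ := 4 * Real.pi * s

lemma Adm.extend {ℓ : ℝ → ℝ} {m a k H : ℝ} {β : ℝ → ℝ} (h : Adm ℓ m a k H β) (hma : m ≤ a) :
    ∃ β' : ℝ → ℝ, Continuous β' ∧ (∀ s, 0 ≤ β' s) ∧ (∀ s, β' s ≤ 1) ∧ ∀ s ∈ Icc m a, β' s = β s := by
  refine ⟨IccExtend hma ((Icc m a).domRestrict β), ?_, ?_, ?_, ?_⟩
  · exact (continuousOn_iff_continuous_domRestrict.1 h.cont).Icc_extend'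
  · intro s
    exact h.nn _ (projIcc m a hma s).2
  · intro s
    exact h.le1 _ (projIcc m a hma s).2
  · intro s hs
    rw [IccExtend_of_mem _ _ hs]
    rfl

/-- Passing from the squared constraint to the form used by the calibration. -/
lemma chord_step {k H s β r D e : ℝ} (hβ0 : 0 ≤ β) (hβ1 : β ≤ 1)
    (hcon : (k + H * s) ^ 2 ≤ (1 - β ^ 2) * r) (hprof : Real.sqrt r ≤ D + e) (he : 0 ≤ e) :
    k + H * s - e ≤ Real.sqrt (1 - β ^ 2) * D := by
  have h1 : 0 ≤ 1 - β ^ 2 := by nlinarith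
  have h2 : k + H * s ≤ Real.sqrt (1 - β ^ 2) * Real.sqrt r := by
    rw [← Real.sqrt_mul h1]
    exact Real.le_sqrt_of_sq_le hcon
  have h3 : Real.sqrt (1 - β ^ 2) ≤ 1 := Real.sqrt_le_one.2 (by nlinarith)
  have h4 : 0 ≤ Real.sqrt (1 - β ^ 2) := Real.sqrt_nonneg _
  have h5 : Real.sqrt (1 - β ^ 2) * Real.sqrt r ≤ Real.sqrt (1 - β ^ 2) * (D + e) :=
    mul_le_mul_of_nonneg_left hprof h4
  have h6 : Real.sqrt (1 - β ^ 2) * e ≤ 1 * e := mul_le_mul_of_nonneg_right h3 he
  nlinarith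

lemma ell_nonneg {s : ℝ} (h0 : 0 ≤ s) (h1 : s ≤ 1) : 0 ≤ ell s := by
  have hp := Real.pi_pos
  unfold ell
  refine le_min (le_min (by positivity) (by norm_num)) ?_
  have : 0 ≤ 1 - s := by linarith
  positivity

lemma sqrt_ell0 {s : ℝ} : Real.sqrt (ell0 s) = 2 * Real.sqrt (Real.pi * s) := by
  unfold ell0
  rw [show 4 * Real.pi * s = 2 ^ 2 * (Real.pi * s) by ring,
    Real.sqrt_mul (by norm_num : (0:ℝ) ≤ 2 ^ 2), Real.sqrt_sq (by norm_num)]

namespace Per3

variable (U : Per3)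

lemma cont_secF (κ : ℝ) : Continuous fun x => (U.sec x).F κ := (U.cont_Xi κ).inner2

lemma integral_secF (κ : ℝ) : ∫ x in (0:ℝ)..1, (U.sec x).F κ = U.Ff κ := rfl

lemma integral_secF_nonneg (κ : ℝ) : 0 ≤ U.Ff κ :=
  intervalIntegral.integral_nonneg zero_le_one fun x _ => (U.sec x).F_nonneg κ

/-- The error term of the smooth estimates. -/
noncomputable def err (τ κ F : ℝ) : ℝ := 8 * τ + 8 * κ + (4 / τ ^ 2) * (F + 2 * κ)

/-- The first calibration bound: chord below the two-dimensional profile. -/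
theorem value1 {κ τ : ℝ} (hκ : 0 < κ) (hτ : 0 < τ) (hτ1 : τ ≤ 1) (hκτ : 4 * κ ≤ τ) {k H : ℝ}
    {β : ℝ → ℝ} (xm xa : ℝ) (hm : ∀ x, U.A₁ xm ≤ U.A₁ x) (ha : ∀ x, U.A₁ x ≤ U.A₁ xa)
    (hAdm : Adm ell (U.A₁ xm) (U.A₁ xa) k H β) :
    k + H * U.V + 2 * (∫ s in U.A₁ xm..U.A₁ xa, β s) ≤ U.P + err τ κ (U.Ff κ) := by
  have hma : U.A₁ xm ≤ U.A₁ xa := ha xm
  obtain ⟨β', hc, h0, h1, heq⟩ := hAdm.extend hma
  set e : ℝ → ℝ := fun x => (8 * τ + 8 * κ) + (4 / τ ^ 2) * ((U.sec x).F κ + 2 * κ) with he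
  have hF := U.cont_secF κ
  have i1 : Continuous fun x => (U.sec x).F κ + 2 * κ := hF.add continuous_const
  have i2 : Continuous fun x => (4 / τ ^ 2) * ((U.sec x).F κ + 2 * κ) := continuous_const.mul i1
  have hec : Continuous e := continuous_const.add i2
  have hE : ∫ x in (0:ℝ)..1, e x = err τ κ (U.Ff κ) := by
    simp only [he, err]
    rw [intervalIntegral.integral_add (continuous_const.intervalIntegrable _ _) (i2.intervalIntegrable _ _),
      intervalIntegral.integral_const_mul, intervalIntegral.integral_add (hF.intervalIntegrable _ _)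
        (continuous_const.intervalIntegrable _ _), integral_secF]
    simp
  have key := U.slice_calib (β := β') (e := e) (k := k) (H := H) hc h0 hec (fun x => h1 _)
    (fun x => by
      have hmem : U.A₁ x ∈ Icc (U.A₁ xm) (U.A₁ xa) := ⟨hm x, ha x⟩
      have hcon := hAdm.con _ hmem
      rw [← heq _ hmem] at hcon
      have hprof := (U.sec x).profile hκ hτ hτ1 hκτ
      have hsecF := (U.sec x).F_nonneg κ
      refine chord_step (h0 _) (h1 _) hcon ?_ ?_
      · simp only [he]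
        rw [sec_A] at hprof
        linarith
      · simp only [he]
        positivity)
    xm xa
  rw [hE] at key
  have hint : ∫ s in U.A₁ xm..U.A₁ xa, β' s = ∫ s in U.A₁ xm..U.A₁ xa, β s := by
    apply intervalIntegral.integral_congr
    intro s hs
    rw [uIcc_of_le hma] at hs
    exact heq s hs
  rw [hint] at key
  linarith

/-- The second calibration bound: chord below the disk profile, after cutting along two planes. -/
theorem value2 {κ τ : ℝ} (hκ : 0 < κ) (hτ : 0 < τ) {k H : ℝ}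
    {β : ℝ → ℝ} (xm xa y₀ z₀ : ℝ) (hm : ∀ x, U.A₁ xm ≤ U.A₁ x) (ha : ∀ x, U.A₁ x ≤ U.A₁ xa)
    (hAdm : Adm ell0 (U.A₁ xm) (U.A₁ xa) k H β) :
    k + H * U.V + 2 * (∫ s in U.A₁ xm..U.A₁ xa, β s) ≤
      U.P + 2 * U.A₂ y₀ + 2 * U.A₃ z₀ + (4 * κ + 4 * τ + (2 / τ ^ 2) * (U.Ff κ + 2 * κ)) := by
  have hma : U.A₁ xm ≤ U.A₁ xa := ha xm
  obtain ⟨β', hc, h0, h1, heq⟩ := hAdm.extend hma
  set e : ℝ → ℝ := fun x => 2 * (U.sec x).a y₀ + 2 * (U.sec x).b z₀ + (4 * κ + 4 * τ)
    + (2 / τ ^ 2) * ((U.sec x).F κ + 2 * κ) with he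
  have hF := U.cont_secF κ
  have ca : Continuous fun x => (U.sec x).a y₀ := cont_param (U.cont.slice13 y₀) 0 1
  have cb : Continuous fun x => (U.sec x).b z₀ := cont_param (U.cont.slice12 z₀) 0 1
  have i1 : Continuous fun x => (U.sec x).F κ + 2 * κ := hF.add continuous_const
  have i2 : Continuous fun x => (2 / τ ^ 2) * ((U.sec x).F κ + 2 * κ) := continuous_const.mul i1
  have i3 : Continuous fun x => 2 * (U.sec x).a y₀ := continuous_const.mul ca
  have i4 : Continuous fun x => 2 * (U.sec x).b z₀ := continuous_const.mul cb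
  have i5 : Continuous fun x => 2 * (U.sec x).a y₀ + 2 * (U.sec x).b z₀ := i3.add i4
  have i6 : Continuous fun x => 2 * (U.sec x).a y₀ + 2 * (U.sec x).b z₀ + (4 * κ + 4 * τ) :=
    i5.add continuous_const
  have hec : Continuous e := i6.add i2
  have hE : ∫ x in (0:ℝ)..1, e x = 2 * U.A₂ y₀ + 2 * U.A₃ z₀ + (4 * κ + 4 * τ)
      + (2 / τ ^ 2) * (U.Ff κ + 2 * κ) := by
    simp only [he]
    have e1 : ∫ x in (0:ℝ)..1, 2 * (U.sec x).a y₀ = 2 * U.A₂ y₀ :=
      intervalIntegral.integral_const_mul _ _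
    have e2 : ∫ x in (0:ℝ)..1, 2 * (U.sec x).b z₀ = 2 * U.A₃ z₀ :=
      intervalIntegral.integral_const_mul _ _
    have e3 : ∫ x in (0:ℝ)..1, (2 / τ ^ 2) * ((U.sec x).F κ + 2 * κ)
        = (2 / τ ^ 2) * (U.Ff κ + 2 * κ) := by
      rw [intervalIntegral.integral_const_mul, intervalIntegral.integral_add
        (hF.intervalIntegrable _ _) (continuous_const.intervalIntegrable _ _), integral_secF]
      simp
    rw [intervalIntegral.integral_add (i6.intervalIntegrable _ _) (i2.intervalIntegrable _ _),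
      intervalIntegral.integral_add (i5.intervalIntegrable _ _)
        (continuous_const.intervalIntegrable _ _),
      intervalIntegral.integral_add (i3.intervalIntegrable _ _) (i4.intervalIntegrable _ _),
      e1, e2, e3]
    simp
  have key := U.slice_calib (β := β') (e := e) (k := k) (H := H) hc h0 hec (fun x => h1 _)
    (fun x => by
      have hmem : U.A₁ x ∈ Icc (U.A₁ xm) (U.A₁ xa) := ⟨hm x, ha x⟩
      have hcon := hAdm.con _ hmem
      rw [← heq _ hmem] at hcon
      have hprof := (U.sec x).cut_estimate' hκ hτ y₀ z₀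
      have hsecF := (U.sec x).F_nonneg κ
      have hA0 := U.A₁_nonneg x
      have ha0 := (U.sec x).a_nonneg y₀
      have hb0 := (U.sec x).b_nonneg z₀
      have hp := Real.pi_pos
      refine chord_step (h0 _) (h1 _) hcon ?_ ?_
      · simp only [he]
        rw [sqrt_ell0]
        rw [sec_A] at hprof
        linarith
      · simp only [he]
        positivity)
    xm xa
  rw [hE] at key
  have hint : ∫ s in U.A₁ xm..U.A₁ xa, β' s = ∫ s in U.A₁ xm..U.A₁ xa, β s := by
    apply intervalIntegral.integral_congr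
    intro s hs
    rw [uIcc_of_le hma] at hs
    exact heq s hs
  rw [hint] at key
  linarith

/-- The lower bound when the first direction has the largest minimal section. -/
theorem main_first {κ τ B : ℝ} (hκ : 0 < κ) (hτ : 0 < τ) (hτ1 : τ ≤ 1) (hκτ : 4 * κ ≤ τ)
    (xm xa y₀ z₀ : ℝ) (hm : ∀ x, U.A₁ xm ≤ U.A₁ x) (ha : ∀ x, U.A₁ x ≤ U.A₁ xa)
    (hy : U.A₂ y₀ ≤ U.A₁ xm) (hz : U.A₃ z₀ ≤ U.A₁ xm)
    (hRA : Value ell (U.A₁ xm) (U.A₁ xa) U.V B ∨
      Value ell0 (U.A₁ xm) (U.A₁ xa) U.V (B + 4 * U.A₁ xm)) :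
    B ≤ U.P + err τ κ (U.Ff κ) := by
  have hF := U.integral_secF_nonneg κ
  rcases hRA with ⟨k, H, β, hAdm, hB⟩ | ⟨k, H, β, hAdm, hB⟩
  · have := U.value1 hκ hτ hτ1 hκτ xm xa hm ha hAdm
    linarith
  · have := U.value2 hκ hτ xm xa y₀ z₀ hm ha hAdm
    have h2 : (2 / τ ^ 2) * (U.Ff κ + 2 * κ) ≤ (4 / τ ^ 2) * (U.Ff κ + 2 * κ) := by
      apply mul_le_mul_of_nonneg_right _ (by linarith)
      apply div_le_div_of_nonneg_right (by norm_num) (by positivity)
    unfold err
    linarith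

/-- Interchange of the first two coordinates. -/
def swap12 : Per3 where
  u := fun y x z => U.u x y z
  ux := fun y x z => U.uy x y z
  uy := fun y x z => U.ux x y z
  uz := fun y x z => U.uz x y z
  cont := U.cont.swap12
  contX := U.contY.swap12
  contY := U.contX.swap12
  contZ := U.contZ.swap12
  hasX := fun y x z => U.hasY x y z
  hasY := fun y x z => U.hasX x y z
  hasZ := fun y x z => U.hasZ x y z
  perX := fun y x z => U.perY x y z
  perY := fun y x z => U.perX x y z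
  perZ := fun y x z => U.perZ x y z
  nn := fun y x z => U.nn x y z
  le1 := fun y x z => U.le1 x y z

lemma swap12_V : U.swap12.V = U.V := iter3_swap12 U.cont

lemma swap12_P : U.swap12.P = U.P := by
  have h := iter3_swap12 U.cont_gradFull
  show iter3 (fun y x z => Real.sqrt (U.uy x y z ^ 2 + U.ux x y z ^ 2 + U.uz x y z ^ 2)) = U.P
  simp only [add_comm (U.uy _ _ _ ^ 2)]
  exact h

lemma swap12_Ff (κ : ℝ) : U.swap12.Ff κ = U.Ff κ := iter3_swap12 (U.cont_Xi κ)

lemma swap12_A₁ (y : ℝ) : U.swap12.A₁ y = U.A₂ y := rfl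
lemma swap12_A₂ (x : ℝ) : U.swap12.A₂ x = U.A₁ x := rfl
lemma swap12_A₃ (z : ℝ) : U.swap12.A₃ z = U.A₃ z :=
  swap_integral (F := fun x y => U.u x y z) (U.cont.slice12 z) 0 1 0 1 |>.symm

/-- Interchange of the first and third coordinates. -/
def swap13 : Per3 where
  u := fun z y x => U.u x y z
  ux := fun z y x => U.uz x y z
  uy := fun z y x => U.uy x y z
  uz := fun z y x => U.ux x y z
  cont := U.cont.swap13
  contX := U.contZ.swap13
  contY := U.contY.swap13
  contZ := U.contX.swap13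
  hasX := fun z y x => U.hasZ x y z
  hasY := fun z y x => U.hasY x y z
  hasZ := fun z y x => U.hasX x y z
  perX := fun z y x => U.perZ x y z
  perY := fun z y x => U.perY x y z
  perZ := fun z y x => U.perX x y z
  nn := fun z y x => U.nn x y z
  le1 := fun z y x => U.le1 x y z

lemma swap13_V : U.swap13.V = U.V := iter3_swap13 U.cont

lemma swap13_P : U.swap13.P = U.P := by
  have h := iter3_swap13 U.cont_gradFull
  show iter3 (fun z y x => Real.sqrt (U.uz x y z ^ 2 + U.uy x y z ^ 2 + U.ux x y z ^ 2)) = U.P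
  have e : ∀ x y z, U.uz x y z ^ 2 + U.uy x y z ^ 2 + U.ux x y z ^ 2
      = U.ux x y z ^ 2 + U.uy x y z ^ 2 + U.uz x y z ^ 2 := fun _ _ _ => by ring
  simp only [e]
  exact h

lemma swap13_Ff (κ : ℝ) : U.swap13.Ff κ = U.Ff κ := iter3_swap13 (U.cont_Xi κ)

lemma swap13_A₁ (z : ℝ) : U.swap13.A₁ z = U.A₃ z :=
  (swap_integral (F := fun x y => U.u x y z) (U.cont.slice12 z) 0 1 0 1).symm

lemma swap13_A₂ (y : ℝ) : U.swap13.A₂ y = U.A₂ y :=
  (swap_integral (F := fun x z => U.u x y z) (U.cont.slice13 y) 0 1 0 1).symm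

lemma swap13_A₃ (x : ℝ) : U.swap13.A₃ x = U.A₁ x :=
  (swap_integral (F := fun y z => U.u x y z) (U.cont.section x) 0 1 0 1).symm

/-- The real analysis input at volume `v`, with target value `B`. -/
def RAhyp (v B : ℝ) : Prop :=
  ∀ m a, 0 ≤ m → m ≤ v → v ≤ a → a ≤ 1 → Value ell m a v B ∨ Value ell0 m a v (B + 4 * m)

lemma A₂_nonneg (y : ℝ) : 0 ≤ U.A₂ y := U.swap12.A₁_nonneg y
lemma A₂_le_one (y : ℝ) : U.A₂ y ≤ 1 := U.swap12.A₁_le_one y

/-- The smooth lower bound. -/
theorem main_smooth {κ τ B : ℝ} (hκ : 0 < κ) (hτ : 0 < τ) (hτ1 : τ ≤ 1) (hκτ : 4 * κ ≤ τ)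
    (hRA : RAhyp U.V B) :
    B ≤ U.P + err τ κ (U.Ff κ) := by
  obtain ⟨x₁, hx₁⟩ := exists_min_periodic U.cont_A₁ U.per_A₁
  obtain ⟨x₂, hx₂⟩ := exists_min_periodic U.cont_A₂ U.per_A₂
  obtain ⟨x₃, hx₃⟩ := exists_min_periodic U.cont_A₃ U.per_A₃
  obtain ⟨X₁, hX₁⟩ := exists_max_periodic U.cont_A₁ U.per_A₁
  obtain ⟨X₂, hX₂⟩ := exists_max_periodic U.cont_A₂ U.per_A₂
  obtain ⟨X₃, hX₃⟩ := exists_max_periodic U.cont_A₃ U.per_A₃
  rcases le_total (U.A₂ x₂) (U.A₁ x₁) with h12 | h12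
  · rcases le_total (U.A₃ x₃) (U.A₁ x₁) with h13 | h13
    · -- first direction
      exact U.main_first hκ hτ hτ1 hκτ x₁ X₁ x₂ x₃ hx₁ hX₁ h12 h13
        (hRA _ _ (U.A₁_nonneg _) (U.V_ge_min hx₁) (U.V_le_max hX₁) (U.A₁_le_one _))
    · -- third direction
      have h := U.swap13.main_first hκ hτ hτ1 hκτ x₃ X₃ x₂ x₁
        (fun z => by simp only [swap13_A₁]; exact hx₃ z)
        (fun z => by simp only [swap13_A₁]; exact hX₃ z)
        (by simp only [swap13_A₁, swap13_A₂]; exact h12.trans h13)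
        (by simp only [swap13_A₁, swap13_A₃]; exact h13)
        (by
          have h0 := hRA (U.swap13.A₁ x₃) (U.swap13.A₁ X₃) (U.swap13.A₁_nonneg _)
            (by rw [← U.swap13_V]; exact U.swap13.V_ge_min (fun z => by simp only [swap13_A₁]; exact hx₃ z))
            (by rw [← U.swap13_V]; exact U.swap13.V_le_max (fun z => by simp only [swap13_A₁]; exact hX₃ z))
            (U.swap13.A₁_le_one _)
          rwa [U.swap13_V])
      rwa [swap13_P, swap13_Ff] at h
  · rcases le_total (U.A₃ x₃) (U.A₂ x₂) with h23 | h23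
    · -- second direction
      have h := U.swap12.main_first hκ hτ hτ1 hκτ x₂ X₂ x₁ x₃
        (fun y => by simp only [swap12_A₁]; exact hx₂ y)
        (fun y => by simp only [swap12_A₁]; exact hX₂ y)
        (by simp only [swap12_A₁, swap12_A₂]; exact h12)
        (by simp only [swap12_A₁, swap12_A₃]; exact h23)
        (by
          have h0 := hRA (U.swap12.A₁ x₂) (U.swap12.A₁ X₂) (U.swap12.A₁_nonneg _)
            (by rw [← U.swap12_V]; exact U.swap12.V_ge_min (fun z => by simp only [swap12_A₁]; exact hx₂ z))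
            (by rw [← U.swap12_V]; exact U.swap12.V_le_max (fun z => by simp only [swap12_A₁]; exact hX₂ z))
            (U.swap12.A₁_le_one _)
          rwa [U.swap12_V])
      rwa [swap12_P, swap12_Ff] at h
    · -- third direction
      have h := U.swap13.main_first hκ hτ hτ1 hκτ x₃ X₃ x₂ x₁
        (fun z => by simp only [swap13_A₁]; exact hx₃ z)
        (fun z => by simp only [swap13_A₁]; exact hX₃ z)
        (by simp only [swap13_A₁, swap13_A₂]; exact h23)
        (by simp only [swap13_A₁, swap13_A₃]; exact h12.trans h23)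
        (by
          have h0 := hRA (U.swap13.A₁ x₃) (U.swap13.A₁ X₃) (U.swap13.A₁_nonneg _)
            (by rw [← U.swap13_V]; exact U.swap13.V_ge_min (fun z => by simp only [swap13_A₁]; exact hx₃ z))
            (by rw [← U.swap13_V]; exact U.swap13.V_le_max (fun z => by simp only [swap13_A₁]; exact hX₃ z))
            (U.swap13.A₁_le_one _)
          rwa [U.swap13_V])
      rwa [swap13_P, swap13_Ff] at h

/-- Replace the function by one minus the function. -/
def compl : Per3 where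
  u := fun x y z => 1 - U.u x y z
  ux := fun x y z => - U.ux x y z
  uy := fun x y z => - U.uy x y z
  uz := fun x y z => - U.uz x y z
  cont := continuous_const.sub U.cont
  contX := U.contX.neg
  contY := U.contY.neg
  contZ := U.contZ.neg
  hasX := fun x y z => (U.hasX x y z).const_sub 1
  hasY := fun x y z => (U.hasY x y z).const_sub 1
  hasZ := fun x y z => (U.hasZ x y z).const_sub 1
  perX := fun x y z => by simp only [U.perX]
  perY := fun x y z => by simp only [U.perY]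
  perZ := fun x y z => by simp only [U.perZ]
  nn := fun x y z => by linarith [U.le1 x y z]
  le1 := fun x y z => by linarith [U.nn x y z]

lemma compl_V : U.compl.V = 1 - U.V := by
  show (∫ x in (0:ℝ)..1, (U.sec x).compl.A) = 1 - ∫ x in (0:ℝ)..1, U.A₁ x
  simp only [Per2.compl_A, sec_A]
  rw [intervalIntegral.integral_sub (continuous_const.intervalIntegrable _ _)
    ((U.cont_A₁).intervalIntegrable _ _)]
  simp

lemma compl_P : U.compl.P = U.P := by
  show iter3 (fun x y z => Real.sqrt ((- U.ux x y z) ^ 2 + (- U.uy x y z) ^ 2 + (- U.uz x y z) ^ 2)) = U.P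
  simp only [neg_sq]
  rfl

lemma compl_Ff (κ : ℝ) : U.compl.Ff κ = U.Ff κ := by
  show iter3 (fun x y z => Xi κ (1 - U.u x y z)) = U.Ff κ
  simp only [Xi_symm]
  rfl

end Per3

end Vale.Agent.Lib.P232
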