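import Vale.Agent.Lib.P232.Moll1
import Vale.Agent.Lib.P232.T3b

open MeasureTheory Set intervalIntegral
open scoped Convolution ContDiff Topology ENNReal

namespace Vale.Agent.Lib.P232

/-- Lebesgue measure on `ℝ³` is a Haar measure. -/
instance volumeR3_haar : (volume : Measure R3).IsAddHaarMeasure := by
  show ((volume : Measure ℝ).prod (volume : Measure (ℝ × ℝ))).IsAddHaarMeasure
  infer_instance

/-- Lebesgue measure on `ℝ³` is invariant under the reflection. -/
instance volumeR3_neg : (volume : Measure R3).IsNegInvariant := inferInstance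

/-- The three coordinate directions. -/
def e₁ : R3 := (1, 0, 0)
/-- The three coordinate directions. -/
def e₂ : R3 := (0, 1, 0)
/-- The three coordinate directions. -/
def e₃ : R3 := (0, 0, 1)

section Directional

variable {F : R3 → ℝ}

lemma hasDeriv_e₁ (hF : Differentiable ℝ F) (x y z : ℝ) :
    HasDerivAt (fun t => F (t, y, z)) (fderiv ℝ F (x, y, z) e₁) x := by
  have h1 : HasDerivAt (fun t : ℝ => ((t, y, z) : R3)) e₁ x :=
    (hasDerivAt_id x).prodMk (hasDerivAt_const x (y, z))
  exact (hF (x, y, z)).hasFDerivAt.comp_hasDerivAt x h1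

lemma hasDeriv_e₂ (hF : Differentiable ℝ F) (x y z : ℝ) :
    HasDerivAt (fun t => F (x, t, z)) (fderiv ℝ F (x, y, z) e₂) y := by
  have h1 : HasDerivAt (fun t : ℝ => ((x, t, z) : R3)) e₂ y :=
    (hasDerivAt_const y x).prodMk ((hasDerivAt_id y).prodMk (hasDerivAt_const y z))
  exact (hF (x, y, z)).hasFDerivAt.comp_hasDerivAt y h1

lemma hasDeriv_e₃ (hF : Differentiable ℝ F) (x y z : ℝ) :
    HasDerivAt (fun t => F (x, y, t)) (fderiv ℝ F (x, y, z) e₃) z := by
  have h1 : HasDerivAt (fun t : ℝ => ((x, y, t) : R3)) e₃ z :=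
    (hasDerivAt_const z x).prodMk ((hasDerivAt_const z y).prodMk (hasDerivAt_id z))
  exact (hF (x, y, z)).hasFDerivAt.comp_hasDerivAt z h1

lemma cont3_of_continuous {G : R3 → ℝ} (hG : Continuous G) : Cont3 fun x y z => G (x, y, z) := hG

lemma cont_fderiv_dir (hF : ContDiff ℝ 1 F) (e : R3) : Continuous fun p => fderiv ℝ F p e :=
  (hF.continuous_fderiv (by simp)).clm_apply continuous_const

/-- The integral of a directional derivative of a periodic function vanishes. -/
lemma cell_fderiv_e₁ (hF : ContDiff ℝ 1 F) (hper : PeriodicFun F) :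
    ∫ p in unitCell, fderiv ℝ F p e₁ = 0 := by
  rw [cell_eq_iter3 (cont_fderiv_dir hF e₁)]
  exact iter3_deriv_x (F := fun x y z => F (x, y, z)) (cont3_of_continuous hF.continuous)
    (cont3_of_continuous (cont_fderiv_dir hF e₁)) (hasDeriv_e₁ (hF.differentiable (by simp)))
    (fun x y z => (hper x y z).1)

lemma cell_fderiv_e₂ (hF : ContDiff ℝ 1 F) (hper : PeriodicFun F) :
    ∫ p in unitCell, fderiv ℝ F p e₂ = 0 := by
  rw [cell_eq_iter3 (cont_fderiv_dir hF e₂)]
  exact iter3_deriv_y (F := fun x y z => F (x, y, z)) (cont3_of_continuous hF.continuous)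
    (cont3_of_continuous (cont_fderiv_dir hF e₂)) (hasDeriv_e₂ (hF.differentiable (by simp)))
    (fun x y z => (hper x y z).2.1)

lemma cell_fderiv_e₃ (hF : ContDiff ℝ 1 F) (hper : PeriodicFun F) :
    ∫ p in unitCell, fderiv ℝ F p e₃ = 0 := by
  rw [cell_eq_iter3 (cont_fderiv_dir hF e₃)]
  exact iter3_deriv_z (F := fun x y z => F (x, y, z)) (cont3_of_continuous hF.continuous)
    (cont3_of_continuous (cont_fderiv_dir hF e₃)) (hasDeriv_e₃ (hF.differentiable (by simp)))
    (fun x y z => (hper x y z).2.2)

end Directional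

/-- A smooth periodic function with values in `[0,1]` as data for the slicing estimates. -/
noncomputable def Per3.ofSmooth (U : R3 → ℝ) (hU : ContDiff ℝ ∞ U) (hper : PeriodicFun U)
    (h0 : ∀ p, 0 ≤ U p) (h1 : ∀ p, U p ≤ 1) : Per3 where
  u := fun x y z => U (x, y, z)
  ux := fun x y z => fderiv ℝ U (x, y, z) e₁
  uy := fun x y z => fderiv ℝ U (x, y, z) e₂
  uz := fun x y z => fderiv ℝ U (x, y, z) e₃
  cont := hU.continuous
  contX := cont_fderiv_dir (hU.of_le (by simp)) e₁
  contY := cont_fderiv_dir (hU.of_le (by simp)) e₂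
  contZ := cont_fderiv_dir (hU.of_le (by simp)) e₃
  hasX := hasDeriv_e₁ (hU.differentiable (by simp))
  hasY := hasDeriv_e₂ (hU.differentiable (by simp))
  hasZ := hasDeriv_e₃ (hU.differentiable (by simp))
  perX := fun x y z => (hper x y z).1
  perY := fun x y z => (hper x y z).2.1
  perZ := fun x y z => (hper x y z).2.2
  nn := fun x y z => h0 _
  le1 := fun x y z => h1 _

/-- The indicator function of a subset of `ℝ³`. -/
noncomputable def chi (E : Set R3) : R3 → ℝ := E.indicator fun _ => 1

section Chi

variable {E : Set R3}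

lemma chi_measurable (hE : MeasurableSet E) : Measurable (chi E) :=
  measurable_const.indicator hE

lemma chi_nonneg (p : R3) : 0 ≤ chi E p := by
  unfold chi
  exact indicator_nonneg (fun _ _ => zero_le_one) p

lemma chi_le_one (p : R3) : chi E p ≤ 1 := by
  unfold chi
  exact indicator_le_self' (fun _ _ => zero_le_one) p

lemma chi_locInt (hE : MeasurableSet E) : LocallyIntegrable (chi E) volume :=
  (locallyIntegrable_const (1:ℝ)).indicator hE

lemma chi_periodic (hE : PeriodicSet E) : PeriodicFun (chi E) := by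
  intro x y z
  refine ⟨?_, ?_, ?_⟩
  · unfold chi
    by_cases h : (x, y, z) ∈ E
    · rw [indicator_of_mem h, indicator_of_mem ((hE x y z).1.2 h)]
    · rw [indicator_of_notMem h, indicator_of_notMem (fun h' => h ((hE x y z).1.1 h'))]
  · unfold chi
    by_cases h : (x, y, z) ∈ E
    · rw [indicator_of_mem h, indicator_of_mem ((hE x y z).2.1.2 h)]
    · rw [indicator_of_notMem h, indicator_of_notMem (fun h' => h ((hE x y z).2.1.1 h'))]
  · unfold chi
    by_cases h : (x, y, z) ∈ E
    · rw [indicator_of_mem h, indicator_of_mem ((hE x y z).2.2.2 h)]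
    · rw [indicator_of_notMem h, indicator_of_notMem (fun h' => h ((hE x y z).2.2.1 h'))]

end Chi

/-- The mollification of the indicator function. -/
noncomputable def moll (φ : ContDiffBump (0 : R3)) (E : Set R3) : R3 → ℝ :=
  (φ.normed volume) ⋆[ContinuousLinearMap.lsmul ℝ ℝ, volume] (chi E)

section Moll

variable {φ : ContDiffBump (0 : R3)} {E : Set R3}

lemma moll_apply (x : R3) : moll φ E x = ∫ t, φ.normed volume t * chi E (x - t) := by
  simp only [moll, convolution_def, ContinuousLinearMap.lsmul_apply, smul_eq_mul]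

lemma moll_contDiff (hE : MeasurableSet E) : ContDiff ℝ ∞ (moll φ E) :=
  φ.hasCompactSupport_normed.contDiff_convolution_left _ φ.contDiff_normed (chi_locInt hE)

lemma moll_integrable (hE : MeasurableSet E) (x : R3) :
    Integrable fun t => φ.normed volume t * chi E (x - t) := by
  have := (φ.hasCompactSupport_normed (μ := volume)).convolutionExists_left
    (ContinuousLinearMap.lsmul ℝ ℝ) φ.continuous_normed (chi_locInt hE) x
  simpa [ConvolutionExistsAt] using this

lemma moll_nonneg (x : R3) : 0 ≤ moll φ E x := by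
  rw [moll_apply]
  exact integral_nonneg fun t => mul_nonneg (φ.nonneg_normed t) (chi_nonneg _)

lemma moll_le_one (hE : MeasurableSet E) (x : R3) : moll φ E x ≤ 1 := by
  rw [moll_apply]
  have h1 : ∫ t, φ.normed volume t = 1 := φ.integral_normed (μ := volume)
  rw [← h1]
  apply integral_mono (moll_integrable hE x) (φ.integrable_normed (μ := volume))
  intro t
  have h2 := φ.nonneg_normed (μ := volume) t
  have h3 := chi_le_one (E := E) (x - t)
  show φ.normed volume t * chi E (x - t) ≤ φ.normed volume t
  nlinarith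

lemma moll_periodic (hE : PeriodicSet E) : PeriodicFun (moll φ E) := by
  intro x y z
  have hc := chi_periodic hE
  refine ⟨?_, ?_, ?_⟩
  · rw [moll_apply, moll_apply]
    congr 1
    funext t
    obtain ⟨t₁, t₂, t₃⟩ := t
    have e1 : ((x + 1, y, z) : R3) - (t₁, t₂, t₃) = (x - t₁ + 1, y - t₂, z - t₃) := by
      ext <;> simp; ring
    have e2 : ((x, y, z) : R3) - (t₁, t₂, t₃) = (x - t₁, y - t₂, z - t₃) := rfl
    rw [e1, e2, (hc _ _ _).1]
  · rw [moll_apply, moll_apply]
    congr 1
    funext t
    obtain ⟨t₁, t₂, t₃⟩ := t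
    have e1 : ((x, y + 1, z) : R3) - (t₁, t₂, t₃) = (x - t₁, y - t₂ + 1, z - t₃) := by
      ext <;> simp; ring
    have e2 : ((x, y, z) : R3) - (t₁, t₂, t₃) = (x - t₁, y - t₂, z - t₃) := rfl
    rw [e1, e2, (hc _ _ _).2.1]
  · rw [moll_apply, moll_apply]
    congr 1
    funext t
    obtain ⟨t₁, t₂, t₃⟩ := t
    have e1 : ((x, y, z + 1) : R3) - (t₁, t₂, t₃) = (x - t₁, y - t₂, z - t₃ + 1) := by
      ext <;> simp; ring
    have e2 : ((x, y, z) : R3) - (t₁, t₂, t₃) = (x - t₁, y - t₂, z - t₃) := rfl
    rw [e1, e2, (hc _ _ _).2.2]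

/-- The duality formula of the mollification on the unit cell. -/
theorem moll_cell (hE : MeasurableSet E) (hE' : PeriodicSet E) {Z : R3 → ℝ} (hZ : Continuous Z)
    (hZper : PeriodicFun Z) :
    (∫ x in unitCell, moll φ E x * Z x = ∫ t, φ.normed volume t * ∫ y in E ∩ unitCell, Z (y + t)) ∧
      Integrable fun t => φ.normed volume t * ∫ y in E ∩ unitCell, Z (y + t) := by
  obtain ⟨C, hC⟩ := bdd_of_periodic hZper hZ
  have hC0 : 0 ≤ C := (abs_nonneg _).trans (hC 0)
  have : IsFiniteMeasure ((volume : Measure R3).restrict unitCell) :=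
    ⟨by simpa using unitCell_volume_lt⟩
  set f : R3 → R3 → ℝ := fun x t => φ.normed volume t * chi E (x - t) * Z x with hf
  have hchi := chi_measurable hE
  have hψ : Measurable (φ.normed volume) := φ.continuous_normed.measurable
  have hmeas : Measurable (Function.uncurry f) := by
    have h1 : Measurable fun p : R3 × R3 => φ.normed volume p.2 := hψ.comp measurable_snd
    have h2 : Measurable fun p : R3 × R3 => chi E (p.1 - p.2) :=
      hchi.comp (measurable_fst.sub measurable_snd)
    have h3 : Measurable fun p : R3 × R3 => Z p.1 := hZ.measurable.comp measurable_fst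
    exact (h1.mul h2).mul h3
  have hint : Integrable (Function.uncurry f) (((volume : Measure R3).restrict unitCell).prod volume) := by
    have h1 : Integrable (fun p : R3 × R3 => C * φ.normed volume p.2)
        (((volume : Measure R3).restrict unitCell).prod volume) :=
      (φ.integrable_normed (μ := volume)).comp_snd _ |>.const_mul C
    refine h1.mono' hmeas.aestronglyMeasurable (Filter.Eventually.of_forall ?_)
    rintro ⟨x, t⟩
    have h2 := φ.nonneg_normed (μ := volume) t
    have h3 := chi_nonneg (E := E) (x - t)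
    have h4 := chi_le_one (E := E) (x - t)
    have h5 := hC x
    simp only [Function.uncurry, hf, Real.norm_eq_abs, abs_mul, abs_of_nonneg h2, abs_of_nonneg h3]
    have h6 : chi E (x - t) * |Z x| ≤ 1 * C := mul_le_mul h4 h5 (abs_nonneg _) zero_le_one
    nlinarith
  have hstep1 : ∫ x in unitCell, moll φ E x * Z x = ∫ x in unitCell, ∫ t, f x t := by
    apply setIntegral_congr_fun unitCell_measurable
    intro x _
    simp only [hf]
    rw [moll_apply, MeasureTheory.integral_mul_const]
  have hswap := integral_integral_swap hint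
  -- the inner integral
  have hinner : ∀ t, ∫ x in unitCell, f x t = φ.normed volume t * ∫ y in E ∩ unitCell, Z (y + t) := by
    intro t
    simp only [hf, mul_assoc]
    rw [MeasureTheory.integral_const_mul]
    congr 1
    set h : R3 → ℝ := fun y => chi E y * Z (y + t) with hh
    have hper : PeriodicFun h := by
      intro x y z
      have hc := chi_periodic hE' x y z
      obtain ⟨t₁, t₂, t₃⟩ := t
      have z1 := (hZper (x + t₁) (y + t₂) (z + t₃))
      have a1 : ((x + 1, y, z) : R3) + (t₁, t₂, t₃) = (x + t₁ + 1, y + t₂, z + t₃) := by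
        ext <;> simp; ring
      have a2 : ((x, y + 1, z) : R3) + (t₁, t₂, t₃) = (x + t₁, y + t₂ + 1, z + t₃) := by
        ext <;> simp; ring
      have a3 : ((x, y, z + 1) : R3) + (t₁, t₂, t₃) = (x + t₁, y + t₂, z + t₃ + 1) := by
        ext <;> simp; ring
      have a4 : ((x, y, z) : R3) + (t₁, t₂, t₃) = (x + t₁, y + t₂, z + t₃) := rfl
      simp only [hh]
      refine ⟨?_, ?_, ?_⟩
      · rw [a1, a4, hc.1, z1.1]
      · rw [a2, a4, hc.2.1, z1.2.1]
      · rw [a3, a4, hc.2.2, z1.2.2]
    have hm : Measurable h := hchi.mul (hZ.measurable.comp (measurable_add_const t))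
    have hb : ∀ p, |h p| ≤ C := by
      intro p
      simp only [hh, abs_mul, abs_of_nonneg (chi_nonneg (E := E) p)]
      have h4 := chi_le_one (E := E) p
      have h5 := hC (p + t)
      have h6 : chi E p * |Z (p + t)| ≤ 1 * C := mul_le_mul h4 h5 (abs_nonneg _) zero_le_one
      linarith
    have hshift := cell_shift hper hm hb (-t)
    have e1 : ∀ x, chi E (x - t) * Z x = h (x + -t) := by
      intro x
      simp only [hh, sub_eq_add_neg]
      rw [neg_add_cancel_right]
    simp only [e1]
    rw [hshift]
    have e2 : h = E.indicator fun y => Z (y + t) := by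
      funext y
      simp only [hh, chi]
      by_cases hy : y ∈ E
      · simp [hy]
      · simp [hy]
    rw [e2, setIntegral_indicator hE, inter_comm]
  constructor
  · rw [hstep1, hswap]
    simp only [hinner]
  · have := hint.integral_prod_right
    simp only [Function.uncurry] at this
    simpa only [hinner] using this

end Moll

end Vale.Agent.Lib.P232
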