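import Vale.Agent.Lib.P232.Moll2

open MeasureTheory Set intervalIntegral
open scoped Convolution ContDiff Topology ENNReal

namespace Vale.Agent.Lib.P232

section Periodic

variable {F : R3 → ℝ}

lemma add_e₁ (x y z : ℝ) : ((x, y, z) : R3) + e₁ = (x + 1, y, z) := by
  simp [e₁]

lemma add_e₂ (x y z : ℝ) : ((x, y, z) : R3) + e₂ = (x, y + 1, z) := by
  simp [e₂]

lemma add_e₃ (x y z : ℝ) : ((x, y, z) : R3) + e₃ = (x, y, z + 1) := by
  simp [e₃]

/-- Directional derivatives of periodic functions are periodic. -/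
lemma fderiv_periodic (hper : PeriodicFun F) (v : R3) : PeriodicFun fun p => fderiv ℝ F p v := by
  have h1 : (fun p => F (p + e₁)) = F := by
    funext ⟨x, y, z⟩
    rw [add_e₁]
    exact (hper x y z).1
  have h2 : (fun p => F (p + e₂)) = F := by
    funext ⟨x, y, z⟩
    rw [add_e₂]
    exact (hper x y z).2.1
  have h3 : (fun p => F (p + e₃)) = F := by
    funext ⟨x, y, z⟩
    rw [add_e₃]
    exact (hper x y z).2.2
  intro x y z
  refine ⟨?_, ?_, ?_⟩
  · have := fderiv_comp_add_right (𝕜 := ℝ) (f := F) (x := (x, y, z)) e₁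
    rw [h1, add_e₁] at this
    simp only [← this]
  · have := fderiv_comp_add_right (𝕜 := ℝ) (f := F) (x := (x, y, z)) e₂
    rw [h2, add_e₂] at this
    simp only [← this]
  · have := fderiv_comp_add_right (𝕜 := ℝ) (f := F) (x := (x, y, z)) e₃
    rw [h3, add_e₃] at this
    simp only [← this]

lemma periodic_shift_fun (hper : PeriodicFun F) (t : R3) : PeriodicFun fun p => F (p + t) := by
  obtain ⟨t₁, t₂, t₃⟩ := t
  intro x y z
  have h := hper (x + t₁) (y + t₂) (z + t₃)
  have a1 : ((x + 1, y, z) : R3) + (t₁, t₂, t₃) = (x + t₁ + 1, y + t₂, z + t₃) := by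
    ext <;> simp; ring
  have a2 : ((x, y + 1, z) : R3) + (t₁, t₂, t₃) = (x + t₁, y + t₂ + 1, z + t₃) := by
    ext <;> simp; ring
  have a3 : ((x, y, z + 1) : R3) + (t₁, t₂, t₃) = (x + t₁, y + t₂, z + t₃ + 1) := by
    ext <;> simp; ring
  have a4 : ((x, y, z) : R3) + (t₁, t₂, t₃) = (x + t₁, y + t₂, z + t₃) := rfl
  refine ⟨?_, ?_, ?_⟩
  · show F (((x + 1, y, z) : R3) + (t₁, t₂, t₃)) = F (((x, y, z) : R3) + (t₁, t₂, t₃))
    rw [a1, a4]; exact h.1
  · show F (((x, y + 1, z) : R3) + (t₁, t₂, t₃)) = F (((x, y, z) : R3) + (t₁, t₂, t₃))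
    rw [a2, a4]; exact h.2.1
  · show F (((x, y, z + 1) : R3) + (t₁, t₂, t₃)) = F (((x, y, z) : R3) + (t₁, t₂, t₃))
    rw [a3, a4]; exact h.2.2

end Periodic

namespace TestField

/-- The translate of a test field. -/
def shift (X : TestField) (t : R3) : TestField where
  X₁ := fun p => X.X₁ (p + t)
  X₂ := fun p => X.X₂ (p + t)
  X₃ := fun p => X.X₃ (p + t)
  smooth₁ := X.smooth₁.comp (contDiff_id.add contDiff_const)
  smooth₂ := X.smooth₂.comp (contDiff_id.add contDiff_const)
  smooth₃ := X.smooth₃.comp (contDiff_id.add contDiff_const)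
  periodic₁ := periodic_shift_fun X.periodic₁ t
  periodic₂ := periodic_shift_fun X.periodic₂ t
  periodic₃ := periodic_shift_fun X.periodic₃ t
  norm_le_one := fun p => X.norm_le_one (p + t)

lemma shift_divergence (X : TestField) (t p : R3) :
    (X.shift t).divergence p = X.divergence (p + t) := by
  unfold divergence shift
  simp only
  rw [fderiv_comp_add_right, fderiv_comp_add_right, fderiv_comp_add_right]

lemma divergence_continuous (X : TestField) : Continuous X.divergence := by
  unfold divergence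
  exact ((cont_fderiv_dir (X.smooth₁.of_le (by simp)) _).add
    (cont_fderiv_dir (X.smooth₂.of_le (by simp)) _)).add
    (cont_fderiv_dir (X.smooth₃.of_le (by simp)) _)

lemma divergence_periodic (X : TestField) : PeriodicFun X.divergence := by
  intro x y z
  have h1 := fderiv_periodic X.periodic₁ (1, 0, 0) x y z
  have h2 := fderiv_periodic X.periodic₂ (0, 1, 0) x y z
  have h3 := fderiv_periodic X.periodic₃ (0, 0, 1) x y z
  beta_reduce at h1 h2 h3
  unfold divergence
  refine ⟨?_, ?_, ?_⟩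
  · rw [h1.1, h2.1, h3.1]
  · rw [h1.2.1, h2.2.1, h3.2.1]
  · rw [h1.2.2, h2.2.2, h3.2.2]

end TestField

section MollDuality

variable {φ : ContDiffBump (0 : R3)} {E : Set R3}

lemma test_le_perimeter (hP : perimeter E ≠ ⊤) (X : TestField) :
    ∫ p in E ∩ unitCell, X.divergence p ≤ (perimeter E).toReal := by
  have h : ENNReal.ofReal (∫ p in E ∩ unitCell, X.divergence p) ≤ perimeter E :=
    le_iSup (fun X : TestField => ENNReal.ofReal (∫ p in E ∩ unitCell, X.divergence p)) X
  exact (ENNReal.ofReal_le_iff_le_toReal hP).1 h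

/-- The duality estimate for the mollification. -/
theorem moll_test_le (hE : MeasurableSet E) (hE' : PeriodicSet E) (hP : perimeter E ≠ ⊤)
    (X : TestField) :
    ∫ x in unitCell, moll φ E x * X.divergence x ≤ (perimeter E).toReal := by
  obtain ⟨h1, h2⟩ := moll_cell (φ := φ) hE hE' X.divergence_continuous X.divergence_periodic
  rw [h1]
  have hψ := φ.integrable_normed (μ := volume)
  have h3 : ∫ t, φ.normed volume t * ∫ y in E ∩ unitCell, X.divergence (y + t)
      ≤ ∫ t, φ.normed volume t * (perimeter E).toReal := by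
    apply integral_mono h2 (hψ.mul_const _)
    intro t
    refine mul_le_mul_of_nonneg_left ?_ (φ.nonneg_normed t)
    have := test_le_perimeter hP (X.shift t)
    simpa only [TestField.shift_divergence] using this
  rw [MeasureTheory.integral_mul_const, φ.integral_normed (μ := volume), one_mul] at h3
  exact h3

/-- The mollification preserves the volume. -/
theorem moll_volume (hE : MeasurableSet E) (hE' : PeriodicSet E) :
    ∫ x in unitCell, moll φ E x = torusVolume E := by
  obtain ⟨h1, -⟩ := moll_cell (φ := φ) hE hE' (Z := fun _ => 1) continuous_const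
    (fun _ _ _ => ⟨rfl, rfl, rfl⟩)
  simp only [mul_one] at h1
  rw [h1]
  have h2 : ∫ _ in E ∩ unitCell, (1:ℝ) = torusVolume E := by
    simp [torusVolume, Measure.real]
  simp only [h2]
  rw [MeasureTheory.integral_mul_const, φ.integral_normed (μ := volume), one_mul]

end MollDuality

section GradField

variable {U : R3 → ℝ}

/-- The directional derivative as a function. -/
noncomputable def dirD (U : R3 → ℝ) (v : R3) : R3 → ℝ := fun p => fderiv ℝ U p v

lemma dirD_smooth (hU : ContDiff ℝ ∞ U) (v : R3) : ContDiff ℝ ∞ (dirD U v) := by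
  have h : ContDiff ℝ ∞ (fderiv ℝ U) := hU.fderiv_right (m := ∞) (by simp)
  exact h.clm_apply contDiff_const

/-- The regularised length of the gradient. -/
noncomputable def rhoG (U : R3 → ℝ) (η : ℝ) : R3 → ℝ := fun p =>
  Real.sqrt (dirD U e₁ p ^ 2 + dirD U e₂ p ^ 2 + dirD U e₃ p ^ 2 + η ^ 2)

lemma rhoG_pos {η : ℝ} (hη : 0 < η) (p : R3) : 0 < rhoG U η p :=
  Real.sqrt_pos.2 (by positivity)

lemma rhoG_sq {η : ℝ} (p : R3) :
    rhoG U η p ^ 2 = dirD U e₁ p ^ 2 + dirD U e₂ p ^ 2 + dirD U e₃ p ^ 2 + η ^ 2 :=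
  Real.sq_sqrt (by positivity)

lemma rhoG_smooth (hU : ContDiff ℝ ∞ U) {η : ℝ} (hη : 0 < η) : ContDiff ℝ ∞ (rhoG U η) := by
  unfold rhoG
  apply ContDiff.sqrt
  · exact (((dirD_smooth hU e₁).pow 2).add ((dirD_smooth hU e₂).pow 2)).add
      ((dirD_smooth hU e₃).pow 2) |>.add contDiff_const
  · intro p
    positivity

lemma dirD_periodic (hper : PeriodicFun U) (v : R3) : PeriodicFun (dirD U v) :=
  fderiv_periodic hper v

lemma rhoG_periodic (hper : PeriodicFun U) (η : ℝ) : PeriodicFun (rhoG U η) := by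
  intro x y z
  have h1 := dirD_periodic hper e₁ x y z
  have h2 := dirD_periodic hper e₂ x y z
  have h3 := dirD_periodic hper e₃ x y z
  unfold rhoG
  refine ⟨?_, ?_, ?_⟩
  · rw [h1.1, h2.1, h3.1]
  · rw [h1.2.1, h2.2.1, h3.2.1]
  · rw [h1.2.2, h2.2.2, h3.2.2]

lemma neg_div_periodic {f g : R3 → ℝ} (hf : PeriodicFun f) (hg : PeriodicFun g) :
    PeriodicFun fun p => - f p / g p := by
  intro x y z
  have h1 := hf x y z
  have h2 := hg x y z
  exact ⟨by simp only [h1.1, h2.1], by simp only [h1.2.1, h2.2.1], by simp only [h1.2.2, h2.2.2]⟩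

/-- The test field built from a smooth function. -/
noncomputable def gradField (hU : ContDiff ℝ ∞ U) (hper : PeriodicFun U) {η : ℝ} (hη : 0 < η) :
    TestField where
  X₁ := fun p => - dirD U e₁ p / rhoG U η p
  X₂ := fun p => - dirD U e₂ p / rhoG U η p
  X₃ := fun p => - dirD U e₃ p / rhoG U η p
  smooth₁ := (dirD_smooth hU e₁).neg.div (rhoG_smooth hU hη) fun p => (rhoG_pos hη p).ne'
  smooth₂ := (dirD_smooth hU e₂).neg.div (rhoG_smooth hU hη) fun p => (rhoG_pos hη p).ne'
  smooth₃ := (dirD_smooth hU e₃).neg.div (rhoG_smooth hU hη) fun p => (rhoG_pos hη p).ne'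
  periodic₁ := neg_div_periodic (dirD_periodic hper e₁) (rhoG_periodic hper η)
  periodic₂ := neg_div_periodic (dirD_periodic hper e₂) (rhoG_periodic hper η)
  periodic₃ := neg_div_periodic (dirD_periodic hper e₃) (rhoG_periodic hper η)
  norm_le_one := fun p => by
    have h1 := rhoG_pos (U := U) hη p
    have h2 := rhoG_sq (U := U) (η := η) p
    rw [div_pow, div_pow, div_pow, ← add_div, ← add_div, div_le_one (by positivity), h2]
    simp only [neg_sq]
    nlinarith [sq_nonneg η]

/-- Integrals of continuous functions over the unit cell. -/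
lemma cont_integrableOn {F : R3 → ℝ} (hF : Continuous F) : IntegrableOn F unitCell := by
  have hK : IsCompact (Icc (0:ℝ) 1 ×ˢ (Icc (0:ℝ) 1 ×ˢ Icc (0:ℝ) 1) : Set R3) :=
    isCompact_Icc.prod (isCompact_Icc.prod isCompact_Icc)
  have h1 : IntegrableOn F (Icc (0:ℝ) 1 ×ˢ (Icc (0:ℝ) 1 ×ˢ Icc (0:ℝ) 1) : Set R3) :=
    hF.continuousOn.integrableOn_compact hK
  refine h1.mono_set ?_
  unfold unitCell
  exact prod_mono Ico_subset_Icc_self (prod_mono Ico_subset_Icc_self Ico_subset_Icc_self)

/-- Integration by parts on the torus, in one direction. -/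
lemma ibp_dir {f g : R3 → ℝ} {v : R3} (hf : ContDiff ℝ ∞ f) (hg : ContDiff ℝ ∞ g)
    (hfg : (∫ p in unitCell, fderiv ℝ (fun q => f q * g q) p v) = 0) :
    ∫ p in unitCell, f p * fderiv ℝ g p v = - ∫ p in unitCell, g p * fderiv ℝ f p v := by
  have hf1 : ContDiff ℝ 1 f := hf.of_le (by simp)
  have hg1 : ContDiff ℝ 1 g := hg.of_le (by simp)
  have hd : ∀ p, fderiv ℝ (fun q => f q * g q) p v = f p * fderiv ℝ g p v + g p * fderiv ℝ f p v := by
    intro p
    rw [fderiv_fun_mul (hf1.differentiable (by simp) p) (hg1.differentiable (by simp) p)]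
    simp
  simp only [hd] at hfg
  have c1 : Continuous fun p => f p * fderiv ℝ g p v := hf.continuous.mul (cont_fderiv_dir hg1 v)
  have c2 : Continuous fun p => g p * fderiv ℝ f p v := hg.continuous.mul (cont_fderiv_dir hf1 v)
  rw [MeasureTheory.integral_add (cont_integrableOn c1) (cont_integrableOn c2)] at hfg
  linarith

lemma mul_periodic {f g : R3 → ℝ} (hf : PeriodicFun f) (hg : PeriodicFun g) :
    PeriodicFun fun p => f p * g p := by
  intro x y z
  have h1 := hf x y z
  have h2 := hg x y z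
  exact ⟨by simp only [h1.1, h2.1], by simp only [h1.2.1, h2.2.1], by simp only [h1.2.2, h2.2.2]⟩

/-- The total variation of a smooth periodic function is computed by the gradient test field. -/
theorem tv_le_test (hU : ContDiff ℝ ∞ U) (hper : PeriodicFun U) {η : ℝ} (hη : 0 < η) :
    (∫ p in unitCell, Real.sqrt (dirD U e₁ p ^ 2 + dirD U e₂ p ^ 2 + dirD U e₃ p ^ 2))
      ≤ (∫ p in unitCell, U p * (gradField hU hper hη).divergence p) + η := by
  set X := gradField hU hper hη with hX
  have hU1 : ContDiff ℝ 1 U := hU.of_le (by simp)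
  have ibp1 := ibp_dir (v := e₁) hU X.smooth₁
    (cell_fderiv_e₁ (hU.mul X.smooth₁ |>.of_le (by simp)) (mul_periodic hper X.periodic₁))
  have ibp2 := ibp_dir (v := e₂) hU X.smooth₂
    (cell_fderiv_e₂ (hU.mul X.smooth₂ |>.of_le (by simp)) (mul_periodic hper X.periodic₂))
  have ibp3 := ibp_dir (v := e₃) hU X.smooth₃
    (cell_fderiv_e₃ (hU.mul X.smooth₃ |>.of_le (by simp)) (mul_periodic hper X.periodic₃))
  have c1 : Continuous fun p => U p * fderiv ℝ X.X₁ p e₁ :=
    hU.continuous.mul (cont_fderiv_dir (X.smooth₁.of_le (by simp)) _)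
  have c2 : Continuous fun p => U p * fderiv ℝ X.X₂ p e₂ :=
    hU.continuous.mul (cont_fderiv_dir (X.smooth₂.of_le (by simp)) _)
  have c3 : Continuous fun p => U p * fderiv ℝ X.X₃ p e₃ :=
    hU.continuous.mul (cont_fderiv_dir (X.smooth₃.of_le (by simp)) _)
  have hdiv : ∫ p in unitCell, U p * X.divergence p
      = (∫ p in unitCell, U p * fderiv ℝ X.X₁ p e₁) + (∫ p in unitCell, U p * fderiv ℝ X.X₂ p e₂)
        + ∫ p in unitCell, U p * fderiv ℝ X.X₃ p e₃ := by
    have c12 : Continuous fun p => U p * fderiv ℝ X.X₁ p e₁ + U p * fderiv ℝ X.X₂ p e₂ := c1.add c2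
    rw [← MeasureTheory.integral_add (cont_integrableOn c1) (cont_integrableOn c2),
      ← MeasureTheory.integral_add (cont_integrableOn c12) (cont_integrableOn c3)]
    congr 1
    funext p
    simp only [TestField.divergence, e₁, e₂, e₃]
    ring
  rw [hdiv, ibp1, ibp2, ibp3]
  have d1 : Continuous (dirD U e₁) := (dirD_smooth hU e₁).continuous
  have d2 : Continuous (dirD U e₂) := (dirD_smooth hU e₂).continuous
  have d3 : Continuous (dirD U e₃) := (dirD_smooth hU e₃).continuous
  have hρ : Continuous (rhoG U η) := (rhoG_smooth hU hη).continuous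
  have x1 : Continuous X.X₁ := X.smooth₁.continuous
  have x2 : Continuous X.X₂ := X.smooth₂.continuous
  have x3 : Continuous X.X₃ := X.smooth₃.continuous
  have k1 : Continuous fun p => X.X₁ p * fderiv ℝ U p e₁ := x1.mul d1
  have k2 : Continuous fun p => X.X₂ p * fderiv ℝ U p e₂ := x2.mul d2
  have k3 : Continuous fun p => X.X₃ p * fderiv ℝ U p e₃ := x3.mul d3
  have hsum : - (∫ p in unitCell, X.X₁ p * fderiv ℝ U p e₁) + - (∫ p in unitCell, X.X₂ p * fderiv ℝ U p e₂)
      + - (∫ p in unitCell, X.X₃ p * fderiv ℝ U p e₃) + η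
      = ∫ p in unitCell, (- (X.X₁ p * fderiv ℝ U p e₁) + - (X.X₂ p * fderiv ℝ U p e₂)
        + - (X.X₃ p * fderiv ℝ U p e₃) + η) := by
    have hη1 : ∫ _ in unitCell, η = η := by
      simp [Measure.real, unitCell_volume]
    have q1 : Continuous fun p => - (X.X₁ p * fderiv ℝ U p e₁) := k1.neg
    have q2 : Continuous fun p => - (X.X₂ p * fderiv ℝ U p e₂) := k2.neg
    have q3 : Continuous fun p => - (X.X₃ p * fderiv ℝ U p e₃) := k3.neg
    have q12 : Continuous fun p => - (X.X₁ p * fderiv ℝ U p e₁) + - (X.X₂ p * fderiv ℝ U p e₂) := q1.add q2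
    have q123 : Continuous fun p => - (X.X₁ p * fderiv ℝ U p e₁) + - (X.X₂ p * fderiv ℝ U p e₂)
        + - (X.X₃ p * fderiv ℝ U p e₃) := q12.add q3
    rw [MeasureTheory.integral_add (cont_integrableOn q123) (cont_integrableOn continuous_const),
      MeasureTheory.integral_add (cont_integrableOn q12) (cont_integrableOn q3),
      MeasureTheory.integral_add (cont_integrableOn q1) (cont_integrableOn q2),
      MeasureTheory.integral_neg, MeasureTheory.integral_neg, MeasureTheory.integral_neg, hη1]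
  rw [hsum]
  have cL : Continuous fun p => Real.sqrt (dirD U e₁ p ^ 2 + dirD U e₂ p ^ 2 + dirD U e₃ p ^ 2) :=
    ((d1.pow 2).add (d2.pow 2)).add (d3.pow 2) |>.sqrt
  have cR : Continuous fun p => - (X.X₁ p * fderiv ℝ U p e₁) + - (X.X₂ p * fderiv ℝ U p e₂)
        + - (X.X₃ p * fderiv ℝ U p e₃) + η :=
    ((k1.neg.add k2.neg).add k3.neg).add continuous_const
  apply setIntegral_mono_on (cont_integrableOn cL) (cont_integrableOn cR) unitCell_measurable
  intro p _
  -- the pointwise estimate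
  have h1 := rhoG_pos (U := U) hη p
  have h2 := rhoG_sq (U := U) (η := η) p
  set A := dirD U e₁ p ^ 2 + dirD U e₂ p ^ 2 + dirD U e₃ p ^ 2 with hA
  have hA0 : 0 ≤ A := by positivity
  set L := Real.sqrt A with hL
  have hL0 : 0 ≤ L := Real.sqrt_nonneg _
  have hL2 : L ^ 2 = A := Real.sq_sqrt hA0
  have e : - (X.X₁ p * fderiv ℝ U p e₁) + - (X.X₂ p * fderiv ℝ U p e₂) + - (X.X₃ p * fderiv ℝ U p e₃)
      = A / rhoG U η p := by
    have a1 : X.X₁ p = - dirD U e₁ p / rhoG U η p := rfl
    have a2 : X.X₂ p = - dirD U e₂ p / rhoG U η p := rfl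
    have a3 : X.X₃ p = - dirD U e₃ p / rhoG U η p := rfl
    have b1 : fderiv ℝ U p e₁ = dirD U e₁ p := rfl
    have b2 : fderiv ℝ U p e₂ = dirD U e₂ p := rfl
    have b3 : fderiv ℝ U p e₃ = dirD U e₃ p := rfl
    rw [a1, a2, a3, b1, b2, b3, hA]
    field_simp
  rw [e]
  have hρ2 : rhoG U η p ≤ L + η := by
    have h5 : rhoG U η p ^ 2 ≤ (L + η) ^ 2 := by
      rw [h2, ← hL2]
      nlinarith [mul_nonneg hL0 hη.le]
    exact (abs_le_of_sq_le_sq' h5 (by positivity)).2
  have key : L - η ≤ A / rhoG U η p := by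
    rw [le_div_iff₀ h1]
    by_cases hc : L ≤ η
    · have : (L - η) * rhoG U η p ≤ 0 := mul_nonpos_of_nonpos_of_nonneg (by linarith) h1.le
      linarith
    · push Not at hc
      have h3 : (L - η) * rhoG U η p ≤ (L - η) * (L + η) :=
        mul_le_mul_of_nonneg_left hρ2 (by linarith)
      nlinarith
  linarith

end GradField

end Vale.Agent.Lib.P232
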