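import Vale.Agent.Lib.P232.Moll3

open MeasureTheory Set intervalIntegral Filter
open scoped Convolution ContDiff Topology ENNReal

namespace Vale.Agent.Lib.P232

lemma Xi_zero {κ : ℝ} (hκ : 0 < κ) : Xi κ 0 = 0 := by
  unfold Xi
  have h : min ((0:ℝ) - κ) (1 - κ - 0) / κ ≤ 0 := by
    apply div_nonpos_of_nonpos_of_nonneg _ hκ.le
    exact (min_le_left _ _).trans (by linarith)
  exact max_eq_left ((min_le_right _ _).trans h)

lemma Xi_one {κ : ℝ} (hκ : 0 < κ) : Xi κ 1 = 0 := by
  have := Xi_symm κ 1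
  rw [sub_self, Xi_zero hκ] at this
  exact this.symm

lemma Xi_chi {κ : ℝ} (hκ : 0 < κ) (E : Set R3) (p : R3) : Xi κ (chi E p) = 0 := by
  unfold chi
  by_cases h : p ∈ E
  · rw [indicator_of_mem h, Xi_one hκ]
  · rw [indicator_of_notMem h, Xi_zero hκ]

/-- The standard sequence of bump functions. -/
noncomputable def bumpSeq (n : ℕ) : ContDiffBump (0 : R3) where
  rIn := 1 / ((n : ℝ) + 1)
  rOut := 2 / ((n : ℝ) + 1)
  rIn_pos := by positivity
  rIn_lt_rOut := by
    apply div_lt_div_of_pos_right (by norm_num) (by positivity)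

section Main

variable {E : Set R3}

/-- The smooth approximations. -/
noncomputable def smoothSeq (hE : MeasurableSet E) (hper : PeriodicSet E) (n : ℕ) : Per3 :=
  Per3.ofSmooth (moll (bumpSeq n) E) (moll_contDiff hE) (moll_periodic hper) moll_nonneg
    (moll_le_one hE)

lemma smoothSeq_V (hE : MeasurableSet E) (hper : PeriodicSet E) (n : ℕ) :
    (smoothSeq hE hper n).V = torusVolume E := by
  rw [← moll_volume (φ := bumpSeq n) hE hper,
    cell_eq_iter3 (moll_contDiff (φ := bumpSeq n) hE).continuous]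
  rfl

lemma smoothSeq_P (hE : MeasurableSet E) (hper : PeriodicSet E) (hP : perimeter E ≠ ⊤) (n : ℕ) :
    (smoothSeq hE hper n).P ≤ (perimeter E).toReal := by
  set U := moll (bumpSeq n) E with hU
  have hUs : ContDiff ℝ ∞ U := moll_contDiff hE
  have hUp : PeriodicFun U := moll_periodic hper
  have d1 : Continuous (dirD U e₁) := (dirD_smooth hUs e₁).continuous
  have d2 : Continuous (dirD U e₂) := (dirD_smooth hUs e₂).continuous
  have d3 : Continuous (dirD U e₃) := (dirD_smooth hUs e₃).continuous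
  have cL : Continuous fun p => Real.sqrt (dirD U e₁ p ^ 2 + dirD U e₂ p ^ 2 + dirD U e₃ p ^ 2) :=
    ((d1.pow 2).add (d2.pow 2)).add (d3.pow 2) |>.sqrt
  have e : (smoothSeq hE hper n).P
      = ∫ p in unitCell, Real.sqrt (dirD U e₁ p ^ 2 + dirD U e₂ p ^ 2 + dirD U e₃ p ^ 2) := by
    rw [cell_eq_iter3 cL]
    rfl
  rw [e]
  apply le_of_forall_pos_le_add
  intro η hη
  have h1 := tv_le_test hUs hUp hη
  have h2 := moll_test_le (φ := bumpSeq n) hE hper hP (gradField hUs hUp hη)
  linarith

lemma smoothSeq_Ff (hE : MeasurableSet E) (hper : PeriodicSet E) {κ : ℝ} (hκ : 0 < κ) :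
    Tendsto (fun n => (smoothSeq hE hper n).Ff κ) atTop (𝓝 0) := by
  have hc : ∀ n, Continuous (moll (bumpSeq n) E) := fun n => (moll_contDiff hE).continuous
  have hXc : ∀ n, Continuous fun p => Xi κ (moll (bumpSeq n) E p) :=
    fun n => (Xi_continuous κ).comp (hc n)
  have e : (fun n => (smoothSeq hE hper n).Ff κ)
      = fun n => ∫ p in unitCell, Xi κ (moll (bumpSeq n) E p) := by
    funext n
    rw [cell_eq_iter3 (hXc n)]
    rfl
  rw [e]
  have hr : Tendsto (fun n => (bumpSeq n).rOut) atTop (𝓝 0) := by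
    have h1 : Tendsto (fun n : ℕ => 2 * (1 / ((n : ℝ) + 1))) atTop (𝓝 (2 * 0)) :=
      tendsto_const_nhds.mul tendsto_one_div_add_atTop_nhds_zero_nat
    rw [mul_zero] at h1
    refine h1.congr fun n => ?_
    show 2 * (1 / ((n : ℝ) + 1)) = 2 / ((n : ℝ) + 1)
    ring
  have hK : ∀ᶠ n in atTop, (bumpSeq n).rOut ≤ 2 * (bumpSeq n).rIn :=
    Eventually.of_forall fun n => by
      show 2 / ((n : ℝ) + 1) ≤ 2 * (1 / ((n : ℝ) + 1))
      apply le_of_eq
      ring
  have hae := ContDiffBump.ae_convolution_tendsto_right_of_locallyIntegrable (μ := volume) hr hK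
    (chi_locInt hE)
  have hlim : ∀ᵐ p ∂(volume.restrict unitCell),
      Tendsto (fun n => Xi κ (moll (bumpSeq n) E p)) atTop (𝓝 0) := by
    apply ae_restrict_of_ae
    filter_upwards [hae] with p hp
    have := (Xi_continuous κ).tendsto (chi E p) |>.comp hp
    rw [Xi_chi hκ] at this
    exact this
  have hd := tendsto_integral_of_dominated_convergence (μ := volume.restrict unitCell)
    (F := fun n p => Xi κ (moll (bumpSeq n) E p)) (f := fun _ => (0:ℝ)) (fun _ => (1:ℝ))
    (fun n => (hXc n).aestronglyMeasurable)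
    (by
      have : IsFiniteMeasure ((volume : Measure R3).restrict unitCell) :=
        ⟨by simpa using unitCell_volume_lt⟩
      exact integrable_const _)
    (fun n => Eventually.of_forall fun p => by
      rw [Real.norm_eq_abs, abs_of_nonneg (Xi_nonneg _ _)]
      exact Xi_le_one _ _)
    hlim
  simpa using hd

/-- The lower bound for the perimeter, given the real analysis input. -/
theorem perimeter_lower (hE : MeasurableSet E) (hper : PeriodicSet E) {v : ℝ}
    (hv : v = min (torusVolume E) (1 - torusVolume E)) (hRA : Per3.RAhyp v (profileJ v)) :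
    ENNReal.ofReal (profileJ v) ≤ perimeter E := by
  by_cases hP : perimeter E = ⊤
  · rw [hP]
    exact le_top
  have hP' : perimeter E ≠ ⊤ := hP
  rw [← ENNReal.ofReal_toReal hP']
  apply ENNReal.ofReal_le_ofReal
  have hmain : ∀ τ κ, 0 < τ → τ ≤ 1 → 0 < κ → 4 * κ ≤ τ → ∀ n,
      profileJ v ≤ (perimeter E).toReal + Per3.err τ κ ((smoothSeq hE hper n).Ff κ) := by
    intro τ κ hτ hτ1 hκ hκτ n
    have hPn := smoothSeq_P hE hper hP' n
    have hV := smoothSeq_V hE hper n
    rcases le_total (torusVolume E) (1 - torusVolume E) with hc | hc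
    · have hv' : v = (smoothSeq hE hper n).V := by
        rw [hv, min_eq_left hc, hV]
      have := Per3.main_smooth (smoothSeq hE hper n) (B := profileJ v) hκ hτ hτ1 hκτ
        (by rw [← hv']; exact hRA)
      linarith
    · have hv' : v = (smoothSeq hE hper n).compl.V := by
        rw [hv, min_eq_right hc, Per3.compl_V, hV]
      have := Per3.main_smooth (smoothSeq hE hper n).compl (B := profileJ v) hκ hτ hτ1 hκτ
        (by rw [← hv']; exact hRA)
      rw [Per3.compl_P, Per3.compl_Ff] at this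
      linarith
  have hlim : ∀ τ κ, 0 < τ → τ ≤ 1 → 0 < κ → 4 * κ ≤ τ →
      profileJ v ≤ (perimeter E).toReal + Per3.err τ κ 0 := by
    intro τ κ hτ hτ1 hκ hκτ
    have hF := smoothSeq_Ff hE hper hκ
    have ht : Tendsto (fun n => (perimeter E).toReal + Per3.err τ κ ((smoothSeq hE hper n).Ff κ))
        atTop (𝓝 ((perimeter E).toReal + Per3.err τ κ 0)) := by
      unfold Per3.err
      exact tendsto_const_nhds.add (tendsto_const_nhds.add
        (tendsto_const_nhds.mul (hF.add tendsto_const_nhds)))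
    exact ge_of_tendsto' ht (hmain τ κ hτ hτ1 hκ hκτ)
  apply le_of_forall_pos_le_add
  intro ε hε
  set τ := min 1 (ε / 12) with hτdef
  have hτ0 : 0 < τ := lt_min one_pos (by positivity)
  have hτ1 : τ ≤ 1 := min_le_left _ _
  have hτε : τ ≤ ε / 12 := min_le_right _ _
  have h1 := hlim τ (τ ^ 3 / 4) hτ0 hτ1 (by positivity) (by nlinarith [pow_pos hτ0 2, pow_pos hτ0 3])
  unfold Per3.err at h1
  have e1 : 4 / τ ^ 2 * (0 + 2 * (τ ^ 3 / 4)) = 2 * τ := by
    field_simp
    ring
  rw [e1] at h1
  have h2 : τ ^ 3 ≤ τ := by nlinarith [pow_pos hτ0 2, sq_nonneg τ, mul_pos hτ0 hτ0]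
  linarith

end Main

end Vale.Agent.Lib.P232
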