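import Mathlib

open MeasureTheory Set intervalIntegral

namespace Vale.Agent.Lib.P232

/-- Swap the order of a double integral of a continuous function over intervals. -/
lemma swap_integral {F : ℝ → ℝ → ℝ} (hF : Continuous (Function.uncurry F)) (a b c d : ℝ) :
    ∫ x in a..b, ∫ y in c..d, F x y = ∫ y in c..d, ∫ x in a..b, F x y := by
  apply intervalIntegral_intervalIntegral_swap
  have hK : IsCompact (uIcc a b ×ˢ uIcc c d : Set (ℝ × ℝ)) := isCompact_uIcc.prod isCompact_uIcc
  have h1 : IntegrableOn (Function.uncurry F) (uIcc a b ×ˢ uIcc c d) :=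
    hF.continuousOn.integrableOn_compact hK
  refine h1.mono_set ?_
  exact prod_mono uIoc_subset_uIcc uIoc_subset_uIcc

/-- Continuity of a parametric integral. -/
lemma cont_param {X : Type*} [TopologicalSpace X] {F : X → ℝ → ℝ}
    (hF : Continuous (Function.uncurry F)) (a b : ℝ) :
    Continuous fun x => ∫ t in a..b, F x t := by
  have h1 : Continuous fun x => ∫ t in (0:ℝ)..b, F x t :=
    intervalIntegral.continuous_parametric_intervalIntegral_of_continuous hF continuous_const
  have h2 : Continuous fun x => ∫ t in (0:ℝ)..a, F x t :=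
    intervalIntegral.continuous_parametric_intervalIntegral_of_continuous hF continuous_const
  have h3 : (fun x => ∫ t in a..b, F x t) = fun x => (∫ t in (0:ℝ)..b, F x t) - ∫ t in (0:ℝ)..a, F x t := by
    funext x
    have hc : Continuous (F x) := hF.comp (Continuous.prodMk_right x)
    rw [intervalIntegral.integral_interval_sub_left (hc.intervalIntegrable _ _) (hc.intervalIntegrable _ _)]
  rw [h3]
  exact h1.sub h2

/-- Differentiation under the integral sign, for continuous data. -/
lemma hasDerivAt_param {F F' : ℝ → ℝ → ℝ} (hF : Continuous (Function.uncurry F))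
    (hF' : Continuous (Function.uncurry F'))
    (hd : ∀ y t, HasDerivAt (fun s => F s t) (F' y t) y) (a b y : ℝ) :
    HasDerivAt (fun s => ∫ t in a..b, F s t) (∫ t in a..b, F' y t) y := by
  have hK : IsCompact (Icc (y - 1) (y + 1) ×ˢ uIcc a b : Set (ℝ × ℝ)) :=
    isCompact_Icc.prod isCompact_uIcc
  obtain ⟨C, hC⟩ := hK.exists_bound_of_continuousOn hF'.continuousOn
  have hs : Ioo (y - 1) (y + 1) ∈ nhds y := Ioo_mem_nhds (by linarith) (by linarith)
  have hFc : ∀ s, Continuous (F s) := fun s => hF.comp (Continuous.prodMk_right s)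
  have hF'c : ∀ s, Continuous (F' s) := fun s => hF'.comp (Continuous.prodMk_right s)
  have := intervalIntegral.hasDerivAt_integral_of_dominated_loc_of_deriv_le (𝕜 := ℝ) (μ := volume)
    (a := a) (b := b) (bound := fun _ => C) (F := F) (F' := F') (x₀ := y) (s := Ioo (y - 1) (y + 1)) hs
    (Filter.Eventually.of_forall fun s => (hFc s).aestronglyMeasurable)
    ((hFc y).intervalIntegrable _ _)
    ((hF'c y).aestronglyMeasurable)
    (Filter.Eventually.of_forall fun t ht s hs' => by
      have hm : (s, t) ∈ (Icc (y - 1) (y + 1) ×ˢ uIcc a b : Set (ℝ × ℝ)) :=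
        ⟨Ioo_subset_Icc_self hs', uIoc_subset_uIcc ht⟩
      simpa using hC _ hm)
    intervalIntegrable_const
    (Filter.Eventually.of_forall fun t _ s _ => hd s t)
  exact this.2

end Vale.Agent.Lib.P232
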