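import Vale.Agent.Lib.P232.T3b
import Vale.Agent.Lib.P232.Defs

open MeasureTheory Set intervalIntegral

namespace Vale.Agent.Lib.P232

/-! ### Upper bounds for the conjectural profile -/

lemma profileJ_le_two (v : ℝ) : profileJ v ≤ 2 := min_le_right _ _

lemma profileJ_le_tube (v : ℝ) : profileJ v ≤ 2 * Real.sqrt (Real.pi * v) :=
  (min_le_left _ _).trans (min_le_right _ _)

lemma profileJ_le_ball (v : ℝ) : profileJ v ≤ (36 * Real.pi) ^ (1 / 3 : ℝ) * v ^ (2 / 3 : ℝ) :=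
  (min_le_left _ _).trans (min_le_left _ _)

/-- The tube perimeter lies below the lines with `π ≤ c₀ c₁`. -/
lemma tube_le_line {c₀ c₁ v : ℝ} (h0 : 0 ≤ c₀) (h1 : 0 ≤ c₁) (hc : Real.pi ≤ c₀ * c₁) (hv : 0 ≤ v) :
    2 * Real.sqrt (Real.pi * v) ≤ c₀ + c₁ * v := by
  have h2 : 0 ≤ c₁ * v := mul_nonneg h1 hv
  have h3 : Real.sqrt (Real.pi * v) ≤ (c₀ + c₁ * v) / 2 := by
    apply Real.sqrt_le_iff.2
    constructor
    · linarith
    · have h4 : Real.pi * v ≤ c₀ * c₁ * v := mul_le_mul_of_nonneg_right hc hv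
      nlinarith [sq_nonneg (c₀ - c₁ * v)]
  linarith

/-- The ball perimeter lies below the lines with `16 π / 3 ≤ c₀ c₁²`. -/
lemma ball_le_line {c₀ c₁ v : ℝ} (h0 : 0 ≤ c₀) (h1 : 0 ≤ c₁) (hc : 16 * Real.pi / 3 ≤ c₀ * c₁ ^ 2)
    (hv : 0 ≤ v) : (36 * Real.pi) ^ (1 / 3 : ℝ) * v ^ (2 / 3 : ℝ) ≤ c₀ + c₁ * v := by
  have hp := Real.pi_pos
  set X := (36 * Real.pi) ^ (1 / 3 : ℝ) * v ^ (2 / 3 : ℝ) with hX
  have hX0 : 0 ≤ X := by positivity
  have hX3 : X ^ 3 = 36 * Real.pi * v ^ 2 := by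
    rw [hX, mul_pow]
    have e1 : ((36 * Real.pi) ^ (1 / 3 : ℝ)) ^ 3 = 36 * Real.pi := by
      rw [← Real.rpow_natCast, ← Real.rpow_mul (by positivity)]
      norm_num
    have e2 : (v ^ (2 / 3 : ℝ)) ^ 3 = v ^ 2 := by
      rw [← Real.rpow_natCast, ← Real.rpow_mul hv]
      norm_num
    rw [e1, e2]
  set Y := c₀ + c₁ * v with hY
  have hY0 : 0 ≤ Y := by positivity
  have hcube : X ^ 3 ≤ Y ^ 3 := by
    rw [hX3]
    have h2 : 0 ≤ c₁ * v := mul_nonneg h1 hv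
    have h3 : 27 * c₀ * (c₁ * v) ^ 2 / 4 ≤ Y ^ 3 := by
      have : Y ^ 3 - 27 * c₀ * (c₁ * v) ^ 2 / 4 = (c₀ - c₁ * v / 2) ^ 2 * (c₀ + 4 * (c₁ * v)) := by
        rw [hY]; ring
      have h4 : 0 ≤ (c₀ - c₁ * v / 2) ^ 2 * (c₀ + 4 * (c₁ * v)) := by positivity
      linarith
    have h5 : 16 * Real.pi / 3 * v ^ 2 ≤ c₀ * c₁ ^ 2 * v ^ 2 :=
      mul_le_mul_of_nonneg_right hc (by positivity)
    nlinarith
  exact le_of_pow_le_pow_left₀ (by norm_num) hY0 hcube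

/-! ### Convexity of the constraint -/

/-- Joint convexity of `w² / ℓ + g²`, without division. -/
lemma conv_constraint {A B g h P Q t : ℝ} (ht0 : 0 ≤ t) (ht1 : t ≤ 1)
    (hg1 : g ^ 2 ≤ 1) (hh1 : h ^ 2 ≤ 1) (hP : 0 ≤ P) (hQ : 0 ≤ Q)
    (h1 : A ^ 2 ≤ (1 - g ^ 2) * P) (h2 : B ^ 2 ≤ (1 - h ^ 2) * Q) :
    ((1 - t) * A + t * B) ^ 2 ≤ (1 - ((1 - t) * g + t * h) ^ 2) * ((1 - t) * P + t * Q) := by
  set X := 1 - g ^ 2 with hX
  set Y := 1 - h ^ 2 with hY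
  have hX0 : 0 ≤ X := by rw [hX]; linarith
  have hY0 : 0 ≤ Y := by rw [hY]; linarith
  have ht' : 0 ≤ 1 - t := by linarith
  -- the cross term
  have hcross : 2 * (A * B) ≤ P * Y + Q * X := by
    have h3 : (2 * (A * B)) ^ 2 ≤ (P * Y + Q * X) ^ 2 := by
      have h4 : A ^ 2 * B ^ 2 ≤ (X * P) * (Y * Q) :=
        mul_le_mul h1 h2 (sq_nonneg _) (mul_nonneg hX0 hP)
      nlinarith [sq_nonneg (P * Y - Q * X)]
    have h5 : 0 ≤ P * Y + Q * X := by positivity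
    exact abs_le_of_sq_le_sq' h3 h5 |>.2
  have e1 : 1 - ((1 - t) * g + t * h) ^ 2 = (1 - t) * X + t * Y + t * (1 - t) * (g - h) ^ 2 := by
    rw [hX, hY]; ring
  rw [e1]
  have hD : 0 ≤ (1 - t) * P + t * Q := by positivity
  have h6 : 0 ≤ t * (1 - t) * (g - h) ^ 2 * ((1 - t) * P + t * Q) := by positivity
  have h7 : ((1 - t) * A + t * B) ^ 2 ≤ ((1 - t) * X + t * Y) * ((1 - t) * P + t * Q) := by
    have e2 : ((1 - t) * X + t * Y) * ((1 - t) * P + t * Q)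
        = (1 - t) ^ 2 * (X * P) + t ^ 2 * (Y * Q) + t * (1 - t) * (P * Y + Q * X) := by ring
    have e3 : ((1 - t) * A + t * B) ^ 2
        = (1 - t) ^ 2 * A ^ 2 + t ^ 2 * B ^ 2 + t * (1 - t) * (2 * (A * B)) := by ring
    rw [e2, e3]
    have h8 : (1 - t) ^ 2 * A ^ 2 ≤ (1 - t) ^ 2 * (X * P) :=
      mul_le_mul_of_nonneg_left h1 (by positivity)
    have h9 : t ^ 2 * B ^ 2 ≤ t ^ 2 * (Y * Q) := mul_le_mul_of_nonneg_left h2 (by positivity)
    have h10 : t * (1 - t) * (2 * (A * B)) ≤ t * (1 - t) * (P * Y + Q * X) :=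
      mul_le_mul_of_nonneg_left hcross (by positivity)
    linarith
  nlinarith

/-- The rational lower bound for `π` used by the certificates. -/
noncomputable def piLo : ℝ := 3.141592
/-- The rational upper bound for `π` used by the certificates. -/
noncomputable def piHi : ℝ := 3.141593

lemma piLo_le : piLo ≤ Real.pi := by
  unfold piLo
  exact Real.pi_gt_d6.le

lemma le_piHi : Real.pi ≤ piHi := by
  unfold piHi
  exact Real.pi_lt_d6.le

lemma piLo_pos : 0 < piLo := by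
  unfold piLo
  norm_num

/-- One affine constraint at a node. -/
def AffCon (α γ k H s g : ℝ) : Prop :=
  0 ≤ α + γ * s ∧ (k + H * s) ^ 2 ≤ (1 - g ^ 2) * (α + γ * s)

lemma AffCon.convex {α γ k H s₀ s₁ g₀ g₁ t : ℝ} (ht0 : 0 ≤ t) (ht1 : t ≤ 1)
    (hg₀ : g₀ ^ 2 ≤ 1) (hg₁ : g₁ ^ 2 ≤ 1)
    (h0 : AffCon α γ k H s₀ g₀) (h1 : AffCon α γ k H s₁ g₁) :
    AffCon α γ k H ((1 - t) * s₀ + t * s₁) ((1 - t) * g₀ + t * g₁) := by
  have ht' : 0 ≤ 1 - t := by linarith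
  constructor
  · have e : α + γ * ((1 - t) * s₀ + t * s₁) = (1 - t) * (α + γ * s₀) + t * (α + γ * s₁) := by ring
    rw [e]
    have := h0.1
    have := h1.1
    positivity
  · have := conv_constraint ht0 ht1 hg₀ hg₁ h0.1 h1.1 h0.2 h1.2
    have e1 : (1 - t) * (k + H * s₀) + t * (k + H * s₁) = k + H * ((1 - t) * s₀ + t * s₁) := by ring
    have e2 : (1 - t) * (α + γ * s₀) + t * (α + γ * s₁) = α + γ * ((1 - t) * s₀ + t * s₁) := by ring
    rw [e1, e2] at this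
    exact this

/-- The node constraint for calibrations below the square torus profile. -/
def Nd1 (k H s g : ℝ) : Prop :=
  0 ≤ g ∧ g ≤ 1 ∧ AffCon 0 (4 * piLo) k H s g ∧ AffCon 4 0 k H s g ∧
    AffCon (4 * piLo) (- (4 * piLo)) k H s g

/-- The node constraint for calibrations below the disk profile. -/
def Nd2 (k H s g : ℝ) : Prop :=
  0 ≤ g ∧ g ≤ 1 ∧ AffCon 0 (4 * piLo) k H s g

/-- Predicates which are stable under interpolation. -/
def ConvexCon (C : ℝ → ℝ → Prop) : Prop :=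
  ∀ s₀ s₁ g₀ g₁ t : ℝ, 0 ≤ t → t ≤ 1 → C s₀ g₀ → C s₁ g₁ → C ((1 - t) * s₀ + t * s₁) ((1 - t) * g₀ + t * g₁)

lemma sq_le_one_of {g : ℝ} (h0 : 0 ≤ g) (h1 : g ≤ 1) : g ^ 2 ≤ 1 := by nlinarith

lemma interp_nonneg {g₀ g₁ t : ℝ} (ht0 : 0 ≤ t) (ht1 : t ≤ 1) (h0 : 0 ≤ g₀) (h1 : 0 ≤ g₁) :
    0 ≤ (1 - t) * g₀ + t * g₁ := by
  have : 0 ≤ 1 - t := by linarith
  positivity

lemma interp_le_one {g₀ g₁ t : ℝ} (ht0 : 0 ≤ t) (ht1 : t ≤ 1) (h0 : g₀ ≤ 1) (h1 : g₁ ≤ 1) :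
    (1 - t) * g₀ + t * g₁ ≤ 1 := by
  have : 0 ≤ 1 - t := by linarith
  nlinarith

lemma convex_Nd1 (k H : ℝ) : ConvexCon (Nd1 k H) := by
  intro s₀ s₁ g₀ g₁ t ht0 ht1 h0 h1
  obtain ⟨a0, a1, a2, a3, a4⟩ := h0
  obtain ⟨b0, b1, b2, b3, b4⟩ := h1
  have ha := sq_le_one_of a0 a1
  have hb := sq_le_one_of b0 b1
  exact ⟨interp_nonneg ht0 ht1 a0 b0, interp_le_one ht0 ht1 a1 b1,
    AffCon.convex ht0 ht1 ha hb a2 b2, AffCon.convex ht0 ht1 ha hb a3 b3,
    AffCon.convex ht0 ht1 ha hb a4 b4⟩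

lemma convex_Nd2 (k H : ℝ) : ConvexCon (Nd2 k H) := by
  intro s₀ s₁ g₀ g₁ t ht0 ht1 h0 h1
  obtain ⟨a0, a1, a2⟩ := h0
  obtain ⟨b0, b1, b2⟩ := h1
  have ha := sq_le_one_of a0 a1
  have hb := sq_le_one_of b0 b1
  exact ⟨interp_nonneg ht0 ht1 a0 b0, interp_le_one ht0 ht1 a1 b1,
    AffCon.convex ht0 ht1 ha hb a2 b2⟩

/-- Monotonicity in the value of `π`. -/
lemma affCon_pi {k H s g : ℝ} (hg : g ^ 2 ≤ 1) (h : AffCon 0 (4 * piLo) k H s g) :
    (k + H * s) ^ 2 ≤ (1 - g ^ 2) * (4 * Real.pi * s) := by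
  have hs : 0 ≤ s := by
    have h0 := h.1
    have hp := piLo_pos
    simp only [zero_add] at h0
    by_contra hneg
    push Not at hneg
    nlinarith
  have h1 := h.2
  have h2 : 0 ≤ 1 - g ^ 2 := by linarith
  have h3 : (0 + 4 * piLo * s) ≤ 4 * Real.pi * s := by
    have := piLo_le
    nlinarith
  exact h1.trans (mul_le_mul_of_nonneg_left h3 h2)

lemma affCon_pi' {k H s g : ℝ} (hg : g ^ 2 ≤ 1) (h : AffCon (4 * piLo) (- (4 * piLo)) k H s g) :
    (k + H * s) ^ 2 ≤ (1 - g ^ 2) * (4 * Real.pi * (1 - s)) := by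
  have hs : 0 ≤ 1 - s := by
    have h0 := h.1
    have hp := piLo_pos
    by_contra hneg
    push Not at hneg
    nlinarith
  have h1 := h.2
  have h2 : 0 ≤ 1 - g ^ 2 := by linarith
  have h3 : (4 * piLo + - (4 * piLo) * s) ≤ 4 * Real.pi * (1 - s) := by
    have := piLo_le
    nlinarith
  exact h1.trans (mul_le_mul_of_nonneg_left h3 h2)

lemma Nd1.con {k H s g : ℝ} (h : Nd1 k H s g) : (k + H * s) ^ 2 ≤ (1 - g ^ 2) * ell s := by
  obtain ⟨a0, a1, a2, a3, a4⟩ := h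
  have hg := sq_le_one_of a0 a1
  have h1 := affCon_pi hg a2
  have h3 := affCon_pi' hg a4
  have h2 : (k + H * s) ^ 2 ≤ (1 - g ^ 2) * 4 := by
    have := a3.2
    simpa using this
  unfold ell
  rcases min_choice (min (4 * Real.pi * s) 4) (4 * Real.pi * (1 - s)) with e | e
  · rw [e]
    rcases min_choice (4 * Real.pi * s) 4 with e' | e'
    · rw [e']; exact h1
    · rw [e']; exact h2
  · rw [e]; exact h3

lemma Nd2.con {k H s g : ℝ} (h : Nd2 k H s g) : (k + H * s) ^ 2 ≤ (1 - g ^ 2) * ell0 s := by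
  obtain ⟨a0, a1, a2⟩ := h
  exact affCon_pi (sq_le_one_of a0 a1) a2

/-! ### Feasible piecewise functions -/

/-- A feasible profile on `[lo, hi]` with prescribed end values and integral at least `I`. -/
def Feas (C : ℝ → ℝ → Prop) (lo hi glo ghi I : ℝ) : Prop :=
  ∃ β : ℝ → ℝ, ContinuousOn β (Icc lo hi) ∧ β lo = glo ∧ β hi = ghi ∧
    (∀ s ∈ Icc lo hi, C s (β s) ∧ 0 ≤ β s) ∧ I ≤ ∫ s in lo..hi, β s

lemma Feas.glue {C : ℝ → ℝ → Prop} {lo c hi glo gc ghi I₁ I₂ : ℝ} (hlc : lo ≤ c) (hch : c ≤ hi)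
    (h1 : Feas C lo c glo gc I₁) (h2 : Feas C c hi gc ghi I₂) :
    Feas C lo hi glo ghi (I₁ + I₂) := by
  obtain ⟨β₁, c1, l1, r1, p1, i1⟩ := h1
  obtain ⟨β₂, c2, l2, r2, p2, i2⟩ := h2
  set β : ℝ → ℝ := fun s => if s ≤ c then β₁ s else β₂ s with hβ
  have eq1 : ∀ s, s ≤ c → β s = β₁ s := fun s hs => by simp [hβ, hs]
  have eq2 : ∀ s, c ≤ s → β s = β₂ s := fun s hs => by
    by_cases h : s ≤ c
    · have : s = c := le_antisymm h hs
      subst this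
      simp only [hβ, le_refl, if_true]
      rw [r1, l2]
    · simp [hβ, h]
  have cont1 : ContinuousOn β (Icc lo c) :=
    c1.congr fun s hs => eq1 s hs.2
  have cont2 : ContinuousOn β (Icc c hi) :=
    c2.congr fun s hs => eq2 s hs.1
  have cont : ContinuousOn β (Icc lo hi) := by
    have hu : Icc lo hi = Icc lo c ∪ Icc c hi := (Icc_union_Icc_eq_Icc hlc hch).symm
    rw [hu]
    exact cont1.union_of_isClosed cont2 isClosed_Icc isClosed_Icc
  refine ⟨β, cont, ?_, ?_, ?_, ?_⟩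
  · rw [eq1 lo hlc, l1]
  · rw [eq2 hi hch, r2]
  · intro s hs
    by_cases h : s ≤ c
    · rw [eq1 s h]
      exact p1 s ⟨hs.1, h⟩
    · rw [eq2 s (le_of_not_ge h)]
      exact p2 s ⟨le_of_not_ge h, hs.2⟩
  · have ii1 : IntervalIntegrable β volume lo c :=
      (cont1.mono (by rw [uIcc_of_le hlc])).intervalIntegrable
    have ii2 : IntervalIntegrable β volume c hi :=
      (cont2.mono (by rw [uIcc_of_le hch])).intervalIntegrable
    rw [← intervalIntegral.integral_add_adjacent_intervals ii1 ii2]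
    have e1 : ∫ s in lo..c, β s = ∫ s in lo..c, β₁ s := by
      apply intervalIntegral.integral_congr
      intro s hs
      rw [uIcc_of_le hlc] at hs
      exact eq1 s hs.2
    have e2 : ∫ s in c..hi, β s = ∫ s in c..hi, β₂ s := by
      apply intervalIntegral.integral_congr
      intro s hs
      rw [uIcc_of_le hch] at hs
      exact eq2 s hs.1
    rw [e1, e2]
    linarith

/-- Restriction on the left, forgetting the integral. -/
lemma Feas.restrict_left {C : ℝ → ℝ → Prop} {lo hi glo ghi I m : ℝ}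
    (h : Feas C lo hi glo ghi I) (hm : m ∈ Icc lo hi) : ∃ g, Feas C m hi g ghi 0 := by
  obtain ⟨β, c, l, r, p, _⟩ := h
  have hsub : Icc m hi ⊆ Icc lo hi := Icc_subset_Icc_left hm.1
  refine ⟨β m, β, c.mono hsub, rfl, r, fun s hs => p s (hsub hs), ?_⟩
  apply intervalIntegral.integral_nonneg hm.2
  intro s hs
  exact (p s (hsub hs)).2

/-- Restriction on the right, forgetting the integral. -/
lemma Feas.restrict_right {C : ℝ → ℝ → Prop} {lo hi glo ghi I m : ℝ}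
    (h : Feas C lo hi glo ghi I) (hm : m ∈ Icc lo hi) : ∃ g, Feas C lo m glo g 0 := by
  obtain ⟨β, c, l, r, p, _⟩ := h
  have hsub : Icc lo m ⊆ Icc lo hi := Icc_subset_Icc_right hm.2
  refine ⟨β m, β, c.mono hsub, l, rfl, fun s hs => p s (hsub hs), ?_⟩
  apply intervalIntegral.integral_nonneg hm.1
  intro s hs
  exact (p s (hsub hs)).2

/-- A single segment. -/
lemma Feas.segment {C : ℝ → ℝ → Prop} (hC : ConvexCon C) {s₀ s₁ g₀ g₁ : ℝ} (hs : s₀ < s₁)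
    (h0 : C s₀ g₀) (h1 : C s₁ g₁) (hg0 : 0 ≤ g₀) (hg1 : 0 ≤ g₁) :
    Feas C s₀ s₁ g₀ g₁ ((s₁ - s₀) * (g₀ + g₁) / 2) := by
  have hd : 0 < s₁ - s₀ := by linarith
  set β : ℝ → ℝ := fun s => (1 - (s - s₀) / (s₁ - s₀)) * g₀ + (s - s₀) / (s₁ - s₀) * g₁ with hβ
  have hc : Continuous β := by
    simp only [hβ]
    fun_prop
  refine ⟨β, hc.continuousOn, ?_, ?_, ?_, ?_⟩
  · simp [hβ]
  · simp only [hβ]
    rw [div_self hd.ne']
    ring
  · intro s hs'
    have ht0 : 0 ≤ (s - s₀) / (s₁ - s₀) := div_nonneg (by linarith [hs'.1]) hd.le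
    have ht1 : (s - s₀) / (s₁ - s₀) ≤ 1 := (div_le_one hd).2 (by linarith [hs'.2])
    constructor
    · have := hC s₀ s₁ g₀ g₁ _ ht0 ht1 h0 h1
      have e : (1 - (s - s₀) / (s₁ - s₀)) * s₀ + (s - s₀) / (s₁ - s₀) * s₁ = s := by
        field_simp
        ring
      rwa [e] at this
    · exact interp_nonneg ht0 ht1 hg0 hg1
  · have e : β = fun s => (s - s₀) * ((g₁ - g₀) / (s₁ - s₀)) + g₀ := by
      funext s
      simp only [hβ]
      field_simp
      ring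
    rw [e]
    have i1 : ∫ s in s₀..s₁, (s - s₀) * ((g₁ - g₀) / (s₁ - s₀)) + g₀
        = (∫ s in s₀..s₁, (s - s₀) * ((g₁ - g₀) / (s₁ - s₀))) + ∫ _ in s₀..s₁, g₀ := by
      apply intervalIntegral.integral_add
      · apply Continuous.intervalIntegrable; fun_prop
      · exact continuous_const.intervalIntegrable _ _
    have i2 : ∫ s in s₀..s₁, (s - s₀) * ((g₁ - g₀) / (s₁ - s₀))
        = (∫ s in s₀..s₁, (s - s₀)) * ((g₁ - g₀) / (s₁ - s₀)) :=
      intervalIntegral.integral_mul_const _ _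
    have i3 : ∫ s in s₀..s₁, (s - s₀) = (s₁ - s₀) ^ 2 / 2 := by
      rw [intervalIntegral.integral_comp_sub_right (fun x => x) s₀]
      simp
    rw [i1, i2, i3]
    simp only [intervalIntegral.integral_const, smul_eq_mul]
    apply le_of_eq
    field_simp
    ring

/-- Passing from a feasible profile to a value for the first kind of calibration. -/
lemma value1_of_feas {k H m a V B g₀ g₁ I : ℝ} (h : Feas (Nd1 k H) m a g₀ g₁ I)
    (hB : B ≤ k + H * V + 2 * I) : Value ell m a V B := by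
  obtain ⟨β, c, _, _, p, i⟩ := h
  refine ⟨k, H, β, ⟨c, fun s hs => (p s hs).2, fun s hs => (p s hs).1.2.1,
    fun s hs => (p s hs).1.con⟩, ?_⟩
  linarith

/-- Passing from a feasible profile to a value for the second kind of calibration. -/
lemma value2_of_feas {k H m a V B g₀ g₁ I : ℝ} (h : Feas (Nd2 k H) m a g₀ g₁ I)
    (hB : B ≤ k + H * V + 2 * I) : Value ell0 m a V B := by
  obtain ⟨β, c, _, _, p, i⟩ := h
  refine ⟨k, H, β, ⟨c, fun s hs => (p s hs).2, fun s hs => (p s hs).1.2.1,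
    fun s hs => (p s hs).1.con⟩, ?_⟩
  linarith

end Vale.Agent.Lib.P232
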