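import Vale.Agent.Lib.P232.RA1

open MeasureTheory Set intervalIntegral

namespace Vale.Agent.Lib.P232

/-- Intercept of the exact chord of the disk profile. -/
noncomputable def ck (p q : ℝ) : ℝ := 2 * Real.sqrt Real.pi * (p * q) / (p + q)
/-- Slope of the exact chord of the disk profile. -/
noncomputable def cH (p q : ℝ) : ℝ := 2 * Real.sqrt Real.pi / (p + q)

lemma sqrt_pi_sq : Real.sqrt Real.pi ^ 2 = Real.pi := Real.sq_sqrt Real.pi_pos.le

/-- The chord identity. -/
lemma chord_identity {p q : ℝ} (h : 0 < p + q) (s : ℝ) :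
    4 * Real.pi * s - (ck p q + cH p q * s) ^ 2
      = 4 * Real.pi * ((p ^ 2 - s) * (s - q ^ 2)) / (p + q) ^ 2 := by
  unfold ck cH
  have hs := sqrt_pi_sq
  have e : (2 * Real.sqrt Real.pi * (p * q) / (p + q) + 2 * Real.sqrt Real.pi / (p + q) * s) ^ 2
      = 4 * Real.sqrt Real.pi ^ 2 * (p * q + s) ^ 2 / (p + q) ^ 2 := by
    field_simp
    ring
  rw [e, hs]
  field_simp
  ring

lemma ell_eq_of_le {s : ℝ} (h : s ≤ 1 / Real.pi) : ell s = 4 * Real.pi * s := by
  have hp := Real.pi_pos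
  have hp3 := Real.pi_gt_three
  have h1 : Real.pi * s ≤ 1 := by
    rw [le_div_iff₀ hp] at h
    linarith
  have h2 : 4 * Real.pi * s ≤ 4 := by linarith
  unfold ell
  rw [min_eq_left h2]
  apply min_eq_left
  have h3 : s ≤ 1 / 2 := by
    have : 1 / Real.pi ≤ 1 / 2 := one_div_le_one_div_of_le (by norm_num) (by linarith)
    linarith
  have h4 : s ≤ 1 - s := by linarith
  exact mul_le_mul_of_nonneg_left h4 (by positivity)

/-- Calibrations for the disk profile remain calibrations for the torus profile below `1 / π`. -/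
lemma Adm.to_ell {m a k H : ℝ} {β : ℝ → ℝ} (h : Adm ell0 m a k H β) (ha : a ≤ 1 / Real.pi) :
    Adm ell m a k H β := by
  refine ⟨h.cont, h.nn, h.le1, fun s hs => ?_⟩
  rw [ell_eq_of_le (hs.2.trans ha)]
  exact h.con s hs

lemma sqrt_three_bound {r p q : ℝ} (hr : 0 ≤ r) (hp : 0 ≤ p) (h : r ^ 2 = p ^ 2 - q ^ 2) :
    p ^ 3 - 3 / 2 * p * q ^ 2 ≤ r ^ 3 := by
  have e : r ^ 3 - (p ^ 3 - 3 / 2 * p * q ^ 2) = (1 / 2) * ((r - p) ^ 2 * (2 * r + p)) := by
    have hq : q ^ 2 = p ^ 2 - r ^ 2 := by linarith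
    rw [hq]
    ring
  have : 0 ≤ (1 / 2) * ((r - p) ^ 2 * (2 * r + p)) := by positivity
  linarith

/-- The volume integral of the square root. -/
lemma integral_sqrt_sub {m a : ℝ} (hma : m ≤ a) :
    ∫ s in m..a, Real.sqrt (a - s) = 2 / 3 * Real.sqrt (a - m) ^ 3 := by
  have h1 := intervalIntegral.integral_comp_sub_left (a := m) (b := a) (fun x => Real.sqrt x) a
  rw [h1, sub_self]
  have h2 : ∫ x in (0:ℝ)..(a - m), Real.sqrt x = ∫ x in (0:ℝ)..(a - m), x ^ (1 / 2 : ℝ) := by
    apply intervalIntegral.integral_congr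
    intro x _
    exact Real.sqrt_eq_rpow x
  rw [h2, integral_rpow (Or.inl (by norm_num))]
  have h3 : (a - m) ^ (1 / 2 + 1 : ℝ) = Real.sqrt (a - m) ^ 3 := by
    rw [Real.sqrt_eq_rpow, ← Real.rpow_natCast, ← Real.rpow_mul (by linarith)]
    norm_num
  rw [h3, Real.zero_rpow (by norm_num)]
  norm_num
  ring

/-- The logarithm estimate used for thin sections. -/
lemma log_ratio_bound {p q : ℝ} (hp : 0 < p) (hq : 0 < q) :
    q * Real.log (p ^ 2 / q ^ 2) ≤ 2 * p / 7 + 2 * q := by
  have e : Real.log (p ^ 2 / q ^ 2) = 2 * Real.log (p / q) := by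
    rw [← div_pow, Real.log_pow]
    norm_num
  rw [e]
  have h1 : Real.log (p / q / Real.exp 2) ≤ p / q / Real.exp 2 - 1 :=
    Real.log_le_sub_one_of_pos (by positivity)
  rw [Real.log_div (by positivity) (by positivity), Real.log_exp] at h1
  have hexp : (7:ℝ) ≤ Real.exp 2 := by
    have h2 : Real.exp 2 = Real.exp 1 ^ 2 := by
      rw [← Real.exp_nat_mul]
      norm_num
    rw [h2]
    have h3 := Real.exp_one_gt_d9
    nlinarith
  have h4 : p / q / Real.exp 2 ≤ p / q / 7 :=
    div_le_div_of_nonneg_left (by positivity) (by norm_num) hexp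
  have h5 : Real.log (p / q) ≤ p / q / 7 + 1 := by linarith
  have h6 : q * Real.log (p / q) ≤ q * (p / q / 7 + 1) := mul_le_mul_of_nonneg_left h5 hq.le
  have h7 : q * (p / q / 7 + 1) = p / 7 + q := by
    field_simp
  linarith

/-- The thin-section weight. -/
noncomputable def beta1 (p q a m : ℝ) (s : ℝ) : ℝ :=
  1 / (p + q) * Real.sqrt (a - s) * (1 - m / s)

section A1

variable {a m p q : ℝ}

lemma div_mem_unit {s : ℝ} (hm : 0 ≤ m) (hs : m ≤ s) : 0 ≤ 1 - m / s ∧ 1 - m / s ≤ 1 := by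
  have h0 : 0 ≤ s := hm.trans hs
  have h1 : 0 ≤ m / s := div_nonneg hm h0
  have h2 : m / s ≤ 1 := div_le_one_of_le₀ hs h0
  constructor <;> linarith

lemma cont_div_on (hm : 0 ≤ m) : ContinuousOn (fun s => m / s) (Icc m a) := by
  rcases hm.eq_or_lt with h | h
  · subst h
    simp only [zero_div]
    exact continuousOn_const
  · apply ContinuousOn.div continuousOn_const continuousOn_id
    intro s hs
    exact (h.trans_le hs.1).ne'

lemma beta1_continuousOn (hm : 0 ≤ m) :
    ContinuousOn (beta1 p q a m) (Icc m a) := by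
  unfold beta1
  apply ContinuousOn.mul
  · exact (continuous_const.mul (by fun_prop)).continuousOn
  · exact continuousOn_const.sub (cont_div_on hm)

/-- Admissibility of the thin-section weight. -/
lemma beta1_adm (hm : 0 ≤ m) (hma : m ≤ a) (hpa : p = Real.sqrt a) (hqm : q = Real.sqrt m)
    (hpq : 0 < p + q) : Adm ell0 m a (ck p q) (cH p q) (beta1 p q a m) := by
  have hp0 : 0 ≤ p := hpa ▸ Real.sqrt_nonneg _
  have hq0 : 0 ≤ q := hqm ▸ Real.sqrt_nonneg _
  have hp2 : p ^ 2 = a := by rw [hpa]; exact Real.sq_sqrt (hm.trans hma)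
  have hq2 : q ^ 2 = m := by rw [hqm]; exact Real.sq_sqrt hm
  have hbase : ∀ s ∈ Icc m a, 0 ≤ beta1 p q a m s := by
    intro s hs
    have := (div_mem_unit hm hs.1).1
    unfold beta1
    positivity
  have hsqrt : ∀ s ∈ Icc m a, Real.sqrt (a - s) ≤ p := by
    intro s hs
    rw [hpa]
    exact Real.sqrt_le_sqrt (by linarith [hm.trans hs.1])
  refine ⟨beta1_continuousOn hm, hbase, ?_, ?_⟩
  · intro s hs
    have h1 := div_mem_unit hm hs.1
    have h2 := hsqrt s hs
    have h3 : 1 / (p + q) * Real.sqrt (a - s) ≤ 1 := by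
      rw [div_mul_eq_mul_div, one_mul, div_le_one hpq]
      linarith
    have h4 : 0 ≤ 1 / (p + q) * Real.sqrt (a - s) := by positivity
    unfold beta1
    nlinarith
  · intro s hs
    have hid := chord_identity hpq s
    rw [hp2, hq2] at hid
    have hs0 : 0 ≤ s := hm.trans hs.1
    have has : 0 ≤ a - s := by linarith [hs.2]
    have hsm : 0 ≤ s - m := by linarith [hs.1]
    unfold ell0
    have hq1 := div_mem_unit hm hs.1
    set d := 1 - m / s with hd
    have hkey : s * d ^ 2 ≤ s - m := by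
      rcases hs0.eq_or_lt with h | h
      · rw [← h]
        have : m = 0 := le_antisymm (by linarith [hs.1]) hm
        simp [this]
      · have e : s * d = s - m := by
          rw [hd]
          field_simp
        have : s * d ^ 2 = (s - m) * d := by
          rw [← e]
          ring
        rw [this]
        nlinarith
    have hβ2 : beta1 p q a m s ^ 2 = 1 / (p + q) ^ 2 * (a - s) * d ^ 2 := by
      unfold beta1
      rw [mul_pow, mul_pow, Real.sq_sqrt has]
      simp only [one_div, inv_pow, hd]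
    have hpos : 0 < (p + q) ^ 2 := by positivity
    have hgoal : (ck p q + cH p q * s) ^ 2 = 4 * Real.pi * s
        - 4 * Real.pi * ((a - s) * (s - m)) / (p + q) ^ 2 := by linarith
    rw [hgoal, hβ2]
    have hπ := Real.pi_pos
    have e2 : (1 - 1 / (p + q) ^ 2 * (a - s) * d ^ 2) * (4 * Real.pi * s)
        = 4 * Real.pi * s - 4 * Real.pi * ((a - s) * (s * d ^ 2)) / (p + q) ^ 2 := by
      field_simp
    rw [e2]
    have h5 : (a - s) * (s * d ^ 2) ≤ (a - s) * (s - m) := mul_le_mul_of_nonneg_left hkey has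
    have h6 : 4 * Real.pi * ((a - s) * (s * d ^ 2)) / (p + q) ^ 2
        ≤ 4 * Real.pi * ((a - s) * (s - m)) / (p + q) ^ 2 := by
      apply div_le_div_of_nonneg_right _ hpos.le
      exact mul_le_mul_of_nonneg_left h5 (by positivity)
    linarith

/-- Lower bound for the integral of the thin-section weight. -/
lemma beta1_integral (hm : 0 ≤ m) (hma : m ≤ a) (hpa : p = Real.sqrt a)
    (hpq : 0 < p + q) :
    (2 / 3 * Real.sqrt (a - m) ^ 3 - m * p * Real.log (a / m)) / (p + q)
      ≤ ∫ s in m..a, beta1 p q a m s := by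
  have hp0 : 0 ≤ p := hpa ▸ Real.sqrt_nonneg _
  have hc := beta1_continuousOn (p := p) (q := q) (a := a) hm
  have hint : IntervalIntegrable (beta1 p q a m) volume m a :=
    (hc.mono (by rw [uIcc_of_le hma])).intervalIntegrable
  have hsq : Continuous fun s => Real.sqrt (a - s) := by fun_prop
  have e0 := integral_sqrt_sub hma
  rcases hm.eq_or_lt with h | h
  · -- no thin part at all
    subst h
    have e : ∫ s in (0:ℝ)..a, beta1 p q a 0 s = 1 / (p + q) * ∫ s in (0:ℝ)..a, Real.sqrt (a - s) := by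
      rw [← intervalIntegral.integral_const_mul]
      apply intervalIntegral.integral_congr
      intro s _
      simp [beta1]
    rw [e, e0]
    apply le_of_eq
    simp only [sub_zero, zero_mul]
    ring
  · -- the logarithmic loss
    have hpos : ∀ s ∈ Icc m a, 0 < s := fun s hs => h.trans_le hs.1
    have hdiv : ContinuousOn (fun s => m / s * p) (Icc m a) := (cont_div_on hm).mul continuousOn_const
    have hlow : ∀ s ∈ Icc m a, 1 / (p + q) * (Real.sqrt (a - s) - m / s * p) ≤ beta1 p q a m s := by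
      intro s hs
      unfold beta1
      have hs1 := hpos s hs
      have h1 : Real.sqrt (a - s) ≤ p := by
        rw [hpa]
        exact Real.sqrt_le_sqrt (by linarith)
      have h2 : 0 ≤ m / s := div_nonneg hm hs1.le
      have h3 : m / s * Real.sqrt (a - s) ≤ m / s * p := mul_le_mul_of_nonneg_left h1 h2
      have h4 : 0 ≤ 1 / (p + q) := by positivity
      have h5 : 1 / (p + q) * Real.sqrt (a - s) * (1 - m / s)
          = 1 / (p + q) * (Real.sqrt (a - s) - m / s * Real.sqrt (a - s)) := by ring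
      rw [h5]
      exact mul_le_mul_of_nonneg_left (by linarith) h4
    have hint2 : IntervalIntegrable (fun s => 1 / (p + q) * (Real.sqrt (a - s) - m / s * p)) volume m a := by
      apply ContinuousOn.intervalIntegrable
      rw [uIcc_of_le hma]
      exact continuousOn_const.mul (hsq.continuousOn.sub hdiv)
    have hmono := intervalIntegral.integral_mono_on hma hint2 hint hlow
    refine le_trans (le_of_eq ?_) hmono
    rw [intervalIntegral.integral_const_mul, intervalIntegral.integral_sub (hsq.intervalIntegrable _ _)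
      ((hdiv.mono (by rw [uIcc_of_le hma])).intervalIntegrable), e0]
    have hlog : ∫ s in m..a, m / s * p = m * p * Real.log (a / m) := by
      have e1 : ∀ s, m / s * p = (m * p) * (1 / s) := fun s => by ring
      simp only [e1]
      rw [intervalIntegral.integral_const_mul, integral_one_div_of_pos h (h.trans_le hma)]
    rw [hlog]
    ring

/-- The constant term of the thin-section calibration. -/
theorem A1_core {lam : ℝ} (hm : 0 ≤ m) (hma : m ≤ a) (hpa : p = Real.sqrt a)
    (hqm : q = Real.sqrt m) (hp : 0 < p)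
    (hineq : 4 * p ^ 2 * q + 6 * p * q ^ 2 + 4 / 3 * q ^ 3
      + 2 * q ^ 2 * p * Real.log (a / m) + 4 * lam * q ^ 2 * (p + q)
      ≤ 2 * Real.sqrt Real.pi * (p * q)) :
    4 / 3 * (p + q) ^ 2 + lam * (4 * m) ≤ ck p q + 2 * ∫ s in m..a, beta1 p q a m s := by
  have hq0 : 0 ≤ q := hqm ▸ Real.sqrt_nonneg _
  have hpq : 0 < p + q := by linarith
  have ha0 : 0 ≤ a := hm.trans hma
  have hp2 : p ^ 2 = a := by rw [hpa]; exact Real.sq_sqrt ha0
  have hq2 : q ^ 2 = m := by rw [hqm]; exact Real.sq_sqrt hm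
  have hI := beta1_integral (q := q) hm hma hpa hpq
  set r := Real.sqrt (a - m) with hr
  have hr0 : 0 ≤ r := Real.sqrt_nonneg _
  have hr2 : r ^ 2 = p ^ 2 - q ^ 2 := by
    rw [hr, hp2, hq2]
    exact Real.sq_sqrt (by linarith)
  have hr3 := sqrt_three_bound hr0 hp.le hr2
  have hmain : (4 / 3 * (p + q) ^ 2 + lam * (4 * m)) * (p + q)
      ≤ (ck p q + 2 * ((2 / 3 * r ^ 3 - m * p * Real.log (a / m)) / (p + q))) * (p + q) := by
    have e1 : (ck p q + 2 * ((2 / 3 * r ^ 3 - m * p * Real.log (a / m)) / (p + q))) * (p + q)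
        = 2 * Real.sqrt Real.pi * (p * q) + 2 * (2 / 3 * r ^ 3 - m * p * Real.log (a / m)) := by
      unfold ck
      field_simp
    rw [e1, ← hq2]
    have e2 : (4 / 3 * (p + q) ^ 2 + lam * (4 * q ^ 2)) * (p + q)
        = 4 / 3 * p ^ 3 + 4 * p ^ 2 * q + 4 * p * q ^ 2 + 4 / 3 * q ^ 3 + 4 * lam * q ^ 2 * (p + q) := by
      ring
    rw [e2]
    rw [← hq2] at hineq
    nlinarith
  have h3 := le_of_mul_le_mul_right hmain hpq
  linarith

/-- The final form of the thin-section estimate. -/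
theorem A1_value {lam V : ℝ} (hV : 0 ≤ V) (hm : 0 ≤ m) (hma : m ≤ a) (hpa : p = Real.sqrt a)
    (hqm : q = Real.sqrt m) (hp : 0 < p)
    (hineq : 4 * p ^ 2 * q + 6 * p * q ^ 2 + 4 / 3 * q ^ 3
      + 2 * q ^ 2 * p * Real.log (a / m) + 4 * lam * q ^ 2 * (p + q)
      ≤ 2 * Real.sqrt Real.pi * (p * q)) :
    Adm ell0 m a (ck p q) (cH p q) (beta1 p q a m) ∧
    profileJ V + lam * (4 * m) ≤ ck p q + cH p q * V + 2 * ∫ s in m..a, beta1 p q a m s := by
  have hq0 : 0 ≤ q := hqm ▸ Real.sqrt_nonneg _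
  have hpq : 0 < p + q := by linarith
  refine ⟨beta1_adm hm hma hpa hqm hpq, ?_⟩
  have h1 := A1_core hm hma hpa hqm hp hineq
  have hJ := profileJ_le_ball V
  have hb : (36 * Real.pi) ^ (1 / 3 : ℝ) * V ^ (2 / 3 : ℝ) ≤ 4 / 3 * (p + q) ^ 2 + cH p q * V := by
    apply ball_le_line (by positivity) (by unfold cH; positivity) _ hV
    unfold cH
    have hs := sqrt_pi_sq
    apply le_of_eq
    rw [div_pow, mul_pow, hs]
    field_simp
    ring
  linarith

/-- The hypothesis of the thin-section estimate, from simple bounds. -/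
lemma A1_hyp {lam p₀ x₀ : ℝ} (hlam : 0 ≤ lam) (hx₀ : 0 ≤ x₀) (hm : 0 ≤ m) (hpa : p = Real.sqrt a)
    (hqm : q = Real.sqrt m) (hp : 0 < p) (hpp : p ≤ p₀) (hqx : q ≤ x₀ * p)
    (hc : p₀ * (4 + 4 / 7 + 10 * x₀ + 4 / 3 * x₀ ^ 2 + 4 * lam * x₀ * (1 + x₀)) ≤ 2 * 1.7724) :
    4 * p ^ 2 * q + 6 * p * q ^ 2 + 4 / 3 * q ^ 3
      + 2 * q ^ 2 * p * Real.log (a / m) + 4 * lam * q ^ 2 * (p + q)
      ≤ 2 * Real.sqrt Real.pi * (p * q) := by
  have hq0 : 0 ≤ q := hqm ▸ Real.sqrt_nonneg _
  rcases hq0.eq_or_lt with hq | hq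
  · rw [← hq]
    simp
  have hp2 : p ^ 2 = a := by
    rw [hpa]
    apply Real.sq_sqrt
    by_contra hneg
    push Not at hneg
    rw [Real.sqrt_eq_zero_of_nonpos hneg.le] at hpa
    linarith
  have hq2 : q ^ 2 = m := by rw [hqm]; exact Real.sq_sqrt hm
  have hlog := log_ratio_bound hp hq
  rw [hp2, hq2] at hlog
  have hsqrtpi : (1.7724:ℝ) ≤ Real.sqrt Real.pi := by
    apply Real.le_sqrt_of_sq_le
    have := Real.pi_gt_d6
    norm_num at this ⊢
    linarith
  have hpq : 0 < p * q := mul_pos hp hq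
  -- divide by p q
  have hx : q ≤ x₀ * p := hqx
  have hbound : 4 * p + 6 * q + 4 / 3 * (x₀ * q) + (2 * p / 7 + 2 * q) * 2 + 4 * lam * (x₀ * (p + q))
      ≤ p * (4 + 4 / 7 + 10 * x₀ + 4 / 3 * x₀ ^ 2 + 4 * lam * x₀ * (1 + x₀)) := by
    have h1 : q ≤ x₀ * p := hx
    have h2 : x₀ * q ≤ x₀ * (x₀ * p) := mul_le_mul_of_nonneg_left h1 hx₀
    have h3 : lam * (x₀ * (p + q)) ≤ lam * (x₀ * (p + x₀ * p)) := by
      apply mul_le_mul_of_nonneg_left _ hlam
      apply mul_le_mul_of_nonneg_left _ hx₀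
      linarith
    nlinarith
  have hb2 : p * (4 + 4 / 7 + 10 * x₀ + 4 / 3 * x₀ ^ 2 + 4 * lam * x₀ * (1 + x₀)) ≤ 2 * 1.7724 := by
    refine le_trans (mul_le_mul_of_nonneg_right hpp ?_) hc
    positivity
  have hfinal : 4 * p + 6 * q + 4 / 3 * (x₀ * q) + (2 * p / 7 + 2 * q) * 2 + 4 * lam * (x₀ * (p + q))
      ≤ 2 * Real.sqrt Real.pi := by linarith
  have hmul := mul_le_mul_of_nonneg_left hfinal hpq.le
  have t1 : 4 / 3 * q ^ 3 ≤ p * q * (4 / 3 * (x₀ * q)) := by
    have : q * q ^ 2 ≤ (x₀ * p) * q ^ 2 := mul_le_mul_of_nonneg_right hx (by positivity)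
    nlinarith
  have t2 : 2 * q ^ 2 * p * Real.log (a / m) ≤ p * q * ((2 * p / 7 + 2 * q) * 2) := by
    have : p * q * (2 * (q * Real.log (a / m))) ≤ p * q * (2 * (2 * p / 7 + 2 * q)) := by
      apply mul_le_mul_of_nonneg_left _ hpq.le
      linarith
    nlinarith
  have t3 : 4 * lam * q ^ 2 * (p + q) ≤ p * q * (4 * lam * (x₀ * (p + q))) := by
    have h1 : q ^ 2 * (p + q) ≤ (x₀ * p) * q * (p + q) := by
      have : q * (q * (p + q)) ≤ (x₀ * p) * (q * (p + q)) :=
        mul_le_mul_of_nonneg_right hx (by positivity)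
      nlinarith
    have h2 : 4 * lam * (q ^ 2 * (p + q)) ≤ 4 * lam * ((x₀ * p) * q * (p + q)) :=
      mul_le_mul_of_nonneg_left h1 (by positivity)
    nlinarith
  nlinarith

end A1

end Vale.Agent.Lib.P232
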