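import Vale.Agent.Lib.P232.RA2

open MeasureTheory Set intervalIntegral

namespace Vale.Agent.Lib.P232

section Chord

variable {a m p q : ℝ}

/-- The bare chord is admissible. -/
lemma chord_adm (hm : 0 ≤ m) (hma : m ≤ a) (hpa : p = Real.sqrt a) (hqm : q = Real.sqrt m)
    (hpq : 0 < p + q) : Adm ell0 m a (ck p q) (cH p q) (fun _ => 0) := by
  have hp2 : p ^ 2 = a := by rw [hpa]; exact Real.sq_sqrt (hm.trans hma)
  have hq2 : q ^ 2 = m := by rw [hqm]; exact Real.sq_sqrt hm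
  refine ⟨continuousOn_const, fun _ _ => le_rfl, fun _ _ => zero_le_one, fun s hs => ?_⟩
  have hid := chord_identity hpq s
  rw [hp2, hq2] at hid
  have h1 : 0 ≤ 4 * Real.pi * ((a - s) * (s - m)) / (p + q) ^ 2 := by
    have h2 : 0 ≤ a - s := by linarith [hs.2]
    have h3 : 0 ≤ s - m := by linarith [hs.1]
    have := Real.pi_pos
    positivity
  unfold ell0
  simp only [ne_eq, OfNat.ofNat_ne_zero, not_false_eq_true, zero_pow, sub_zero, one_mul]
  linarith

/-- The short-chord estimate. -/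
theorem A2_value {V : ℝ} (hV : 0 ≤ V) (hp : 0 < p) (hq : 0 ≤ q)
    (hc : (p + q) ^ 3 ≤ 3 * Real.sqrt Real.pi / 2 * (p * q)) :
    profileJ V ≤ ck p q + cH p q * V := by
  have hpq : 0 < p + q := by linarith
  have hJ := profileJ_le_ball V
  have hr : 0 < Real.sqrt Real.pi := Real.sqrt_pos.2 Real.pi_pos
  refine hJ.trans (ball_le_line (by unfold ck; positivity) (by unfold cH; positivity) ?_ hV)
  unfold ck cH
  have hs := sqrt_pi_sq
  rw [div_pow, mul_pow, hs]
  have e : 2 * Real.sqrt Real.pi * (p * q) / (p + q) * (2 ^ 2 * Real.pi / (p + q) ^ 2)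
      = 8 * Real.pi * (Real.sqrt Real.pi * (p * q)) / (p + q) ^ 3 := by
    field_simp
    ring
  rw [e, div_le_div_iff₀ (by norm_num) (by positivity)]
  have hπ := Real.pi_pos
  have : 16 * Real.pi * (p + q) ^ 3 ≤ 16 * Real.pi * (3 * Real.sqrt Real.pi / 2 * (p * q)) :=
    mul_le_mul_of_nonneg_left hc (by positivity)
  nlinarith

/-- The near-diagonal weight. -/
noncomputable def beta3 (p q a m : ℝ) (s : ℝ) : ℝ :=
  1 / (p * (p + q)) * Real.sqrt ((a - s) * (s - m))

lemma integral_semicircle_general (hma : m ≤ a) :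
    ∫ s in m..a, Real.sqrt ((a - s) * (s - m)) = Real.pi / 8 * (a - m) ^ 2 := by
  rcases hma.eq_or_lt with h | h
  · subst h
    simp
  set ρ := (a - m) / 2 with hρ
  set c := (a + m) / 2 with hc
  have hρ0 : 0 < ρ := by rw [hρ]; linarith
  have h1 := intervalIntegral.mul_integral_comp_mul_add (a := (-1:ℝ)) (b := 1)
    (f := fun s => Real.sqrt ((a - s) * (s - m))) (c := ρ) (d := c)
  have e1 : ρ * (-1) + c = m := by rw [hρ, hc]; ring
  have e2 : ρ * 1 + c = a := by rw [hρ, hc]; ring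
  rw [e1, e2] at h1
  rw [← h1]
  have e3 : ∀ x : ℝ, Real.sqrt ((a - (ρ * x + c)) * (ρ * x + c - m)) = ρ * Real.sqrt (1 - x ^ 2) := by
    intro x
    have : (a - (ρ * x + c)) * (ρ * x + c - m) = ρ ^ 2 * (1 - x ^ 2) := by
      rw [hρ, hc]; ring
    rw [this, Real.sqrt_mul (by positivity), Real.sqrt_sq hρ0.le]
  simp only [e3]
  rw [intervalIntegral.integral_const_mul, integral_sqrt_one_sub_sq]
  rw [hρ]
  ring

lemma beta3_continuous : Continuous (beta3 p q a m) := by
  unfold beta3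
  fun_prop

/-- Admissibility of the near-diagonal weight. -/
lemma beta3_adm (hm : 0 ≤ m) (hma : m ≤ a) (hpa : p = Real.sqrt a) (hqm : q = Real.sqrt m)
    (hp : 0 < p) : Adm ell0 m a (ck p q) (cH p q) (beta3 p q a m) := by
  have hq0 : 0 ≤ q := hqm ▸ Real.sqrt_nonneg _
  have hpq : 0 < p + q := by linarith
  have hp2 : p ^ 2 = a := by rw [hpa]; exact Real.sq_sqrt (hm.trans hma)
  have hq2 : q ^ 2 = m := by rw [hqm]; exact Real.sq_sqrt hm
  have hd : 0 < p * (p + q) := by positivity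
  refine ⟨beta3_continuous.continuousOn, fun s _ => ?_, fun s hs => ?_, fun s hs => ?_⟩
  · unfold beta3
    positivity
  · unfold beta3
    rw [div_mul_eq_mul_div, one_mul, div_le_one hd]
    apply Real.sqrt_le_iff.2
    refine ⟨hd.le, ?_⟩
    have h1 : (a - s) * (s - m) ≤ ((a - m) / 2) ^ 2 := by nlinarith [sq_nonneg (a + m - 2 * s)]
    have h2 : (a - m) / 2 ≤ p * (p + q) := by
      rw [← hp2, ← hq2]
      nlinarith
    have h3 : 0 ≤ (a - m) / 2 := by linarith
    have h4 : ((a - m) / 2) ^ 2 ≤ (p * (p + q)) ^ 2 := pow_le_pow_left₀ h3 h2 2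
    linarith
  · have hid := chord_identity hpq s
    rw [hp2, hq2] at hid
    have has : 0 ≤ a - s := by linarith [hs.2]
    have hsm : 0 ≤ s - m := by linarith [hs.1]
    have hX : 0 ≤ (a - s) * (s - m) := mul_nonneg has hsm
    have hβ2 : beta3 p q a m s ^ 2 = (a - s) * (s - m) / (p ^ 2 * (p + q) ^ 2) := by
      unfold beta3
      rw [mul_pow, Real.sq_sqrt hX]
      field_simp
    have hgoal : (ck p q + cH p q * s) ^ 2 = 4 * Real.pi * s
        - 4 * Real.pi * ((a - s) * (s - m)) / (p + q) ^ 2 := by linarith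
    unfold ell0
    rw [hgoal, hβ2]
    have hπ := Real.pi_pos
    have e2 : (1 - (a - s) * (s - m) / (p ^ 2 * (p + q) ^ 2)) * (4 * Real.pi * s)
        = 4 * Real.pi * s - 4 * Real.pi * ((a - s) * (s - m)) / (p + q) ^ 2 * (s / p ^ 2) := by
      field_simp
    rw [e2]
    have h5 : s / p ^ 2 ≤ 1 := by
      rw [div_le_one (by positivity), hp2]
      exact hs.2
    have h6 : 0 ≤ 4 * Real.pi * ((a - s) * (s - m)) / (p + q) ^ 2 := by positivity
    nlinarith

lemma beta3_integral (hma : m ≤ a) :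
    ∫ s in m..a, beta3 p q a m s = 1 / (p * (p + q)) * (Real.pi / 8 * (a - m) ^ 2) := by
  unfold beta3
  rw [intervalIntegral.integral_const_mul, integral_semicircle_general hma]

/-- The near-diagonal estimate. -/
theorem A3_value {V : ℝ} (hV : 0 ≤ V) (hm : 0 ≤ m) (hma : m ≤ a) (hpa : p = Real.sqrt a)
    (hqm : q = Real.sqrt m) (hp : 0 < p) (hc : 2 * p ≤ (p + q) ^ 2 * Real.sqrt Real.pi) :
    profileJ V ≤ ck p q + cH p q * V + 2 * ∫ s in m..a, beta3 p q a m s := by
  have hq0 : 0 ≤ q := hqm ▸ Real.sqrt_nonneg _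
  have hpq : 0 < p + q := by linarith
  have hp2 : p ^ 2 = a := by rw [hpa]; exact Real.sq_sqrt (hm.trans hma)
  have hq2 : q ^ 2 = m := by rw [hqm]; exact Real.sq_sqrt hm
  have hr : 0 < Real.sqrt Real.pi := Real.sqrt_pos.2 Real.pi_pos
  rw [beta3_integral hma]
  have hJ := profileJ_le_tube V
  have hπ := Real.pi_pos
  have hC0 : 0 ≤ ck p q + 2 * (1 / (p * (p + q)) * (Real.pi / 8 * (a - m) ^ 2)) := by
    unfold ck
    positivity
  have hline := tube_le_line (c₀ := ck p q + 2 * (1 / (p * (p + q)) * (Real.pi / 8 * (a - m) ^ 2)))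
    (c₁ := cH p q) (v := V) hC0 (by unfold cH; positivity) ?_ hV
  · linarith
  · -- the product condition
    rw [← hp2, ← hq2]
    unfold ck cH
    set r := Real.sqrt Real.pi with hrr
    have hrs : r ^ 2 = Real.pi := sqrt_pi_sq
    rw [← hrs]
    have e : (2 * r * (p * q) / (p + q) + 2 * (1 / (p * (p + q)) * (r ^ 2 / 8 * (p ^ 2 - q ^ 2) ^ 2))) * (2 * r / (p + q)) - r ^ 2
        = r ^ 2 * (p - q) ^ 2 * ((p + q) ^ 2 * r - 2 * p) / (2 * p * (p + q) ^ 2) := by
      field_simp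
      ring
    have h2 : 0 ≤ r ^ 2 * (p - q) ^ 2 * ((p + q) ^ 2 * r - 2 * p) / (2 * p * (p + q) ^ 2) := by
      apply div_nonneg _ (by positivity)
      apply mul_nonneg (by positivity)
      linarith
    linarith

end Chord

/-- The small-volume leaf: thin sections, or a short chord. -/
theorem small_value {a m V : ℝ} (hV : 0 ≤ V) (hm : 0 ≤ m) (hma : m ≤ a) (ha0 : 0 < a)
    (ha : a ≤ 0.1056) : Value ell m a V (profileJ V) := by
  set p := Real.sqrt a with hp
  set q := Real.sqrt m with hq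
  have hp0 : 0 < p := Real.sqrt_pos.2 ha0
  have hq0 : 0 ≤ q := Real.sqrt_nonneg _
  have hpq : 0 < p + q := by linarith
  have hπ1 : a ≤ 1 / Real.pi := by
    have h1 : (0.1056:ℝ) ≤ 1 / Real.pi := by
      rw [le_div_iff₀ Real.pi_pos]
      have := Real.pi_lt_d6
      norm_num at this ⊢
      linarith
    linarith
  have hp1 : p ≤ 0.325 := by
    rw [hp]
    apply Real.sqrt_le_iff.2
    constructor
    · norm_num
    · norm_num
      norm_num at ha
      linarith
  by_cases hx : q ≤ 1 / 4 * p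
  · have hy := A1_hyp (lam := 0) (p₀ := 0.325) (x₀ := 1 / 4) (a := a) (m := m) (p := p) (q := q) le_rfl (by norm_num) hm rfl rfl hp0 hp1 hx
      (by norm_num)
    have h := A1_value (V := V) hV hm hma rfl rfl hp0 hy
    refine ⟨_, _, _, h.1.to_ell hπ1, ?_⟩
    have := h.2
    simpa using this
  · push Not at hx
    have hqp : q ≤ p := Real.sqrt_le_sqrt hma
    have hsqrtpi : (1.7724:ℝ) ≤ Real.sqrt Real.pi := by
      apply Real.le_sqrt_of_sq_le
      have := Real.pi_gt_d6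
      norm_num at this ⊢
      linarith
    have hc : (p + q) ^ 3 ≤ 3 * Real.sqrt Real.pi / 2 * (p * q) := by
      -- normalise by `p`
      set x := q / p with hxdef
      have hqx : q = x * p := by
        rw [hxdef]
        field_simp
      have hx1 : 1 / 4 ≤ x := by
        rw [hxdef, le_div_iff₀ hp0]
        linarith
      have hx2 : x ≤ 1 := by
        rw [hxdef, div_le_one hp0]
        exact hqp
      have hg : 0.325 * (1 + x) ^ 3 ≤ 2.6586 * x := by
        nlinarith [mul_nonneg (sub_nonneg.2 hx1) (sub_nonneg.2 hx2),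
          mul_nonneg (mul_nonneg (sub_nonneg.2 hx1) (sub_nonneg.2 hx2)) (by linarith : (0:ℝ) ≤ x)]
      have h1 : (p + q) ^ 3 = p ^ 2 * (p * (1 + x) ^ 3) := by
        rw [hqx]; ring
      have h2 : p * (1 + x) ^ 3 ≤ 0.325 * (1 + x) ^ 3 :=
        mul_le_mul_of_nonneg_right hp1 (by positivity)
      have h3 : p ^ 2 * (p * (1 + x) ^ 3) ≤ p ^ 2 * (2.6586 * x) :=
        mul_le_mul_of_nonneg_left (h2.trans hg) (by positivity)
      have h4 : 3 * Real.sqrt Real.pi / 2 * (p * q) = 3 * Real.sqrt Real.pi / 2 * x * p ^ 2 := by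
        rw [hqx]; ring
      rw [h1, h4]
      have hx0 : 0 ≤ x := by linarith
      have h5 : p ^ 2 * (2.6586 * x) ≤ p ^ 2 * (3 * Real.sqrt Real.pi / 2 * x) := by
        apply mul_le_mul_of_nonneg_left _ (by positivity)
        apply mul_le_mul_of_nonneg_right _ hx0
        linarith
      nlinarith
    have h := A2_value hV hp0 hq0 hc
    refine ⟨_, _, _, (chord_adm hm hma rfl rfl hpq).to_ell hπ1, ?_⟩
    simpa using h

/-- The near-diagonal leaf. -/
theorem diag_value {a m V : ℝ} (hV : 0 ≤ V) (hm : 0 ≤ m) (hma : m ≤ a) (ha0 : 0 < a)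
    (ha : a ≤ 1 / Real.pi) (hc : 2 * Real.sqrt a ≤ (Real.sqrt a + Real.sqrt m) ^ 2 * Real.sqrt Real.pi) :
    Value ell m a V (profileJ V) :=
  ⟨_, _, _, (beta3_adm hm hma rfl rfl (Real.sqrt_pos.2 ha0)).to_ell ha,
    A3_value hV hm hma rfl rfl (Real.sqrt_pos.2 ha0) hc⟩

/-- The thin-section leaf for the first kind of calibration. -/
theorem thin1_value {a m V p₀ x₀ : ℝ} (hV : 0 ≤ V) (hm : 0 ≤ m) (hma : m ≤ a) (ha0 : 0 < a)
    (ha : a ≤ 1 / Real.pi) (hp₀ : Real.sqrt a ≤ p₀) (hx₀ : 0 ≤ x₀) (hx : Real.sqrt m ≤ x₀ * Real.sqrt a)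
    (hc : p₀ * (4 + 4 / 7 + 10 * x₀ + 4 / 3 * x₀ ^ 2) ≤ 2 * 1.7724) :
    Value ell m a V (profileJ V) := by
  have hp0 := Real.sqrt_pos.2 ha0
  have hy := A1_hyp (lam := 0) (a := a) (m := m) le_rfl hx₀ hm rfl rfl hp0 hp₀ hx (by simpa using hc)
  have h := A1_value (V := V) hV hm hma rfl rfl hp0 hy
  refine ⟨_, _, _, h.1.to_ell ha, ?_⟩
  simpa using h.2

/-- The thin-section leaf for the second kind of calibration. -/
theorem thin2_value {a m V p₀ x₀ : ℝ} (hV : 0 ≤ V) (hm : 0 ≤ m) (hma : m ≤ a) (ha0 : 0 < a)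
    (hp₀ : Real.sqrt a ≤ p₀) (hx₀ : 0 ≤ x₀) (hx : Real.sqrt m ≤ x₀ * Real.sqrt a)
    (hc : p₀ * (4 + 4 / 7 + 14 * x₀ + 16 / 3 * x₀ ^ 2) ≤ 2 * 1.7724) :
    Value ell0 m a V (profileJ V + 4 * m) := by
  have hp0 := Real.sqrt_pos.2 ha0
  have hy := A1_hyp (lam := 1) (a := a) (m := m) zero_le_one hx₀ hm rfl rfl hp0 hp₀ hx
    (by nlinarith)
  have h := A1_value (V := V) hV hm hma rfl rfl hp0 hy
  refine ⟨_, _, _, h.1, ?_⟩
  simpa using h.2

/-- The plateau leaf. -/
theorem plateau_value {a m V : ℝ} (hm : 1 / Real.pi ≤ m) (ha : a ≤ 1 - 1 / Real.pi) :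
    Value ell m a V (profileJ V) := by
  refine ⟨2, 0, fun _ => 0, ⟨continuousOn_const, fun _ _ => le_rfl, fun _ _ => zero_le_one, ?_⟩, ?_⟩
  · intro s hs
    have hπ := Real.pi_pos
    have h1 : 1 / Real.pi ≤ s := hm.trans hs.1
    have h2 : s ≤ 1 - 1 / Real.pi := hs.2.trans ha
    have h3 : 1 ≤ Real.pi * s := by
      rw [div_le_iff₀ hπ] at h1
      linarith
    have h4 : 1 ≤ Real.pi * (1 - s) := by
      have : 1 / Real.pi ≤ 1 - s := by linarith
      rw [div_le_iff₀ hπ] at this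
      linarith
    have : (4:ℝ) ≤ ell s := by
      unfold ell
      refine le_min (le_min ?_ le_rfl) ?_ <;> nlinarith
    norm_num
    linarith
  · have := profileJ_le_two V
    simpa using this

end Vale.Agent.Lib.P232
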