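import Vale.Agent.Lib.P232.RA3

open MeasureTheory Set intervalIntegral

namespace Vale.Agent.Lib.P232

lemma ell_symm (s : ℝ) : ell (1 - s) = ell s := by
  unfold ell
  have e : 1 - (1 - s) = s := by ring
  rw [e]
  simp only [min_comm, min_left_comm]

lemma ell_eq_of_le' {s : ℝ} (h : 1 - s ≤ 1 / Real.pi) : ell s = 4 * Real.pi * (1 - s) := by
  rw [← ell_symm, ell_eq_of_le h]

/-- The weight used near the corner `m = 0`, `a = 1`. -/
noncomputable def beta4 (ε s : ℝ) : ℝ :=
  max 0 (1 - ε * (1 / max s ε + Real.pi + 1 / max (1 - s) ε))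

lemma beta4_continuous {ε : ℝ} (hε : 0 ≤ ε) : Continuous (beta4 ε) := by
  rcases hε.eq_or_lt with h | h
  · subst h
    have : beta4 0 = fun _ => 1 := by
      funext s
      simp [beta4]
    rw [this]
    exact continuous_const
  · unfold beta4
    apply Continuous.max continuous_const
    apply continuous_const.sub
    apply continuous_const.mul
    have h1 : Continuous fun s : ℝ => 1 / max s ε := by
      apply Continuous.div continuous_const (by fun_prop)
      intro s
      exact (lt_of_lt_of_le h (le_max_right _ _)).ne'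
    have h2 : Continuous fun s : ℝ => 1 / max (1 - s) ε := by
      apply Continuous.div continuous_const (by fun_prop)
      intro s
      exact (lt_of_lt_of_le h (le_max_right _ _)).ne'
    exact (h1.add continuous_const).add h2

lemma beta4_nonneg (ε s : ℝ) : 0 ≤ beta4 ε s := le_max_left _ _

lemma beta4_le_one {ε : ℝ} (hε : 0 ≤ ε) (s : ℝ) : beta4 ε s ≤ 1 := by
  unfold beta4
  apply max_le zero_le_one
  have h1 : 0 ≤ 1 / max s ε + Real.pi + 1 / max (1 - s) ε := by
    have h2 : 0 ≤ max s ε := hε.trans (le_max_right _ _)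
    have h3 : 0 ≤ max (1 - s) ε := hε.trans (le_max_right _ _)
    have := Real.pi_pos
    positivity
  have := mul_nonneg hε h1
  linarith

/-- The constraint for the corner weight: the chord is small and below the profile. -/
lemma beta4_con {ε w s : ℝ} (hε : 0 ≤ ε) (hw1 : w ^ 2 ≤ ell s) (hw2 : w ^ 2 ≤ 4 * Real.pi * ε) :
    w ^ 2 ≤ (1 - beta4 ε s ^ 2) * ell s := by
  have hπ := Real.pi_pos
  rcases hε.eq_or_lt with h0 | h0
  · subst h0
    have hw0 : w ^ 2 ≤ 0 := by simpa using hw2
    have h1 : beta4 0 s = 1 := by simp [beta4]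
    rw [h1]
    simpa using hw0
  set R := ε * (1 / max s ε + Real.pi + 1 / max (1 - s) ε) with hR
  have hb : beta4 ε s = max 0 (1 - R) := rfl
  by_cases hR1 : 1 ≤ R
  · have : beta4 ε s = 0 := by
      rw [hb]
      exact max_eq_left (by linarith)
    rw [this]
    simpa using hw1
  · push Not at hR1
    have hmax0 : 0 < max s ε := lt_of_lt_of_le h0 (le_max_right _ _)
    have hmax1 : 0 < max (1 - s) ε := lt_of_lt_of_le h0 (le_max_right _ _)
    have hR_pos : 0 ≤ ε * Real.pi := by positivity
    have ht1 : 0 < 1 / max (1 - s) ε := by positivity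
    have ht0 : 0 < 1 / max s ε := by positivity
    -- the point is in the middle
    have hs1 : ε < s := by
      by_contra hneg
      push Not at hneg
      have e : max s ε = ε := max_eq_right hneg
      have : 1 ≤ R := by
        rw [hR, e]
        have : ε * (1 / ε + Real.pi + 1 / max (1 - s) ε) = 1 + ε * Real.pi + ε * (1 / max (1 - s) ε) := by
          field_simp
        rw [this]
        have : 0 ≤ ε * (1 / max (1 - s) ε) := by positivity
        linarith
      linarith
    have hs2 : ε < 1 - s := by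
      by_contra hneg
      push Not at hneg
      have e : max (1 - s) ε = ε := max_eq_right hneg
      have : 1 ≤ R := by
        rw [hR, e]
        have : ε * (1 / max s ε + Real.pi + 1 / ε) = 1 + ε * Real.pi + ε * (1 / max s ε) := by
          field_simp
          ring
        rw [this]
        have : 0 ≤ ε * (1 / max s ε) := by positivity
        linarith
      linarith
    have e0 : max s ε = s := max_eq_left hs1.le
    have e1 : max (1 - s) ε = 1 - s := max_eq_left hs2.le
    have hs0 : 0 < s := h0.trans hs1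
    have hs3 : 0 < 1 - s := h0.trans hs2
    have hRe : R = ε * (1 / s + Real.pi + 1 / (1 - s)) := by
      rw [hR, e0, e1]
    have hR0 : 0 ≤ R := by
      rw [hRe]
      positivity
    have hbeta : beta4 ε s = 1 - R := by
      rw [hb]
      exact max_eq_right (by linarith)
    rw [hbeta]
    have hfac : R ≤ 1 - (1 - R) ^ 2 := by nlinarith
    -- `R * ell s` dominates `4 π ε`
    have hkey : 4 * Real.pi * ε ≤ R * ell s := by
      have c1 : 4 * Real.pi * ε ≤ R * (4 * Real.pi * s) := by
        rw [hRe]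
        have : ε * (1 / s + Real.pi + 1 / (1 - s)) * (4 * Real.pi * s)
            = 4 * Real.pi * ε + 4 * Real.pi * s * ε * (Real.pi + 1 / (1 - s)) := by
          field_simp
          ring
        rw [this]
        have : 0 ≤ 4 * Real.pi * s * ε * (Real.pi + 1 / (1 - s)) := by positivity
        linarith
      have c2 : 4 * Real.pi * ε ≤ R * 4 := by
        rw [hRe]
        have : 0 ≤ ε * (1 / s + 1 / (1 - s)) * 4 := by positivity
        nlinarith
      have c3 : 4 * Real.pi * ε ≤ R * (4 * Real.pi * (1 - s)) := by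
        rw [hRe]
        have : ε * (1 / s + Real.pi + 1 / (1 - s)) * (4 * Real.pi * (1 - s))
            = 4 * Real.pi * ε + 4 * Real.pi * (1 - s) * ε * (1 / s + Real.pi) := by
          field_simp
          ring
        rw [this]
        have : 0 ≤ 4 * Real.pi * (1 - s) * ε * (1 / s + Real.pi) := by positivity
        linarith
      unfold ell
      rcases min_choice (min (4 * Real.pi * s) 4) (4 * Real.pi * (1 - s)) with e | e
      · rw [e]
        rcases min_choice (4 * Real.pi * s) 4 with e' | e'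
        · rw [e']; exact c1
        · rw [e']; exact c2
      · rw [e]; exact c3
    have hell : 0 ≤ ell s := le_trans (sq_nonneg _) hw1
    have : R * ell s ≤ (1 - (1 - R) ^ 2) * ell s := mul_le_mul_of_nonneg_right hfac hell
    linarith

/-- The integral of the corner weight. -/
lemma beta4_integral {ε m a : ℝ} (h0 : 0 < ε) (hε : ε ≤ 0.001) (hm0 : m ≤ ε) (ha : 1 - ε ≤ a) :
    1 - 2 * ε - ε * (2 * Real.log (1 / ε) + Real.pi) ≤ ∫ s in m..a, beta4 ε s := by
  have hc := beta4_continuous h0.le
  have hmid : ε ≤ 1 - ε := by norm_num at hε; linarith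
  have i1 := hc.intervalIntegrable (μ := volume)
  have e := intervalIntegral.integral_add_adjacent_intervals (i1 m ε) (i1 ε a)
  have e' := intervalIntegral.integral_add_adjacent_intervals (i1 ε (1 - ε)) (i1 (1 - ε) a)
  have p1 : 0 ≤ ∫ s in m..ε, beta4 ε s :=
    intervalIntegral.integral_nonneg hm0 fun s _ => beta4_nonneg ε s
  have p2 : 0 ≤ ∫ s in (1 - ε)..a, beta4 ε s :=
    intervalIntegral.integral_nonneg ha fun s _ => beta4_nonneg ε s
  have hs1 : 0 < 1 - ε := by norm_num at hε; linarith
  have cf1 : ContinuousOn (fun s : ℝ => 1 / s) (Icc ε (1 - ε)) :=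
    continuousOn_const.div continuousOn_id fun s hs => (h0.trans_le hs.1).ne'
  have cf2 : ContinuousOn (fun s : ℝ => 1 / (1 - s)) (Icc ε (1 - ε)) :=
    continuousOn_const.div (continuousOn_const.sub continuousOn_id) fun s hs => by
      have := hs.2
      have : 0 < 1 - s := by linarith
      exact this.ne'
  have hlow : ∀ s ∈ Icc ε (1 - ε), 1 - ε * (1 / s + Real.pi + 1 / (1 - s)) ≤ beta4 ε s := by
    intro s hs
    unfold beta4
    rw [max_eq_left hs.1, max_eq_left (by linarith [hs.2] : ε ≤ 1 - s)]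
    exact le_max_right _ _
  have cfull : ContinuousOn (fun s : ℝ => 1 - ε * (1 / s + Real.pi + 1 / (1 - s))) (Icc ε (1 - ε)) :=
    continuousOn_const.sub (continuousOn_const.mul ((cf1.add continuousOn_const).add cf2))
  have hii : IntervalIntegrable (fun s : ℝ => 1 - ε * (1 / s + Real.pi + 1 / (1 - s))) volume ε (1 - ε) :=
    (cfull.mono (by rw [uIcc_of_le hmid])).intervalIntegrable
  have hmono := intervalIntegral.integral_mono_on hmid hii (i1 ε (1 - ε)) hlow
  have ii1 : IntervalIntegrable (fun s : ℝ => 1 / s) volume ε (1 - ε) :=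
    (cf1.mono (by rw [uIcc_of_le hmid])).intervalIntegrable
  have ii2 : IntervalIntegrable (fun s : ℝ => 1 / (1 - s)) volume ε (1 - ε) :=
    (cf2.mono (by rw [uIcc_of_le hmid])).intervalIntegrable
  have hval : ∫ s in ε..(1 - ε), (1 - ε * (1 / s + Real.pi + 1 / (1 - s)))
      = (1 - 2 * ε) - ε * (2 * Real.log ((1 - ε) / ε) + Real.pi * (1 - 2 * ε)) := by
    have f1 : ∫ s in ε..(1 - ε), 1 / s = Real.log ((1 - ε) / ε) :=
      integral_one_div_of_pos h0 hs1
    have f2 : ∫ s in ε..(1 - ε), 1 / (1 - s) = Real.log ((1 - ε) / ε) := by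
      have := intervalIntegral.integral_comp_sub_left (a := ε) (b := 1 - ε) (fun x : ℝ => 1 / x) 1
      rw [this]
      have e1 : (1:ℝ) - (1 - ε) = ε := by ring
      rw [e1]
      exact integral_one_div_of_pos h0 hs1
    have c1 : IntervalIntegrable (fun s : ℝ => 1 / s + Real.pi) volume ε (1 - ε) :=
      ii1.add intervalIntegrable_const
    rw [intervalIntegral.integral_sub intervalIntegrable_const ((c1.add ii2).const_mul ε),
      intervalIntegral.integral_const_mul, intervalIntegral.integral_add c1 ii2,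
      intervalIntegral.integral_add ii1 intervalIntegrable_const, f1, f2]
    simp only [intervalIntegral.integral_const, smul_eq_mul, mul_one]
    ring
  rw [hval] at hmono
  have hlogmono : Real.log ((1 - ε) / ε) ≤ Real.log (1 / ε) := by
    apply Real.log_le_log (by positivity)
    apply div_le_div_of_nonneg_right _ h0.le
    linarith
  have hmul : ε * (2 * Real.log ((1 - ε) / ε) + Real.pi * (1 - 2 * ε))
      ≤ ε * (2 * Real.log (1 / ε) + Real.pi) := by
    apply mul_le_mul_of_nonneg_left _ h0.le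
    have := Real.pi_pos
    nlinarith
  linarith

/-- The logarithm estimate at the corner. -/
lemma corner_log {u : ℝ} (hu : 0 < u) : u * Real.log (1 / u) ≤ 1 / 20 + 2 * u := by
  have h1 : Real.log (1 / u / Real.exp 3) ≤ 1 / u / Real.exp 3 - 1 :=
    Real.log_le_sub_one_of_pos (by positivity)
  rw [Real.log_div (by positivity) (by positivity), Real.log_exp] at h1
  have hexp : (20:ℝ) ≤ Real.exp 3 := by
    have h2 : Real.exp 3 = Real.exp 1 ^ 3 := by
      rw [← Real.exp_nat_mul]
      norm_num
    rw [h2]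
    have h3 := Real.exp_one_gt_d9
    have h4 : (2.7182818283:ℝ) ^ 3 ≤ Real.exp 1 ^ 3 := pow_le_pow_left₀ (by norm_num) h3.le 3
    norm_num at h4 ⊢
    linarith
  have h4 : 1 / u / Real.exp 3 ≤ 1 / u / 20 :=
    div_le_div_of_nonneg_left (by positivity) (by norm_num) hexp
  have h5 : Real.log (1 / u) ≤ 1 / u / 20 + 2 := by linarith
  have h6 : u * Real.log (1 / u) ≤ u * (1 / u / 20 + 2) := mul_le_mul_of_nonneg_left h5 hu.le
  have h7 : u * (1 / u / 20 + 2) = 1 / 20 + 2 * u := by
    field_simp
  linarith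

/-- The exact chord of `√ell` between `m` and `a` lies below the profile. -/
lemma exact_chord {m a ψm ψa t : ℝ} (hm : ψm ^ 2 ≤ ell m) (ha : ψa ^ 2 ≤ ell a) (ht0 : 0 ≤ t) (ht1 : t ≤ 1) :
    ((1 - t) * ψm + t * ψa) ^ 2 ≤ ell ((1 - t) * m + t * a) := by
  have ht' : 0 ≤ 1 - t := by linarith
  have hsq : ((1 - t) * ψm + t * ψa) ^ 2 ≤ (1 - t) * ψm ^ 2 + t * ψa ^ 2 := by
    nlinarith [mul_nonneg (mul_nonneg ht0 ht') (sq_nonneg (ψm - ψa))]
  have hcomb : (1 - t) * ell m + t * ell a ≤ ell ((1 - t) * m + t * a) := by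
    have hπ := Real.pi_pos
    have c1 : (1 - t) * ell m + t * ell a ≤ 4 * Real.pi * ((1 - t) * m + t * a) := by
      have h1 : ell m ≤ 4 * Real.pi * m := (min_le_left _ _).trans (min_le_left _ _)
      have h2 : ell a ≤ 4 * Real.pi * a := (min_le_left _ _).trans (min_le_left _ _)
      nlinarith
    have c2 : (1 - t) * ell m + t * ell a ≤ 4 := by
      have h1 : ell m ≤ 4 := (min_le_left _ _).trans (min_le_right _ _)
      have h2 : ell a ≤ 4 := (min_le_left _ _).trans (min_le_right _ _)
      nlinarith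
    have c3 : (1 - t) * ell m + t * ell a ≤ 4 * Real.pi * (1 - ((1 - t) * m + t * a)) := by
      have h1 : ell m ≤ 4 * Real.pi * (1 - m) := min_le_right _ _
      have h2 : ell a ≤ 4 * Real.pi * (1 - a) := min_le_right _ _
      nlinarith
    exact le_min (le_min c1 c2) c3
  have hc2 : (1 - t) * ψm ^ 2 + t * ψa ^ 2 ≤ (1 - t) * ell m + t * ell a := by
    have := mul_le_mul_of_nonneg_left hm ht'
    have := mul_le_mul_of_nonneg_left ha ht0
    linarith
  linarith

/-- The chord for the corner leaf. -/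
lemma corner_chord {a m V ε : ℝ} (hm0 : 0 ≤ m) (hm : m ≤ 0.0009) (ha : 1 - 0.0009 ≤ a) (ha1 : a ≤ 1)
    (hV : 0.351 ≤ V) (hV' : V ≤ 0.649) (hε : ε = max m (1 - a)) :
    ∃ k H : ℝ, (∀ s ∈ Icc m a, (k + H * s) ^ 2 ≤ ell s) ∧ (∀ s ∈ Icc m a, (k + H * s) ^ 2 ≤ 4 * Real.pi * ε)
      ∧ 0 ≤ k + H * V ∧ 0.35 * (2 * Real.sqrt Real.pi * Real.sqrt ε) ≤ k + H * V := by
  have hπ := Real.pi_pos
  have hma : m < a := by norm_num at hm ha; linarith
  have hd : 0 < a - m := by linarith
  have hε0 : 0 ≤ ε := by rw [hε]; exact hm0.trans (le_max_left _ _)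
  have hmε : m ≤ ε := by rw [hε]; exact le_max_left _ _
  set ψm := Real.sqrt (ell m) with hψm
  set ψa := Real.sqrt (ell a) with hψa
  have hinv : (0.31 : ℝ) ≤ 1 / Real.pi := by
    rw [le_div_iff₀ hπ]
    have := Real.pi_lt_d2
    norm_num at this ⊢
    linarith
  have hm1 : m ≤ 1 / Real.pi := by norm_num at hm; linarith
  have ha2 : 1 - a ≤ 1 / Real.pi := by norm_num at ha; linarith
  have ellm : ell m = 4 * Real.pi * m := ell_eq_of_le hm1
  have ella : ell a = 4 * Real.pi * (1 - a) := ell_eq_of_le' ha2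
  have hm2 : ψm ^ 2 = 4 * Real.pi * m := by
    rw [hψm, ← ellm]
    apply Real.sq_sqrt
    rw [ellm]
    positivity
  have ha3 : ψa ^ 2 = 4 * Real.pi * (1 - a) := by
    rw [hψa, ← ella]
    apply Real.sq_sqrt
    rw [ella]
    have : 0 ≤ 1 - a := by linarith
    positivity
  have hψm0 : 0 ≤ ψm := Real.sqrt_nonneg _
  have hψa0 : 0 ≤ ψa := Real.sqrt_nonneg _
  set H := (ψa - ψm) / (a - m) with hH
  set k := ψm - H * m with hk
  have hw : ∀ s, k + H * s = (1 - (s - m) / (a - m)) * ψm + (s - m) / (a - m) * ψa := by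
    intro s
    rw [hk, hH]
    field_simp
    ring
  have hpoint : ∀ s, (1 - (s - m) / (a - m)) * m + (s - m) / (a - m) * a = s := by
    intro s
    field_simp
    ring
  have ht : ∀ s ∈ Icc m a, 0 ≤ (s - m) / (a - m) ∧ (s - m) / (a - m) ≤ 1 := by
    intro s hs
    exact ⟨div_nonneg (by linarith [hs.1]) hd.le, (div_le_one hd).2 (by linarith [hs.2])⟩
  have hmax : ψm ^ 2 ≤ 4 * Real.pi * ε ∧ ψa ^ 2 ≤ 4 * Real.pi * ε := by
    rw [hm2, ha3]
    constructor
    · exact mul_le_mul_of_nonneg_left hmε (by positivity)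
    · refine mul_le_mul_of_nonneg_left ?_ (by positivity)
      rw [hε]
      exact le_max_right _ _
  refine ⟨k, H, ?_, ?_, ?_⟩
  · intro s hs
    have h1 := exact_chord (m := m) (a := a) (ψm := ψm) (ψa := ψa) (t := (s - m) / (a - m))
      (by rw [hm2, ellm]) (by rw [ha3, ella]) (ht s hs).1 (ht s hs).2
    rw [hpoint, ← hw] at h1
    exact h1
  · intro s hs
    rw [hw]
    have h0 := (ht s hs).1
    have h1 := (ht s hs).2
    set t := (s - m) / (a - m)
    have ht' : 0 ≤ 1 - t := by linarith
    have hsq : ((1 - t) * ψm + t * ψa) ^ 2 ≤ (1 - t) * ψm ^ 2 + t * ψa ^ 2 := by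
      nlinarith [mul_nonneg (mul_nonneg h0 ht') (sq_nonneg (ψm - ψa))]
    nlinarith [hmax.1, hmax.2]
  · have hVmem : V ∈ Icc m a := ⟨by norm_num at hm hV; linarith, by norm_num at ha hV'; linarith⟩
    have htV := ht V hVmem
    have ht1 : 0.35 ≤ (V - m) / (a - m) := by
      rw [le_div_iff₀ hd]
      norm_num at hm hV ha ha1 hV' ⊢
      nlinarith
    have ht2 : (V - m) / (a - m) ≤ 0.65 := by
      rw [div_le_iff₀ hd]
      norm_num at hm hV ha ha1 hV' ⊢
      nlinarith
    have hwV : 0.35 * (ψm + ψa) ≤ k + H * V := by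
      rw [hw]
      norm_num at ht1 ht2 ⊢
      nlinarith
    have hsum : 2 * Real.sqrt Real.pi * Real.sqrt ε ≤ ψm + ψa := by
      have h1 : (2 * Real.sqrt Real.pi * Real.sqrt ε) ^ 2 = 4 * Real.pi * ε := by
        rw [mul_pow, mul_pow, sqrt_pi_sq, Real.sq_sqrt hε0]
        ring
      have h2 : 4 * Real.pi * ε ≤ (ψm + ψa) ^ 2 := by
        rcases le_total m (1 - a) with hc | hc
        · have e : ε = 1 - a := by rw [hε]; exact max_eq_right hc
          rw [e, ← ha3]
          nlinarith [mul_nonneg hψm0 hψa0, sq_nonneg ψm]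
        · have e : ε = m := by rw [hε]; exact max_eq_left hc
          rw [e, ← hm2]
          nlinarith [mul_nonneg hψm0 hψa0, sq_nonneg ψa]
      rw [← h1] at h2
      exact abs_le_of_sq_le_sq' h2 (by positivity) |>.2
    have h5 : 0 ≤ 0.35 * (ψm + ψa) := by positivity
    constructor
    · linarith
    · linarith

/-- The arithmetic at the corner. -/
lemma corner_arith {u r L π' : ℝ} (hu0 : 0 < u) (hu3 : u ≤ 0.03) (hr : 1.7724 ≤ r)
    (hlogb : u * L ≤ 1 / 20 + 2 * u) (hπ : π' ≤ 4) :
    2 * (2 * u ^ 2 + u ^ 2 * (2 * (2 * L) + π')) ≤ 0.35 * (2 * r * u) := by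
  have e : 2 * (2 * u ^ 2 + u ^ 2 * (2 * (2 * L) + π')) = u * (4 * u + 8 * (u * L) + 2 * u * π') := by
    ring
  rw [e]
  have h1 : 2 * u * π' ≤ 2 * u * 4 := mul_le_mul_of_nonneg_left hπ (by positivity)
  have h2 : 4 * u + 8 * (u * L) + 2 * u * π' ≤ 1.24 := by
    norm_num at hu3 ⊢
    linarith
  have h3 : u * (4 * u + 8 * (u * L) + 2 * u * π') ≤ u * 1.24 :=
    mul_le_mul_of_nonneg_left h2 hu0.le
  have h4 : 1.7724 * u ≤ r * u := mul_le_mul_of_nonneg_right hr hu0.le
  norm_num at h3 h4 ⊢
  linarith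

/-- The corner leaf: when the sections almost reach both `0` and `1`. -/
theorem corner_value {a m V : ℝ} (hm0 : 0 ≤ m) (hm : m ≤ 0.0009) (ha : 1 - 0.0009 ≤ a) (ha1 : a ≤ 1)
    (hV : 0.351 ≤ V) (hV' : V ≤ 0.649) : Value ell m a V (profileJ V) := by
  set ε := max m (1 - a) with hε
  have hε0 : 0 ≤ ε := hm0.trans (le_max_left _ _)
  have hεle : ε ≤ 0.0009 := by
    apply max_le hm
    linarith
  have hmε : m ≤ ε := le_max_left _ _
  have haε : 1 - ε ≤ a := by
    have : 1 - a ≤ ε := le_max_right _ _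
    linarith
  obtain ⟨k, H, hcon1, hcon2, hkV, hwV⟩ := corner_chord hm0 hm ha ha1 hV hV' hε
  have hadm : Adm ell m a k H (beta4 ε) :=
    ⟨(beta4_continuous hε0).continuousOn, fun s _ => beta4_nonneg ε s,
      fun s _ => beta4_le_one hε0 s,
      fun s hs => beta4_con hε0 (hcon1 s hs) (hcon2 s hs)⟩
  refine ⟨k, H, beta4 ε, hadm, (profileJ_le_two V).trans ?_⟩
  rcases hε0.eq_or_lt with h0 | h0
  · -- the exact corner
    have hb : ∫ s in m..a, beta4 ε s = ∫ s in m..a, (1:ℝ) := by
      rw [← h0]
      apply intervalIntegral.integral_congr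
      intro s _
      simp [beta4]
    rw [hb]
    have hm00 : m = 0 := le_antisymm (by rw [← h0] at hmε; exact hmε) hm0
    have ha11 : a = 1 := by
      have : 1 - a ≤ ε := le_max_right _ _
      rw [← h0] at this
      linarith
    rw [hm00, ha11]
    simp only [intervalIntegral.integral_const, sub_zero, smul_eq_mul, mul_one]
    linarith
  · -- the general case
    have hI := beta4_integral (m := m) (a := a) h0 (by norm_num at hεle ⊢; linarith) hmε haε
    set u := Real.sqrt ε with hu
    have hu0 : 0 < u := Real.sqrt_pos.2 h0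
    have hu2 : u ^ 2 = ε := Real.sq_sqrt hε0
    have hu3 : u ≤ 0.03 := by
      rw [hu]
      apply Real.sqrt_le_iff.2
      constructor
      · norm_num
      · norm_num
        norm_num at hεle
        linarith
    have hlog : Real.log (1 / ε) = 2 * Real.log (1 / u) := by
      rw [← hu2, ← one_div_pow, Real.log_pow]
      norm_num
    have hsqrtpi : (1.7724:ℝ) ≤ Real.sqrt Real.pi := by
      apply Real.le_sqrt_of_sq_le
      have := Real.pi_gt_d6
      norm_num at this ⊢
      linarith
    have hfinal := corner_arith hu0 hu3 hsqrtpi (corner_log hu0) Real.pi_le_four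
    rw [hu2, ← hlog] at hfinal
    linarith

end Vale.Agent.Lib.P232
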