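import Vale.Agent.Lib.P232.RA4

open MeasureTheory Set intervalIntegral

namespace Vale.Agent.Lib.P232

/-- The fixed point scale of the certificates. -/
def SS : ℕ := 1000000000

/-- Decoding of a fixed point number. -/
noncomputable def toR (n : ℕ) : ℝ := (n : ℝ) / (SS : ℝ)

/-- Decoding of a signed slope. -/
noncomputable def slopeR (Hp Hn : ℕ) : ℝ := ((Hp : ℝ) - (Hn : ℝ)) / (SS : ℝ)

lemma SS_pos : (0:ℝ) < (SS : ℝ) := by
  unfold SS
  norm_num

lemma toR_nonneg (n : ℕ) : 0 ≤ toR n := div_nonneg (Nat.cast_nonneg _) SS_pos.le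

lemma toR_mono {a b : ℕ} (h : a ≤ b) : toR a ≤ toR b :=
  div_le_div_of_nonneg_right (by exact_mod_cast h) SS_pos.le

/-- The shared numerator of the chord at a node. -/
def lineNum (k Hp Hn s : ℕ) : ℕ := k * SS + Hp * s - Hn * s

/-- First constraint at a node. -/
def conA (W R s : ℕ) : Bool :=
  Nat.ble (W * W * 1000000) (R * SS * (4 * 3141592) * s)

/-- Second constraint at a node. -/
def conB (W R : ℕ) : Bool :=
  Nat.ble (W * W) (R * (SS * SS) * 4)

/-- Node check for calibrations under the profile of the two-torus. -/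
def node1 (k Hp Hn s g : ℕ) : Bool :=
  Nat.ble g SS && Nat.ble s SS && Nat.ble (Hn * s) (k * SS + Hp * s) &&
    conA (lineNum k Hp Hn s) (SS * SS - g * g) s &&
    conB (lineNum k Hp Hn s) (SS * SS - g * g) &&
    conA (lineNum k Hp Hn s) (SS * SS - g * g) (SS - s)

/-- Node check for calibrations under the disk profile. -/
def node2 (k Hp Hn s g : ℕ) : Bool :=
  Nat.ble g SS && Nat.ble (Hn * s) (k * SS + Hp * s) &&
    conA (lineNum k Hp Hn s) (SS * SS - g * g) s

lemma line_eq {k Hp Hn s : ℕ} (h : Hn * s ≤ k * SS + Hp * s) :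
    toR k + slopeR Hp Hn * toR s = ((lineNum k Hp Hn s : ℕ) : ℝ) / (SS : ℝ) ^ 2 := by
  have hS := SS_pos
  unfold lineNum toR slopeR
  rw [Nat.cast_sub h]
  push_cast
  field_simp
  ring

lemma one_sub_sq_eq {g : ℕ} (h : g ≤ SS) :
    1 - toR g ^ 2 = ((SS * SS - g * g : ℕ) : ℝ) / (SS : ℝ) ^ 2 := by
  have hS := SS_pos
  have h2 : g * g ≤ SS * SS := Nat.mul_le_mul h h
  unfold toR
  rw [Nat.cast_sub h2]
  push_cast
  field_simp

lemma conA_real {W R s : ℕ} (h : conA W R s = true) :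
    ((W : ℝ) / (SS : ℝ) ^ 2) ^ 2 ≤ ((R : ℝ) / (SS : ℝ) ^ 2) * (4 * piLo * toR s) := by
  have hS := SS_pos
  have h1 : W * W * 1000000 ≤ R * SS * (4 * 3141592) * s := Nat.le_of_ble_eq_true h
  have h2 : (W : ℝ) * W * 1000000 ≤ R * SS * (4 * 3141592) * s := by exact_mod_cast h1
  have e1 : ((W : ℝ) / (SS : ℝ) ^ 2) ^ 2 = ((W : ℝ) * W * 1000000) / (1000000 * (SS : ℝ) ^ 4) := by
    field_simp
  have e2 : ((R : ℝ) / (SS : ℝ) ^ 2) * (4 * piLo * toR s)
      = (R * SS * (4 * 3141592) * s) / (1000000 * (SS : ℝ) ^ 4) := by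
    unfold piLo toR
    field_simp
    norm_num
    ring
  rw [e1, e2]
  exact div_le_div_of_nonneg_right h2 (by positivity)

lemma conB_real {W R : ℕ} (h : conB W R = true) :
    ((W : ℝ) / (SS : ℝ) ^ 2) ^ 2 ≤ ((R : ℝ) / (SS : ℝ) ^ 2) * 4 := by
  have hS := SS_pos
  have h1 : W * W ≤ R * (SS * SS) * 4 := Nat.le_of_ble_eq_true h
  have h2 : (W : ℝ) * W ≤ R * (SS * SS) * 4 := by exact_mod_cast h1
  have e1 : ((W : ℝ) / (SS : ℝ) ^ 2) ^ 2 = ((W : ℝ) * W) / ((SS : ℝ) ^ 4) := by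
    field_simp
  have e2 : ((R : ℝ) / (SS : ℝ) ^ 2) * 4 = (R * (SS * SS) * 4) / ((SS : ℝ) ^ 4) := by
    field_simp
  rw [e1, e2]
  exact div_le_div_of_nonneg_right h2 (by positivity)

lemma toR_le_one {s : ℕ} (h : s ≤ SS) : toR s ≤ 1 := by
  unfold toR
  exact div_le_one_of_le₀ (by exact_mod_cast h) SS_pos.le

lemma toR_sub {s : ℕ} (h : s ≤ SS) : toR (SS - s) = 1 - toR s := by
  have hS := SS_pos
  unfold toR
  rw [Nat.cast_sub h]
  field_simp

lemma piLo_pos' : 0 ≤ 4 * piLo := by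
  have := piLo_pos
  linarith

lemma node1_sound {k Hp Hn s g : ℕ} (h : node1 k Hp Hn s g = true) :
    Nd1 (toR k) (slopeR Hp Hn) (toR s) (toR g) := by
  simp only [node1, Bool.and_eq_true] at h
  obtain ⟨⟨⟨⟨⟨h1, h2⟩, h3⟩, h4⟩, h5⟩, h6⟩ := h
  have hg : g ≤ SS := Nat.le_of_ble_eq_true h1
  have hs : s ≤ SS := Nat.le_of_ble_eq_true h2
  have hl : Hn * s ≤ k * SS + Hp * s := Nat.le_of_ble_eq_true h3
  have a4 := conA_real h4
  have a5 := conB_real h5
  have a6 := conA_real h6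
  rw [← line_eq hl, ← one_sub_sq_eq hg] at a4 a5 a6
  rw [toR_sub hs] at a6
  have hs0 := toR_nonneg s
  have hs1 := toR_le_one hs
  have hp := piLo_pos
  refine ⟨toR_nonneg g, toR_le_one hg, ⟨?_, ?_⟩, ⟨?_, ?_⟩, ⟨?_, ?_⟩⟩
  · positivity
  · rw [zero_add]
    exact a4
  · norm_num
  · simpa using a5
  · have : 4 * piLo + -(4 * piLo) * toR s = 4 * piLo * (1 - toR s) := by ring
    rw [this]
    have : 0 ≤ 1 - toR s := by linarith
    positivity
  · have e : 4 * piLo + -(4 * piLo) * toR s = 4 * piLo * (1 - toR s) := by ring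
    rw [e]
    exact a6

lemma node2_sound {k Hp Hn s g : ℕ} (h : node2 k Hp Hn s g = true) :
    Nd2 (toR k) (slopeR Hp Hn) (toR s) (toR g) := by
  simp only [node2, Bool.and_eq_true] at h
  obtain ⟨⟨h1, h3⟩, h4⟩ := h
  have hg : g ≤ SS := Nat.le_of_ble_eq_true h1
  have hl : Hn * s ≤ k * SS + Hp * s := Nat.le_of_ble_eq_true h3
  have a4 := conA_real h4
  rw [← line_eq hl, ← one_sub_sq_eq hg] at a4
  have hs0 := toR_nonneg s
  have hp := piLo_pos
  refine ⟨toR_nonneg g, toR_le_one hg, ⟨?_, ?_⟩⟩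
  · positivity
  · rw [zero_add]
    exact a4

/-! ### Chains of nodes -/

/-- All nodes of a chain pass the node check and the positions increase. -/
def chainOK (nd : ℕ → ℕ → Bool) : ℕ → ℕ → List (ℕ × ℕ) → Bool
  | s, g, [] => nd s g
  | s, g, (n :: l) => nd s g && Nat.blt s n.1 && chainOK nd n.1 n.2 l

/-- The last position of a chain. -/
def chainEnd : ℕ → List (ℕ × ℕ) → ℕ
  | s, [] => s
  | _, (n :: l) => chainEnd n.1 l

/-- The last value of a chain. -/
def chainEndG : ℕ → List (ℕ × ℕ) → ℕ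
  | g, [] => g
  | _, (n :: l) => chainEndG n.2 l

/-- Twice the trapezoid sum of a chain. -/
def chainI : ℕ → ℕ → List (ℕ × ℕ) → ℕ
  | _, _, [] => 0
  | s, g, (n :: l) => (n.1 - s) * (g + n.2) + chainI n.1 n.2 l

lemma Feas.point {C : ℝ → ℝ → Prop} {s g : ℝ} (h : C s g) (h0 : 0 ≤ g) : Feas C s s g g 0 := by
  refine ⟨fun _ => g, continuousOn_const, rfl, rfl, ?_, by simp⟩
  intro x hx
  have : x = s := le_antisymm hx.2 hx.1
  subst this
  exact ⟨h, h0⟩

lemma chain_sound {C : ℝ → ℝ → Prop} (hC : ConvexCon C) {nd : ℕ → ℕ → Bool}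
    (hn : ∀ s g, nd s g = true → C (toR s) (toR g)) :
    ∀ (l : List (ℕ × ℕ)) (s g : ℕ), chainOK nd s g l = true →
      Feas C (toR s) (toR (chainEnd s l)) (toR g) (toR (chainEndG g l))
        ((chainI s g l : ℝ) / (SS : ℝ) ^ 2 / 2) ∧ toR s ≤ toR (chainEnd s l) := by
  intro l
  induction l with
  | nil =>
    intro s g h
    have h0 := hn s g h
    refine ⟨?_, le_rfl⟩
    simpa [chainI, chainEnd, chainEndG] using Feas.point h0 (toR_nonneg g)
  | cons n l ih =>
    intro s g h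
    simp only [chainOK, Bool.and_eq_true] at h
    obtain ⟨⟨h1, h2⟩, h3⟩ := h
    have hlt : s < n.1 := Nat.le_of_ble_eq_true h2
    obtain ⟨ih1, ih2⟩ := ih n.1 n.2 h3
    have hnext : C (toR n.1) (toR n.2) := by
      cases l with
      | nil => exact hn _ _ h3
      | cons n' l' =>
        simp only [chainOK, Bool.and_eq_true] at h3
        exact hn _ _ h3.1.1
    have hS := SS_pos
    have hlt' : toR s < toR n.1 := by
      unfold toR
      apply div_lt_div_of_pos_right _ hS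
      exact_mod_cast hlt
    have hseg := Feas.segment hC hlt' (hn s g h1) hnext (toR_nonneg g) (toR_nonneg n.2)
    have hglue := hseg.glue hlt'.le ih2 ih1
    refine ⟨?_, ?_⟩
    · have e : ((chainI s g (n :: l) : ℕ) : ℝ) / (SS : ℝ) ^ 2 / 2
          = (toR n.1 - toR s) * (toR g + toR n.2) / 2 + ((chainI n.1 n.2 l : ℕ) : ℝ) / (SS : ℝ) ^ 2 / 2 := by
        simp only [chainI]
        push_cast
        rw [Nat.cast_sub hlt.le]
        unfold toR
        field_simp
      rw [e]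
      simpa [chainEnd, chainEndG] using hglue
    · simpa [chainEnd] using hlt'.le.trans ih2

/-- Local form of the cell estimate. -/
lemma cell_feas {C : ℝ → ℝ → Prop} (hC : ConvexCon C) {nd : ℕ → ℕ → Bool}
    (hn : ∀ s g, nd s g = true → C (toR s) (toR g)) {mL mU aL aU g₀ : ℕ} {l : List (ℕ × ℕ)}
    (h1 : nd mL 0 = true) (h2 : nd aU 0 = true) (h3 : mL < mU) (h4 : aL < aU)
    (h5 : chainOK nd mU g₀ l = true) (h6 : chainEnd mU l = aL)
    {m a : ℝ} (hm1 : toR mL ≤ m) (hm2 : m ≤ toR mU) (ha1 : toR aL ≤ a) (ha2 : a ≤ toR aU) :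
    ∃ g g', Feas C m a g g' ((chainI mU g₀ l : ℝ) / (SS : ℝ) ^ 2 / 2) := by
  have hS := SS_pos
  have hz : toR 0 = 0 := by simp [toR]
  have hlt1 : toR mL < toR mU := by
    unfold toR
    apply div_lt_div_of_pos_right _ hS
    exact_mod_cast h3
  have hlt2 : toR aL < toR aU := by
    unfold toR
    apply div_lt_div_of_pos_right _ hS
    exact_mod_cast h4
  obtain ⟨hch, hle⟩ := chain_sound hC hn l mU g₀ h5
  rw [h6] at hch hle
  have hfirst : C (toR mU) (toR g₀) := by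
    cases l with
    | nil => exact hn _ _ h5
    | cons n' l' =>
      simp only [chainOK, Bool.and_eq_true] at h5
      exact hn _ _ h5.1.1
  have hlast : C (toR aL) (toR (chainEndG g₀ l)) := by
    obtain ⟨β, _, _, hr, p, _⟩ := hch
    have := (p (toR aL) ⟨hle, le_rfl⟩).1
    rwa [hr] at this
  have hleft := Feas.segment hC hlt1 (hn _ _ h1) hfirst (toR_nonneg 0) (toR_nonneg g₀)
  have hright := Feas.segment hC hlt2 hlast (hn _ _ h2) (toR_nonneg _) (toR_nonneg 0)
  obtain ⟨g, hg⟩ := hleft.restrict_left (m := m) ⟨hm1, hm2⟩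
  obtain ⟨g', hg'⟩ := hright.restrict_right (m := a) ⟨ha1, ha2⟩
  refine ⟨g, g', ?_⟩
  have := (hg.glue hm2 hle hch).glue (hm2.trans hle) ha1 hg'
  simpa using this

end Vale.Agent.Lib.P232
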