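import Vale.Agent.Lib.P232.Moll4

open MeasureTheory Set intervalIntegral
open scoped ContDiff ENNReal

namespace Vale.Agent.Lib.P232

/-! ### The Leibniz rule for integrals with variable limits around `z = 1/2`. -/

section Leibniz

variable {G : R3 → ℝ} {ℓ ℓ' : ℝ → ℝ} {q e : R3}

/-- The rescaled integrand. -/
private noncomputable def Hf (G : R3 → ℝ) (ℓ : ℝ → ℝ) (q e : R3) (s t : ℝ) : ℝ :=
  G (q + s • e + (ℓ s * t + (1 / 2 - ℓ s / 2)) • e₃)

private lemma path_cont (hℓ : Continuous ℓ) (q e : R3) :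
    Continuous fun r : ℝ × ℝ => q + r.1 • e + (ℓ r.1 * r.2 + (1 / 2 - ℓ r.1 / 2)) • e₃ := by
  have h1 : Continuous fun r : ℝ × ℝ => ℓ r.1 := hℓ.comp continuous_fst
  fun_prop

private lemma Hf_cont (hG : Continuous G) (hℓ : Continuous ℓ) (q e : R3) :
    Continuous (Function.uncurry (Hf G ℓ q e)) :=
  hG.comp (path_cont hℓ q e)

private lemma Hf_hasDeriv_s {s : ℝ} (hG : Differentiable ℝ G) (hℓ : HasDerivAt ℓ (ℓ' s) s) (t : ℝ) :
    HasDerivAt (fun r => Hf G ℓ q e r t)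
      (fderiv ℝ G (q + s • e + (ℓ s * t + (1 / 2 - ℓ s / 2)) • e₃) e
        + (ℓ' s * (t - 1 / 2)) * fderiv ℝ G (q + s • e + (ℓ s * t + (1 / 2 - ℓ s / 2)) • e₃) e₃) s := by
  set p := q + s • e + (ℓ s * t + (1 / 2 - ℓ s / 2)) • e₃ with hp
  have h1 : HasDerivAt (fun r : ℝ => ℓ r * t + (1 / 2 - ℓ r / 2)) (ℓ' s * (t - 1 / 2)) s := by
    have h := (hℓ.mul_const t).add ((hℓ.div_const 2).const_sub (1 / 2))
    exact HasDerivAt.congr_deriv h (by ring)
  have h2 : HasDerivAt (fun r : ℝ => q + r • e + (ℓ r * t + (1 / 2 - ℓ r / 2)) • e₃)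
      (e + (ℓ' s * (t - 1 / 2)) • e₃) s := by
    have h3 : HasDerivAt (fun r : ℝ => r • e) e s := by
      simpa using (hasDerivAt_id s).smul_const e
    have h4 := h1.smul_const e₃
    have h5 := (h3.const_add q).add h4
    exact h5
  have h6 := (hG p).hasFDerivAt.comp_hasDerivAt s h2
  have h7 : fderiv ℝ G p (e + (ℓ' s * (t - 1 / 2)) • e₃)
      = fderiv ℝ G p e + (ℓ' s * (t - 1 / 2)) * fderiv ℝ G p e₃ := by
    rw [map_add, map_smul, smul_eq_mul]
  rw [h7] at h6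
  exact h6

private lemma Hf_hasDeriv_t (hG : Differentiable ℝ G) (s t : ℝ) :
    HasDerivAt (fun t => Hf G ℓ q e s t)
      (ℓ s * fderiv ℝ G (q + s • e + (ℓ s * t + (1 / 2 - ℓ s / 2)) • e₃) e₃) t := by
  set p := q + s • e + (ℓ s * t + (1 / 2 - ℓ s / 2)) • e₃ with hp
  have h1 : HasDerivAt (fun t : ℝ => ℓ s * t + (1 / 2 - ℓ s / 2)) (ℓ s) t := by
    simpa using ((hasDerivAt_id t).const_mul (ℓ s)).add_const (1 / 2 - ℓ s / 2)
  have h2 : HasDerivAt (fun t : ℝ => q + s • e + (ℓ s * t + (1 / 2 - ℓ s / 2)) • e₃)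
      ((ℓ s) • e₃) t := (h1.smul_const e₃).const_add _
  have h6 := (hG p).hasFDerivAt.comp_hasDerivAt t h2
  rw [map_smul, smul_eq_mul] at h6
  exact h6

/-- The variable-limit integral in rescaled form. -/
private lemma vl_eq (f : ℝ → ℝ) (m : ℝ) :
    ∫ z in (1 / 2 - m / 2)..(1 / 2 + m / 2), f z = m * ∫ t in (0:ℝ)..1, f (m * t + (1 / 2 - m / 2)) := by
  have := intervalIntegral.mul_integral_comp_mul_add (a := (0:ℝ)) (b := 1) (f := f) m (1 / 2 - m / 2)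
  rw [this]
  congr 1 <;> ring

/-- The Leibniz rule. -/
theorem leibniz_line (hG : ContDiff ℝ 1 G) (hℓ : ∀ s, HasDerivAt ℓ (ℓ' s) s) (hℓ' : Continuous ℓ')
    (q e : R3) (s : ℝ) :
    HasDerivAt (fun r => ∫ z in (1 / 2 - ℓ r / 2)..(1 / 2 + ℓ r / 2), G (q + r • e + z • e₃))
      ((∫ z in (1 / 2 - ℓ s / 2)..(1 / 2 + ℓ s / 2), fderiv ℝ G (q + s • e + z • e₃) e)
        + (ℓ' s / 2) * (G (q + s • e + (1 / 2 + ℓ s / 2) • e₃)
            + G (q + s • e + (1 / 2 - ℓ s / 2) • e₃))) s := by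
  have hGd : Differentiable ℝ G := hG.differentiable (by simp)
  have hℓc : Continuous ℓ := continuous_iff_continuousAt.2 fun x => (hℓ x).continuousAt
  have hA : Continuous fun p => fderiv ℝ G p e := cont_fderiv_dir hG e
  have hB : Continuous fun p => fderiv ℝ G p e₃ := cont_fderiv_dir hG e₃
  have hpc := path_cont hℓc q e
  -- the function in rescaled form
  have hF : (fun r => ∫ z in (1 / 2 - ℓ r / 2)..(1 / 2 + ℓ r / 2), G (q + r • e + z • e₃))
      = fun r => ℓ r * ∫ t in (0:ℝ)..1, Hf G ℓ q e r t := by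
    funext r
    exact vl_eq (fun z => G (q + r • e + z • e₃)) (ℓ r)
  rw [hF]
  set H' : ℝ → ℝ → ℝ := fun s t =>
    fderiv ℝ G (q + s • e + (ℓ s * t + (1 / 2 - ℓ s / 2)) • e₃) e
      + (ℓ' s * (t - 1 / 2)) * fderiv ℝ G (q + s • e + (ℓ s * t + (1 / 2 - ℓ s / 2)) • e₃) e₃ with hH'
  have hH'c : Continuous (Function.uncurry H') := by
    have c1 : Continuous fun r : ℝ × ℝ => fderiv ℝ G (q + r.1 • e + (ℓ r.1 * r.2 + (1 / 2 - ℓ r.1 / 2)) • e₃) e :=
      hA.comp hpc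
    have c2 : Continuous fun r : ℝ × ℝ => fderiv ℝ G (q + r.1 • e + (ℓ r.1 * r.2 + (1 / 2 - ℓ r.1 / 2)) • e₃) e₃ :=
      hB.comp hpc
    have c3 : Continuous fun r : ℝ × ℝ => ℓ' r.1 := hℓ'.comp continuous_fst
    exact c1.add ((c3.mul (continuous_snd.sub continuous_const)).mul c2)
  have hJ : HasDerivAt (fun r => ∫ t in (0:ℝ)..1, Hf G ℓ q e r t) (∫ t in (0:ℝ)..1, H' s t) s :=
    hasDerivAt_param (Hf_cont hGd.continuous hℓc q e) hH'c
      (fun y t => Hf_hasDeriv_s hGd (hℓ y) t) 0 1 s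
  have hprod := (hℓ s).mul hJ
  -- integration by parts in `t`
  set J := ∫ t in (0:ℝ)..1, Hf G ℓ q e s t with hJdef
  have hHt : Continuous fun t => Hf G ℓ q e s t := (Hf_cont hGd.continuous hℓc q e).comp (Continuous.prodMk_right s)
  set At : ℝ → ℝ := fun t => fderiv ℝ G (q + s • e + (ℓ s * t + (1 / 2 - ℓ s / 2)) • e₃) e with hAt
  set Bt : ℝ → ℝ := fun t => fderiv ℝ G (q + s • e + (ℓ s * t + (1 / 2 - ℓ s / 2)) • e₃) e₃ with hBt
  have hpt : Continuous fun t : ℝ => q + s • e + (ℓ s * t + (1 / 2 - ℓ s / 2)) • e₃ := by fun_prop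
  have hAtc : Continuous At := hA.comp hpt
  have hBtc : Continuous Bt := hB.comp hpt
  have hbp : ∫ t in (0:ℝ)..1, (Hf G ℓ q e s t + (t - 1 / 2) * (ℓ s * Bt t))
      = (1 - 1 / 2) * Hf G ℓ q e s 1 - (0 - 1 / 2) * Hf G ℓ q e s 0 := by
    apply intervalIntegral.integral_eq_sub_of_hasDerivAt (f := fun t => (t - 1 / 2) * Hf G ℓ q e s t)
    · intro t _
      have h1 : HasDerivAt (fun t : ℝ => t - 1 / 2) 1 t := (hasDerivAt_id t).sub_const _
      have h2 := h1.mul (Hf_hasDeriv_t (ℓ := ℓ) (q := q) (e := e) hGd s t)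
      exact HasDerivAt.congr_deriv h2 (by simp only [hBt]; ring)
    · exact (hHt.add ((continuous_id.sub continuous_const).mul (continuous_const.mul hBtc))).intervalIntegrable _ _
  have c5 : Continuous fun t : ℝ => (t - 1 / 2) * (ℓ s * Bt t) :=
    (continuous_id.sub continuous_const).mul (continuous_const.mul hBtc)
  have e1 : ∫ t in (0:ℝ)..1, (Hf G ℓ q e s t + (t - 1 / 2) * (ℓ s * Bt t))
      = J + ∫ t in (0:ℝ)..1, (t - 1 / 2) * (ℓ s * Bt t) :=
    intervalIntegral.integral_add (hHt.intervalIntegrable _ _) (c5.intervalIntegrable _ _)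
  have e2 : ∫ t in (0:ℝ)..1, H' s t = (∫ t in (0:ℝ)..1, At t)
      + ℓ' s * ∫ t in (0:ℝ)..1, (t - 1 / 2) * Bt t := by
    show ∫ t in (0:ℝ)..1, (At t + (ℓ' s * (t - 1 / 2)) * Bt t) = _
    have c4 : Continuous fun t : ℝ => (ℓ' s * (t - 1 / 2)) * Bt t :=
      (continuous_const.mul (continuous_id.sub continuous_const)).mul hBtc
    rw [intervalIntegral.integral_add (hAtc.intervalIntegrable _ _) (c4.intervalIntegrable _ _),
      ← intervalIntegral.integral_const_mul]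
    congr 1
    apply intervalIntegral.integral_congr
    intro t _
    ring
  have e3 : ∫ t in (0:ℝ)..1, (t - 1 / 2) * (ℓ s * Bt t)
      = ℓ s * ∫ t in (0:ℝ)..1, (t - 1 / 2) * Bt t := by
    rw [← intervalIntegral.integral_const_mul]
    apply intervalIntegral.integral_congr
    intro t _
    ring
  have e4 : ℓ s * (∫ t in (0:ℝ)..1, At t)
      = ∫ z in (1 / 2 - ℓ s / 2)..(1 / 2 + ℓ s / 2), fderiv ℝ G (q + s • e + z • e₃) e :=
    (vl_eq (fun z => fderiv ℝ G (q + s • e + z • e₃) e) (ℓ s)).symm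
  have e5 : Hf G ℓ q e s 1 = G (q + s • e + (1 / 2 + ℓ s / 2) • e₃) := by
    unfold Hf
    congr 3
    ring
  have e6 : Hf G ℓ q e s 0 = G (q + s • e + (1 / 2 - ℓ s / 2) • e₃) := by
    unfold Hf
    congr 3
    ring
  refine HasDerivAt.congr_deriv hprod ?_
  rw [e2, ← e4, ← e5, ← e6]
  have hbp' := hbp
  rw [e1, e3] at hbp'
  have e7 : ℓ s * ∫ t in (0:ℝ)..1, (t - 1 / 2) * Bt t
      = (1 - 1 / 2) * Hf G ℓ q e s 1 - (0 - 1 / 2) * Hf G ℓ q e s 0 - J := by linarith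
  have e8 : ℓ s * ((∫ t in (0:ℝ)..1, At t) + ℓ' s * ∫ t in (0:ℝ)..1, (t - 1 / 2) * Bt t)
      = ℓ s * (∫ t in (0:ℝ)..1, At t) + ℓ' s * (ℓ s * ∫ t in (0:ℝ)..1, (t - 1 / 2) * Bt t) := by ring
  rw [e8, e7]
  ring

end Leibniz

end Vale.Agent.Lib.P232
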