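import Vale.Agent.Lib.P232.Sym1

open MeasureTheory Set intervalIntegral
open scoped ContDiff ENNReal

namespace Vale.Agent.Lib.P232

lemma cont_slice_right {F : ℝ → ℝ → ℝ} (hF : Continuous (Function.uncurry F)) (x : ℝ) :
    Continuous fun y => F x y := hF.comp (Continuous.prodMk_right x)

lemma cont_slice_left {F : ℝ → ℝ → ℝ} (hF : Continuous (Function.uncurry F)) (y : ℝ) :
    Continuous fun x => F x y := hF.comp (Continuous.prodMk_left y)

namespace Per3

variable (U : Per3)

/-- The mass of a line in the third direction. -/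
noncomputable def l (x y : ℝ) : ℝ := ∫ z in (0:ℝ)..1, U.u x y z
/-- The first derivative of the line mass. -/
noncomputable def lx (x y : ℝ) : ℝ := ∫ z in (0:ℝ)..1, U.ux x y z
/-- The second derivative of the line mass. -/
noncomputable def ly (x y : ℝ) : ℝ := ∫ z in (0:ℝ)..1, U.uy x y z
/-- The length of the gradient on a line. -/
noncomputable def Nl (x y : ℝ) : ℝ :=
  ∫ z in (0:ℝ)..1, Real.sqrt (U.ux x y z ^ 2 + U.uy x y z ^ 2 + U.uz x y z ^ 2)
/-- The mass away from the values `0`, `1` on a line. -/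
noncomputable def ft (κ x y : ℝ) : ℝ := ∫ z in (0:ℝ)..1, Xi κ (U.u x y z)
/-- The variation on a line. -/
noncomputable def gl (x y : ℝ) : ℝ := ∫ z in (0:ℝ)..1, |U.uz x y z|

lemma cont_l : Continuous (Function.uncurry U.l) := U.cont.inner
lemma cont_lx : Continuous (Function.uncurry U.lx) := U.contX.inner
lemma cont_ly : Continuous (Function.uncurry U.ly) := U.contY.inner

lemma cont_l_left (y : ℝ) : Continuous fun x => U.l x y :=
  U.cont_l.comp (Continuous.prodMk_left y)
lemma cont_l_right (x : ℝ) : Continuous fun y => U.l x y :=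
  U.cont_l.comp (Continuous.prodMk_right x)

lemma hasDeriv_lx (y x : ℝ) : HasDerivAt (fun r => U.l r y) (U.lx x y) x :=
  hasDerivAt_param (F := fun s z => U.u s y z) (F' := fun s z => U.ux s y z)
    (U.cont.slice13 y) (U.contX.slice13 y) (fun x z => U.hasX x y z) 0 1 x

lemma hasDeriv_ly (x y : ℝ) : HasDerivAt (fun r => U.l x r) (U.ly x y) y :=
  hasDerivAt_param (F := fun s z => U.u x s z) (F' := fun s z => U.uy x s z)
    (U.cont.section x) (U.contY.section x) (fun y z => U.hasY x y z) 0 1 y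

lemma l_perX (x y : ℝ) : U.l (x + 1) y = U.l x y := by simp only [l, U.perX]
lemma l_perY (x y : ℝ) : U.l x (y + 1) = U.l x y := by simp only [l, U.perY]

lemma cont_line (x y : ℝ) : Continuous fun z => U.u x y z :=
  (U.cont.section x).comp (Continuous.prodMk_right y)

lemma l_nonneg (x y : ℝ) : 0 ≤ U.l x y :=
  intervalIntegral.integral_nonneg zero_le_one fun z _ => U.nn x y z

lemma l_le_one (x y : ℝ) : U.l x y ≤ 1 := by
  have := intervalIntegral.integral_mono_on (μ := volume) zero_le_one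
    ((U.cont_line x y).intervalIntegrable 0 1)
    ((continuous_const (y := (1:ℝ))).intervalIntegrable 0 1) (fun z _ => U.le1 x y z)
  simpa [l] using this

/-- The integral of `Z` over the symmetrised line. -/
noncomputable def lineI (Z : R3 → ℝ) (x y : ℝ) : ℝ :=
  ∫ z in (1 / 2 - U.l x y / 2)..(1 / 2 + U.l x y / 2), Z (x, y, z)

lemma cont_lineI {Z : R3 → ℝ} (hZ : Continuous Z) : Continuous (Function.uncurry (U.lineI Z)) := by
  have hl := U.cont_l
  have h1 : Continuous fun q : ℝ × ℝ => 1 / 2 - U.l q.1 q.2 / 2 := by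
    have : Continuous fun q : ℝ × ℝ => U.l q.1 q.2 := hl
    fun_prop
  have h2 : Continuous fun q : ℝ × ℝ => 1 / 2 + U.l q.1 q.2 / 2 := by
    have : Continuous fun q : ℝ × ℝ => U.l q.1 q.2 := hl
    fun_prop
  have hf : Continuous (Function.uncurry fun (q : ℝ × ℝ) (z : ℝ) => Z (q.1, q.2, z)) := by
    have : Continuous fun r : (ℝ × ℝ) × ℝ => (r.1.1, r.1.2, r.2) := by fun_prop
    exact hZ.comp this
  have c1 := intervalIntegral.continuous_parametric_intervalIntegral_of_continuous
    (μ := volume) (a₀ := (1 / 2 : ℝ)) hf h1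
  have c2 := intervalIntegral.continuous_parametric_intervalIntegral_of_continuous
    (μ := volume) (a₀ := (1 / 2 : ℝ)) hf h2
  have e : Function.uncurry (U.lineI Z) = fun q : ℝ × ℝ =>
      (∫ t in (1 / 2 : ℝ)..(1 / 2 + U.l q.1 q.2 / 2), Z (q.1, q.2, t))
        - ∫ t in (1 / 2 : ℝ)..(1 / 2 - U.l q.1 q.2 / 2), Z (q.1, q.2, t) := by
    funext q
    have hc : Continuous fun t : ℝ => Z (q.1, q.2, t) := by
      have : Continuous fun t : ℝ => ((q.1, q.2, t) : R3) := by fun_prop
      exact hZ.comp this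
    exact (intervalIntegral.integral_interval_sub_left (hc.intervalIntegrable _ _)
      (hc.intervalIntegrable _ _)).symm
  rw [e]
  exact c2.sub c1

variable {U}

/-- Leibniz rule in the first direction. -/
lemma leibniz_x {G : R3 → ℝ} (hG : ContDiff ℝ 1 G) (y s : ℝ) :
    HasDerivAt (fun r => U.lineI G r y)
      (U.lineI (fun p => fderiv ℝ G p e₁) s y
        + (U.lx s y / 2) * (G (s, y, 1 / 2 + U.l s y / 2) + G (s, y, 1 / 2 - U.l s y / 2))) s := by
  have hlxc : Continuous fun x => U.lx x y := U.cont_lx.comp (Continuous.prodMk_left y)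
  have h := leibniz_line (G := G) (ℓ := fun r => U.l r y) (ℓ' := fun r => U.lx r y) hG
    (U.hasDeriv_lx y) hlxc ((0, y, 0) : R3) e₁ s
  have hp : ∀ r z : ℝ, ((0, y, 0) : R3) + r • e₁ + z • e₃ = (r, y, z) := by
    intro r z
    simp [e₁, e₃]
  simp only [hp] at h
  exact h

/-- Leibniz rule in the second direction. -/
lemma leibniz_y {G : R3 → ℝ} (hG : ContDiff ℝ 1 G) (x s : ℝ) :
    HasDerivAt (fun r => U.lineI G x r)
      (U.lineI (fun p => fderiv ℝ G p e₂) x s
        + (U.ly x s / 2) * (G (x, s, 1 / 2 + U.l x s / 2) + G (x, s, 1 / 2 - U.l x s / 2))) s := by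
  have hlyc : Continuous fun y => U.ly x y := U.cont_ly.comp (Continuous.prodMk_right x)
  have h := leibniz_line (G := G) (ℓ := fun r => U.l x r) (ℓ' := fun r => U.ly x r) hG
    (U.hasDeriv_ly x) hlyc ((x, 0, 0) : R3) e₂ s
  have hp : ∀ r z : ℝ, ((x, 0, 0) : R3) + r • e₂ + z • e₃ = (x, r, z) := by
    intro r z
    simp [e₂, e₃]
  simp only [hp] at h
  exact h

variable (U)

lemma cont_at_b {G : R3 → ℝ} (hG : Continuous G) :
    Continuous fun q : ℝ × ℝ => G (q.1, q.2, 1 / 2 + U.l q.1 q.2 / 2) := by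
  have : Continuous fun q : ℝ × ℝ => U.l q.1 q.2 := U.cont_l
  have h2 : Continuous fun q : ℝ × ℝ => ((q.1, q.2, 1 / 2 + U.l q.1 q.2 / 2) : R3) := by fun_prop
  exact hG.comp h2

lemma cont_at_a {G : R3 → ℝ} (hG : Continuous G) :
    Continuous fun q : ℝ × ℝ => G (q.1, q.2, 1 / 2 - U.l q.1 q.2 / 2) := by
  have : Continuous fun q : ℝ × ℝ => U.l q.1 q.2 := U.cont_l
  have h2 : Continuous fun q : ℝ × ℝ => ((q.1, q.2, 1 / 2 - U.l q.1 q.2 / 2) : R3) := by fun_prop
  exact hG.comp h2

/-- The Steiner functional: integral of the divergence over the symmetrised lines. -/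
noncomputable def Phi (X : TestField) : ℝ :=
  ∫ x in (0:ℝ)..1, ∫ y in (0:ℝ)..1, U.lineI X.divergence x y

/-- The integrand after the Leibniz rule. -/
noncomputable def Iy (X : TestField) (x y : ℝ) : ℝ :=
  X.X₃ (x, y, 1 / 2 + U.l x y / 2) - X.X₃ (x, y, 1 / 2 - U.l x y / 2)
    - (U.lx x y / 2) * (X.X₁ (x, y, 1 / 2 + U.l x y / 2) + X.X₁ (x, y, 1 / 2 - U.l x y / 2))
    - (U.ly x y / 2) * (X.X₂ (x, y, 1 / 2 + U.l x y / 2) + X.X₂ (x, y, 1 / 2 - U.l x y / 2))

lemma TestField_c1 (X : TestField) : ContDiff ℝ 1 X.X₁ := X.smooth₁.of_le (by simp)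
lemma TestField_c2 (X : TestField) : ContDiff ℝ 1 X.X₂ := X.smooth₂.of_le (by simp)
lemma TestField_c3 (X : TestField) : ContDiff ℝ 1 X.X₃ := X.smooth₃.of_le (by simp)

/-- The integral identity behind the symmetrisation. -/
theorem Phi_eq (X : TestField) :
    U.Phi X = ∫ x in (0:ℝ)..1, ∫ y in (0:ℝ)..1, U.Iy X x y := by
  have h1 := TestField_c1 X
  have h2 := TestField_c2 X
  have h3 := TestField_c3 X
  have cA1 : Continuous fun p => fderiv ℝ X.X₁ p e₁ := cont_fderiv_dir h1 e₁
  have cA2 : Continuous fun p => fderiv ℝ X.X₂ p e₂ := cont_fderiv_dir h2 e₂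
  have cA3 : Continuous fun p => fderiv ℝ X.X₃ p e₃ := cont_fderiv_dir h3 e₃
  set D₁ : ℝ → ℝ → ℝ := fun x y => U.lineI (fun p => fderiv ℝ X.X₁ p e₁) x y
    + (U.lx x y / 2) * (X.X₁ (x, y, 1 / 2 + U.l x y / 2) + X.X₁ (x, y, 1 / 2 - U.l x y / 2)) with hD₁
  set D₂ : ℝ → ℝ → ℝ := fun x y => U.lineI (fun p => fderiv ℝ X.X₂ p e₂) x y
    + (U.ly x y / 2) * (X.X₂ (x, y, 1 / 2 + U.l x y / 2) + X.X₂ (x, y, 1 / 2 - U.l x y / 2)) with hD₂
  have cl : Continuous fun q : ℝ × ℝ => U.lx q.1 q.2 := U.cont_lx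
  have cl' : Continuous fun q : ℝ × ℝ => U.ly q.1 q.2 := U.cont_ly
  have cD₁ : Continuous (Function.uncurry D₁) :=
    (U.cont_lineI cA1).add ((cl.div_const 2).mul
      ((U.cont_at_b X.smooth₁.continuous).add (U.cont_at_a X.smooth₁.continuous)))
  have cD₂ : Continuous (Function.uncurry D₂) :=
    (U.cont_lineI cA2).add ((cl'.div_const 2).mul
      ((U.cont_at_b X.smooth₂.continuous).add (U.cont_at_a X.smooth₂.continuous)))
  have cI : Continuous (Function.uncurry (U.Iy X)) :=
    (((U.cont_at_b X.smooth₃.continuous).sub (U.cont_at_a X.smooth₃.continuous)).sub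
      ((cl.div_const 2).mul ((U.cont_at_b X.smooth₁.continuous).add (U.cont_at_a X.smooth₁.continuous)))).sub
      ((cl'.div_const 2).mul ((U.cont_at_b X.smooth₂.continuous).add (U.cont_at_a X.smooth₂.continuous)))
  -- pointwise identity
  have hpt : ∀ x y, U.lineI X.divergence x y = D₁ x y + D₂ x y + U.Iy X x y := by
    intro x y
    have hline : ∀ {Z : R3 → ℝ}, Continuous Z → Continuous fun t : ℝ => Z (x, y, t) := by
      intro Z hZ
      have : Continuous fun t : ℝ => ((x, y, t) : R3) := by fun_prop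
      exact hZ.comp this
    have c1 : Continuous fun z : ℝ => fderiv ℝ X.X₁ (x, y, z) e₁ := hline cA1
    have c2 : Continuous fun z : ℝ => fderiv ℝ X.X₂ (x, y, z) e₂ := hline cA2
    have c3 : Continuous fun z : ℝ => fderiv ℝ X.X₃ (x, y, z) e₃ := hline cA3
    have e1 : U.lineI X.divergence x y = U.lineI (fun p => fderiv ℝ X.X₁ p e₁) x y
        + U.lineI (fun p => fderiv ℝ X.X₂ p e₂) x y + U.lineI (fun p => fderiv ℝ X.X₃ p e₃) x y := by
      unfold lineI
      have hsum : ∀ z, X.divergence (x, y, z)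
          = (fderiv ℝ X.X₁ (x, y, z) e₁ + fderiv ℝ X.X₂ (x, y, z) e₂) + fderiv ℝ X.X₃ (x, y, z) e₃ :=
        fun z => rfl
      simp only [hsum]
      have c12 : Continuous fun z : ℝ => fderiv ℝ X.X₁ (x, y, z) e₁ + fderiv ℝ X.X₂ (x, y, z) e₂ :=
        c1.add c2
      rw [intervalIntegral.integral_add (c12.intervalIntegrable _ _)
        (c3.intervalIntegrable _ _),
        intervalIntegral.integral_add (c1.intervalIntegrable _ _) (c2.intervalIntegrable _ _)]
    have e3 : U.lineI (fun p => fderiv ℝ X.X₃ p e₃) x y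
        = X.X₃ (x, y, 1 / 2 + U.l x y / 2) - X.X₃ (x, y, 1 / 2 - U.l x y / 2) := by
      unfold lineI
      apply intervalIntegral.integral_eq_sub_of_hasDerivAt
        (f := fun z => X.X₃ (x, y, z))
      · intro z _
        exact hasDeriv_e₃ (h3.differentiable (by simp)) x y z
      · exact (hline cA3).intervalIntegrable _ _
    rw [e1, e3]
    simp only [hD₁, hD₂, Iy]
    ring
  -- the periodic primitives
  have hint1 : ∀ y, ∫ x in (0:ℝ)..1, D₁ x y = 0 := by
    intro y
    have cx : Continuous fun x => D₁ x y := cont_slice_left cD₁ y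
    have := intervalIntegral.integral_eq_sub_of_hasDerivAt (a := (0:ℝ)) (b := 1)
      (f := fun r => U.lineI X.X₁ r y) (f' := fun x => D₁ x y)
      (fun x _ => leibniz_x h1 y x) (cx.intervalIntegrable _ _)
    rw [this]
    have hper : U.lineI X.X₁ 1 y = U.lineI X.X₁ 0 y := by
      unfold lineI
      have e1 : U.l 1 y = U.l 0 y := by simpa using U.l_perX 0 y
      rw [e1]
      apply intervalIntegral.integral_congr
      intro z _
      have := (X.periodic₁ 0 y z).1
      simpa using this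
    rw [hper, sub_self]
  have hint2 : ∀ x, ∫ y in (0:ℝ)..1, D₂ x y = 0 := by
    intro x
    have cy : Continuous fun y => D₂ x y := cont_slice_right cD₂ x
    have := intervalIntegral.integral_eq_sub_of_hasDerivAt (a := (0:ℝ)) (b := 1)
      (f := fun r => U.lineI X.X₂ x r) (f' := fun y => D₂ x y)
      (fun y _ => leibniz_y h2 x y) (cy.intervalIntegrable _ _)
    rw [this]
    have hper : U.lineI X.X₂ x 1 = U.lineI X.X₂ x 0 := by
      unfold lineI
      have e1 : U.l x 1 = U.l x 0 := by simpa using U.l_perY x 0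
      rw [e1]
      apply intervalIntegral.integral_congr
      intro z _
      have := (X.periodic₂ x 0 z).2.1
      simpa using this
    rw [hper, sub_self]
  -- assembling
  have cy1 : ∀ x, Continuous fun y => D₁ x y := fun x => cont_slice_right cD₁ x
  have cy2 : ∀ x, Continuous fun y => D₂ x y := fun x => cont_slice_right cD₂ x
  have cy3 : ∀ x, Continuous fun y => U.Iy X x y := fun x => cont_slice_right cI x
  have hinner : ∀ x, ∫ y in (0:ℝ)..1, U.lineI X.divergence x y
      = (∫ y in (0:ℝ)..1, D₁ x y) + (∫ y in (0:ℝ)..1, U.Iy X x y) := by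
    intro x
    have : ∀ y, U.lineI X.divergence x y = (D₁ x y + D₂ x y) + U.Iy X x y := fun y => hpt x y
    simp only [this]
    have c12 : Continuous fun y => D₁ x y + D₂ x y := (cy1 x).add (cy2 x)
    rw [intervalIntegral.integral_add (c12.intervalIntegrable _ _)
      ((cy3 x).intervalIntegrable _ _),
      intervalIntegral.integral_add ((cy1 x).intervalIntegrable _ _) ((cy2 x).intervalIntegrable _ _),
      hint2 x, add_zero]
  unfold Phi
  simp only [hinner]
  have co1 : Continuous fun x => ∫ y in (0:ℝ)..1, D₁ x y := cont_param cD₁ 0 1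
  have co3 : Continuous fun x => ∫ y in (0:ℝ)..1, U.Iy X x y := cont_param cI 0 1
  rw [intervalIntegral.integral_add (co1.intervalIntegrable _ _) (co3.intervalIntegrable _ _),
    swap_integral cD₁ 0 1 0 1]
  simp only [hint1]
  simp

end Per3

end Vale.Agent.Lib.P232
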