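import Vale.Agent.Lib.P232.Sym2

open MeasureTheory Set intervalIntegral
open scoped ContDiff ENNReal

namespace Vale.Agent.Lib.P232

namespace Per3

variable (U : Per3)

/-- Cauchy-Schwarz on a line in the third direction. -/
lemma line_cs (x y α β γ : ℝ) (h : α ^ 2 + β ^ 2 + γ ^ 2 ≤ 1) :
    α * U.lx x y + β * U.ly x y + γ * U.gl x y ≤ U.Nl x y := by
  have cx : Continuous fun z => U.ux x y z := by
    have : Continuous fun z : ℝ => ((x, y, z) : ℝ × ℝ × ℝ) := by fun_prop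
    exact U.contX.comp this
  have cy : Continuous fun z => U.uy x y z := by
    have : Continuous fun z : ℝ => ((x, y, z) : ℝ × ℝ × ℝ) := by fun_prop
    exact U.contY.comp this
  have cz : Continuous fun z => U.uz x y z := by
    have : Continuous fun z : ℝ => ((x, y, z) : ℝ × ℝ × ℝ) := by fun_prop
    exact U.contZ.comp this
  have cN : Continuous fun z => Real.sqrt (U.ux x y z ^ 2 + U.uy x y z ^ 2 + U.uz x y z ^ 2) :=
    (((cx.pow 2).add (cy.pow 2)).add (cz.pow 2)).sqrt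
  have c1 : Continuous fun z => α * U.ux x y z := continuous_const.mul cx
  have c2 : Continuous fun z => β * U.uy x y z := continuous_const.mul cy
  have c3 : Continuous fun z => γ * |U.uz x y z| := continuous_const.mul cz.abs
  have c12 : Continuous fun z => α * U.ux x y z + β * U.uy x y z := c1.add c2
  have hpt : ∀ z, α * U.ux x y z + β * U.uy x y z + γ * |U.uz x y z|
      ≤ Real.sqrt (U.ux x y z ^ 2 + U.uy x y z ^ 2 + U.uz x y z ^ 2) := by
    intro z
    apply Real.le_sqrt_of_sq_le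
    set p := U.ux x y z
    set q := U.uy x y z
    set r := U.uz x y z
    have hr : |r| ^ 2 = r ^ 2 := sq_abs r
    have h1 : (α * p + β * q + γ * |r|) ^ 2 ≤ (α ^ 2 + β ^ 2 + γ ^ 2) * (p ^ 2 + q ^ 2 + |r| ^ 2) := by
      nlinarith [sq_nonneg (α * q - β * p), sq_nonneg (α * |r| - γ * p), sq_nonneg (β * |r| - γ * q)]
    have h2 : (α ^ 2 + β ^ 2 + γ ^ 2) * (p ^ 2 + q ^ 2 + |r| ^ 2) ≤ 1 * (p ^ 2 + q ^ 2 + |r| ^ 2) :=
      mul_le_mul_of_nonneg_right h (by positivity)
    rw [hr] at h1 h2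
    linarith
  have c123 : Continuous fun z => α * U.ux x y z + β * U.uy x y z + γ * |U.uz x y z| := c12.add c3
  have hI := intervalIntegral.integral_mono_on (a := (0:ℝ)) (b := 1) (μ := volume) zero_le_one
    (c123.intervalIntegrable _ _) (cN.intervalIntegrable _ _) (fun z _ => hpt z)
  rw [intervalIntegral.integral_add (c12.intervalIntegrable _ _) (c3.intervalIntegrable _ _),
    intervalIntegral.integral_add (c1.intervalIntegrable _ _) (c2.intervalIntegrable _ _),
    intervalIntegral.integral_const_mul, intervalIntegral.integral_const_mul,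
    intervalIntegral.integral_const_mul] at hI
  exact hI

lemma ft_nonneg (κ x y : ℝ) : 0 ≤ U.ft κ x y :=
  intervalIntegral.integral_nonneg zero_le_one fun _ _ => Xi_nonneg _ _

/-- The Lipschitz bound on lines. -/
lemma lip_line {G : R3 → ℝ} (hG : ContDiff ℝ 1 G) {C : ℝ} (hC : ∀ p, |fderiv ℝ G p e₃| ≤ C)
    (x y s t : ℝ) : |G (x, y, t) - G (x, y, s)| ≤ C * |t - s| := by
  have h := Convex.norm_image_sub_le_of_norm_hasDerivWithin_le (𝕜 := ℝ) (s := univ)
    (f := fun z => G (x, y, z)) (f' := fun z => fderiv ℝ G (x, y, z) e₃) (C := C) (x := s) (y := t)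
    (fun z _ => (hasDeriv_e₃ (hG.differentiable (by simp)) x y z).hasDerivWithinAt)
    (fun z _ => by simpa using hC (x, y, z)) convex_univ (mem_univ _) (mem_univ _)
  simpa using h

/-- The real-variable core of the pointwise bound. -/
lemma Iy_core {y₁ y₂ y₃ lx ly g N κ A : ℝ} (hY : y₁ ^ 2 + y₂ ^ 2 + y₃ ^ 2 ≤ 1)
    (hcs : ∀ α β γ : ℝ, α ^ 2 + β ^ 2 + γ ^ 2 ≤ 1 → α * lx + β * ly + γ * g ≤ N)
    (hκ : 0 < κ) (hκ8 : κ ≤ 1 / 8) (hA : 0 ≤ A)
    (hcase : 2 * y₃ ≤ A ∨ 2 * (1 - 4 * κ) ≤ g) :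
    2 * y₃ - y₁ * lx - y₂ * ly ≤ N + 8 * κ + A := by
  have hcs0 := hcs (-y₁) (-y₂) 0 (by nlinarith [sq_nonneg y₃])
  have hy31 : y₃ ≤ 1 := by nlinarith [sq_nonneg y₁, sq_nonneg y₂, sq_nonneg (y₃ - 1)]
  rcases hcase with h | h
  · nlinarith
  · have hpos : 0 < 2 * (1 - 4 * κ) := by linarith
    have hg : 0 < g := lt_of_lt_of_le hpos h
    set θ := 2 * (1 - 4 * κ) / g with hθ
    have hθ0 : 0 ≤ θ := (div_pos hpos hg).le
    have hθ1 : θ ≤ 1 := (div_le_one hg).2 h
    have hθg : θ * g = 2 * (1 - 4 * κ) := div_mul_cancel₀ _ hg.ne'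
    have hθs : θ ^ 2 ≤ 1 := by nlinarith
    have hcs1 := hcs (-y₁) (-y₂) (θ * y₃) (by
      have : (θ * y₃) ^ 2 ≤ y₃ ^ 2 := by
        rw [mul_pow]
        nlinarith [sq_nonneg y₃]
      nlinarith)
    have e : θ * y₃ * g = 2 * (1 - 4 * κ) * y₃ := by
      rw [← hθg]; ring
    rw [e] at hcs1
    nlinarith

/-- The pointwise bound behind the symmetrisation. -/
lemma Iy_le (X : TestField) {C κ : ℝ} (hC : ∀ p, |fderiv ℝ X.X₃ p e₃| ≤ C) (hκ : 0 < κ) (hκ8 : κ ≤ 1 / 8)
    (x y : ℝ) : U.Iy X x y ≤ U.Nl x y + 8 * κ + C * (U.ft κ x y + 2 * κ) := by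
  have hC0 : 0 ≤ C := (abs_nonneg _).trans (hC 0)
  have hl0 := U.l_nonneg x y
  have hl1 := U.l_le_one x y
  have hft := U.ft_nonneg κ x y
  obtain ⟨b, hb⟩ : ∃ b, b = 1 / 2 + U.l x y / 2 := ⟨_, rfl⟩
  obtain ⟨a, ha⟩ : ∃ a, a = 1 / 2 - U.l x y / 2 := ⟨_, rfl⟩
  have hnb := X.norm_le_one (x, y, b)
  have hna := X.norm_le_one (x, y, a)
  have hY : ((X.X₁ (x, y, b) + X.X₁ (x, y, a)) / 2) ^ 2 + ((X.X₂ (x, y, b) + X.X₂ (x, y, a)) / 2) ^ 2
      + ((X.X₃ (x, y, b) - X.X₃ (x, y, a)) / 2) ^ 2 ≤ 1 := by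
    nlinarith [sq_nonneg (X.X₁ (x, y, b) - X.X₁ (x, y, a)), sq_nonneg (X.X₂ (x, y, b) - X.X₂ (x, y, a)),
      sq_nonneg (X.X₃ (x, y, b) + X.X₃ (x, y, a))]
  have hI : U.Iy X x y = 2 * ((X.X₃ (x, y, b) - X.X₃ (x, y, a)) / 2)
      - ((X.X₁ (x, y, b) + X.X₁ (x, y, a)) / 2) * U.lx x y
      - ((X.X₂ (x, y, b) + X.X₂ (x, y, a)) / 2) * U.ly x y := by
    simp only [Iy, ← hb, ← ha]
    ring
  have hsec := section_dich (f := fun z => U.u x y z) (f' := U.uz x y) (U.hasZ x y)
    (by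
      have : Continuous fun z : ℝ => ((x, y, z) : ℝ × ℝ × ℝ) := by fun_prop
      exact U.contZ.comp this) (U.perZ x y) hκ
  change U.l x y ≤ U.ft κ x y + 2 * κ ∨ 1 - U.l x y ≤ U.ft κ x y + 2 * κ ∨ 2 * (1 - 4 * κ) ≤ U.gl x y at hsec
  have hA : 0 ≤ C * (U.ft κ x y + 2 * κ) := by positivity
  rw [hI]
  apply Iy_core hY (U.line_cs x y) hκ hκ8 hA
  rcases hsec with h | h | h
  · left
    have hlip := lip_line (TestField_c3 X) hC x y a b
    have hab : |b - a| = U.l x y := by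
      have : b - a = U.l x y := by rw [hb, ha]; ring
      rw [this, abs_of_nonneg hl0]
    rw [hab] at hlip
    have h3 : X.X₃ (x, y, b) - X.X₃ (x, y, a) ≤ C * U.l x y := (le_abs_self _).trans hlip
    have h4 : C * U.l x y ≤ C * (U.ft κ x y + 2 * κ) := mul_le_mul_of_nonneg_left h hC0
    linarith
  · left
    have hlip := lip_line (TestField_c3 X) hC x y (a + 1) b
    have hab : |b - (a + 1)| = 1 - U.l x y := by
      have : b - (a + 1) = -(1 - U.l x y) := by rw [hb, ha]; ring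
      rw [this, abs_neg, abs_of_nonneg (by linarith)]
    rw [hab, (X.periodic₃ x y a).2.2] at hlip
    have h3 : X.X₃ (x, y, b) - X.X₃ (x, y, a) ≤ C * (1 - U.l x y) := (le_abs_self _).trans hlip
    have h4 : C * (1 - U.l x y) ≤ C * (U.ft κ x y + 2 * κ) := mul_le_mul_of_nonneg_left h hC0
    linarith
  · right
    exact h

lemma cont_Nl : Continuous (Function.uncurry U.Nl) := by
  have h : Cont3 fun x y z => Real.sqrt (U.ux x y z ^ 2 + U.uy x y z ^ 2 + U.uz x y z ^ 2) := by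
    have h1 : Continuous fun p : ℝ × ℝ × ℝ => U.ux p.1 p.2.1 p.2.2 := U.contX
    have h2 : Continuous fun p : ℝ × ℝ × ℝ => U.uy p.1 p.2.1 p.2.2 := U.contY
    have h3 : Continuous fun p : ℝ × ℝ × ℝ => U.uz p.1 p.2.1 p.2.2 := U.contZ
    exact (((h1.pow 2).add (h2.pow 2)).add (h3.pow 2)).sqrt
  exact h.inner

lemma cont_ft (κ : ℝ) : Continuous (Function.uncurry (U.ft κ)) := by
  have h : Cont3 fun x y z => Xi κ (U.u x y z) := (Xi_continuous κ).comp U.cont
  exact h.inner

lemma cont_Iy (X : TestField) : Continuous (Function.uncurry (U.Iy X)) := by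
  have cl : Continuous fun q : ℝ × ℝ => U.lx q.1 q.2 := U.cont_lx
  have cl' : Continuous fun q : ℝ × ℝ => U.ly q.1 q.2 := U.cont_ly
  exact (((U.cont_at_b X.smooth₃.continuous).sub (U.cont_at_a X.smooth₃.continuous)).sub
    ((cl.div_const 2).mul ((U.cont_at_b X.smooth₁.continuous).add (U.cont_at_a X.smooth₁.continuous)))).sub
    ((cl'.div_const 2).mul ((U.cont_at_b X.smooth₂.continuous).add (U.cont_at_a X.smooth₂.continuous)))

/-- The integrated bound. -/
theorem Phi_le (X : TestField) {C κ : ℝ} (hC : ∀ p, |fderiv ℝ X.X₃ p e₃| ≤ C) (hκ : 0 < κ)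
    (hκ8 : κ ≤ 1 / 8) : U.Phi X ≤ U.P + 8 * κ + C * (U.Ff κ + 2 * κ) := by
  rw [U.Phi_eq X]
  have cI := U.cont_Iy X
  have cN := U.cont_Nl
  have cF := U.cont_ft κ
  have cR : Continuous (Function.uncurry fun x y =>
      U.Nl x y + 8 * κ + C * (U.ft κ x y + 2 * κ)) := by
    have h1 : Continuous fun q : ℝ × ℝ => U.Nl q.1 q.2 := cN
    have h2 : Continuous fun q : ℝ × ℝ => U.ft κ q.1 q.2 := cF
    exact (h1.add continuous_const).add (continuous_const.mul (h2.add continuous_const))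
  have hmono : ∫ x in (0:ℝ)..1, ∫ y in (0:ℝ)..1, U.Iy X x y
      ≤ ∫ x in (0:ℝ)..1, ∫ y in (0:ℝ)..1, (U.Nl x y + 8 * κ + C * (U.ft κ x y + 2 * κ)) := by
    apply intervalIntegral.integral_mono_on zero_le_one
      ((cont_param cI 0 1).intervalIntegrable _ _) ((cont_param cR 0 1).intervalIntegrable _ _)
    intro x _
    apply intervalIntegral.integral_mono_on zero_le_one
      ((cont_slice_right cI x).intervalIntegrable _ _) ((cont_slice_right cR x).intervalIntegrable _ _)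
    intro y _
    exact U.Iy_le X hC hκ hκ8 x y
  refine hmono.trans (le_of_eq ?_)
  have hcN : ∀ x, Continuous fun y => U.Nl x y := fun x => cont_slice_right cN x
  have hcF : ∀ x, Continuous fun y => U.ft κ x y := fun x => cont_slice_right cF x
  have hin : ∀ x, ∫ y in (0:ℝ)..1, (U.Nl x y + 8 * κ + C * (U.ft κ x y + 2 * κ))
      = (∫ y in (0:ℝ)..1, U.Nl x y) + 8 * κ + C * ((∫ y in (0:ℝ)..1, U.ft κ x y) + 2 * κ) := by
    intro x
    have c1 : Continuous fun y => U.Nl x y + 8 * κ := (hcN x).add continuous_const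
    have c3 : Continuous fun y => U.ft κ x y + 2 * κ := (hcF x).add continuous_const
    have c2 : Continuous fun y => C * (U.ft κ x y + 2 * κ) := continuous_const.mul c3
    have e1 : ∫ y in (0:ℝ)..1, C * (U.ft κ x y + 2 * κ) = C * ∫ y in (0:ℝ)..1, (U.ft κ x y + 2 * κ) :=
      intervalIntegral.integral_const_mul _ _
    rw [intervalIntegral.integral_add (c1.intervalIntegrable _ _) (c2.intervalIntegrable _ _),
      intervalIntegral.integral_add ((hcN x).intervalIntegrable _ _) (continuous_const.intervalIntegrable _ _),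
      e1,
      intervalIntegral.integral_add ((hcF x).intervalIntegrable _ _) (continuous_const.intervalIntegrable _ _)]
    simp
  simp only [hin]
  have co1 : Continuous fun x => ∫ y in (0:ℝ)..1, U.Nl x y := cont_param cN 0 1
  have co2 : Continuous fun x => ∫ y in (0:ℝ)..1, U.ft κ x y := cont_param cF 0 1
  have c1 : Continuous fun x => (∫ y in (0:ℝ)..1, U.Nl x y) + 8 * κ := co1.add continuous_const
  have c3 : Continuous fun x => (∫ y in (0:ℝ)..1, U.ft κ x y) + 2 * κ := co2.add continuous_const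
  have c2 : Continuous fun x => C * ((∫ y in (0:ℝ)..1, U.ft κ x y) + 2 * κ) :=
    continuous_const.mul c3
  have e1 : ∫ x in (0:ℝ)..1, C * ((∫ y in (0:ℝ)..1, U.ft κ x y) + 2 * κ)
      = C * ∫ x in (0:ℝ)..1, ((∫ y in (0:ℝ)..1, U.ft κ x y) + 2 * κ) :=
    intervalIntegral.integral_const_mul _ _
  rw [intervalIntegral.integral_add (c1.intervalIntegrable _ _) (c2.intervalIntegrable _ _),
    intervalIntegral.integral_add (co1.intervalIntegrable _ _) (continuous_const.intervalIntegrable _ _),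
    e1,
    intervalIntegral.integral_add (co2.intervalIntegrable _ _) (continuous_const.intervalIntegrable _ _)]
  simp only [intervalIntegral.integral_const, sub_zero, one_smul]
  rfl

end Per3

end Vale.Agent.Lib.P232
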