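import Vale.Agent.Lib.P232.Sym3

open MeasureTheory Set intervalIntegral Filter Topology
open scoped ContDiff ENNReal

namespace Vale.Agent.Lib.P232

/-- The distance of a point of the circle `ℝ/ℤ` from the point `1/2`. -/
noncomputable def cd (t : ℝ) : ℝ := |Int.fract t - 1 / 2|

lemma cd_add_one (t : ℝ) : cd (t + 1) = cd t := by
  unfold cd
  rw [Int.fract_add_one]

lemma measurable_cd : Measurable cd := by
  unfold cd
  exact ((measurable_fract).sub_const _).abs

/-- The length of a line in the third direction inside `E`. -/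
noncomputable def lineLen (E : Set R3) (x y : ℝ) : ℝ := ∫ z in (0:ℝ)..1, chi E (x, y, z)

/-- The Steiner symmetral of `E` in the third direction. -/
def symZ (E : Set R3) : Set R3 := {p | cd p.2.2 < lineLen E p.1 p.2.1 / 2}

section

variable {E : Set R3}

lemma chi_line_measurable (hE : MeasurableSet E) (x y : ℝ) :
    Measurable fun z : ℝ => chi E (x, y, z) :=
  (chi_measurable hE).comp (by fun_prop)

lemma chi_line_ii (hE : MeasurableSet E) (x y a b : ℝ) :
    IntervalIntegrable (fun z : ℝ => chi E (x, y, z)) volume a b := by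
  rw [intervalIntegrable_iff]
  refine Measure.integrableOn_of_bounded (M := 1) (by simp)
    (chi_line_measurable hE x y).aestronglyMeasurable ?_
  refine Filter.Eventually.of_forall fun z => ?_
  rw [Real.norm_eq_abs, abs_of_nonneg (chi_nonneg _)]
  exact chi_le_one _

lemma lineLen_nonneg (x y : ℝ) : 0 ≤ lineLen E x y :=
  intervalIntegral.integral_nonneg zero_le_one fun _ _ => chi_nonneg _

lemma lineLen_le_one (hE : MeasurableSet E) (x y : ℝ) : lineLen E x y ≤ 1 := by
  have := intervalIntegral.integral_mono_on (μ := volume) (a := (0:ℝ)) (b := 1) zero_le_one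
    (chi_line_ii hE x y 0 1)
    ((continuous_const (y := (1:ℝ))).intervalIntegrable 0 1) (fun z _ => chi_le_one (E := E) (x, y, z))
  simpa [lineLen] using this

lemma lineLen_mono (hE : MeasurableSet E) {x y x' y' : ℝ}
    (h : ∀ z, (x, y, z) ∈ E → (x', y', z) ∈ E) : lineLen E x y ≤ lineLen E x' y' := by
  apply intervalIntegral.integral_mono_on zero_le_one (chi_line_ii hE x y 0 1) (chi_line_ii hE x' y' 0 1)
  intro z _
  unfold chi
  by_cases hz : (x, y, z) ∈ E
  · rw [indicator_of_mem hz, indicator_of_mem (h z hz)]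
  · rw [indicator_of_notMem hz]
    exact indicator_nonneg (fun _ _ => zero_le_one) _

lemma measurable_lineLen (hE : MeasurableSet E) :
    Measurable fun q : ℝ × ℝ => lineLen E q.1 q.2 := by
  have hf : Measurable fun r : (ℝ × ℝ) × ℝ => chi E (r.1.1, r.1.2, r.2) :=
    (chi_measurable hE).comp (by fun_prop)
  have h := (hf.stronglyMeasurable).integral_prod_right' (ν := volume.restrict (Ioc (0:ℝ) 1))
  have e : (fun q : ℝ × ℝ => lineLen E q.1 q.2)
      = fun q => ∫ z, chi E ((q, z).1.1, (q, z).1.2, (q, z).2) ∂(volume.restrict (Ioc (0:ℝ) 1)) := by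
    funext q
    exact intervalIntegral.integral_of_le zero_le_one
  rw [e]
  exact h.measurable

lemma symZ_measurable (hE : MeasurableSet E) : MeasurableSet (symZ E) := by
  have h1 : Measurable fun p : R3 => cd p.2.2 := measurable_cd.comp (by fun_prop)
  have h2 : Measurable fun p : R3 => lineLen E p.1 p.2.1 / 2 :=
    ((measurable_lineLen hE).comp (f := fun p : R3 => (p.1, p.2.1)) (by fun_prop)).div_const 2
  exact measurableSet_lt h1 h2

lemma lineLen_perX (hper : PeriodicSet E) (x y : ℝ) : lineLen E (x + 1) y = lineLen E x y := by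
  unfold lineLen
  congr 1
  funext z
  exact ((chi_periodic hper) x y z).1

lemma lineLen_perY (hper : PeriodicSet E) (x y : ℝ) : lineLen E x (y + 1) = lineLen E x y := by
  unfold lineLen
  congr 1
  funext z
  exact ((chi_periodic hper) x y z).2.1

lemma symZ_periodic (hper : PeriodicSet E) : PeriodicSet (symZ E) := by
  intro x y z
  refine ⟨?_, ?_, ?_⟩
  · show cd z < lineLen E (x + 1) y / 2 ↔ cd z < lineLen E x y / 2
    rw [lineLen_perX hper]
  · show cd z < lineLen E x (y + 1) / 2 ↔ cd z < lineLen E x y / 2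
    rw [lineLen_perY hper]
  · show cd (z + 1) < lineLen E x y / 2 ↔ cd z < lineLen E x y / 2
    rw [cd_add_one]

/-- Continuity of the integral over a symmetric interval in its length. -/
lemma cont_vlim {g : ℝ → ℝ} (hg : Continuous g) :
    Continuous fun m : ℝ => ∫ z in (1 / 2 - m / 2)..(1 / 2 + m / 2), g z := by
  have hp : Continuous fun t : ℝ => ∫ z in (1 / 2 : ℝ)..t, g z :=
    intervalIntegral.continuous_primitive (fun a b => hg.intervalIntegrable a b) _
  have e : (fun m : ℝ => ∫ z in (1 / 2 - m / 2)..(1 / 2 + m / 2), g z)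
      = fun m => (∫ z in (1 / 2 : ℝ)..(1 / 2 + m / 2), g z) - ∫ z in (1 / 2 : ℝ)..(1 / 2 - m / 2), g z := by
    funext m
    exact (intervalIntegral.integral_interval_sub_left (hg.intervalIntegrable _ _)
      (hg.intervalIntegrable _ _)).symm
  rw [e]
  exact (hp.comp (by fun_prop)).sub (hp.comp (by fun_prop))

/-- `cd` on `[0,1]`. -/
lemma cd_lt_iff {z m : ℝ} (hz : z ∈ Icc (0:ℝ) 1) (hm : m ≤ 1) :
    cd z < m / 2 ↔ z ∈ Ioo (1 / 2 - m / 2) (1 / 2 + m / 2) := by
  rcases eq_or_lt_of_le hz.2 with h1 | h1
  · subst h1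
    have h0 : cd 1 = 1 / 2 := by
      unfold cd
      rw [Int.fract_one]
      norm_num [abs_of_pos]
    rw [h0]
    constructor
    · intro h; exfalso; linarith
    · intro h; exfalso; linarith [h.2]
  · have hf : Int.fract z = z := Int.fract_eq_self.2 ⟨hz.1, h1⟩
    unfold cd
    rw [hf, abs_lt, mem_Ioo]
    constructor
    · rintro ⟨h2, h3⟩; constructor <;> linarith
    · rintro ⟨h2, h3⟩; constructor <;> linarith

/-- The integral of an indicator of a subinterval. -/
lemma integral_indicator_Ioo {g : ℝ → ℝ} {a b : ℝ} (ha : 0 ≤ a) (hb : b ≤ 1) :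
    ∫ z in (0:ℝ)..1, (Ioo a b).indicator g z = ∫ z in Ioo a b, g z := by
  rw [intervalIntegral.integral_of_le zero_le_one, setIntegral_indicator measurableSet_Ioo]
  congr 2
  ext z
  simp only [mem_inter_iff, mem_Ioc, mem_Ioo]
  constructor
  · rintro ⟨_, h⟩; exact h
  · rintro ⟨h1, h2⟩
    exact ⟨⟨by linarith, by linarith⟩, h1, h2⟩

/-- The integral over the symmetral in the cell. -/
theorem symZ_cell (hE : MeasurableSet E) {Z : R3 → ℝ} (hZ : Continuous Z) (hb : ∃ D, ∀ p, |Z p| ≤ D) :
    ∫ p in symZ E ∩ unitCell, Z p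
      = ∫ x in (0:ℝ)..1, ∫ y in (0:ℝ)..1,
          ∫ z in (1 / 2 - lineLen E x y / 2)..(1 / 2 + lineLen E x y / 2), Z (x, y, z) := by
  have hS := symZ_measurable hE
  obtain ⟨D, hD⟩ := hb
  have hD0 : 0 ≤ D := (abs_nonneg _).trans (hD 0)
  have h1 : ∫ p in symZ E ∩ unitCell, Z p = ∫ p in unitCell, (symZ E).indicator Z p := by
    rw [setIntegral_indicator hS, inter_comm]
  rw [h1, cell_eq_iter]
  · congr 1
    funext x
    congr 1
    funext y
    have hL0 := lineLen_nonneg (E := E) x y
    have hL1 := lineLen_le_one hE x y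
    have h2 : ∫ z in (0:ℝ)..1, (symZ E).indicator Z (x, y, z)
        = ∫ z in (0:ℝ)..1, (Ioo (1 / 2 - lineLen E x y / 2) (1 / 2 + lineLen E x y / 2)).indicator
            (fun z => Z (x, y, z)) z := by
      apply intervalIntegral.integral_congr
      intro z hz
      rw [uIcc_of_le zero_le_one] at hz
      have h3 := cd_lt_iff hz hL1
      by_cases h4 : cd z < lineLen E x y / 2
      · have h5 : ((x, y, z) : R3) ∈ symZ E := h4
        have h6 := h3.1 h4
        simp only [indicator_of_mem h5, indicator_of_mem h6]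
      · have h5 : ((x, y, z) : R3) ∉ symZ E := h4
        have h6 : z ∉ Ioo (1 / 2 - lineLen E x y / 2) (1 / 2 + lineLen E x y / 2) := fun h => h4 (h3.2 h)
        simp only [indicator_of_notMem h5, indicator_of_notMem h6]
    rw [h2, integral_indicator_Ioo (by linarith) (by linarith),
      intervalIntegral.integral_of_le (by linarith), integral_Ioc_eq_integral_Ioo]
  · apply integrableOn_cell_of_bdd (C := D) ((hZ.measurable.indicator hS).aestronglyMeasurable)
    intro p
    by_cases h : p ∈ symZ E
    · rw [indicator_of_mem h]; exact hD p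
    · rw [indicator_of_notMem h]; simpa using hD0

/-- The volume as an integral of the line lengths. -/
lemma torusVolume_eq (hE : MeasurableSet E) :
    torusVolume E = ∫ x in (0:ℝ)..1, ∫ y in (0:ℝ)..1, lineLen E x y := by
  have h1 : torusVolume E = ∫ p in unitCell, chi E p := by
    unfold chi
    rw [setIntegral_indicator hE, inter_comm]
    simp [torusVolume, Measure.real]
  rw [h1, cell_eq_iter]
  · rfl
  · apply integrableOn_cell_of_bdd (C := 1) (chi_measurable hE).aestronglyMeasurable
    intro p
    rw [abs_of_nonneg (chi_nonneg p)]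
    exact chi_le_one p

theorem torusVolume_symZ (hE : MeasurableSet E) : torusVolume (symZ E) = torusVolume E := by
  have h1 : torusVolume (symZ E) = ∫ p in symZ E ∩ unitCell, (1:ℝ) := by
    simp [torusVolume, Measure.real]
  rw [h1, symZ_cell hE (Z := fun _ => 1) continuous_const ⟨1, by simp⟩, torusVolume_eq hE]
  congr 1
  funext x
  congr 1
  funext y
  simp

end

end Vale.Agent.Lib.P232
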