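import Vale.Agent.Lib.P232.Sym4

open MeasureTheory Set intervalIntegral Filter Topology
open scoped ContDiff ENNReal

namespace Vale.Agent.Lib.P232

section

variable {E : Set R3}

/-- A.e. convergence of the mollifications on almost every line. -/
lemma ae_lines (hE : MeasurableSet E) :
    ∀ᵐ x : ℝ, ∀ᵐ y : ℝ, ∀ᵐ z : ℝ,
      Tendsto (fun n => moll (bumpSeq n) E (x, y, z)) atTop (𝓝 (chi E (x, y, z))) := by
  have hr : Tendsto (fun n => (bumpSeq n).rOut) atTop (𝓝 0) := by
    have h1 : Tendsto (fun n : ℕ => 2 * (1 / ((n : ℝ) + 1))) atTop (𝓝 (2 * 0)) :=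
      tendsto_const_nhds.mul tendsto_one_div_add_atTop_nhds_zero_nat
    rw [mul_zero] at h1
    refine h1.congr fun n => ?_
    show 2 * (1 / ((n : ℝ) + 1)) = 2 / ((n : ℝ) + 1)
    ring
  have hK : ∀ᶠ n in atTop, (bumpSeq n).rOut ≤ 2 * (bumpSeq n).rIn :=
    Eventually.of_forall fun n => by
      show 2 / ((n : ℝ) + 1) ≤ 2 * (1 / ((n : ℝ) + 1))
      apply le_of_eq
      ring
  have hae := ContDiffBump.ae_convolution_tendsto_right_of_locallyIntegrable (μ := volume) hr hK
    (chi_locInt hE)
  have hae' : ∀ᵐ p ∂(volume : Measure R3),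
      Tendsto (fun n => moll (bumpSeq n) E p) atTop (𝓝 (chi E p)) := hae
  rw [Measure.volume_eq_prod] at hae'
  have h1 := Measure.ae_ae_of_ae_prod hae'
  filter_upwards [h1] with x hx
  rw [Measure.volume_eq_prod] at hx
  exact Measure.ae_ae_of_ae_prod hx

/-- Convergence of the line lengths on a good line. -/
lemma l_tendsto (hE : MeasurableSet E) (hper : PeriodicSet E) {x y : ℝ}
    (h : ∀ᵐ z : ℝ, Tendsto (fun n => moll (bumpSeq n) E (x, y, z)) atTop (𝓝 (chi E (x, y, z)))) :
    Tendsto (fun n => (smoothSeq hE hper n).l x y) atTop (𝓝 (lineLen E x y)) := by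
  apply intervalIntegral.tendsto_integral_filter_of_dominated_convergence (fun _ => (1:ℝ))
  · refine Eventually.of_forall fun n => ?_
    exact ((smoothSeq hE hper n).cont_line x y).aestronglyMeasurable
  · refine Eventually.of_forall fun n => Eventually.of_forall fun z _ => ?_
    rw [Real.norm_eq_abs, abs_of_nonneg ((smoothSeq hE hper n).nn x y z)]
    exact (smoothSeq hE hper n).le1 x y z
  · exact intervalIntegrable_const
  · filter_upwards [h] with z hz _
    exact hz

/-- Convergence of the Steiner functional. -/
theorem Phi_tendsto (hE : MeasurableSet E) (hper : PeriodicSet E) (X : TestField) :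
    Tendsto (fun n => (smoothSeq hE hper n).Phi X) atTop
      (𝓝 (∫ x in (0:ℝ)..1, ∫ y in (0:ℝ)..1,
        ∫ z in (1 / 2 - lineLen E x y / 2)..(1 / 2 + lineLen E x y / 2), X.divergence (x, y, z))) := by
  obtain ⟨D, hD⟩ := bdd_of_periodic X.divergence_periodic X.divergence_continuous
  have hDc := X.divergence_continuous
  have hline : ∀ x y, Continuous fun z : ℝ => X.divergence (x, y, z) := fun x y => by
    have : Continuous fun z : ℝ => ((x, y, z) : R3) := by fun_prop
    exact hDc.comp this
  have hbd : ∀ n x y, |(smoothSeq hE hper n).lineI X.divergence x y| ≤ D := by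
    intro n x y
    have hl0 := (smoothSeq hE hper n).l_nonneg x y
    have hl1 := (smoothSeq hE hper n).l_le_one x y
    have h := intervalIntegral.norm_integral_le_of_norm_le_const (a := 1 / 2 - (smoothSeq hE hper n).l x y / 2)
      (b := 1 / 2 + (smoothSeq hE hper n).l x y / 2) (f := fun z => X.divergence (x, y, z)) (C := D)
      (fun z _ => by simpa using hD (x, y, z))
    rw [Real.norm_eq_abs] at h
    have hD0 : 0 ≤ D := (abs_nonneg _).trans (hD 0)
    have e : |1 / 2 + (smoothSeq hE hper n).l x y / 2 - (1 / 2 - (smoothSeq hE hper n).l x y / 2)|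
        = (smoothSeq hE hper n).l x y := by
      have : 1 / 2 + (smoothSeq hE hper n).l x y / 2 - (1 / 2 - (smoothSeq hE hper n).l x y / 2)
          = (smoothSeq hE hper n).l x y := by ring
      rw [this, abs_of_nonneg hl0]
    rw [e] at h
    exact h.trans (by nlinarith)
  have hL := ae_lines hE
  apply intervalIntegral.tendsto_integral_filter_of_dominated_convergence (fun _ => D)
  · refine Eventually.of_forall fun n => ?_
    have := cont_param ((smoothSeq hE hper n).cont_lineI hDc) 0 1
    exact this.aestronglyMeasurable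
  · refine Eventually.of_forall fun n => Eventually.of_forall fun x _ => ?_
    have h := intervalIntegral.norm_integral_le_of_norm_le_const (a := (0:ℝ)) (b := 1)
      (f := fun y => (smoothSeq hE hper n).lineI X.divergence x y) (C := D)
      (fun y _ => by simpa using hbd n x y)
    simpa using h
  · exact intervalIntegrable_const
  · filter_upwards [hL] with x hx _
    apply intervalIntegral.tendsto_integral_filter_of_dominated_convergence (fun _ => D)
    · refine Eventually.of_forall fun n => ?_
      have := cont_slice_right ((smoothSeq hE hper n).cont_lineI hDc) x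
      exact this.aestronglyMeasurable
    · refine Eventually.of_forall fun n => Eventually.of_forall fun y _ => ?_
      simpa using hbd n x y
    · exact intervalIntegrable_const
    · filter_upwards [hx] with y hy _
      have h1 := l_tendsto hE hper hy
      exact ((cont_vlim (hline x y)).tendsto (lineLen E x y)).comp h1

/-- The key inequality: Steiner symmetrisation does not increase the perimeter. -/
theorem perimeter_symZ_le (hE : MeasurableSet E) (hper : PeriodicSet E) :
    perimeter (symZ E) ≤ perimeter E := by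
  by_cases hP : perimeter E = ⊤
  · rw [hP]; exact le_top
  change (⨆ X : TestField, ENNReal.ofReal (∫ p in symZ E ∩ unitCell, X.divergence p)) ≤ perimeter E
  refine iSup_le fun X => ?_
  rw [ENNReal.ofReal_le_iff_le_toReal hP]
  have hDc := X.divergence_continuous
  obtain ⟨D, hD⟩ := bdd_of_periodic X.divergence_periodic hDc
  rw [symZ_cell hE hDc ⟨D, hD⟩]
  have hlim := Phi_tendsto hE hper X
  -- the Lipschitz constant
  have c3 : ContDiff ℝ 1 X.X₃ := Per3.TestField_c3 X
  obtain ⟨C, hC⟩ := bdd_of_periodic (fderiv_periodic X.periodic₃ e₃) (cont_fderiv_dir c3 e₃)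
  have hC0 : 0 ≤ C := (abs_nonneg _).trans (hC 0)
  apply le_of_forall_pos_le_add
  intro η hη
  set κ : ℝ := min (1 / 8) (η / (8 + 2 * C + 1)) with hκdef
  have hden : 0 < 8 + 2 * C + 1 := by positivity
  have hκ : 0 < κ := lt_min (by norm_num) (by positivity)
  have hκ8 : κ ≤ 1 / 8 := min_le_left _ _
  have hκη : κ * (8 + 2 * C + 1) ≤ η := by
    have : κ ≤ η / (8 + 2 * C + 1) := min_le_right _ _
    rwa [le_div_iff₀ hden] at this
  have hup : ∀ n, (smoothSeq hE hper n).Phi X
      ≤ (perimeter E).toReal + 8 * κ + C * ((smoothSeq hE hper n).Ff κ + 2 * κ) := by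
    intro n
    have h1 := (smoothSeq hE hper n).Phi_le X hC hκ hκ8
    have h2 := smoothSeq_P hE hper hP n
    linarith
  have hFf := smoothSeq_Ff hE hper hκ
  have hR : Tendsto (fun n => (perimeter E).toReal + 8 * κ + C * ((smoothSeq hE hper n).Ff κ + 2 * κ)) atTop
      (𝓝 ((perimeter E).toReal + 8 * κ + C * (0 + 2 * κ))) :=
    tendsto_const_nhds.add (tendsto_const_nhds.mul (hFf.add tendsto_const_nhds))
  have := le_of_tendsto_of_tendsto' hlim hR hup
  nlinarith

end

end Vale.Agent.Lib.P232
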