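import Vale.Agent.Lib.P232.Core1D
import Vale.Agent.Lib.P232.Param

open MeasureTheory Set intervalIntegral

namespace Vale.Agent.Lib.P232

/-- The cut-off measuring how far a value is from the set `{0, 1}`. -/
noncomputable def Xi (κ t : ℝ) : ℝ := max 0 (min 1 (min (t - κ) (1 - κ - t) / κ))

lemma Xi_continuous (κ : ℝ) : Continuous (Xi κ) := by
  unfold Xi
  fun_prop

lemma Xi_nonneg (κ t : ℝ) : 0 ≤ Xi κ t := le_max_left _ _

lemma Xi_le_one (κ t : ℝ) : Xi κ t ≤ 1 := by
  unfold Xi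
  exact max_le zero_le_one (min_le_left _ _)

lemma Xi_symm (κ t : ℝ) : Xi κ (1 - t) = Xi κ t := by
  unfold Xi
  have : min (1 - t - κ) (1 - κ - (1 - t)) = min (t - κ) (1 - κ - t) := by
    rw [min_comm]
    congr 1 <;> ring
  rw [this]

lemma le_Xi_add {κ t : ℝ} (hκ : 0 < κ) (ht : t ≤ 1 - 2 * κ) : t ≤ Xi κ t + 2 * κ := by
  by_cases h : t ≤ 2 * κ
  · have := Xi_nonneg κ t
    linarith
  · push Not at h
    have h1 : Xi κ t = 1 := by
      unfold Xi
      have h2 : 1 ≤ min (t - κ) (1 - κ - t) / κ := by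
        rw [le_div_iff₀ hκ, one_mul]
        exact le_min (by linarith) (by linarith)
      rw [min_eq_left h2]
      exact max_eq_right zero_le_one
    rw [h1]
    linarith

lemma one_sub_le_Xi_add {κ t : ℝ} (hκ : 0 < κ) (ht : 2 * κ ≤ t) : 1 - t ≤ Xi κ t + 2 * κ := by
  have := le_Xi_add (t := 1 - t) hκ (by linarith)
  rwa [Xi_symm] at this

/-- Cut version of the one-dimensional dichotomy. -/
lemma section_cut {f f' : ℝ → ℝ} (hf : ∀ x, HasDerivAt f (f' x) x) (hf' : Continuous f')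
    (hper : ∀ x, f (x + 1) = f x) {κ : ℝ} (hκ : 0 < κ) (z₀ : ℝ) :
    (∫ x in (0:ℝ)..1, f x) ≤ (∫ x in (0:ℝ)..1, Xi κ (f x)) + 2 * κ ∨
      2 * (1 - 2 * κ) ≤ (∫ x in (0:ℝ)..1, |f' x|) + 2 * f z₀ := by
  have hfc : Continuous f := continuous_iff_continuousAt.2 fun x => (hf x).continuousAt
  by_cases h : ∀ x, f x ≤ 1 - 2 * κ
  · left
    have hXc : Continuous fun x => Xi κ (f x) := (Xi_continuous κ).comp hfc
    have h1 : ∫ x in (0:ℝ)..1, f x ≤ ∫ x in (0:ℝ)..1, (Xi κ (f x) + 2 * κ) :=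
      intervalIntegral.integral_mono_on zero_le_one (hfc.intervalIntegrable _ _)
        ((hXc.add continuous_const).intervalIntegrable _ _)
        (fun x _ => le_Xi_add hκ (h x))
    rw [intervalIntegral.integral_add (hXc.intervalIntegrable _ _)
      (continuous_const.intervalIntegrable _ _)] at h1
    simpa using h1
  · right
    push Not at h
    obtain ⟨x, hx⟩ := h
    have := osc_plain hf hf' hper z₀ x
    linarith

/-- Two-sided version of the one-dimensional dichotomy. -/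
lemma section_dich {f f' : ℝ → ℝ} (hf : ∀ x, HasDerivAt f (f' x) x) (hf' : Continuous f')
    (hper : ∀ x, f (x + 1) = f x) {κ : ℝ} (hκ : 0 < κ) :
    (∫ x in (0:ℝ)..1, f x) ≤ (∫ x in (0:ℝ)..1, Xi κ (f x)) + 2 * κ ∨
      1 - (∫ x in (0:ℝ)..1, f x) ≤ (∫ x in (0:ℝ)..1, Xi κ (f x)) + 2 * κ ∨
      2 * (1 - 4 * κ) ≤ ∫ x in (0:ℝ)..1, |f' x| := by
  have hfc : Continuous f := continuous_iff_continuousAt.2 fun x => (hf x).continuousAt
  have hXc : Continuous fun x => Xi κ (f x) := (Xi_continuous κ).comp hfc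
  by_cases h : ∀ x, f x ≤ 1 - 2 * κ
  · left
    have h1 : ∫ x in (0:ℝ)..1, f x ≤ ∫ x in (0:ℝ)..1, (Xi κ (f x) + 2 * κ) :=
      intervalIntegral.integral_mono_on zero_le_one (hfc.intervalIntegrable _ _)
        ((hXc.add continuous_const).intervalIntegrable _ _)
        (fun x _ => le_Xi_add hκ (h x))
    rw [intervalIntegral.integral_add (hXc.intervalIntegrable _ _)
      (continuous_const.intervalIntegrable _ _)] at h1
    simpa using h1
  · by_cases h' : ∀ x, 2 * κ ≤ f x
    · right; left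
      have h1 : ∫ x in (0:ℝ)..1, (1 - f x) ≤ ∫ x in (0:ℝ)..1, (Xi κ (f x) + 2 * κ) :=
        intervalIntegral.integral_mono_on zero_le_one
          ((continuous_const.sub hfc).intervalIntegrable _ _)
          ((hXc.add continuous_const).intervalIntegrable _ _)
          (fun x _ => one_sub_le_Xi_add hκ (h' x))
      rw [intervalIntegral.integral_add (hXc.intervalIntegrable _ _)
        (continuous_const.intervalIntegrable _ _),
        intervalIntegral.integral_sub (continuous_const.intervalIntegrable _ _)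
          (hfc.intervalIntegrable _ _)] at h1
      simpa using h1
    · right; right
      push Not at h h'
      obtain ⟨x, hx⟩ := h
      obtain ⟨z, hz⟩ := h'
      have := osc_plain hf hf' hper z x
      linarith

/-- A continuous periodic function attains its maximum. -/
lemma exists_max_periodic {f : ℝ → ℝ} (hf : Continuous f) (hper : ∀ x, f (x + 1) = f x) :
    ∃ x₀, ∀ x, f x ≤ f x₀ := by
  obtain ⟨x₀, -, h⟩ := isCompact_Icc.exists_isMaxOn (s := Icc (0:ℝ) 1)
    ⟨0, by simp⟩ hf.continuousOn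
  refine ⟨x₀, fun x => ?_⟩
  have hp : Function.Periodic f 1 := hper
  obtain ⟨y, hy, hyx⟩ := hp.exists_mem_Ico₀ one_pos x
  rw [hyx]
  exact h ⟨hy.1, by linarith [hy.2]⟩

/-- A continuous periodic function attains its minimum. -/
lemma exists_min_periodic {f : ℝ → ℝ} (hf : Continuous f) (hper : ∀ x, f (x + 1) = f x) :
    ∃ x₀, ∀ x, f x₀ ≤ f x := by
  obtain ⟨x₀, h⟩ := exists_max_periodic (f := fun x => - f x) hf.neg (fun x => by simp [hper])
  exact ⟨x₀, fun x => by simpa using h x⟩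

/-- Cauchy-Schwarz in the form used for the calibrations. -/
lemma cs_point {α γ p q : ℝ} (h : α ^ 2 + γ ^ 2 ≤ 1) :
    α * |p| + γ * |q| ≤ Real.sqrt (p ^ 2 + q ^ 2) := by
  apply Real.le_sqrt_of_sq_le
  have h1 : (α * |p| + γ * |q|) ^ 2 ≤ (α ^ 2 + γ ^ 2) * (|p| ^ 2 + |q| ^ 2) := by
    nlinarith [sq_nonneg (α * |q| - γ * |p|)]
  have h2 : (α ^ 2 + γ ^ 2) * (|p| ^ 2 + |q| ^ 2) ≤ 1 * (|p| ^ 2 + |q| ^ 2) :=
    mul_le_mul_of_nonneg_right h (by positivity)
  rw [sq_abs, sq_abs] at h1 h2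
  linarith

lemma integral_semicircle_unit : ∫ x in (0:ℝ)..1, Real.sqrt (1 - x ^ 2) = Real.pi / 4 := by
  have h := integral_sqrt_one_sub_sq
  have hc : Continuous fun x : ℝ => Real.sqrt (1 - x ^ 2) := by fun_prop
  have h1 : ∫ x in (-1:ℝ)..0, Real.sqrt (1 - x ^ 2) = ∫ x in (0:ℝ)..1, Real.sqrt (1 - x ^ 2) := by
    have := intervalIntegral.integral_comp_neg (a := (-1:ℝ)) (b := 0)
      (fun x : ℝ => Real.sqrt (1 - x ^ 2))
    simp only [neg_neg, neg_zero, even_two, Even.neg_pow] at this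
    exact this
  have h2 := intervalIntegral.integral_add_adjacent_intervals (μ := volume) (a := (-1:ℝ)) (b := 0) (c := 1)
    (hc.intervalIntegrable _ _) (hc.intervalIntegrable _ _)
  rw [h1, h] at h2
  linarith

lemma integral_semicircle {M : ℝ} (hM : 0 < M) :
    ∫ s in (0:ℝ)..M, Real.sqrt (1 - (s / M) ^ 2) = Real.pi * M / 4 := by
  have := intervalIntegral.integral_comp_div (a := (0:ℝ)) (b := M) (f := fun x : ℝ => Real.sqrt (1 - x ^ 2)) hM.ne'
  rw [this, zero_div, div_self hM.ne', integral_semicircle_unit]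
  simp only [smul_eq_mul]
  ring

/-- Lower bound for the truncated semicircle integral. -/
lemma integral_semicircle_ge {M μ : ℝ} (hM : 0 < M) (h0 : 0 ≤ μ) :
    Real.pi * M / 4 - μ ≤ ∫ s in μ..M, Real.sqrt (1 - (s / M) ^ 2) := by
  have hc : Continuous fun s : ℝ => Real.sqrt (1 - (s / M) ^ 2) := by fun_prop
  have h2 := intervalIntegral.integral_add_adjacent_intervals (μ := volume) (a := (0:ℝ)) (b := μ) (c := M)
    (hc.intervalIntegrable _ _) (hc.intervalIntegrable _ _)
  rw [integral_semicircle hM] at h2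
  have h3 : ∫ s in (0:ℝ)..μ, Real.sqrt (1 - (s / M) ^ 2) ≤ ∫ s in (0:ℝ)..μ, (1:ℝ) := by
    apply intervalIntegral.integral_mono_on h0 (hc.intervalIntegrable _ _)
      (continuous_const.intervalIntegrable _ _)
    intro s _
    exact Real.sqrt_le_one.2 (by nlinarith [sq_nonneg (s / M)])
  simp at h3
  linarith

end Vale.Agent.Lib.P232
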