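import Vale.Agent.Lib.P232.T2a

open MeasureTheory Set intervalIntegral

namespace Vale.Agent.Lib.P232

/-- Smooth data on the two-torus with values in `[0,1]`. -/
structure Per2 where
  w : ℝ → ℝ → ℝ
  wy : ℝ → ℝ → ℝ
  wz : ℝ → ℝ → ℝ
  cont : Continuous (Function.uncurry w)
  contY : Continuous (Function.uncurry wy)
  contZ : Continuous (Function.uncurry wz)
  hasY : ∀ y z, HasDerivAt (fun t => w t z) (wy y z) y
  hasZ : ∀ y z, HasDerivAt (fun t => w y t) (wz y z) z
  perY : ∀ y z, w (y + 1) z = w y z
  perZ : ∀ y z, w y (z + 1) = w y z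
  nn : ∀ y z, 0 ≤ w y z
  le1 : ∀ y z, w y z ≤ 1

namespace Per2

variable (W : Per2)

/-- Row integrals. -/
noncomputable def a (y : ℝ) : ℝ := ∫ z in (0:ℝ)..1, W.w y z
/-- Column integrals. -/
noncomputable def b (z : ℝ) : ℝ := ∫ y in (0:ℝ)..1, W.w y z
/-- Total mass. -/
noncomputable def A : ℝ := ∫ y in (0:ℝ)..1, W.a y
/-- Total variation. -/
noncomputable def D : ℝ := ∫ y in (0:ℝ)..1, ∫ z in (0:ℝ)..1, Real.sqrt (W.wy y z ^ 2 + W.wz y z ^ 2)
/-- The part of a row away from the values `0` and `1`. -/
noncomputable def f (κ y : ℝ) : ℝ := ∫ z in (0:ℝ)..1, Xi κ (W.w y z)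
/-- Total mass away from the values `0` and `1`. -/
noncomputable def F (κ : ℝ) : ℝ := ∫ y in (0:ℝ)..1, W.f κ y

lemma cont_a : Continuous W.a := cont_param W.cont 0 1
lemma cont_b : Continuous W.b := by
  have : Continuous (Function.uncurry fun z y => W.w y z) :=
    W.cont.comp continuous_swap
  exact cont_param this 0 1

lemma cont_row (y : ℝ) : Continuous (W.w y) := W.cont.comp (Continuous.prodMk_right y)
lemma cont_col (z : ℝ) : Continuous (fun y => W.w y z) := W.cont.comp (Continuous.prodMk_left z)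
lemma cont_rowZ (y : ℝ) : Continuous (W.wz y) := W.contZ.comp (Continuous.prodMk_right y)
lemma cont_rowY (y : ℝ) : Continuous (W.wy y) := W.contY.comp (Continuous.prodMk_right y)

lemma cont_f (κ : ℝ) : Continuous (W.f κ) := by
  have : Continuous (Function.uncurry fun y z => Xi κ (W.w y z)) :=
    (Xi_continuous κ).comp W.cont
  exact cont_param this 0 1

lemma per_a (y : ℝ) : W.a (y + 1) = W.a y := by
  simp only [a, W.perY]

lemma per_b (z : ℝ) : W.b (z + 1) = W.b z := by
  simp only [b, W.perZ]

lemma a_nonneg (y : ℝ) : 0 ≤ W.a y :=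
  intervalIntegral.integral_nonneg zero_le_one fun z _ => W.nn y z

lemma b_nonneg (z : ℝ) : 0 ≤ W.b z :=
  intervalIntegral.integral_nonneg zero_le_one fun y _ => W.nn y z

lemma a_le_one (y : ℝ) : W.a y ≤ 1 := by
  have := intervalIntegral.integral_mono_on (μ := volume) zero_le_one
    ((W.cont_row y).intervalIntegrable 0 1)
    ((continuous_const (y := (1:ℝ))).intervalIntegrable 0 1) (fun z _ => W.le1 y z)
  simpa [a] using this

lemma b_le_one (z : ℝ) : W.b z ≤ 1 := by
  have := intervalIntegral.integral_mono_on (μ := volume) zero_le_one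
    ((W.cont_col z).intervalIntegrable 0 1)
    ((continuous_const (y := (1:ℝ))).intervalIntegrable 0 1) (fun y _ => W.le1 y z)
  simpa [b] using this

lemma A_eq_b : W.A = ∫ z in (0:ℝ)..1, W.b z := swap_integral W.cont 0 1 0 1

lemma A_nonneg : 0 ≤ W.A := intervalIntegral.integral_nonneg zero_le_one fun y _ => W.a_nonneg y

lemma A_le_one : W.A ≤ 1 := by
  have := intervalIntegral.integral_mono_on (μ := volume) zero_le_one
    ((W.cont_a).intervalIntegrable 0 1)
    ((continuous_const (y := (1:ℝ))).intervalIntegrable 0 1) (fun y _ => W.a_le_one y)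
  simpa [A] using this

lemma F_nonneg (κ : ℝ) : 0 ≤ W.F κ :=
  intervalIntegral.integral_nonneg zero_le_one fun _ _ =>
    intervalIntegral.integral_nonneg zero_le_one fun _ _ => Xi_nonneg _ _

lemma f_nonneg (κ y : ℝ) : 0 ≤ W.f κ y :=
  intervalIntegral.integral_nonneg zero_le_one fun _ _ => Xi_nonneg _ _

lemma cont_grad : Continuous (Function.uncurry fun y z => Real.sqrt (W.wy y z ^ 2 + W.wz y z ^ 2)) := by
  have h1 := W.contY
  have h2 := W.contZ
  exact ((h1.pow 2).add (h2.pow 2)).sqrt

lemma cont_gradAbsZ : Continuous (Function.uncurry fun y z => |W.wz y z|) := W.contZ.abs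
lemma cont_gradAbsY : Continuous (Function.uncurry fun y z => |W.wy y z|) := W.contY.abs

lemma D_nonneg : 0 ≤ W.D :=
  intervalIntegral.integral_nonneg zero_le_one fun _ _ =>
    intervalIntegral.integral_nonneg zero_le_one fun _ _ => Real.sqrt_nonneg _

lemma D_ge_Z : (∫ y in (0:ℝ)..1, ∫ z in (0:ℝ)..1, |W.wz y z|) ≤ W.D := by
  apply intervalIntegral.integral_mono_on zero_le_one
    ((cont_param W.cont_gradAbsZ 0 1).intervalIntegrable _ _)
    ((cont_param W.cont_grad 0 1).intervalIntegrable _ _)
  intro y _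
  apply intervalIntegral.integral_mono_on zero_le_one
    ((W.cont_gradAbsZ.comp (Continuous.prodMk_right y)).intervalIntegrable _ _)
    ((W.cont_grad.comp (Continuous.prodMk_right y)).intervalIntegrable _ _)
  intro z _
  apply Real.abs_le_sqrt
  nlinarith [sq_nonneg (W.wy y z)]

/-- The key two-dimensional estimate: calibration with the semicircle weight, after cutting
the torus along a line. -/
theorem cut_estimate {κ : ℝ} (hκ : 0 < κ) (hA : 0 < W.A) (y₀ z₀ : ℝ) :
    2 * Real.sqrt (Real.pi * W.A) - 2 * W.a y₀ - 2 * W.b z₀ - 4 * κ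
      - (2 / W.A) * (W.F κ + 2 * κ) ≤ W.D := by
  obtain ⟨ya, hya⟩ := exists_max_periodic W.cont_a W.per_a
  obtain ⟨ym, hym⟩ := exists_min_periodic W.cont_a W.per_a
  set M := W.a ya with hM
  have hAM : W.A ≤ M := by
    have := intervalIntegral.integral_mono_on (μ := volume) zero_le_one
      ((W.cont_a).intervalIntegrable 0 1)
      ((continuous_const (y := M)).intervalIntegrable 0 1) (fun y _ => hya y)
    simpa [A] using this
  have hMpos : 0 < M := lt_of_lt_of_le hA hAM
  set β : ℝ → ℝ := fun s => Real.sqrt (1 - (s / M) ^ 2) with hβdef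
  have hβc : Continuous β := by
    simp only [hβdef]
    fun_prop
  set e : ℝ → ℝ := fun y => 4 * κ + 2 * W.w y z₀ + (2 / M) * (W.f κ y + 2 * κ) with he
  have hec : Continuous e := by
    simp only [he]
    have := W.cont_col z₀
    have := W.cont_f κ
    fun_prop
  have key := calib_core (A := W.a) (A' := fun y => ∫ z in (0:ℝ)..1, W.wy y z)
    (N := fun y => ∫ z in (0:ℝ)..1, Real.sqrt (W.wy y z ^ 2 + W.wz y z ^ 2))
    (G := fun y => ∫ z in (0:ℝ)..1, |W.wz y z|)
    (P := fun y => ∫ z in (0:ℝ)..1, |W.wy y z|)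
    (e := e) (β := β) (k := 0) (H := 2 / M)
    (fun y => hasDerivAt_param W.cont W.contY W.hasY 0 1 y)
    (cont_param W.contY 0 1)
    W.per_a
    (cont_param W.cont_grad 0 1)
    hec hβc (fun s => Real.sqrt_nonneg _)
    (fun y α γ hα hγ h => by
      have c1 := W.cont_gradAbsZ.comp (Continuous.prodMk_right y)
      have c2 := W.cont_gradAbsY.comp (Continuous.prodMk_right y)
      have c3 := W.cont_grad.comp (Continuous.prodMk_right y)
      simp only [Function.comp_def, Function.uncurry] at c1 c2 c3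
      rw [← intervalIntegral.integral_const_mul, ← intervalIntegral.integral_const_mul,
        ← intervalIntegral.integral_add ((c1.const_mul α).intervalIntegrable _ _)
          ((c2.const_mul γ).intervalIntegrable _ _)]
      apply intervalIntegral.integral_mono_on zero_le_one
        (((c1.const_mul α).add (c2.const_mul γ)).intervalIntegrable _ _)
        (c3.intervalIntegrable _ _)
      intro z _
      have := cs_point (p := W.wz y z) (q := W.wy y z) h
      rwa [add_comm (W.wz y z ^ 2)] at this)
    (fun y => intervalIntegral.abs_integral_le_integral_abs zero_le_one)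
    (fun y => Real.sqrt_le_one.2 (by nlinarith [sq_nonneg (W.a y / M)]))
    (fun y => by
      have hy0 := W.a_nonneg y
      have hy1 := hya y
      have hs : Real.sqrt (1 - β (W.a y) ^ 2) = W.a y / M := by
        have h0 : 0 ≤ W.a y / M := div_nonneg hy0 hMpos.le
        have h1 : W.a y / M ≤ 1 := (div_le_one hMpos).2 hy1
        have h2 : β (W.a y) ^ 2 = 1 - (W.a y / M) ^ 2 := by
          simp only [hβdef]
          rw [Real.sq_sqrt]
          nlinarith
        rw [h2]
        have : (1 - (1 - (W.a y / M) ^ 2)) = (W.a y / M) ^ 2 := by ring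
        rw [this]
        exact Real.sqrt_sq h0
      rw [hs]
      have hfy := W.f_nonneg κ y
      have hw := W.nn y z₀
      have hMi : 0 < 2 / M := by positivity
      rcases section_cut (W.hasZ y) (W.cont_rowZ y) (W.perZ y) hκ z₀ with h | h
      · have h' : 2 / M * W.a y ≤ 2 / M * (W.f κ y + 2 * κ) :=
          mul_le_mul_of_nonneg_left h hMi.le
        simp only [he]
        have hG : 0 ≤ ∫ z in (0:ℝ)..1, |W.wz y z| :=
          intervalIntegral.integral_nonneg zero_le_one fun z _ => abs_nonneg _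
        have : 0 ≤ W.a y / M * ∫ z in (0:ℝ)..1, |W.wz y z| :=
          mul_nonneg (div_nonneg hy0 hMpos.le) hG
        linarith
      · simp only [he]
        have hq0 : 0 ≤ W.a y / M := div_nonneg hy0 hMpos.le
        have hq1 : W.a y / M ≤ 1 := (div_le_one hMpos).2 hy1
        have h3 : W.a y / M * (2 * (1 - 2 * κ)) ≤
            W.a y / M * ((∫ z in (0:ℝ)..1, |W.wz y z|) + 2 * W.w y z₀) :=
          mul_le_mul_of_nonneg_left h hq0
        have h4 : W.a y / M * (2 * W.w y z₀) ≤ 1 * (2 * W.w y z₀) :=
          mul_le_mul_of_nonneg_right hq1 (by linarith)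
        have h5 : W.a y / M * (4 * κ) ≤ 1 * (4 * κ) :=
          mul_le_mul_of_nonneg_right hq1 (by linarith)
        have h6 : 2 / M * W.a y = W.a y / M * 2 := by ring
        have h7 : 0 ≤ 2 / M * (W.f κ y + 2 * κ) := by
          apply mul_nonneg hMi.le; linarith
        nlinarith)
    ym ya
  -- evaluate the terms
  have hc1 := W.cont_col z₀
  have hc2 := W.cont_f κ
  have hE : ∫ y in (0:ℝ)..1, e y = 4 * κ + 2 * W.b z₀ + (2 / M) * (W.F κ + 2 * κ) := by
    simp only [he, b, F]
    have i1 : Continuous fun y => 4 * κ + 2 * W.w y z₀ := continuous_const.add (continuous_const.mul hc1)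
    have i2 : Continuous fun y => (2 / M) * (W.f κ y + 2 * κ) :=
      continuous_const.mul (hc2.add continuous_const)
    have i3 : Continuous fun y => 2 * W.w y z₀ := continuous_const.mul hc1
    have i4 : Continuous fun y => W.f κ y + 2 * κ := hc2.add continuous_const
    rw [intervalIntegral.integral_add (i1.intervalIntegrable _ _) (i2.intervalIntegrable _ _)]
    rw [intervalIntegral.integral_add (continuous_const.intervalIntegrable _ _)
      (i3.intervalIntegrable _ _)]
    have e1 : ∫ _ in (0:ℝ)..1, (4 * κ) = 4 * κ := by simp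
    have e2 : ∫ y in (0:ℝ)..1, 2 * W.w y z₀ = 2 * ∫ y in (0:ℝ)..1, W.w y z₀ :=
      intervalIntegral.integral_const_mul _ _
    have e3 : ∫ y in (0:ℝ)..1, (2 / M) * (W.f κ y + 2 * κ)
        = (2 / M) * ((∫ y in (0:ℝ)..1, W.f κ y) + 2 * κ) := by
      rw [intervalIntegral.integral_const_mul, intervalIntegral.integral_add
        (hc2.intervalIntegrable _ _) (continuous_const.intervalIntegrable _ _)]
      simp
    rw [e1, e2, e3]
  have hI : Real.pi * M / 4 - W.a ym ≤ ∫ s in W.a ym..M, β s :=
    integral_semicircle_ge hMpos (W.a_nonneg ym)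
  have hy₀ := hym y₀
  have hzz : 0 ≤ W.F κ + 2 * κ := by linarith [W.F_nonneg κ]
  have hmon : (2 / M) * (W.F κ + 2 * κ) ≤ (2 / W.A) * (W.F κ + 2 * κ) := by
    apply mul_le_mul_of_nonneg_right _ hzz
    exact div_le_div_of_nonneg_left (by norm_num) hA hAM
  have hAMGM : 2 * Real.sqrt (Real.pi * W.A) ≤ 2 / M * W.A + Real.pi * M / 2 := by
    have h0 : 0 ≤ Real.pi * W.A := by positivity
    have h1 : Real.pi * W.A = (2 / M * W.A) * (Real.pi * M / 2) := by
      field_simp
    have hp : 0 ≤ 2 / M * W.A := by positivity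
    have hq : 0 ≤ Real.pi * M / 2 := by positivity
    have : Real.sqrt (Real.pi * W.A) ≤ (2 / M * W.A + Real.pi * M / 2) / 2 := by
      rw [h1]
      apply Real.sqrt_le_iff.2
      constructor
      · positivity
      · nlinarith [sq_nonneg (2 / M * W.A - Real.pi * M / 2)]
    linarith
  have hV : ∫ y in (0:ℝ)..1, W.a y = W.A := rfl
  rw [hV, hE] at key
  have hD : (∫ y in (0:ℝ)..1, ∫ z in (0:ℝ)..1, Real.sqrt (W.wy y z ^ 2 + W.wz y z ^ 2)) = W.D := rfl
  rw [hD] at key
  linarith

end Per2

end Vale.Agent.Lib.P232
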