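import Vale.Agent.Lib.P232.T2b

open MeasureTheory Set intervalIntegral

namespace Vale.Agent.Lib.P232

/-- The squared isoperimetric profile of the square two-torus. -/
noncomputable def ell (s : ℝ) : ℝ := min (min (4 * Real.pi * s) 4) (4 * Real.pi * (1 - s))

lemma sqrt_ell_le_disk (s : ℝ) : Real.sqrt (ell s) ≤ 2 * Real.sqrt (Real.pi * s) := by
  have h1 : ell s ≤ 4 * Real.pi * s := (min_le_left _ _).trans (min_le_left _ _)
  have h2 : Real.sqrt (4 * Real.pi * s) = 2 * Real.sqrt (Real.pi * s) := by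
    rw [show 4 * Real.pi * s = 2 ^ 2 * (Real.pi * s) by ring,
      Real.sqrt_mul (by norm_num : (0:ℝ) ≤ 2 ^ 2), Real.sqrt_sq (by norm_num)]
  rw [← h2]
  exact Real.sqrt_le_sqrt h1

lemma sqrt_ell_le_strip (s : ℝ) : Real.sqrt (ell s) ≤ 2 := by
  have h1 : ell s ≤ 4 := (min_le_left _ _).trans (min_le_right _ _)
  have := Real.sqrt_le_sqrt h1
  rwa [show (4:ℝ) = 2 ^ 2 by norm_num, Real.sqrt_sq (by norm_num)] at this

lemma sqrt_ell_le_disk' {s : ℝ} (hs : s ≤ 1) :
    Real.sqrt (ell s) ≤ 2 * Real.sqrt (Real.pi * (1 - s)) := by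
  have h1 : ell s ≤ 4 * Real.pi * (1 - s) := min_le_right _ _
  have h0 : 0 ≤ 1 - s := by linarith
  have h2 : Real.sqrt (4 * Real.pi * (1 - s)) = 2 * Real.sqrt (Real.pi * (1 - s)) := by
    rw [show 4 * Real.pi * (1 - s) = 2 ^ 2 * (Real.pi * (1 - s)) by ring,
      Real.sqrt_mul (by norm_num : (0:ℝ) ≤ 2 ^ 2), Real.sqrt_sq (by norm_num)]
  rw [← h2]
  exact Real.sqrt_le_sqrt h1

namespace Per2

variable (W : Per2)

/-- The cut estimate in a form valid also for small mass. -/
theorem cut_estimate' {κ τ : ℝ} (hκ : 0 < κ) (hτ : 0 < τ) (y₀ z₀ : ℝ) :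
    2 * Real.sqrt (Real.pi * W.A) ≤ W.D + 2 * W.a y₀ + 2 * W.b z₀ + 4 * κ + 4 * τ
      + (2 / τ ^ 2) * (W.F κ + 2 * κ) := by
  have hF := W.F_nonneg κ
  have hD := W.D_nonneg
  have ha := W.a_nonneg y₀
  have hb := W.b_nonneg z₀
  have hFF : 0 ≤ W.F κ + 2 * κ := by linarith
  have hq : 0 ≤ (2 / τ ^ 2) * (W.F κ + 2 * κ) := by positivity
  by_cases h : W.A ≤ τ ^ 2
  · have h1 : Real.sqrt (Real.pi * W.A) ≤ 2 * τ := by
      apply Real.sqrt_le_iff.2
      constructor
      · positivity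
      · have := Real.pi_le_four
        have hA := W.A_nonneg
        nlinarith [sq_nonneg τ]
    linarith
  · push Not at h
    have hA : 0 < W.A := lt_of_le_of_lt (by positivity) h
    have key := W.cut_estimate hκ hA y₀ z₀
    have hmon : (2 / W.A) * (W.F κ + 2 * κ) ≤ (2 / τ ^ 2) * (W.F κ + 2 * κ) := by
      apply mul_le_mul_of_nonneg_right _ hFF
      exact div_le_div_of_nonneg_left (by norm_num) (by positivity) h.le
    linarith

/-- Interchange the two coordinates. -/
def swap : Per2 where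
  w := fun z y => W.w y z
  wy := fun z y => W.wz y z
  wz := fun z y => W.wy y z
  cont := W.cont.comp continuous_swap
  contY := W.contZ.comp continuous_swap
  contZ := W.contY.comp continuous_swap
  hasY := fun z y => W.hasZ y z
  hasZ := fun z y => W.hasY y z
  perY := fun z y => W.perZ y z
  perZ := fun z y => W.perY y z
  nn := fun z y => W.nn y z
  le1 := fun z y => W.le1 y z

lemma swap_a : W.swap.a = W.b := rfl
lemma swap_b : W.swap.b = W.a := rfl
lemma swap_A : W.swap.A = W.A := W.A_eq_b.symm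

lemma swap_D : W.swap.D = W.D := by
  have h := swap_integral (F := fun z y => Real.sqrt (W.wy y z ^ 2 + W.wz y z ^ 2))
    (W.cont_grad.comp continuous_swap) 0 1 0 1
  show (∫ z in (0:ℝ)..1, ∫ y in (0:ℝ)..1, Real.sqrt (W.wz y z ^ 2 + W.wy y z ^ 2)) = W.D
  simp only [add_comm (W.wz _ _ ^ 2)]
  exact h

lemma swap_F (κ : ℝ) : W.swap.F κ = W.F κ := by
  have hc : Continuous (Function.uncurry fun y z => Xi κ (W.w y z)) :=
    (Xi_continuous κ).comp W.cont
  exact (swap_integral (F := fun y z => Xi κ (W.w y z)) hc 0 1 0 1).symm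

/-- Replace the function by one minus the function. -/
def compl : Per2 where
  w := fun y z => 1 - W.w y z
  wy := fun y z => - W.wy y z
  wz := fun y z => - W.wz y z
  cont := continuous_const.sub W.cont
  contY := W.contY.neg
  contZ := W.contZ.neg
  hasY := fun y z => (W.hasY y z).const_sub 1
  hasZ := fun y z => (W.hasZ y z).const_sub 1
  perY := fun y z => by simp only [W.perY]
  perZ := fun y z => by simp only [W.perZ]
  nn := fun y z => by linarith [W.le1 y z]
  le1 := fun y z => by linarith [W.nn y z]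

lemma compl_a (y : ℝ) : W.compl.a y = 1 - W.a y := by
  show (∫ z in (0:ℝ)..1, (1 - W.w y z)) = 1 - ∫ z in (0:ℝ)..1, W.w y z
  rw [intervalIntegral.integral_sub (continuous_const.intervalIntegrable _ _)
    ((W.cont_row y).intervalIntegrable _ _)]
  simp

lemma compl_b (z : ℝ) : W.compl.b z = 1 - W.b z := by
  show (∫ y in (0:ℝ)..1, (1 - W.w y z)) = 1 - ∫ y in (0:ℝ)..1, W.w y z
  rw [intervalIntegral.integral_sub (continuous_const.intervalIntegrable _ _)
    ((W.cont_col z).intervalIntegrable _ _)]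
  simp

lemma compl_A : W.compl.A = 1 - W.A := by
  show (∫ y in (0:ℝ)..1, W.compl.a y) = 1 - ∫ y in (0:ℝ)..1, W.a y
  simp only [W.compl_a]
  rw [intervalIntegral.integral_sub (continuous_const.intervalIntegrable _ _)
    ((W.cont_a).intervalIntegrable _ _)]
  simp

lemma compl_D : W.compl.D = W.D := by
  show (∫ y in (0:ℝ)..1, ∫ z in (0:ℝ)..1, Real.sqrt ((- W.wy y z) ^ 2 + (- W.wz y z) ^ 2)) = W.D
  simp only [neg_sq]
  rfl

lemma compl_F (κ : ℝ) : W.compl.F κ = W.F κ := by
  show (∫ y in (0:ℝ)..1, ∫ z in (0:ℝ)..1, Xi κ (1 - W.w y z)) = W.F κ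
  simp only [Xi_symm]
  rfl

/-- All rows are thick, with a cut in the other direction. -/
lemma thick_cut {κ τ : ℝ} (hκ : 0 < κ) (hτ : 0 < τ) (hκτ : 4 * κ ≤ τ) (z₀ : ℝ)
    (hthick : ∀ y, τ ≤ W.a y) :
    2 * (1 - 2 * κ) ≤ W.D + 2 * W.b z₀ + (4 / τ) * W.F κ := by
  have hpt : ∀ y, 2 * (1 - 2 * κ) ≤ (∫ z in (0:ℝ)..1, |W.wz y z|) + 2 * W.w y z₀ + (4 / τ) * W.f κ y := by
    intro y
    have hG : 0 ≤ ∫ z in (0:ℝ)..1, |W.wz y z| :=
      intervalIntegral.integral_nonneg zero_le_one fun z _ => abs_nonneg _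
    have hw := W.nn y z₀
    have hfy := W.f_nonneg κ y
    have hq : 0 ≤ (4 / τ) * W.f κ y := by positivity
    rcases section_cut (W.hasZ y) (W.cont_rowZ y) (W.perZ y) hκ z₀ with h | h
    · have h1 : τ / 2 ≤ W.f κ y := by
        have := hthick y
        have h2 : W.a y ≤ W.f κ y + 2 * κ := h
        linarith
      have h2 : 2 ≤ (4 / τ) * W.f κ y := by
        have : (4 / τ) * (τ / 2) ≤ (4 / τ) * W.f κ y :=
          mul_le_mul_of_nonneg_left h1 (by positivity)
        have h3 : (4 / τ) * (τ / 2) = 2 := by field_simp; norm_num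
        linarith
      linarith
    · linarith
  have c1 : Continuous fun y => ∫ z in (0:ℝ)..1, |W.wz y z| := cont_param W.cont_gradAbsZ 0 1
  have c2 := W.cont_col z₀
  have c3 := W.cont_f κ
  have i1 : Continuous fun y => (∫ z in (0:ℝ)..1, |W.wz y z|) + 2 * W.w y z₀ := c1.add (continuous_const.mul c2)
  have i2 : Continuous fun y => (4 / τ) * W.f κ y := continuous_const.mul c3
  have i3 : Continuous fun y => ((∫ z in (0:ℝ)..1, |W.wz y z|) + 2 * W.w y z₀) + (4 / τ) * W.f κ y :=
    i1.add i2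
  have hint : ∫ _ in (0:ℝ)..1, (2 * (1 - 2 * κ)) ≤
      ∫ y in (0:ℝ)..1, (((∫ z in (0:ℝ)..1, |W.wz y z|) + 2 * W.w y z₀) + (4 / τ) * W.f κ y) :=
    intervalIntegral.integral_mono_on zero_le_one
      (continuous_const.intervalIntegrable 0 1)
      (i3.intervalIntegrable 0 1) (fun y _ => hpt y)
  have i4 : Continuous fun y => 2 * W.w y z₀ := continuous_const.mul c2
  have e1 : ∫ y in (0:ℝ)..1, 2 * W.w y z₀ = 2 * W.b z₀ := intervalIntegral.integral_const_mul _ _
  have e2 : ∫ y in (0:ℝ)..1, (4 / τ) * W.f κ y = (4 / τ) * W.F κ :=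
    intervalIntegral.integral_const_mul _ _
  rw [intervalIntegral.integral_add (i1.intervalIntegrable _ _) (i2.intervalIntegrable _ _),
    intervalIntegral.integral_add (c1.intervalIntegrable _ _) (i4.intervalIntegrable _ _),
    e1, e2] at hint
  have hD := W.D_ge_Z
  simp only [intervalIntegral.integral_const, sub_zero, one_smul] at hint
  linarith

/-- All rows are thick on both sides. -/
lemma thick_dich {κ τ : ℝ} (hκ : 0 < κ) (hτ : 0 < τ) (hκτ : 4 * κ ≤ τ)
    (hthick : ∀ y, τ ≤ W.a y) (hthick' : ∀ y, W.a y ≤ 1 - τ) :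
    2 * (1 - 4 * κ) ≤ W.D + (4 / τ) * W.F κ := by
  have hpt : ∀ y, 2 * (1 - 4 * κ) ≤ (∫ z in (0:ℝ)..1, |W.wz y z|) + (4 / τ) * W.f κ y := by
    intro y
    have hG : 0 ≤ ∫ z in (0:ℝ)..1, |W.wz y z| :=
      intervalIntegral.integral_nonneg zero_le_one fun z _ => abs_nonneg _
    have hfy := W.f_nonneg κ y
    have hq : 0 ≤ (4 / τ) * W.f κ y := by positivity
    have h2of : τ / 2 ≤ W.f κ y → 2 ≤ (4 / τ) * W.f κ y := by
      intro h1
      have : (4 / τ) * (τ / 2) ≤ (4 / τ) * W.f κ y :=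
        mul_le_mul_of_nonneg_left h1 (by positivity)
      have h3 : (4 / τ) * (τ / 2) = 2 := by field_simp; norm_num
      linarith
    rcases section_dich (W.hasZ y) (W.cont_rowZ y) (W.perZ y) hκ with h | h | h
    · have h1 : τ / 2 ≤ W.f κ y := by
        have := hthick y
        have h2 : W.a y ≤ W.f κ y + 2 * κ := h
        linarith
      have := h2of h1
      linarith
    · have h1 : τ / 2 ≤ W.f κ y := by
        have := hthick' y
        have h2 : 1 - W.a y ≤ W.f κ y + 2 * κ := h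
        linarith
      have := h2of h1
      linarith
    · linarith
  have c1 : Continuous fun y => ∫ z in (0:ℝ)..1, |W.wz y z| := cont_param W.cont_gradAbsZ 0 1
  have c3 := W.cont_f κ
  have i2 : Continuous fun y => (4 / τ) * W.f κ y := continuous_const.mul c3
  have i3 : Continuous fun y => (∫ z in (0:ℝ)..1, |W.wz y z|) + (4 / τ) * W.f κ y := c1.add i2
  have hint : ∫ _ in (0:ℝ)..1, (2 * (1 - 4 * κ)) ≤
      ∫ y in (0:ℝ)..1, ((∫ z in (0:ℝ)..1, |W.wz y z|) + (4 / τ) * W.f κ y) :=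
    intervalIntegral.integral_mono_on zero_le_one
      (continuous_const.intervalIntegrable 0 1)
      (i3.intervalIntegrable 0 1) (fun y _ => hpt y)
  have e2 : ∫ y in (0:ℝ)..1, (4 / τ) * W.f κ y = (4 / τ) * W.F κ :=
    intervalIntegral.integral_const_mul _ _
  rw [intervalIntegral.integral_add (c1.intervalIntegrable _ _) (i2.intervalIntegrable _ _),
    e2] at hint
  have hD := W.D_ge_Z
  simp only [intervalIntegral.integral_const, sub_zero, one_smul] at hint
  linarith

/-- The isoperimetric inequality on the square two-torus for almost characteristic functions. -/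
theorem profile {κ τ : ℝ} (hκ : 0 < κ) (hτ : 0 < τ) (hτ1 : τ ≤ 1) (hκτ : 4 * κ ≤ τ) :
    Real.sqrt (ell W.A) ≤ W.D + 8 * τ + 8 * κ + (4 / τ ^ 2) * (W.F κ + 2 * κ) := by
  have hF := W.F_nonneg κ
  have hD := W.D_nonneg
  have hFF : 0 ≤ W.F κ + 2 * κ := by linarith
  have hq2 : (2 / τ ^ 2) * (W.F κ + 2 * κ) ≤ (4 / τ ^ 2) * (W.F κ + 2 * κ) := by
    apply mul_le_mul_of_nonneg_right _ hFF
    apply div_le_div_of_nonneg_right (by norm_num) (by positivity)
  have hq1 : (4 / τ) * W.F κ ≤ (4 / τ ^ 2) * (W.F κ + 2 * κ) := by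
    have h1 : 4 / τ ≤ 4 / τ ^ 2 := by
      apply div_le_div_of_nonneg_left (by norm_num) (by positivity)
      nlinarith
    have h2 : (4 / τ) * W.F κ ≤ (4 / τ ^ 2) * W.F κ := mul_le_mul_of_nonneg_right h1 hF
    have h3 : (4 / τ ^ 2) * W.F κ ≤ (4 / τ ^ 2) * (W.F κ + 2 * κ) :=
      mul_le_mul_of_nonneg_left (by linarith) (by positivity)
    linarith
  have hq0 : 0 ≤ (4 / τ ^ 2) * (W.F κ + 2 * κ) := by positivity
  have hs2 := sqrt_ell_le_strip W.A
  have hs1 := sqrt_ell_le_disk W.A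
  have hs3 := sqrt_ell_le_disk' W.A_le_one
  obtain ⟨ym, hym⟩ := exists_min_periodic W.cont_a W.per_a
  obtain ⟨zm, hzm⟩ := exists_min_periodic W.cont_b W.per_b
  obtain ⟨ya, hya⟩ := exists_max_periodic W.cont_a W.per_a
  obtain ⟨za, hza⟩ := exists_max_periodic W.cont_b W.per_b
  by_cases c1 : W.a ym ≤ τ
  · by_cases c2 : W.b zm ≤ τ
    · have := W.cut_estimate' hκ hτ ym zm
      linarith
    · -- all columns thick
      push Not at c2
      have := W.swap.thick_cut hκ hτ hκτ ym (fun z => c2.le.trans (hzm z))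
      rw [swap_D, swap_F, swap_b] at this
      linarith
  · push Not at c1
    by_cases c2 : W.b zm ≤ τ
    · have := W.thick_cut hκ hτ hκτ zm (fun y => c1.le.trans (hym y))
      linarith
    · push Not at c2
      by_cases c3 : W.a ya ≤ 1 - τ
      · have := W.thick_dich hκ hτ hκτ (fun y => c1.le.trans (hym y)) (fun y => (hya y).trans c3)
        linarith
      · by_cases c4 : W.b za ≤ 1 - τ
        · have := W.swap.thick_dich hκ hτ hκτ (fun z => c2.le.trans (hzm z))
            (fun z => (hza z).trans c4)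
          rw [swap_D, swap_F] at this
          linarith
        · push Not at c3 c4
          have := W.compl.cut_estimate' hκ hτ ya za
          rw [compl_A, compl_D, compl_F, compl_a, compl_b] at this
          linarith

end Per2

end Vale.Agent.Lib.P232
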